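import Crest.Agent.R40.Geo

/-!
# Row 40, task E3: two lemmas on the real line
-/

set_option autoImplicit false

namespace Crest.Agent.R40
open MeasureTheory Set Filter Topology Metric
open scoped ENNReal Real

/-- an open "convex cone" of angles -/
structure IsCone (A : Set ℝ) : Prop where
  per : ∀ θ, θ + 2 * π ∈ A ↔ θ ∈ A
  conv : ∀ a b, a ∈ A → b ∈ A → b - a < π → Icc a b ⊆ A
  anti : ∀ θ, θ ∈ A → θ + π ∉ A

namespace Arc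

theorem cast {A : Set ℝ} {x y : ℝ} (h : x ∈ A) (e : x = y) : y ∈ A := e ▸ h

theorem per_int {A : Set ℝ} {c : ℝ} (h : ∀ θ, θ + c ∈ A ↔ θ ∈ A) (k : ℤ) (θ : ℝ) :
    θ + k * c ∈ A ↔ θ ∈ A := by
  have hp : Function.Periodic (fun θ => θ ∈ A) c := fun θ => propext (h θ)
  exact (hp.int_mul k θ).to_iff

/-- cone in units of `u`, without two points at distance `2 u` -/
structure Cone (u : ℝ) (A : Set ℝ) : Prop where
  per : ∀ θ, θ + 6 * u ∈ A ↔ θ ∈ A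
  conv : ∀ a b, a ∈ A → b ∈ A → b - a < 3 * u → Icc a b ⊆ A
  anti : ∀ θ, θ ∈ A → θ + 3 * u ∉ A
  no2 : ∀ θ, θ ∈ A → θ + 2 * u ∉ A

variable {u : ℝ} {A E : Set ℝ}

theorem Cone.shift (h : Cone u A) : Cone u {θ | θ + 3 * u ∈ A} where
  per θ := by
    have := h.per (θ + 3 * u)
    simp only [mem_ofPred_eq]
    rwa [add_right_comm]
  conv a b ha hb hab t ht :=
    h.conv _ _ ha hb (by linarith) ⟨by linarith [ht.1], by linarith [ht.2]⟩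
  anti θ hθ := h.anti _ hθ
  no2 θ hθ h2 := h.no2 _ hθ (cast h2 (by ring))

theorem Cone.neg (h : Cone u A) : Cone u {θ | -θ ∈ A} where
  per θ := by
    have := h.per (-(θ + 6 * u))
    simp only [mem_ofPred_eq]
    rw [← this, show -(θ + 6 * u) + 6 * u = -θ by ring]
  conv a b ha hb hab t ht :=
    h.conv _ _ hb ha (by linarith) ⟨by linarith [ht.2], by linarith [ht.1]⟩
  anti θ hθ h2 := h.anti _ h2 (cast hθ (by ring))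
  no2 θ hθ h2 := h.no2 _ h2 (cast hθ (by ring))

theorem Cone.no4 (h : Cone u A) (θ : ℝ) (hθ : θ ∈ A) : θ + 4 * u ∉ A := fun h4 =>
  h.no2 _ h4 (cast ((h.per θ).2 hθ) (by ring))

theorem Cone.near (h : Cone u A) (hu : 0 < u) {θ₀ θ : ℝ} (h0 : θ₀ ∈ A) (hθ : θ ∈ A) :
    ∃ k : ℤ, θ₀ - 2 * u < θ + k * (6 * u) ∧ θ + k * (6 * u) < θ₀ + 2 * u := by
  have h6 : 0 < 6 * u := by positivity
  obtain ⟨k, hk, -⟩ := existsUnique_add_zsmul_mem_Ico h6 θ (θ₀ - 3 * u)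
  rw [zsmul_eq_mul] at hk
  have hm : θ + k * (6 * u) ∈ A := (per_int h.per k θ).2 hθ
  refine ⟨k, ?_, ?_⟩
  · by_contra hc
    rcases hk.1.eq_or_lt with e | hlt
    · exact h.anti _ hm (cast h0 (by linarith))
    · exact h.no2 _ hm (h.conv _ _ hm h0 (by linarith) ⟨by linarith, by linarith⟩)
  · by_contra hc
    exact h.no2 _ h0 (h.conv _ _ h0 hm (by linarith [hk.2]) ⟨by linarith, by linarith⟩)

theorem dich (hE : IsOpen E) (h1 : ∀ θ, θ ∈ E → θ + u ∉ E) {a b : ℝ}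
    (h : ∀ θ ∈ Icc a b, θ ∈ E ∨ θ + u ∈ E) :
    (∀ θ ∈ Icc a b, θ ∈ E) ∨ ∀ θ ∈ Icc a b, θ + u ∈ E :=
  isPreconnected_Icc.subset_or_subset (v := {θ | θ + u ∈ E}) hE
    (hE.preimage (continuous_add_const u)) (disjoint_left.2 fun θ hθ => h1 θ hθ) h

theorem cone_of (hA : IsCone A) (hE : IsOpen E) (h1 : ∀ θ, θ ∈ E → θ + π / 3 ∉ E)
    (h3 : ∀ θ, θ ∈ A → θ + π / 3 ∈ A → θ ∈ E ∨ θ + π / 3 ∈ E) : Cone (π / 3) A where
  per θ := by rw [← hA.per θ, show 6 * (π / 3) = 2 * π by ring]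
  conv a b ha hb hab := hA.conv a b ha hb (by linarith)
  anti θ hθ h := hA.anti θ hθ (cast h (by ring))
  no2 θ hθ h2 := by
    have hπ := Real.pi_pos
    have hc := hA.conv _ _ hθ h2 (by linarith)
    have hl : θ ∈ Icc θ (θ + π / 3) := ⟨le_rfl, by linarith⟩
    have hr : θ + π / 3 ∈ Icc θ (θ + π / 3) := ⟨by linarith, le_rfl⟩
    rcases dich hE h1 (a := θ) (b := θ + π / 3) fun t ht =>
      h3 t (hc ⟨ht.1, by linarith [ht.2]⟩) (hc ⟨by linarith [ht.1], by linarith [ht.2]⟩) with h | h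
    · exact h1 _ (h _ hl) (h _ hr)
    · exact h1 _ (h _ hl) (h _ hr)

theorem Cone.side (h : Cone u A) (hu : 0 < u) (hE : IsOpen E)
    (hEper : ∀ θ, θ + 6 * u ∈ E ↔ θ ∈ E) (h1 : ∀ θ, θ ∈ E → θ + u ∉ E)
    (h3 : ∀ θ, θ ∈ A → θ + u ∈ A → θ ∈ E ∨ θ + u ∈ E) :
    (∀ θ, θ ∈ A → θ + u ∈ A → θ ∈ E) ∨ ∀ θ, θ ∈ A → θ + u ∈ A → θ + u ∈ E := by
  by_contra hc
  push Not at hc
  obtain ⟨⟨a, ha, ha', haE⟩, b, hb, hb', hbE⟩ := hc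
  obtain ⟨k, hk1, hk2⟩ := h.near hu ha hb
  have hc : b + k * (6 * u) ∈ A := (per_int h.per k b).2 hb
  have hc' : b + k * (6 * u) + u ∈ A := cast ((per_int h.per k _).2 hb') (by ring)
  have hcE : b + k * (6 * u) + u ∉ E := fun h => hbE ((per_int hEper k _).1 (cast h (by ring)))
  generalize b + k * (6 * u) = c at *
  rcases le_total a c with hle | hle
  · rcases dich hE h1 (a := a) (b := c) fun t ht => h3 t (h.conv _ _ ha hc (by linarith) ht)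
      (h.conv _ _ ha' hc' (by linarith) ⟨by linarith [ht.1], by linarith [ht.2]⟩) with h | h
    · exact haE (h _ ⟨le_rfl, hle⟩)
    · exact hcE (h _ ⟨hle, le_rfl⟩)
  · rcases dich hE h1 (a := c) (b := a) fun t ht => h3 t (h.conv _ _ hc ha (by linarith) ht)
      (h.conv _ _ hc' ha' (by linarith) ⟨by linarith [ht.1], by linarith [ht.2]⟩) with h | h
    · exact haE (h _ ⟨hle, le_rfl⟩)
    · exact hcE (h _ ⟨le_rfl, hle⟩)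

theorem Cone.left_end (h : Cone u A) (hu : 0 < u) {T : Set ℝ} {θ₀ : ℝ} (h0 : θ₀ ∈ A)
    (hT : ∀ θ, θ ∉ T → ∃ k : ℤ, θ + k * u ∈ A) :
    ∃ α, ∀ θ ∈ Ioo α (α + u), θ ∉ T → θ ∈ A ∧ θ - u ∉ A := by
  let J : Set ℝ := A ∩ Ioo (θ₀ - 2 * u) (θ₀ + 2 * u)
  have hne : J.Nonempty := ⟨θ₀, h0, by linarith, by linarith⟩
  have hbd : BddBelow J := ⟨θ₀ - 2 * u, fun x hx => hx.2.1.le⟩
  refine ⟨sInf J, fun θ hθ hθT => ?_⟩
  obtain ⟨k, hk⟩ := hT θ hθT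
  obtain ⟨l, hl1, hl2⟩ := h.near hu h0 hk
  have hy : θ + k * u + l * (6 * u) ∈ J := ⟨(per_int h.per l _).2 hk, hl1, hl2⟩
  have hj : θ ≤ θ + k * u + l * (6 * u) := by
    have a1 := csInf_le hbd hy
    have a2 : (0 : ℝ) < ((k + 6 * l + 1 : ℤ) : ℝ) := by
      refine (mul_pos_iff_of_pos_right hu).1 ?_
      push_cast
      linarith [hθ.2]
    have a3 : (0 : ℝ) ≤ ((k + 6 * l : ℤ) : ℝ) := by
      have : 0 < k + 6 * l + 1 := by exact_mod_cast a2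
      exact_mod_cast (by omega : 0 ≤ k + 6 * l)
    have a4 := mul_nonneg a3 hu.le
    push_cast at a4
    linarith
  generalize θ + k * u + l * (6 * u) = y at *
  obtain ⟨x, hx, hxθ⟩ := exists_lt_of_csInf_lt hne hθ.1
  have hA : θ ∈ A := by
    rcases le_total θ θ₀ with hle | hle
    · exact h.conv _ _ hx.1 h0 (by linarith [hx.2.1]) ⟨hxθ.le, hle⟩
    · exact h.conv _ _ h0 hy.1 (by linarith) ⟨hle, hj⟩
  refine ⟨hA, fun hm => ?_⟩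
  rcases lt_or_ge (θ₀ - 2 * u) (θ - u) with hlt | hle
  · have := csInf_le hbd (⟨hm, hlt, by linarith⟩ : θ - u ∈ J)
    linarith [hθ.2]
  · exact h.no2 _ hm (h.conv _ _ hm h0 (by linarith [hx.2.1]) ⟨by linarith, by linarith⟩)

theorem Cone.right_end (h : Cone u A) (hu : 0 < u) {T : Set ℝ} {θ₀ : ℝ} (h0 : θ₀ ∈ A)
    (hT : ∀ θ, θ ∉ T → ∃ k : ℤ, θ + k * u ∈ A) :
    ∃ α, ∀ θ ∈ Ioo α (α + u), θ ∉ T → θ ∈ A ∧ θ + u ∉ A := by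
  obtain ⟨α, hα⟩ := h.neg.left_end hu (T := {θ | -θ ∈ T}) (θ₀ := -θ₀) (by simpa using h0)
    fun θ hθ => by
      obtain ⟨k, hk⟩ := hT (-θ) hθ
      exact ⟨-k, cast (A := A) hk (by push_cast; ring)⟩
  refine ⟨-α - u, fun θ hθ hθT => ?_⟩
  obtain ⟨h1, h2⟩ := hα (-θ) ⟨by linarith [hθ.2], by linarith [hθ.1]⟩ (by simpa using hθT)
  exact ⟨cast (A := A) h1 (by ring), fun h => h2 (cast (A := A) h (by ring))⟩

/-- step (3) -/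
theorem same_side {Y Z : Set ℝ} (hY : Cone u Y) (hZ : Cone u Z) (hu : 0 < u)
    (hYZ : ∀ θ, (θ ∈ Y ∨ θ + 3 * u ∈ Y) → θ ∉ Z) {a b : ℝ} (ha : a ∈ Y) (hb : b ∈ Y)
    (haZ : a + u ∈ Z) (hbZ : b + u + 3 * u ∈ Z) : False := by
  obtain ⟨k, hk1, hk2⟩ := hY.near hu ha hb
  have hc : b + k * (6 * u) ∈ Y := (per_int hY.per k b).2 hb
  have hcZ : b + k * (6 * u) + 4 * u ∈ Z := cast ((per_int hZ.per k _).2 hbZ) (by ring)
  generalize b + k * (6 * u) = c at *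
  rcases lt_trichotomy c a with hlt | rfl | hlt
  · exact hYZ (c + 3 * u) (Or.inr (cast ((hY.per c).2 hc) (by ring)))
      (hZ.conv _ _ haZ hcZ (by linarith) ⟨by linarith, by linarith⟩)
  · exact hZ.anti _ haZ (cast hcZ (by ring))
  · exact hYZ (a + 6 * u) (Or.inl ((hY.per a).2 ha))
      (hZ.conv _ _ hcZ ((hZ.per _).2 haZ) (by linarith) ⟨by linarith, by linarith⟩)

/-- step (4) -/
theorem final {Y S T : Set ℝ} {Z : ℝ → Prop} (hY : Cone u Y) (hu : 0 < u) (hE : IsOpen E)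
    (hEper : ∀ θ, θ + 6 * u ∈ E ↔ θ ∈ E) (hT : T.Countable) (h1 : ∀ θ, θ ∈ E → θ + u ∉ E)
    (h2 : ∀ θ, θ ∈ Y → (θ + u ∈ E ∨ θ - u ∈ E) → θ ∈ S)
    (h3 : ∀ θ, θ ∈ Y → θ + u ∈ Y → θ ∈ E ∨ θ + u ∈ E)
    (h4 : ∀ θ, θ ∉ T → ∀ k : ℤ, (θ + k * u ∈ Y ∨ θ + k * u + 3 * u ∈ Y) ∨ Z (θ + k * u) ∨
      θ + k * u ∈ E)
    (h5 : ∀ θ, θ ∉ T → ∃ k : ℤ, θ + k * u ∈ Y ∨ θ + k * u + 3 * u ∈ Y)
    (h6 : ∀ θ, θ ∈ Y → Z (θ + u) → Z (θ - u) → θ ∈ S) :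
    ∃ α : ℝ, ∀ θ ∈ Ioo α (α + u), θ ∉ T → θ ∈ Y ∧ θ ∈ S := by
  have h5' : ∀ θ, θ ∉ T → ∃ k : ℤ, θ + k * u ∈ Y := fun θ hθ => by
    obtain ⟨k, h | h⟩ := h5 θ hθ
    · exact ⟨k, h⟩
    · exact ⟨k + 3, cast h (by push_cast; ring)⟩
  obtain ⟨θ₁, hθ₁⟩ := (hT.dense_compl ℝ).nonempty
  obtain ⟨k₀, h0⟩ := h5' θ₁ hθ₁
  have key : ∀ θ, θ ∉ T → θ ∈ Y → θ ∈ S ∨ θ + u ∈ Y ∨ θ - u ∈ Y := by
    intro θ hθT hθ
    have a := h4 θ hθT 1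
    have b := h4 θ hθT (-1)
    rw [show θ + ((1 : ℤ) : ℝ) * u = θ + u by push_cast; ring] at a
    rw [show θ + ((-1 : ℤ) : ℝ) * u = θ - u by push_cast; ring] at b
    rcases a with (a | a) | a | a
    · exact Or.inr (Or.inl a)
    · exact absurd (cast a (by ring)) (hY.no4 θ hθ)
    · rcases b with (b | b) | b | b
      · exact Or.inr (Or.inr b)
      · exact absurd (cast b (by ring)) (hY.no2 θ hθ)
      · exact Or.inl (h6 θ hθ a b)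
      · exact Or.inl (h2 θ hθ (Or.inr b))
    · exact Or.inl (h2 θ hθ (Or.inl a))
  rcases hY.side hu hE hEper h1 h3 with hV | hV
  · obtain ⟨α, hα⟩ := hY.right_end hu h0 h5'
    refine ⟨α, fun θ hθ hθT => ?_⟩
    obtain ⟨a, b⟩ := hα θ hθ hθT
    refine ⟨a, ?_⟩
    rcases key θ hθT a with h | h | h
    · exact h
    · exact absurd h b
    · exact h2 θ a (Or.inr (hV _ h (cast a (by ring))))
  · obtain ⟨α, hα⟩ := hY.left_end hu h0 h5'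
    refine ⟨α, fun θ hθ hθT => ?_⟩
    obtain ⟨a, b⟩ := hα θ hθ hθT
    refine ⟨a, ?_⟩
    rcases key θ hθT a with h | h | h
    · exact h
    · exact h2 θ a (Or.inl (hV _ a h))
    · exact absurd h b

theorem main {Y Z S T : Set ℝ} (hY : Cone u Y) (hZ : Cone u Z) (hu : 0 < u)
    (hYZ : ∀ θ, (θ ∈ Y ∨ θ + 3 * u ∈ Y) → (θ ∈ Z ∨ θ + 3 * u ∈ Z) → False)
    (hE : IsOpen E) (hEper : ∀ θ, θ + 6 * u ∈ E ↔ θ ∈ E) (hT : T.Countable)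
    (h1 : ∀ θ, θ ∈ E → θ + u ∉ E)
    (h2 : ∀ θ, (θ ∈ Y ∨ θ + 3 * u ∈ Y) → (θ + u ∈ E ∨ θ - u ∈ E) → θ ∈ S)
    (h3Y : ∀ θ, (θ ∈ Y ∨ θ + 3 * u ∈ Y) → (θ + u ∈ Y ∨ θ + u + 3 * u ∈ Y) →
      θ ∈ E ∨ θ + u ∈ E)
    (h3Z : ∀ θ, (θ ∈ Z ∨ θ + 3 * u ∈ Z) → (θ + u ∈ Z ∨ θ + u + 3 * u ∈ Z) →
      θ ∈ E ∨ θ + u ∈ E)
    (h4 : ∀ θ, θ ∉ T → (θ ∈ Y ∨ θ + 3 * u ∈ Y) ∨ (θ ∈ Z ∨ θ + 3 * u ∈ Z) ∨ θ ∈ E) :
    ∃ (α : ℝ) (T' : Set ℝ), T'.Countable ∧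
      ∀ θ ∈ Ioo α (α + u), θ ∉ T' → (θ ∈ Y ∨ θ + 3 * u ∈ Y) ∧ θ ∈ S := by
  let T' : Set ℝ := ⋃ k : ℤ, (fun θ => θ + k * u) ⁻¹' T
  have hT' : T'.Countable :=
    countable_iUnion fun k => hT.preimage (add_left_injective _)
  have h4' : ∀ θ, θ ∉ T' → ∀ k : ℤ, (θ + k * u ∈ Y ∨ θ + k * u + 3 * u ∈ Y) ∨
      (θ + k * u ∈ Z ∨ θ + k * u + 3 * u ∈ Z) ∨ θ + k * u ∈ E :=
    fun θ hθ k => h4 _ fun h => hθ (mem_iUnion.2 ⟨k, h⟩)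
  have Zsh : ∀ θ, (θ + 3 * u ∈ Z ∨ θ + 3 * u + 3 * u ∈ Z) ↔ (θ ∈ Z ∨ θ + 3 * u ∈ Z) := fun θ => by
    rw [show θ + 3 * u + 3 * u = θ + 6 * u by ring, hZ.per, or_comm]
  have Ysh : ∀ θ, (θ + 3 * u ∈ Y ∨ θ + 3 * u + 3 * u ∈ Y) ↔ (θ ∈ Y ∨ θ + 3 * u ∈ Y) := fun θ => by
    rw [show θ + 3 * u + 3 * u = θ + 6 * u by ring, hY.per, or_comm]
  have h5 : ∀ θ, θ ∉ T' → ∃ k : ℤ, θ + k * u ∈ Y ∨ θ + k * u + 3 * u ∈ Y := by
    intro θ hθ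
    by_contra hc
    have hn : ∀ k : ℤ, (θ + k * u ∈ Z ∨ θ + k * u + 3 * u ∈ Z) ∨ θ + k * u ∈ E :=
      fun k => (h4' θ hθ k).resolve_left fun h => hc ⟨k, h⟩
    by_cases hall : ∀ k : ℤ, θ + k * u ∈ Z ∨ θ + k * u + 3 * u ∈ Z
    · rcases hall 0 with a | a <;> rcases hall 2 with b | b
      · exact hZ.no2 _ a (cast b (by push_cast; ring))
      · rcases hall 4 with c | c
        · exact hZ.no4 _ a (cast c (by push_cast; ring))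
        · exact hZ.no2 _ b (cast c (by push_cast; ring))
      · rcases hall 4 with c | c
        · exact hZ.no2 _ b (cast c (by push_cast; ring))
        · exact hZ.no4 _ a (cast c (by push_cast; ring))
      · exact hZ.no2 _ a (cast b (by push_cast; ring))
    · obtain ⟨k, hk⟩ := not_forall.1 hall
      have a0 := (hn k).resolve_left hk
      have a1 := hn (k + 1)
      have a2 := hn (k + 2)
      have a3 := hn (k + 3)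
      rw [show θ + ((k + 1 : ℤ) : ℝ) * u = θ + k * u + u by push_cast; ring] at a1
      rw [show θ + ((k + 2 : ℤ) : ℝ) * u = θ + k * u + u + u by push_cast; ring] at a2
      rw [show θ + ((k + 3 : ℤ) : ℝ) * u = θ + k * u + 3 * u by push_cast; ring, Zsh] at a3
      have b3 := a3.resolve_left hk
      have n1 := h1 _ a0
      have n2 : θ + k * u + u + u ∉ E := fun h => h1 _ h (cast b3 (by ring))
      exact (h3Z _ (a1.resolve_right n1) (a2.resolve_right n2)).elim n1 n2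
  obtain ⟨W, hW, hWZ, hWY⟩ : ∃ W : Set ℝ, Cone u W ∧
      (∀ θ, (θ ∈ Z ∨ θ + 3 * u ∈ Z) ↔ (θ ∈ W ∨ θ + 3 * u ∈ W)) ∧
      ∀ θ, θ ∈ Y → (θ + u ∈ Z ∨ θ + u + 3 * u ∈ Z) → θ + u ∈ W := by
    by_cases hc : ∃ a, a ∈ Y ∧ a + u ∈ Z
    · obtain ⟨a, ha, haZ⟩ := hc
      exact ⟨Z, hZ, fun θ => Iff.rfl, fun θ hθ h => h.resolve_right fun h' =>
        same_side hY hZ hu (fun t ht h => hYZ t ht (Or.inl h)) ha hθ haZ h'⟩
    · exact ⟨_, hZ.shift, fun θ => (Zsh θ).symm, fun θ hθ h => h.resolve_left fun h' =>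
        hc ⟨θ, hθ, h'⟩⟩
  have hW2 : ∀ θ, θ ∈ Y → (θ + u ∈ Z ∨ θ + u + 3 * u ∈ Z) → (θ - u ∈ Z ∨ θ - u + 3 * u ∈ Z) →
      θ + u ∈ W ∧ θ + u + u ∈ W := by
    intro θ hθ a b
    have a' := hWY θ hθ a
    refine ⟨a', ?_⟩
    rcases (hWZ _).1 ((Zsh _).2 b) with c | c
    · exact cast c (by ring)
    · exact absurd (cast c (by ring)) (hW.no4 _ a')
  rcases hW.side hu hE hEper h1 (fun θ a b => h3Z θ ((hWZ _).2 (Or.inl a))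
    ((hWZ _).2 (Or.inl b))) with hs | hs
  · obtain ⟨α, hα⟩ := final (S := S) (Z := fun θ => θ ∈ Z ∨ θ + 3 * u ∈ Z) hY hu hE hEper hT' h1
      (fun θ h => h2 θ (Or.inl h)) (fun θ a b => h3Y θ (Or.inl a) (Or.inl b)) h4' h5
      fun θ hθ a b => h2 θ (Or.inl hθ) (Or.inl (hs _ (hW2 θ hθ a b).1 (hW2 θ hθ a b).2))
    exact ⟨α, T', hT', fun θ hθ hθT => ⟨Or.inl (hα θ hθ hθT).1, (hα θ hθ hθT).2⟩⟩
  · obtain ⟨α, hα⟩ := final (S := S) (Z := fun θ => θ ∈ Z ∨ θ + 3 * u ∈ Z) hY.shift hu hE hEper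
      hT' h1 (fun θ h => h2 θ (Or.inr h)) (fun θ a b => h3Y θ (Or.inr a) (Or.inr b))
      (fun θ hθ k => (h4' θ hθ k).imp_left (Ysh _).2)
      (fun θ hθ => (h5 θ hθ).imp fun k => (Ysh _).2)
      fun θ hθ a b => by
        have a' := (Zsh _).2 a
        have b' := (Zsh _).2 b
        rw [show θ + u + 3 * u = θ + 3 * u + u by ring] at a'
        rw [show θ - u + 3 * u = θ + 3 * u - u by ring] at b'
        have c := hW2 _ hθ a' b'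
        exact h2 θ (Or.inr hθ) (Or.inr ((hEper _).1 (cast (hs _ c.1 c.2) (by ring))))
    exact ⟨α, T', hT', fun θ hθ hθT => ⟨Or.inr (hα θ hθ hθT).1, (hα θ hθ hθT).2⟩⟩

theorem pick {U T : Set ℝ} (hU : IsOpen U) (hT : T.Countable) {p q x : ℝ} (hpq : p < q)
    (hx : x ∈ Icc p q) (hxU : x ∈ U) : ∃ y, y ∈ Ioo p q \ T ∧ y ∈ U := by
  rw [← closure_Ioo hpq.ne] at hx
  obtain ⟨y, hy⟩ := (hT.dense_compl ℝ).inter_open_nonempty _ (hU.inter isOpen_Ioo)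
    (mem_closure_iff.1 hx U hU hxU)
  exact ⟨y, ⟨hy.1.2, hy.2⟩, hy.1.1⟩

theorem countable_circ {c : ℂ} (hc : c ≠ 0) : {θ : ℝ | ‖e θ - c‖ = 1}.Countable :=
  (countable_preimage_e _ (finite_circ c hc).countable).mono fun θ hθ => And.intro (norm_e θ) hθ

theorem norm_chord (α : ℝ) : ‖e (α + π / 3) - e α‖ = 1 := by
  have h : ‖e (π / 3) - 1‖ ^ 2 = 1 := by
    rw [Complex.sq_norm, Complex.normSq_apply, Complex.sub_re, Complex.sub_im, e_re, e_im,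
      Complex.one_re, Complex.one_im]
    nlinarith [Real.sin_sq_add_cos_sq (π / 3), Real.cos_pi_div_three]
  rw [e_add, ← mul_sub_one, norm_mul, norm_e, one_mul]
  exact (pow_eq_one_iff_of_nonneg (norm_nonneg _) two_ne_zero).1 h

theorem ivt {f : ℝ → ℝ} (hf : Continuous f) {p q x y : ℝ} (hx : x ∈ Ioo p q) (hy : y ∈ Ioo p q)
    (h1 : f x ≤ 1) (h2 : 1 ≤ f y) : ∃ z ∈ Ioo p q, f z = 1 :=
  isPreconnected_Ioo.intermediate_value hx hy hf.continuousOn ⟨h1, h2⟩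

end Arc

/-- Units: `u = π/3`. `Y = Yp ∪ (Yp - π)`, `Z = Zp ∪ (Zp - π)`; `Yp - π` is a cone again.

Proof. (0) For a cone `A ⊆ Y` (or `⊆ Z`) and `a ≤ b` with `θ, θ + u ∈ A` for all `θ ∈ [a, b]`:
the open sets `E` and `E - u` are disjoint (`h1`) and cover `[a, b]` (`h3`), so `[a,b] ⊆ E` or
`[a,b] + u ⊆ E`. (1) So `θ, θ + 2u ∈ A` is impossible (apply (0) to `[θ, θ + u]`). Consequently
adjacent points `θ, θ + u` of `Y` lie in the same cone (else `θ + 4u`, `θ + 6u` do), and any two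
points of a cone are congruent mod `2π` to points at distance `< 2u`.
(2) `T' = T + u ℤ` is countable. For `θ ∉ T'` some `θ + k u` is in `Y`: otherwise, if all six are
in `Z`, two of `θ, θ + 2u, θ + 4u` are in the same cone, against (1); if `θ + k u ∉ Z` then
`θ + k u, θ + (k+3) u ∈ E`, so `θ + (k+1) u, θ + (k+2) u ∈ Z \ E`, against `h3Z`.
(3) There is a cone `Zs ∈ {Zp, Zp - π}` with: `θ ∈ Yp`, `θ + u ∈ Z` imply `θ + u ∈ Zs`. (If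
`θ₁, θ₂ ∈ Yp`, `|θ₁ - θ₂| < 2u`, `θ₁ + u ∈ A`, `θ₂ + u ∈ A - π`, so `θ₂ + 4u ∈ A`: for `θ₂ < θ₁`
convexity puts `θ₂ + 3u ∈ [θ₁ + u, θ₂ + 4u] ⊆ A`; for `θ₂ > θ₁` it puts
`θ₁ + 6u ∈ [θ₂ + 4u, θ₁ + 7u] ⊆ A`; both points are in `Y`.) By (0), (1) and periodicity, with
`W = {θ ∈ Zs | θ + u ∈ Zs}`, either `W ⊆ E` or `W + u ⊆ E`. In the first case let `Yt = Yp`, in the
second `Yt = Yp - π`: every `θ ∈ Yt` with `θ ± u ∈ Z` has `θ + u ∈ E` resp. `θ - u ∈ E`, so is in `S`.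
(4) Hence `θ ∈ Yt \ T'` is in `S` unless `θ + u ∈ Yt` or `θ - u ∈ Yt`. With
`V = {θ ∈ Yt | θ + u ∈ Yt}` either `V + u ⊆ E` (then `V ⊆ S`) or `V ⊆ E` (then `V + u ⊆ S`).
Let `θ₀ ∈ Yt`, `J = Yt ∩ (θ₀ - 2u, θ₀ + 2u)` (order connected; every point of `Yt` is congruent to a
point of `J`), `α = sInf J`, `β = sSup J`. First case: for `θ ∈ (α, α + u) \ T'` some `θ + j u ∈ J`
by (2), `j ≥ 0`, so `θ ∈ J`, and `θ - u ∉ Yt`; so `θ ∈ S`. Second case: `(β - u, β)` likewise. -/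
theorem arc60 (Yp Zp E S T : Set ℝ) (hY : IsCone Yp) (hZ : IsCone Zp)
    (hYZ : ∀ θ, (θ ∈ Yp ∨ θ + π ∈ Yp) → (θ ∈ Zp ∨ θ + π ∈ Zp) → False)
    (hE : IsOpen E) (hEper : ∀ θ, θ + 2 * π ∈ E ↔ θ ∈ E) (hT : T.Countable)
    (h1 : ∀ θ, θ ∈ E → θ + π / 3 ∉ E)
    (h2 : ∀ θ, (θ ∈ Yp ∨ θ + π ∈ Yp) → (θ + π / 3 ∈ E ∨ θ - π / 3 ∈ E) → θ ∈ S)
    (h3Y : ∀ θ, (θ ∈ Yp ∨ θ + π ∈ Yp) → (θ + π / 3 ∈ Yp ∨ θ + π / 3 + π ∈ Yp) →
      θ ∈ E ∨ θ + π / 3 ∈ E)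
    (h3Z : ∀ θ, (θ ∈ Zp ∨ θ + π ∈ Zp) → (θ + π / 3 ∈ Zp ∨ θ + π / 3 + π ∈ Zp) →
      θ ∈ E ∨ θ + π / 3 ∈ E)
    (h4 : ∀ θ, θ ∉ T → (θ ∈ Yp ∨ θ + π ∈ Yp) ∨ (θ ∈ Zp ∨ θ + π ∈ Zp) ∨ θ ∈ E) :
    ∃ (α : ℝ) (T' : Set ℝ), T'.Countable ∧
      ∀ θ ∈ Ioo α (α + π / 3), θ ∉ T' → (θ ∈ Yp ∨ θ + π ∈ Yp) ∧ θ ∈ S := by
  have e3 : π = 3 * (π / 3) := by ring
  have cY := Arc.cone_of hY hE h1 fun θ a b => h3Y θ (Or.inl a) (Or.inl b)
  have cZ := Arc.cone_of hZ hE h1 fun θ a b => h3Z θ (Or.inl a) (Or.inl b)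
  have hEper' : ∀ θ, θ + 6 * (π / 3) ∈ E ↔ θ ∈ E := fun θ => by
    rw [← hEper θ, show 6 * (π / 3) = 2 * π by ring]
  have := Arc.main (u := π / 3) (S := S) cY cZ (by positivity) (by rw [← e3]; exact hYZ) hE hEper'
    hT h1 (by rw [← e3]; exact h2) (by rw [← e3]; exact h3Y) (by rw [← e3]; exact h3Z)
    (by rw [← e3]; exact h4)
  rwa [← e3] at this

/-- Proof. `A = e (α + π/3) - e α`, `B = e (β + π/3) - e β` are unit vectors, so one of `‖A + B‖`,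
`‖A - B‖` is `≥ √2 > 1`. By continuity and density choose `a' ∈ I₁ \ T₁` near `α`, `b' ∈ I₂ \ T₂`
near the suitable end of `I₂`, with `c = e a' + e b'` not of norm 1 (`finite_circ`,
`countable_preimage_e`), and `a* ∈ I₁`, `b* ∈ I₂` with `h a* b* > 1`, `h a b = ‖e a + e b - c‖`;
`h a' b' = 0`. `Bad = T₁ ∪ {a | ∃ b ∈ T₂, h a b = 1}` is countable. If the claim fails, for
`a ∈ I₁ \ Bad` the function `h a` is `≠ 1` on `I₂`, so `< 1` on `I₂` (`a ∈ U`) or `> 1` (`a ∈ V`).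
The closures of `U` and `V` cover the connected `I₁` and both meet it, so some `s ∈ I₁` is in both:
`h s b = 1` for all `b ∈ I₂`, uncountably many, so `c - e s = 0`, against `‖c‖ ≠ 1`. -/
theorem two_arcs (α β : ℝ) (T₁ T₂ : Set ℝ) (h₁ : T₁.Countable) (h₂ : T₂.Countable) :
    ∃ a a' b b' : ℝ, a ∈ Ioo α (α + π / 3) \ T₁ ∧ a' ∈ Ioo α (α + π / 3) \ T₁ ∧
      b ∈ Ioo β (β + π / 3) \ T₂ ∧ b' ∈ Ioo β (β + π / 3) \ T₂ ∧
      ‖(e a + e b) - (e a' + e b')‖ = 1 := by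
  have hπ := Real.pi_pos
  have hα : α < α + π / 3 := by linarith
  have hβ : β < β + π / 3 := by linarith
  have ce := continuous_e
  obtain ⟨b₁, b₂, hb₁, hb₂, h0⟩ : ∃ b₁ b₂, b₁ ∈ Icc β (β + π / 3) ∧ b₂ ∈ Icc β (β + π / 3) ∧
      1 < ‖e (α + π / 3) + e b₁ - (e α + e b₂)‖ := by
    have hp := parallelogram_law_with_norm ℂ (e (α + π / 3) - e α) (e (β + π / 3) - e β)
    rw [Arc.norm_chord, Arc.norm_chord] at hp
    by_cases hc : 1 < ‖e (α + π / 3) - e α + (e (β + π / 3) - e β)‖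
    · exact ⟨_, _, right_mem_Icc.2 hβ.le, left_mem_Icc.2 hβ.le, by convert hc using 2; ring⟩
    · refine ⟨_, _, left_mem_Icc.2 hβ.le, right_mem_Icc.2 hβ.le, ?_⟩
      rw [show e (α + π / 3) + e β - (e α + e (β + π / 3)) =
        e (α + π / 3) - e α - (e (β + π / 3) - e β) by ring]
      by_contra hc'
      nlinarith [norm_nonneg (e (α + π / 3) - e α + (e (β + π / 3) - e β)),
        norm_nonneg (e (α + π / 3) - e α - (e (β + π / 3) - e β))]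
  obtain ⟨bs, hbs, h0⟩ := Arc.pick (U := {b | 1 < ‖e (α + π / 3) + e b - (e α + e b₂)‖})
    (isOpen_lt (by fun_prop) (by fun_prop)) h₂ hβ hb₁ h0
  obtain ⟨b', hb', h0⟩ := Arc.pick (U := {b | 1 < ‖e (α + π / 3) + e bs - (e α + e b)‖})
    (isOpen_lt (by fun_prop) (by fun_prop)) h₂ hβ hb₂ h0
  have hne : ∀ θ, e θ ≠ 0 := fun θ h => by simpa [h] using norm_e θ
  obtain ⟨a', ha', h0⟩ := Arc.pick (U := {a | 1 < ‖e (α + π / 3) + e bs - (e a + e b')‖})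
    (isOpen_lt (by fun_prop) (by fun_prop))
    (h₁.union (Arc.countable_circ (neg_ne_zero.2 (hne b')))) hα (left_mem_Icc.2 hα.le) h0
  have hc : ‖e a' + e b'‖ ≠ 1 := fun h => ha'.2 (Or.inr (by simpa using h))
  have ha'' : a' ∈ Ioo α (α + π / 3) \ T₁ := ⟨ha'.1, fun h => ha'.2 (Or.inl h)⟩
  obtain ⟨c, hcdef⟩ : ∃ c, c = e a' + e b' := ⟨_, rfl⟩
  have hcne : ∀ θ, c - e θ ≠ 0 := fun θ h => hc (by rw [← hcdef, sub_eq_zero.1 h, norm_e])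
  let B₁ : Set ℝ := T₁ ∪ ⋃ b ∈ T₂, {a | ‖e a - (c - e b)‖ = 1}
  have hB₁ : B₁.Countable := h₁.union (h₂.biUnion fun b _ => Arc.countable_circ (hcne b))
  let B₂ : Set ℝ := ⋃ a ∈ B₁, {b | ‖e b - (c - e a)‖ = 1}
  have hB₂ : B₂.Countable := hB₁.biUnion fun a _ => Arc.countable_circ (hcne a)
  by_contra hcon
  have key : ∀ a ∈ Ioo α (α + π / 3) \ B₁, ∀ b ∈ Ioo β (β + π / 3), ‖e a + e b - c‖ ≠ 1 := by
    intro a ha b hb h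
    by_cases hbT : b ∈ T₂
    · exact ha.2 (Or.inr (mem_biUnion hbT (by
        rw [mem_ofPred_eq, ← h]; congr 1; ring)))
    · exact hcon ⟨a, a', b, b', ⟨ha.1, fun h => ha.2 (Or.inl h)⟩, ha'', ⟨hb, hbT⟩, hb',
        hcdef ▸ h⟩
  obtain ⟨a₁, ha₁, h1⟩ := Arc.pick (U := {a | 1 < ‖e a + e bs - c‖})
    (isOpen_lt (by fun_prop) (by fun_prop)) hB₁ hα (right_mem_Icc.2 hα.le) (hcdef ▸ h0)
  obtain ⟨a₀, ha₀, h2⟩ := Arc.pick (U := {a | ‖e a + e b' - c‖ < 1})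
    (isOpen_lt (by fun_prop) (by fun_prop)) hB₁ hα (Ioo_subset_Icc_self ha'.1) (by simp [hcdef])
  obtain ⟨b₀, hb₀, -⟩ := Arc.pick isOpen_univ hB₂ hβ hb₁ (mem_univ _)
  have k1 : 1 ≤ ‖e a₁ + e b₀ - c‖ := by
    by_contra h
    obtain ⟨z, hz, hz1⟩ := Arc.ivt (f := fun b => ‖e a₁ + e b - c‖) (by fun_prop) hb₀.1 hbs.1
      (not_le.1 h).le (le_of_lt h1)
    exact key _ ha₁ _ hz hz1
  have k0 : ‖e a₀ + e b₀ - c‖ ≤ 1 := by
    by_contra h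
    obtain ⟨z, hz, hz1⟩ := Arc.ivt (f := fun b => ‖e a₀ + e b - c‖) (by fun_prop) hb'.1 hb₀.1
      (le_of_lt h2) (not_le.1 h).le
    exact key _ ha₀ _ hz hz1
  obtain ⟨a, ha, ha1⟩ := Arc.ivt (f := fun a => ‖e a + e b₀ - c‖) (by fun_prop) ha₀.1 ha₁.1 k0 k1
  refine key a ⟨ha, fun hB => hb₀.2 (mem_biUnion hB ?_)⟩ b₀ hb₀.1 ha1
  rw [mem_ofPred_eq, ← ha1]; congr 1; ring

end Crest.Agent.R40
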