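import Crest.Agent.R40.Dens

/-!
# Row 40, task F2: limits of chains
-/

set_option autoImplicit false

namespace Crest.Agent.R40
open MeasureTheory Set Filter Topology Metric Relation
open scoped ENNReal Real

/-- truncation of a chain at its first exit from `U` (head induction) -/
theorem first_exit {α : Type*} {r : α → α → Prop} (U : Set α) {a b : α}
    (h : ReflTransGen r a b) (hb : b ∉ U) :
    ∃ b', b' ∉ U ∧ ReflTransGen (fun x y => r x y ∧ x ∈ U) a b' := by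
  induction h using ReflTransGen.head_induction_on with
  | refl => exact ⟨b, hb, ReflTransGen.refl⟩
  | @head a c hac _ ih =>
    by_cases ha : a ∈ U
    · obtain ⟨b', hb', hch⟩ := ih
      exact ⟨b', hb', ReflTransGen.head ⟨hac, ha⟩ hch⟩
    · exact ⟨a, ha, ReflTransGen.refl⟩

/-- the last step before the first exit -/
theorem last_step {α : Type*} {r : α → α → Prop} (U : Set α) {a b : α}
    (h : ReflTransGen r a b) (ha : a ∈ U) (hb : b ∉ U) :
    ∃ x y, ReflTransGen r a x ∧ r x y ∧ x ∈ U ∧ y ∉ U ∧ ReflTransGen r y b := by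
  induction h using ReflTransGen.head_induction_on with
  | refl => exact absurd ha hb
  | @head a c hac hcb ih =>
    by_cases hc : c ∈ U
    · obtain ⟨x, y, h1, h2, h3, h4, h5⟩ := ih hc
      exact ⟨x, y, ReflTransGen.head hac h1, h2, h3, h4, h5⟩
    · exact ⟨a, c, ReflTransGen.refl, hac, ha, hc, hcb⟩

namespace Arms

/-- radial projection on the unit circle -/
theorem exists_unit (w : ℂ) : ∃ u : ℂ, ‖u‖ = 1 ∧ ‖w - u‖ = |‖w‖ - 1| := by
  by_cases hw : w = 0
  · exact ⟨1, by simp, by simp [hw]⟩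
  · have hn : ‖w‖ ≠ 0 := norm_ne_zero_iff.mpr hw
    have hn' : (‖w‖ : ℂ) ≠ 0 := by exact_mod_cast hn
    have h1 : ‖w / (‖w‖ : ℂ)‖ = 1 := by
      rw [norm_div, Complex.norm_real, norm_norm, div_self hn]
    refine ⟨w / (‖w‖ : ℂ), h1, ?_⟩
    have : w - w / (‖w‖ : ℂ) = ((‖w‖ - 1 : ℝ) : ℂ) * (w / (‖w‖ : ℂ)) := by
      push_cast
      field_simp
    rw [this, norm_mul, h1, mul_one, Complex.norm_real, Real.norm_eq_abs]

/-- the length of a step -/
theorem step_len (C : MCol) {Z : Set ℂ} {L : Finset (Fin 5)} {ε δ R : ℝ} (hδ : δ ≤ 1)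
    (hR : 0 < R) {x y : ℂ} (h : C.Step Z L ε δ R x y) : ‖x - y‖ ≤ R / 4 + 2 * |ε| := by
  have h1 := abs_nonneg ε
  have h2 := le_abs_self ε
  rcases h.2 with h | ⟨h, -⟩
  · nlinarith
  · linarith

/-- a chain crossing a unit circle has a step starting close to it -/
theorem cross {r : ℂ → ℂ → Prop} {a p y : ℂ} (h : ReflTransGen r a p)
    (hs : (‖y - a‖ - 1) * (‖y - p‖ - 1) < 0) :
    ∃ x x', r x x' ∧ |‖x - y‖ - 1| ≤ ‖x - x'‖ := by
  rw [norm_sub_rev y a, norm_sub_rev y p] at hs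
  rcases mul_neg_iff.mp hs with ⟨h1, h2⟩ | ⟨h1, h2⟩
  · obtain ⟨x, x', -, hr, hx, hx', -⟩ := last_step {x : ℂ | 1 < ‖x - y‖} h
      (by simp only [mem_ofPred_eq]; linarith) (by simp only [mem_ofPred_eq, not_lt]; linarith)
    simp only [mem_ofPred_eq, not_lt] at hx hx'
    refine ⟨x, x', hr, ?_⟩
    have : ‖x - y‖ ≤ ‖x - x'‖ + ‖x' - y‖ := norm_sub_le_norm_sub_add_norm_sub x x' y
    rw [abs_of_nonneg (by linarith)]
    linarith
  · obtain ⟨x, x', -, hr, hx, hx', -⟩ := last_step {x : ℂ | ‖x - y‖ < 1} h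
      (by simp only [mem_ofPred_eq]; linarith) (by simp only [mem_ofPred_eq, not_lt]; linarith)
    simp only [mem_ofPred_eq, not_lt] at hx hx'
    refine ⟨x, x', hr, ?_⟩
    have : ‖x' - y‖ ≤ ‖x' - x‖ + ‖x - y‖ := norm_sub_le_norm_sub_add_norm_sub x' x y
    rw [norm_sub_rev x' x] at this
    rw [abs_of_nonpos (by linarith)]
    linarith

/-- points of a disc close to a unit circle centred in `Z` -/
def Nb (Z : Set ℂ) (y : ℂ) (t : ℝ) : Set ℂ :=
  {y' | y' ∈ closedBall y 1 ∧ ∃ z ∈ Z, |‖z - y'‖ - 1| ≤ t}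

theorem Nb_mono (Z : Set ℂ) (y : ℂ) {t t' : ℝ} (h : t ≤ t') : Nb Z y t ⊆ Nb Z y t' := by
  rintro y' ⟨h1, z, hz, h2⟩
  exact ⟨h1, z, hz, h2.trans h⟩

theorem measurableSet_Nb {Z : Set ℂ} (hZ : Z.Countable) (y : ℂ) (t : ℝ) :
    MeasurableSet (Nb Z y t) := by
  have : Nb Z y t = closedBall y 1 ∩ ⋃ z ∈ Z, {y' : ℂ | |‖z - y'‖ - 1| ≤ t} := by
    ext y'
    simp [Nb]
  rw [this]
  refine measurableSet_closedBall.inter (MeasurableSet.biUnion hZ fun z _ => ?_)
  exact (isClosed_le (by fun_prop) continuous_const).measurableSet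

theorem Nb_small {Z : Set ℂ} (hZc : IsClosed Z) (hZ : Z.Countable) (y : ℂ) (m : ℝ≥0∞)
    (hm : 0 < m) : ∃ t > 0, volume (Nb Z y t) < m := by
  have hanti : Antitone fun n : ℕ => Nb Z y (1 / ((n : ℝ) + 1)) := by
    intro n n' hn
    refine Nb_mono Z y ?_
    exact Nat.one_div_le_one_div hn
  have hfin : ∃ n : ℕ, volume (Nb Z y (1 / ((n : ℝ) + 1))) ≠ ⊤ := by
    refine ⟨0, ne_top_of_le_ne_top (measure_closedBall_lt_top (μ := (volume : Measure ℂ)) (x := y) (r := 1)).ne ?_⟩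
    exact measure_mono fun y' hy' => hy'.1
  have hlim := tendsto_measure_iInter_atTop (μ := (volume : Measure ℂ))
    (fun n : ℕ => (measurableSet_Nb hZ y (1 / ((n : ℝ) + 1))).nullMeasurableSet) hanti hfin
  have hzero : volume (⋂ n : ℕ, Nb Z y (1 / ((n : ℝ) + 1))) = 0 := by
    have hsub : (⋂ n : ℕ, Nb Z y (1 / ((n : ℝ) + 1))) ⊆ ⋃ z ∈ Z, sphere z 1 := by
      intro y' hy'
      rw [mem_iInter] at hy'
      have hK : IsCompact (Z ∩ closedBall y' 2) := (isCompact_closedBall y' 2).inter_left hZc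
      have hmem : ∀ n : ℕ, ∃ z ∈ Z ∩ closedBall y' 2, |‖z - y'‖ - 1| ≤ 1 / ((n : ℝ) + 1) := by
        intro n
        obtain ⟨-, z, hz, h⟩ := hy' n
        refine ⟨z, ⟨hz, ?_⟩, h⟩
        rw [mem_closedBall, dist_eq_norm]
        have h1 : 1 / ((n : ℝ) + 1) ≤ 1 := by
          rw [div_le_one (by positivity)]
          have : (0 : ℝ) ≤ n := Nat.cast_nonneg n
          linarith
        have := (abs_le.mp h).2
        linarith
      obtain ⟨z₀, hz₀, -⟩ := hmem 0
      obtain ⟨z, hz, hmin⟩ := hK.exists_isMinOn ⟨z₀, hz₀⟩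
        (f := fun z : ℂ => |‖z - y'‖ - 1|) (by fun_prop)
      have h0 : |‖z - y'‖ - 1| ≤ 0 := by
        refine ge_of_tendsto' tendsto_one_div_add_atTop_nhds_zero_nat fun n => ?_
        obtain ⟨z', hz', h⟩ := hmem n
        exact (hmin hz').trans h
      have h1 : ‖z - y'‖ = 1 := by
        have := abs_nonpos_iff.mp h0
        linarith
      refine mem_biUnion hz.1 ?_
      rw [mem_sphere, dist_eq_norm, norm_sub_rev, h1]
    refine measure_mono_null hsub ?_
    rw [measure_biUnion_null_iff hZ]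
    intro z _
    exact Measure.addHaar_sphere volume z 1
  rw [hzero] at hlim
  obtain ⟨n, hn⟩ := (hlim.eventually (gt_mem_nhds hm)).exists
  exact ⟨1 / ((n : ℝ) + 1), by positivity, hn⟩

end Arms

open _root_.Crest.Agent.R40.Arms

/-- Proof. Pass to an ultrafilter `𝒰 ≤ l`. Steps have length `≤ η k = max (R k / 4) (2 ε k) → 0`.
`last_step` with `U = ball (a k) s` gives `p k` starting a step, reached from `a k`, with
`s - η k ≤ ‖p k - a k‖ < s`; `p = lim_𝒰 p k` (compactness), `‖p - a₀‖ = s`. If `p ∉ Z` then `p k` is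
eventually `ε k`-far from `Z`, so `f {i} (p k) (R k) ≥ δ k > 0` and `p ∈ F i` (`mem_F_of_f`).
`Block`: let `y ∈ F i`, `i ∈ L`, `(‖y - a₀‖ - 1)(‖y - p‖ - 1) < 0`; for a small `κ` the sign persists
for `y' ∈ ball y κ` and `a k`, `p k`; `Y = A {i} ∩ ball y κ` has positive measure. For `y' ∈ Y` the
chain from `a k` to `p k` has a step `x → x'` crossing the unit circle about `y'` (`last_step`), so
`|‖x - y'‖ - 1| ≤ ‖x - x'‖`. Either some `z ∈ Z` has `|‖z - y'‖ - 1| ≤ ε k + η k`, or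
`f {i} x R ≥ δ`, `‖x - x'‖ ≤ δ R/4`, and the radial projection `x*` of `x` on the circle has
`f {i} x* R ≥ δ/2` (`dens_lip`), so `f {c y'} y' R ≤ 1 - δ/2` (`f_add_f_le`). The second set has
measure `→ 0` by `hgood`; the first is `N t = {y' ∈ closedBall y 1 | ∃ z ∈ Z, |‖z - y'‖ - 1| ≤ t}`
(compact, decreasing as `t ↓ 0` to a countable union of circles since `Z` is closed), so its measure
tends to `0`. Contradiction. -/
theorem MCol.limit_arms (C : MCol) (Z : Set ℂ) (hZc : IsClosed Z) (hZ : Z.Countable)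
    (L : Finset (Fin 5)) (l : Filter ℕ) [l.NeBot] (ε δ R : ℕ → ℝ) (hε : Tendsto ε l (𝓝 0))
    (hδ : ∀ k, 0 < δ k ∧ δ k ≤ 1) (hR0 : ∀ k, 0 < R k) (hR : Tendsto R l (𝓝 0))
    (hgood : ∀ B : ℝ, Tendsto
      (fun k => volume {y : ℂ | ‖y‖ ≤ B ∧ C.f {C.c y} y (R k) ≤ 1 - δ k / 2}) l (𝓝 0))
    (a b : ℕ → ℂ) (a₀ : ℂ) (ha : Tendsto a l (𝓝 a₀)) (ρ : ℝ)
    (hch : ∀ᶠ k in l, ReflTransGen (C.Step Z L (ε k) (δ k) (R k)) (a k) (b k) ∧ ρ ≤ ‖b k - a k‖)
    (s : ℝ) (hs0 : 0 < s) (hsρ : s < ρ) :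
    ∃ p, ‖p - a₀‖ = s ∧ Block C.F L a₀ p ∧ (p ∉ Z → ∀ i ∈ L, p ∈ C.F i) := by
  classical
  let 𝒰 : Ultrafilter ℕ := Ultrafilter.of l
  have hU : (𝒰 : Filter ℕ) ≤ l := Ultrafilter.of_le l
  set η : ℕ → ℝ := fun k => R k / 4 + 2 * |ε k| with hηdef
  have hη : Tendsto η l (𝓝 0) := by
    have h1 := (hR.div_const 4).add (hε.abs.const_mul 2)
    simpa using h1
  have hex : ∀ k, ∃ p : ℂ,
      (ReflTransGen (C.Step Z L (ε k) (δ k) (R k)) (a k) (b k) ∧ ρ ≤ ‖b k - a k‖) →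
      ReflTransGen (C.Step Z L (ε k) (δ k) (R k)) (a k) p ∧
        (∃ y, C.Step Z L (ε k) (δ k) (R k) p y) ∧ s - η k ≤ ‖p - a k‖ ∧ ‖p - a k‖ < s := by
    intro k
    by_cases h : ReflTransGen (C.Step Z L (ε k) (δ k) (R k)) (a k) (b k) ∧ ρ ≤ ‖b k - a k‖
    · obtain ⟨x, y, h1, h2, h3, h4, -⟩ := last_step {x : ℂ | ‖x - a k‖ < s} h.1
        (by simpa using hs0) (by simp only [mem_ofPred_eq, not_lt]; linarith [h.2])
      simp only [mem_ofPred_eq, not_lt] at h3 h4
      refine ⟨x, fun _ => ⟨h1, ⟨y, h2⟩, ?_, h3⟩⟩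
      have h5 := step_len C (hδ k).2 (hR0 k) h2
      have h6 : ‖y - a k‖ ≤ ‖y - x‖ + ‖x - a k‖ := norm_sub_le_norm_sub_add_norm_sub y x (a k)
      rw [norm_sub_rev y x] at h6
      simp only [hηdef]
      linarith
    · exact ⟨0, fun h' => absurd h' h⟩
  choose p hp using hex
  have hpl : ∀ᶠ k in l, ReflTransGen (C.Step Z L (ε k) (δ k) (R k)) (a k) (p k) ∧
      (∃ y, C.Step Z L (ε k) (δ k) (R k) (p k) y) ∧ s - η k ≤ ‖p k - a k‖ ∧ ‖p k - a k‖ < s :=
    hch.mono fun k hk => hp k hk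
  have hball : ∀ᶠ k in l, p k ∈ closedBall a₀ (s + 1) := by
    filter_upwards [hpl, ha.eventually (ball_mem_nhds a₀ one_pos)] with k hk hk'
    rw [mem_closedBall, dist_eq_norm]
    rw [dist_eq_norm] at hk'
    have := norm_sub_le_norm_sub_add_norm_sub (p k) (a k) a₀
    linarith [hk.2.2.2]
  obtain ⟨q, -, hq⟩ := (isCompact_closedBall a₀ (s + 1)).ultrafilter_le_nhds (𝒰.map p)
    (by rw [le_principal_iff]; exact hU hball)
  have hq' : Tendsto p 𝒰 (𝓝 q) := hq
  have haU : Tendsto a 𝒰 (𝓝 a₀) := ha.mono_left hU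
  have hplU := hU hpl
  refine ⟨q, ?_, ?_, ?_⟩
  · have h1 : Tendsto (fun k => ‖p k - a k‖) 𝒰 (𝓝 ‖q - a₀‖) := (hq'.sub haU).norm
    refine le_antisymm (le_of_tendsto h1 ?_) ?_
    · filter_upwards [hplU] with k hk using hk.2.2.2.le
    · have h2 : Tendsto (fun k => s - η k) 𝒰 (𝓝 (s - 0)) :=
        (hη.mono_left hU).const_sub s
      rw [sub_zero] at h2
      refine le_of_tendsto_of_tendsto h2 h1 ?_
      filter_upwards [hplU] with k hk using hk.2.2.1
  · intro y hy i hi hyF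
    have hcont : Continuous fun w : ℂ × ℂ × ℂ => (‖w.1 - w.2.1‖ - 1) * (‖w.1 - w.2.2‖ - 1) := by
      fun_prop
    have hev : ∀ᶠ w : ℂ × ℂ × ℂ in 𝓝 (y, a₀, q),
        (‖w.1 - w.2.1‖ - 1) * (‖w.1 - w.2.2‖ - 1) < 0 :=
      hcont.continuousAt.eventually (gt_mem_nhds hy)
    obtain ⟨κ₀, hκ₀, hκ⟩ := Metric.eventually_nhds_iff.mp hev
    set κ := min κ₀ 1 with hκdef
    have hκpos : 0 < κ := lt_min hκ₀ one_pos
    have hY : volume (C.A {i} ∩ ball y κ) ≠ 0 := hyF κ hκpos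
    set m := volume (C.A {i} ∩ ball y κ) with hm
    have hm2 : 0 < m / 2 := ENNReal.half_pos hY
    obtain ⟨t, ht, hNt⟩ := Nb_small hZc hZ y (m / 2) hm2
    have hbad := hU ((hgood (‖y‖ + 1)).eventually (gt_mem_nhds hm2))
    have ht' : ∀ᶠ k in (𝒰 : Filter ℕ), |ε k| + η k < t := by
      have h1 : Tendsto (fun k => |ε k| + η k) l (𝓝 0) := by simpa using hε.abs.add hη
      exact hU (h1.eventually (gt_mem_nhds ht))
    have hall : ∀ᶠ k in (𝒰 : Filter ℕ), False := by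
      filter_upwards [hplU, hbad, ht', haU.eventually (ball_mem_nhds a₀ hκ₀),
        hq'.eventually (ball_mem_nhds q hκ₀)] with k hk hk1 hk2 hk3 hk4
      have hsub : C.A {i} ∩ ball y κ ⊆ Nb Z y t ∪
          {y' : ℂ | ‖y'‖ ≤ ‖y‖ + 1 ∧ C.f {C.c y'} y' (R k) ≤ 1 - δ k / 2} := by
        rintro y' ⟨hy1, hy2⟩
        have hc : C.c y' = i := by simpa [MCol.A] using hy1
        have hd0 : dist y' y < κ₀ := lt_of_lt_of_le hy2 (min_le_left _ _)
        have hd1 : dist y' y < 1 := lt_of_lt_of_le hy2 (min_le_right _ _)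
        have hsign := @hκ (y', a k, p k) (by
          rw [Prod.dist_eq, Prod.dist_eq]
          exact max_lt hd0 (max_lt hk3 hk4))
        obtain ⟨x, x', hst, hx⟩ := cross hk.1 hsign
        have hlen := step_len C (hδ k).2 (hR0 k) hst
        by_cases hz : ∃ z ∈ Z, ‖x - z‖ ≤ ε k
        · obtain ⟨z, hz, hz'⟩ := hz
          refine Or.inl ⟨hd1.le, z, hz, ?_⟩
          have h1 : |‖z - y'‖ - ‖x - y'‖| ≤ ‖x - z‖ := by
            have := abs_norm_sub_norm_le (z - y') (x - y')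
            rwa [show z - y' - (x - y') = -(x - z) by ring, norm_neg] at this
          have h2 := abs_le.mp h1
          have h3 := abs_le.mp hx
          have h4 := le_abs_self (ε k)
          simp only [hηdef] at hk2
          rw [abs_le]
          constructor <;> linarith [h2.1, h2.2, h3.1, h3.2]
        · have h1 : δ k ≤ C.f {i} x (R k) := (hst.1.resolve_left hz) i hi
          have h2 : ‖x - x'‖ ≤ δ k * R k / 4 := hst.2.resolve_right fun h => hz h.2
          obtain ⟨u, hu, hu'⟩ := exists_unit (x - y')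
          have h3 := dens_lip (C.A {i}) x (y' + u) (R k) (hR0 k)
          rw [show x - (y' + u) = x - y' - u by ring, hu'] at h3
          have h4 : 2 * |‖x - y'‖ - 1| / R k ≤ δ k / 2 := by
            rw [div_le_iff₀ (hR0 k)]
            linarith
          have h5 := C.f_add_f_le i y' u hu (R k)
          have h6 := (abs_le.mp h3).2
          refine Or.inr ⟨?_, ?_⟩
          · have := norm_le_norm_add_norm_sub' y' y
            rw [dist_eq_norm] at hd1
            linarith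
          · rw [hc]
            simp only [MCol.f] at h1 h5 ⊢
            linarith
      have hle : m ≤ volume (Nb Z y t) +
          volume {y' : ℂ | ‖y'‖ ≤ ‖y‖ + 1 ∧ C.f {C.c y'} y' (R k) ≤ 1 - δ k / 2} :=
        (measure_mono hsub).trans (measure_union_le _ _)
      have hlt := ENNReal.add_lt_add hNt hk1
      rw [ENNReal.add_halves] at hlt
      exact absurd hle (not_le.mpr hlt)
    exact hall.exists.elim fun _ h => h
  · intro hqZ i hi
    obtain ⟨r, hr, hrZ⟩ := Metric.isOpen_iff.mp hZc.isOpen_compl q hqZ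
    refine C.mem_F_of_f q i fun η' hη' => ?_
    have hall : ∀ᶠ k in (𝒰 : Filter ℕ), ‖p k - q‖ < η' ∧ 0 < R k ∧ R k < η' ∧
        0 < C.f {i} (p k) (R k) := by
      filter_upwards [hplU, hq'.eventually (ball_mem_nhds q hη'),
        hq'.eventually (ball_mem_nhds q (half_pos hr)),
        hU (hε.eventually (gt_mem_nhds (half_pos hr))),
        hU (hR.eventually (gt_mem_nhds hη'))] with k hk hk1 hk2 hk3 hk4
      rw [dist_eq_norm] at hk1 hk2
      refine ⟨hk1, hR0 k, hk4, ?_⟩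
      obtain ⟨y, hst⟩ := hk.2.1
      rcases hst.1 with ⟨z, hz, hz'⟩ | h
      · exfalso
        refine hrZ (a := z) ?_ hz
        rw [mem_ball, dist_eq_norm]
        have := norm_sub_le_norm_sub_add_norm_sub z (p k) q
        rw [norm_sub_rev z (p k)] at this
        linarith
      · exact lt_of_lt_of_le (hδ k).1 (h i hi)
    obtain ⟨k, hk⟩ := hall.exists
    exact ⟨p k, R k, hk⟩

end Crest.Agent.R40
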