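import Crest.Agent.R40.Defs

/-!
# Row 40, task B2b: compositions with antilipschitz maps; the maps `rho`
-/

set_option autoImplicit false

namespace Crest.Agent.R40
open MeasureTheory Set Filter Topology Metric
open scoped ENNReal Real

/-- the inverse of `g` is `K`-Lipschitz on `g '' I` (`LipschitzOnWith.hausdorffMeasure_image_le`,
`hausdorffMeasure_real`) -/
theorem vol_preimage_le (g : ℝ → ℝ) (I : Set ℝ) (K : ℝ) (hK : 0 ≤ K)
    (h : ∀ s ∈ I, ∀ t ∈ I, |s - t| ≤ K * |g s - g t|) (E : Set ℝ) :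
    volume (I ∩ g ⁻¹' E) ≤ ENNReal.ofReal K * volume E := by
  have hmem : ∀ y ∈ g '' I ∩ E, Function.invFunOn g I y ∈ I ∧ g (Function.invFunOn g I y) = y :=
    fun y hy => ⟨Function.invFunOn_mem hy.1, Function.invFunOn_eq hy.1⟩
  have hlip : LipschitzOnWith K.toNNReal (Function.invFunOn g I) (g '' I ∩ E) := by
    refine LipschitzOnWith.of_dist_le_mul fun y hy y' hy' => ?_
    have := h _ (hmem y hy).1 _ (hmem y' hy').1
    rw [(hmem y hy).2, (hmem y' hy').2] at this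
    rwa [Real.dist_eq, Real.dist_eq, Real.coe_toNNReal K hK]
  have hsub : I ∩ g ⁻¹' E ⊆ Function.invFunOn g I '' (g '' I ∩ E) := by
    intro s hs
    have hy : g s ∈ g '' I ∩ E := ⟨mem_image_of_mem g hs.1, hs.2⟩
    refine ⟨g s, hy, ?_⟩
    have := h _ (hmem _ hy).1 s hs.1
    rw [(hmem _ hy).2, sub_self, abs_zero, mul_zero] at this
    exact sub_eq_zero.1 (abs_nonpos_iff.1 this)
  have h1 := hlip.hausdorffMeasure_image_le (d := 1) zero_le_one
  rw [hausdorffMeasure_real, ENNReal.rpow_one] at h1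
  calc volume (I ∩ g ⁻¹' E) ≤ volume (Function.invFunOn g I '' (g '' I ∩ E)) := measure_mono hsub
    _ ≤ (K.toNNReal : ℝ≥0∞) * volume (g '' I ∩ E) := h1
    _ ≤ ENNReal.ofReal K * volume E := by
        exact mul_le_mul' le_rfl (measure_mono inter_subset_right)

namespace Comp

theorem exists_open_sdiff_le {E : Set ℝ} (hE : MeasurableSet E) {ε : ℝ≥0∞} (hε : ε ≠ 0) :
    ∃ U, E ⊆ U ∧ IsOpen U ∧ volume (U \ E) ≤ ε := by
  obtain ⟨δ, hδ, hsum⟩ := ENNReal.exists_pos_sum_of_countable hε ℕ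
  have h : ∀ n : ℕ, ∃ U ⊇ E ∩ spanningSets volume n, IsOpen U ∧ volume U < ∞ ∧
      volume (U \ (E ∩ spanningSets volume n)) < δ n := fun n =>
    (hE.inter (measurableSet_spanningSets volume n)).exists_isOpen_sdiff_lt
      (ne_top_of_le_ne_top (measure_spanningSets_lt_top volume n).ne
        (measure_mono inter_subset_right)) (by exact_mod_cast (hδ n).ne')
  choose U hU1 hU2 _ hU4 using h
  refine ⟨⋃ n, U n, ?_, isOpen_iUnion hU2, ?_⟩
  · intro x hx
    have : x ∈ ⋃ n, spanningSets (volume : Measure ℝ) n := by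
      rw [iUnion_spanningSets]; trivial
    obtain ⟨n, hn⟩ := mem_iUnion.1 this
    exact mem_iUnion.2 ⟨n, hU1 n ⟨hx, hn⟩⟩
  · have hsub : (⋃ n, U n) \ E ⊆ ⋃ n, U n \ (E ∩ spanningSets volume n) := by
      rintro x ⟨hx, hxE⟩
      obtain ⟨n, hn⟩ := mem_iUnion.1 hx
      exact mem_iUnion.2 ⟨n, hn, fun h => hxE h.1⟩
    exact (measure_mono hsub).trans ((measure_iUnion_le _).trans
      ((ENNReal.tsum_le_tsum fun n => (hU4 n).le).trans hsum.le))

theorem tendsto_open {ι : Type*} (l : Filter ι) [l.IsCountablyGenerated] (I : Set ℝ)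
    (hI : MeasurableSet I) (hI' : volume I ≠ ⊤) (g : ι → ℝ → ℝ) (g₀ : ℝ → ℝ)
    (hg : ∀ᶠ n in l, AEMeasurable (g n) (volume.restrict I))
    (hg₀ : AEMeasurable g₀ (volume.restrict I))
    (hlim : ∀ s ∈ I, Tendsto (fun n => g n s) l (𝓝 (g₀ s))) {U : Set ℝ} (hU : IsOpen U) :
    Tendsto (fun n => volume {s ∈ I | g₀ s ∈ U ∧ g n s ∉ U}) l (𝓝 0) := by
  have hnull : ∀ᶠ n in l, NullMeasurableSet (g₀ ⁻¹' U ∩ g n ⁻¹' Uᶜ) (volume.restrict I) :=
    hg.mono fun n hn => (hg₀.nullMeasurableSet_preimage hU.measurableSet).inter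
      (hn.nullMeasurableSet_preimage hU.measurableSet.compl)
  have key := tendsto_lintegral_filter_of_dominated_convergence' (μ := volume.restrict I) (l := l)
    (F := fun n => (g₀ ⁻¹' U ∩ g n ⁻¹' Uᶜ).indicator 1) (f := fun _ => 0) (fun _ => 1)
    (hnull.mono fun n hn => aemeasurable_const.indicator₀ hn)
    (Eventually.of_forall fun n => Eventually.of_forall fun a => by
      by_cases h : a ∈ g₀ ⁻¹' U ∩ g n ⁻¹' Uᶜ
      · rw [indicator_of_mem h]; exact le_rfl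
      · rw [indicator_of_notMem h]; exact zero_le_one)
    (by simpa using hI')
    (by
      filter_upwards [ae_restrict_mem hI] with a ha
      refine tendsto_const_nhds.congr' ?_
      by_cases h : g₀ a ∈ U
      · filter_upwards [hlim a ha (hU.mem_nhds h)] with n hn
        rw [indicator_of_notMem]
        exact fun h' => h'.2 hn
      · filter_upwards with n
        rw [indicator_of_notMem]
        exact fun h' => h h'.1)
  rw [lintegral_zero] at key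
  refine key.congr' ?_
  filter_upwards [hnull] with n hn
  rw [lintegral_indicator_one₀ hn, Measure.restrict_apply' hI]
  congr 1
  ext s
  simp only [mem_inter_iff, mem_preimage, mem_compl_iff, mem_ofPred_eq]
  tauto

theorem arccos_half : Real.arccos (1 / 2) = π / 3 := by
  rw [← Real.cos_pi_div_three]
  exact Real.arccos_cos (by positivity) (by linarith [Real.pi_pos])

/-- the deviation of `rho` from the identity -/
noncomputable def A (σ : ℝ) (ζ : ℂ) : ℝ :=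
  Complex.arg (1 + ζ) + σ * Real.arccos (‖1 + ζ‖ / 2)

theorem rho_eq (σ : ℝ) (τ : ℂ) (θ : ℝ) : rho σ τ θ = θ + A σ (τ * e (-θ)) := by
  simp only [rho, A, add_assoc]

theorem differentiable_e : Differentiable ℝ e := by
  unfold e
  exact (Complex.ofRealCLM.differentiable.mul_const Complex.I).cexp

theorem norm_e_sub_e (a b : ℝ) : ‖e a - e b‖ ≤ |a - b| := by
  have h1 : e a - e b = e b * (e (a - b) - 1) := by
    rw [mul_sub, ← e_add, mul_one]; congr 2; ring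
  rw [h1, norm_mul, norm_e, one_mul, e, mul_comm]
  exact Real.norm_exp_I_mul_ofReal_sub_one_le

theorem exists_lip : ∃ r K : ℝ, 0 < r ∧ 0 ≤ K ∧
    (∀ (σ : ℝ) (ζ : ℂ), ‖ζ‖ ≤ r → DifferentiableAt ℝ (A σ) ζ) ∧
    ∀ σ : ℝ, (σ = 1 ∨ σ = -1) → ∀ ζ : ℂ, ‖ζ‖ ≤ r → ∀ ζ' : ℂ, ‖ζ'‖ ≤ r →
      |A σ ζ - A σ ζ'| ≤ K * ‖ζ - ζ'‖ := by
  have hw : ContDiffAt ℝ 1 (fun ζ : ℂ => 1 + ζ) 0 := contDiffAt_const.add contDiffAt_id
  have ha : ContDiffAt ℝ 1 (fun ζ : ℂ => Complex.arg (1 + ζ)) 0 := by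
    have h1 : ContDiffAt ℝ 1 Complex.log (1 + 0) :=
      (Complex.contDiffAt_log (by simp)).restrict_scalars ℝ
    have h2 := Complex.imCLM.contDiff.contDiffAt.comp 0 (h1.comp 0 hw)
    simpa [Function.comp_def, Complex.log_im] using h2
  have hb : ContDiffAt ℝ 1 (fun ζ : ℂ => Real.arccos (‖1 + ζ‖ / 2)) 0 := by
    have h1 : ContDiffAt ℝ 1 (fun ζ : ℂ => ‖1 + ζ‖ / 2) 0 :=
      (hw.norm ℝ (by simp)).div_const 2
    exact (Real.contDiffAt_arccos (by norm_num) (by norm_num)).comp 0 h1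
  obtain ⟨Ka, ta, hta, hKa⟩ := ha.exists_lipschitzOnWith
  obtain ⟨Kb, tb, htb, hKb⟩ := hb.exists_lipschitzOnWith
  have hev := ((ha.eventually (by simp)).and (hb.eventually (by simp))).and (inter_mem hta htb)
  obtain ⟨r, hr, hball⟩ := Metric.nhds_basis_closedBall.eventually_iff.1 hev
  have hball' : ∀ ζ : ℂ, ‖ζ‖ ≤ r → _ := fun ζ h => hball (mem_closedBall_zero_iff.2 h)
  refine ⟨r, Ka + Kb, hr, by positivity, fun σ ζ h => ?_, fun σ hσ ζ h ζ' h' => ?_⟩
  · exact ((hball' ζ h).1.1.differentiableAt one_ne_zero).add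
      (((hball' ζ h).1.2.differentiableAt one_ne_zero).const_mul σ)
  · have h1 := hKa.dist_le_mul ζ (hball' ζ h).2.1 ζ' (hball' ζ' h').2.1
    have h2 := hKb.dist_le_mul ζ (hball' ζ h).2.2 ζ' (hball' ζ' h').2.2
    rw [Real.dist_eq, dist_eq_norm] at h1 h2
    have h3 : A σ ζ - A σ ζ' = (Complex.arg (1 + ζ) - Complex.arg (1 + ζ')) +
        σ * (Real.arccos (‖1 + ζ‖ / 2) - Real.arccos (‖1 + ζ'‖ / 2)) := by
      unfold A; ring
    have h4 : |σ| = 1 := by rcases hσ with rfl | rfl <;> simp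
    rw [h3]
    refine (abs_add_le _ _).trans ?_
    rw [abs_mul, h4]
    linarith

theorem unit_dist {σ : ℝ} (hσ : σ = 1 ∨ σ = -1) {τ : ℂ} (hτ : ‖τ‖ ≤ 1) (θ : ℝ) :
    ‖τ + e θ - e (rho σ τ θ)‖ = 1 := by
  set w : ℂ := 1 + τ * e (-θ) with hw
  set β : ℝ := Real.arccos (‖w‖ / 2) with hβ
  have hw2 : ‖w‖ ≤ 2 := by
    have h1 := norm_add_le 1 (τ * e (-θ))
    rw [norm_mul, norm_e, mul_one, norm_one] at h1
    linarith
  have hcos : Real.cos β = ‖w‖ / 2 :=
    Real.cos_arccos (by linarith [norm_nonneg w]) (by linarith)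
  have hcos' : Real.cos (σ * β) = ‖w‖ / 2 := by
    rcases hσ with rfl | rfl
    · rw [one_mul, hcos]
    · rw [neg_one_mul, Real.cos_neg, hcos]
  have h1 : τ + e θ = e θ * w := by
    rw [hw, mul_add, mul_one, mul_left_comm, ← e_add, add_neg_cancel, e_zero, mul_one, add_comm]
  have h2 : w = (‖w‖ : ℂ) * e (Complex.arg w) := (Complex.norm_mul_exp_arg_mul_I w).symm
  have h3 : e (rho σ τ θ) = e θ * e (Complex.arg w) * e (σ * β) := by
    rw [← e_add, ← e_add]; rfl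
  have h4 : τ + e θ - e (rho σ τ θ) = e θ * e (Complex.arg w) * ((‖w‖ : ℂ) - e (σ * β)) := by
    rw [h1, h3]
    conv_lhs => rw [h2]
    rw [← h2]
    conv_lhs => enter [1, 2]; rw [h2]
    ring
  rw [h4, norm_mul, norm_mul, norm_e, norm_e, one_mul, one_mul]
  have h5 : ‖(‖w‖ : ℂ) - e (σ * β)‖ ^ 2 = 1 := by
    rw [Complex.sq_norm, Complex.normSq_apply]
    simp only [Complex.sub_re, Complex.sub_im, Complex.ofReal_re, Complex.ofReal_im, e_re, e_im]
    have := Real.sin_sq_add_cos_sq (σ * β)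
    rw [hcos'] at this ⊢
    nlinarith
  exact (pow_eq_one_iff_of_nonneg (norm_nonneg _) two_ne_zero).1 h5

end Comp

/-- Continuity of composition.

Proof. Let `U ⊇ E`, `U' ⊇ Eᶜ` be open with `volume (U \ E), volume (U' \ Eᶜ) < ε` (outer regularity
on the pieces `E ∩ [k, k+1)`). The bad set is contained in `{g n s ∈ U \ E}`, `{g n s ∈ U' \ Eᶜ}`
(measure `≤ K ε` each) and `{g₀ s ∈ U, g n s ∉ U}`, `{g₀ s ∈ U', g n s ∉ U'}`, whose indicators tend
to `0` pointwise (dominated convergence; reduce to sequences with `tendsto_iff_seq_tendsto`). -/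
theorem cc {ι : Type*} (l : Filter ι) [l.IsCountablyGenerated] (I : Set ℝ) (hI : MeasurableSet I)
    (hI' : volume I ≠ ⊤) (g : ι → ℝ → ℝ) (g₀ : ℝ → ℝ) (K : ℝ) (hK : 0 ≤ K)
    (hg : ∀ᶠ n in l, AEMeasurable (g n) (volume.restrict I) ∧
      ∀ s ∈ I, ∀ t ∈ I, |s - t| ≤ K * |g n s - g n t|)
    (hg₀ : AEMeasurable g₀ (volume.restrict I))
    (hlim : ∀ s ∈ I, Tendsto (fun n => g n s) l (𝓝 (g₀ s))) (E : Set ℝ) (hE : MeasurableSet E) :
    Tendsto (fun n => volume {s ∈ I | ¬ (g n s ∈ E ↔ g₀ s ∈ E)}) l (𝓝 0) := by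
  rw [ENNReal.tendsto_nhds_zero]
  intro ε hε
  obtain ⟨δ, hδ, hδε⟩ : ∃ δ : ℝ≥0∞, 0 < δ ∧ δ + δ + δ + δ ≤ ε := by
    refine ⟨ε / 2 / 2, ?_, le_of_eq ?_⟩
    · exact ENNReal.half_pos (ENNReal.half_pos hε.ne').ne'
    · rw [add_assoc, ENNReal.add_halves, ENNReal.add_halves]
  obtain ⟨η, hη, hηδ⟩ := ENNReal.exists_nnreal_pos_mul_lt (a := ENNReal.ofReal K) (b := δ)
    ENNReal.ofReal_ne_top hδ.ne'
  have hη' : (η : ℝ≥0∞) ≠ 0 := by exact_mod_cast hη.ne'
  obtain ⟨U, hEU, hU, hUE⟩ := Comp.exists_open_sdiff_le hE hη'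
  obtain ⟨U', hEU', hU', hUE'⟩ := Comp.exists_open_sdiff_le hE.compl hη'
  have t1 := Comp.tendsto_open l I hI hI' g g₀ (hg.mono fun n hn => hn.1) hg₀ hlim hU
  have t2 := Comp.tendsto_open l I hI hI' g g₀ (hg.mono fun n hn => hn.1) hg₀ hlim hU'
  rw [ENNReal.tendsto_nhds_zero] at t1 t2
  filter_upwards [t1 δ hδ, t2 δ hδ, hg] with n h1 h2 h3
  have h4 : volume (I ∩ g n ⁻¹' (U \ E)) ≤ δ :=
    (vol_preimage_le (g n) I K hK h3.2 _).trans
      ((mul_le_mul' le_rfl hUE).trans (by rw [mul_comm]; exact hηδ.le))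
  have h5 : volume (I ∩ g n ⁻¹' (U' \ Eᶜ)) ≤ δ :=
    (vol_preimage_le (g n) I K hK h3.2 _).trans
      ((mul_le_mul' le_rfl hUE').trans (by rw [mul_comm]; exact hηδ.le))
  have hsub : {s ∈ I | ¬ (g n s ∈ E ↔ g₀ s ∈ E)} ⊆
      {s ∈ I | g₀ s ∈ U ∧ g n s ∉ U} ∪ {s ∈ I | g₀ s ∈ U' ∧ g n s ∉ U'} ∪
        (I ∩ g n ⁻¹' (U \ E)) ∪ (I ∩ g n ⁻¹' (U' \ Eᶜ)) := by
    rintro s ⟨hs, hne⟩
    simp only [mem_union, mem_ofPred_eq, mem_inter_iff, mem_preimage, Set.mem_sdiff, mem_compl_iff]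
    have a1 := @hEU (g₀ s)
    have a2 := @hEU' (g₀ s)
    simp only [mem_compl_iff] at a2
    tauto
  refine (measure_mono hsub).trans (le_trans ?_ hδε)
  refine (measure_union_le _ _).trans (add_le_add ?_ h5)
  refine (measure_union_le _ _).trans (add_le_add ?_ h4)
  exact (measure_union_le _ _).trans (add_le_add h1 h2)

theorem rho_zero (σ θ : ℝ) : rho σ 0 θ = θ + σ * (π / 3) := by
  have h : Real.arccos (1 / 2) = π / 3 := Comp.arccos_half
  simp only [rho, zero_mul, add_zero, Complex.arg_one, norm_one, h]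

theorem measurable_rho (σ : ℝ) (τ : ℂ) : Measurable (rho σ τ) := by
  have h1 : Measurable fun θ : ℝ => 1 + τ * e (-θ) :=
    (continuous_const.add (continuous_const.mul (continuous_e.comp continuous_neg))).measurable
  exact (measurable_id.add (Complex.measurable_arg.comp h1)).add
    (measurable_const.mul (Real.measurable_arccos.comp (h1.norm.div_const 2)))

/-- Proof. `rho σ τ θ = θ + A σ (τ * e (-θ))`, `A σ ζ = arg (1 + ζ) + σ arccos (‖1 + ζ‖/2)`. Both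
summands are `C¹` at `ζ = 0` (`arg z = (log z).im`), hence differentiable and `K`-Lipschitz on a
closed ball of radius `τ₀`; shrink `τ₀`. Unit distance: `τ + e θ = e θ (1 + ζ) = ρ e γ` with
`ρ = ‖1 + ζ‖`, `γ = θ + arg (1 + ζ)`, and `‖ρ - e (σ β)‖² = ρ² - 2 ρ cos β + 1 = 1` for
`cos β = ρ/2`. Gap: `‖1 + ζ‖ ≥ 1 + Re ζ ≥ 1 + ‖ζ‖/4`, and `arccos x ≤ π/3 - (x - 1/2)` for
`x ∈ [1/2, 1]` (`cos` is 1-Lipschitz). -/
theorem rho_spec : ∃ τ₀ K : ℝ, 0 < τ₀ ∧ 0 ≤ K ∧ K * τ₀ ≤ 1 / 2 ∧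
    (∀ σ : ℝ, (σ = 1 ∨ σ = -1) → ∀ τ : ℂ, ‖τ‖ ≤ τ₀ →
      (∀ θ, ‖τ + e θ - e (rho σ τ θ)‖ = 1) ∧ Differentiable ℝ (rho σ τ) ∧
      (∀ s t, |s - t| ≤ 2 * |rho σ τ s - rho σ τ t|) ∧
      (∀ s t, |(rho σ τ s - s) - (rho σ τ t - t)| ≤ K * ‖τ‖ * |s - t|) ∧
      ∀ τ' : ℂ, ‖τ'‖ ≤ τ₀ → ∀ θ, |rho σ τ θ - rho σ τ' θ| ≤ K * ‖τ - τ'‖) ∧
    ∀ τ : ℂ, ‖τ‖ ≤ τ₀ → ∀ θ, ‖τ‖ / 4 ≤ (τ * e (-θ)).re →
      rho 1 τ θ - rho (-1) τ θ - 2 * π / 3 ≤ -‖τ‖ / 4 := by
  obtain ⟨r, K, hr, hK, hdiff, hlip⟩ := Comp.exists_lip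
  have hK1 : 0 < K + 1 := by linarith
  refine ⟨min r (min (1 / 2) (1 / (2 * (K + 1)))), K, by positivity, hK, ?_, ?_, ?_⟩
  · calc K * min r (min (1 / 2) (1 / (2 * (K + 1)))) ≤ (K + 1) * (1 / (2 * (K + 1))) :=
          mul_le_mul (by linarith) ((min_le_right _ _).trans (min_le_right _ _)) (by positivity)
            hK1.le
      _ = 1 / 2 := by field_simp
  · intro σ hσ τ hτ
    have hτr : ‖τ‖ ≤ r := hτ.trans (min_le_left _ _)
    have hτ2 : ‖τ‖ ≤ 1 / 2 := hτ.trans ((min_le_right _ _).trans (min_le_left _ _))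
    have hτK : K * ‖τ‖ ≤ 1 / 2 := by
      calc K * ‖τ‖ ≤ (K + 1) * (1 / (2 * (K + 1))) :=
            mul_le_mul (by linarith) (hτ.trans ((min_le_right _ _).trans (min_le_right _ _)))
              (norm_nonneg _) hK1.le
        _ = 1 / 2 := by field_simp
    have hζ : ∀ (τ : ℂ) (θ : ℝ), ‖τ * e (-θ)‖ = ‖τ‖ := fun τ θ => by
      rw [norm_mul, norm_e, mul_one]
    have h4 : ∀ s t, |(rho σ τ s - s) - (rho σ τ t - t)| ≤ K * ‖τ‖ * |s - t| := by
      intro s t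
      rw [Comp.rho_eq, Comp.rho_eq, add_sub_cancel_left, add_sub_cancel_left]
      refine (hlip σ hσ _ (by rw [hζ]; exact hτr) _ (by rw [hζ]; exact hτr)).trans ?_
      rw [← mul_sub, norm_mul, mul_assoc]
      refine mul_le_mul_of_nonneg_left (mul_le_mul_of_nonneg_left ?_ (norm_nonneg _)) hK
      refine (Comp.norm_e_sub_e _ _).trans (le_of_eq ?_)
      rw [← abs_neg]
      congr 1
      ring
    refine ⟨fun θ => Comp.unit_dist hσ (by linarith) θ, ?_, ?_, h4, ?_⟩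
    · intro θ
      have h1 : rho σ τ = fun θ => θ + Comp.A σ (τ * e (-θ)) := funext (Comp.rho_eq σ τ)
      rw [h1]
      refine differentiableAt_id.add ?_
      refine (hdiff σ _ (by rw [hζ]; exact hτr)).comp θ (f := fun θ : ℝ => τ * e (-θ)) ?_
      exact (differentiableAt_const τ).mul
        ((Comp.differentiable_e _).comp θ differentiableAt_id.neg)
    · intro s t
      have h1 := h4 s t
      have h2 : K * ‖τ‖ * |s - t| ≤ 1 / 2 * |s - t| :=
        mul_le_mul_of_nonneg_right hτK (abs_nonneg _)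
      have h3 : |s - t| ≤ |rho σ τ s - rho σ τ t| + |(rho σ τ s - s) - (rho σ τ t - t)| := by
        have : s - t = (rho σ τ s - rho σ τ t) - ((rho σ τ s - s) - (rho σ τ t - t)) := by ring
        conv_lhs => rw [this]
        exact abs_sub _ _
      linarith
    · intro τ' hτ' θ
      rw [Comp.rho_eq, Comp.rho_eq, add_sub_add_left_eq_sub]
      refine (hlip σ hσ _ (by rw [hζ]; exact hτr) _
        (by rw [hζ]; exact hτ'.trans (min_le_left _ _))).trans (le_of_eq ?_)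
      rw [← sub_mul, hζ]
  · intro τ hτ θ hre
    have hτ2 : ‖τ‖ ≤ 1 / 2 := hτ.trans ((min_le_right _ _).trans (min_le_left _ _))
    set x : ℝ := ‖1 + τ * e (-θ)‖ / 2 with hx
    have hx1 : 1 / 2 + ‖τ‖ / 8 ≤ x := by
      have h1 := Complex.re_le_norm (1 + τ * e (-θ))
      rw [Complex.add_re, Complex.one_re] at h1
      rw [hx]
      linarith
    have hx2 : x ≤ 1 := by
      have h1 := norm_add_le 1 (τ * e (-θ))
      rw [norm_mul, norm_e, mul_one, norm_one] at h1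
      rw [hx]
      linarith
    have hτ0 := norm_nonneg τ
    have h1 : Real.arccos x ≤ π / 3 := by
      rw [← Comp.arccos_half]
      exact Real.arccos_le_arccos (by linarith)
    have h2 := Real.abs_cos_sub_cos_le (Real.arccos x) (π / 3)
    rw [Real.cos_arccos (by linarith) hx2, Real.cos_pi_div_three,
      abs_of_nonpos (a := Real.arccos x - π / 3) (by linarith)] at h2
    have h3 := le_abs_self (x - 1 / 2)
    simp only [rho, ← hx]
    linarith

end Crest.Agent.R40
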