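import Crest.Agent.R40.Th
import Crest.Agent.R40.Comp

/-!
# Row 40, task B3b: blocking and pair constraints
-/

set_option autoImplicit false

namespace Crest.Agent.R40
open MeasureTheory Set Filter Topology Metric
open scoped ENNReal Real

namespace Blocks

theorem meas_c₂ (C : MCol) (v : ℂ) : Measurable fun p : ℝ × ℝ => C.c (v + e p.1 + e p.2) :=
  C.meas.comp ((measurable_const.add (measurable_e.comp measurable_fst)).add
    (measurable_e.comp measurable_snd))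

theorem meas_c₁ (C : MCol) (x : ℂ) : Measurable fun θ : ℝ => C.c (x + e θ) :=
  C.meas.comp (measurable_const.add measurable_e)

theorem meas_abs_le (K : ℝ) : MeasurableSet {θ : ℝ | |θ| ≤ K} :=
  measurableSet_le continuous_abs.measurable measurable_const

/-- the part of the strip `|φ| ≤ K` where `v + e θ + e φ` has colour `i` -/
def W (C : MCol) (v : ℂ) (i : Fin 5) (K : ℝ) : Set (ℝ × ℝ) :=
  {p | |p.2| ≤ K ∧ C.c (v + e p.1 + e p.2) = i}

theorem meas_W (C : MCol) (v : ℂ) (i : Fin 5) (K : ℝ) : MeasurableSet (W C v i K) :=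
  (measurable_snd (meas_abs_le K)).inter (meas_c₂ C v (measurableSet_singleton i))

theorem null_M (C : MCol) (v : ℂ) (i : Fin 5) (K : ℝ) (η : ℝ≥0∞) (hη : η ≠ 0) (hη' : η ≠ ⊤) :
    ∀ᵐ θ, θ ∈ {θ : ℝ | |θ| ≤ K} ∩ {θ | η ≤ volume (Prod.mk θ ⁻¹' W C v i K)} →
      i ∉ C.S v θ := by
  set M := {θ : ℝ | |θ| ≤ K} ∩ {θ | η ≤ volume (Prod.mk θ ⁻¹' W C v i K)} with hMdef
  have hM : MeasurableSet M := (meas_abs_le K).inter
    (measurableSet_le measurable_const (measurable_measure_prodMk_left (meas_W C v i K)))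
  refine C.ae_notMem_S v i M hM ?_
  have hA : MeasurableSet {z | C.c z = i} := C.meas (measurableSet_singleton i)
  have h1 := ENNReal.Tendsto.const_mul (a := η⁻¹) (transl_small _ hA v K)
    (Or.inr (ENNReal.inv_ne_top.2 hη))
  rw [mul_zero] at h1
  refine tendsto_of_tendsto_of_tendsto_of_le_of_le' tendsto_const_nhds
    (h1.mono_left inf_le_left) (Eventually.of_forall fun _ => zero_le) ?_
  refine (C.ae_proper₂.mono fun x hx => ?_).filter_mono inf_le_right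
  have hM' : MeasurableSet (M ∩ {θ | C.c (x + e θ) = i}) :=
    hM.inter (meas_c₁ C x (measurableSet_singleton i))
  have hB : MeasurableSet (Prod.fst ⁻¹' (M ∩ {θ | C.c (x + e θ) = i}) ∩ W C v i K) :=
    (measurable_fst hM').inter (meas_W C v i K)
  have h2 : η * C.arc i M x ≤
      volume (Prod.fst ⁻¹' (M ∩ {θ | C.c (x + e θ) = i}) ∩ W C v i K) := by
    rw [Measure.volume_eq_prod, Measure.prod_apply hB, MCol.arc, ← setLIntegral_const,
      ← lintegral_indicator hM']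
    refine lintegral_mono fun θ => ?_
    by_cases hθ : θ ∈ M ∩ {θ | C.c (x + e θ) = i}
    · rw [indicator_of_mem hθ]
      exact hθ.1.2.trans (measure_mono fun φ hφ => ⟨hθ, hφ⟩)
    · rw [indicator_of_notMem hθ]; exact zero_le
  have h3 : volume (Prod.fst ⁻¹' (M ∩ {θ | C.c (x + e θ) = i}) ∩ W C v i K) ≤
      volume {p : ℝ × ℝ | |p.1| ≤ K ∧ |p.2| ≤ K ∧
        ¬ (x + e p.1 + e p.2 ∈ {z | C.c z = i} ↔ v + e p.1 + e p.2 ∈ {z | C.c z = i})} := by
    refine measure_mono_ae (hx.mono fun p hp hpB => ⟨hpB.1.1.1, hpB.2.1, fun hiff => hp ?_⟩)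
    exact (show C.c (x + e p.1) = i from hpB.1.2).trans (hiff.2 hpB.2.2).symm
  calc C.arc i M x = η⁻¹ * (η * C.arc i M x) := by
        rw [← mul_assoc, ENNReal.inv_mul_cancel hη hη', one_mul]
    _ ≤ _ := by gcongr; exact h2.trans h3

end Blocks

namespace MCol
variable (C : MCol)

/-- The unit circle about `v + e θ` avoids the colours `S v θ`.

Proof. Fix `i`, `K`, `η > 0`; `W x = {p ∈ box K | c (x + e p.1 + e p.2) = i}`,
`h θ = volume {φ | (θ, φ) ∈ W v}`, `M = {|θ| ≤ K | h θ ≥ η}` (measurable). For a.e. `x`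
(`ae_proper₂`) the set `{p | p.1 ∈ M, c (x + e p.1) = i} ∩ W v` is a.e. inside `W v \ W x`, so by
Tonelli `η * arc i M x ≤ volume (W v \ W x) → 0` (`transl_small`). So `Null i v M`, and
`ae_notMem_S`. -/
theorem blockF2 (v : ℂ) : ∀ᵐ p : ℝ × ℝ, C.c (v + e p.1 + e p.2) ∉ C.S v p.1 := by
  have hmeas : MeasurableSet {p : ℝ × ℝ | C.c (v + e p.1 + e p.2) ∉ C.S v p.1} := by
    have : {p : ℝ × ℝ | C.c (v + e p.1 + e p.2) ∉ C.S v p.1} =
        ⋂ i, ({p | C.c (v + e p.1 + e p.2) = i}ᶜ ∪ (Prod.fst ⁻¹' C.Th v i)ᶜ) := by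
      ext p
      simp only [mem_ofPred_eq, mem_iInter, mem_union, mem_compl_iff, mem_preimage, mem_S]
      constructor
      · intro h i
        by_cases hi : C.c (v + e p.1 + e p.2) = i
        · exact Or.inr (hi ▸ h)
        · exact Or.inl hi
      · intro h
        exact (h _).resolve_left fun h' => h' rfl
    rw [this]
    exact MeasurableSet.iInter fun i =>
      (Blocks.meas_c₂ C v (measurableSet_singleton i)).compl.union
        (measurable_fst (C.measurableSet_Th v i)).compl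
  rw [Measure.volume_eq_prod, Measure.ae_prod_iff_ae_ae hmeas]
  have h : ∀ᵐ θ, ∀ i : Fin 5, ∀ K n : ℕ, θ ∈ {θ : ℝ | |θ| ≤ K} ∩
      {θ | ((n : ℝ≥0∞) + 1)⁻¹ ≤ volume (Prod.mk θ ⁻¹' Blocks.W C v i K)} → i ∉ C.S v θ := by
    simp only [ae_all_iff]
    exact fun i K n => Blocks.null_M C v i K _ (by simp) (by simp)
  refine h.mono fun θ hθ => ?_
  have h2 : ∀ i ∈ C.S v θ, ∀ K : ℕ, ∀ᵐ φ, φ ∉ Prod.mk θ ⁻¹' Blocks.W C v i (K + ⌈|θ|⌉₊ : ℕ) := by
    intro i hi K
    rw [← measure_eq_zero_iff_ae_notMem]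
    by_contra hne
    obtain ⟨n, hn⟩ := ENNReal.exists_inv_nat_lt hne
    refine hθ i (K + ⌈|θ|⌉₊) n ⟨?_, ?_⟩ hi
    · have := Nat.le_ceil |θ|
      simp only [mem_ofPred_eq]
      push_cast
      linarith [Nat.cast_nonneg (α := ℝ) K]
    · exact (ENNReal.inv_le_inv.2 le_self_add).trans hn.le
  have h3 : ∀ᵐ φ, ∀ i, i ∈ C.S v θ → ∀ K : ℕ,
      φ ∉ Prod.mk θ ⁻¹' Blocks.W C v i (K + ⌈|θ|⌉₊ : ℕ) := by
    simp only [ae_all_iff]
    intro i
    by_cases hi : i ∈ C.S v θ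
    · simpa only [hi, forall_true_left, ae_all_iff] using h2 i hi
    · simp [hi]
  refine h3.mono fun φ hφ hmem => hφ _ hmem ⌈|φ|⌉₊ ⟨?_, rfl⟩
  have := Nat.le_ceil |φ|
  push_cast
  linarith [Nat.cast_nonneg (α := ℝ) ⌈|θ|⌉₊]

/-- `blockF2` and `img_null` -/
theorem blockY (w : ℂ) : ∀ᵐ y : ℂ, ∀ θ, ‖y - w - e θ‖ = 1 → C.c y ∉ C.S w θ := by
  have h := img_null w _ (ae_iff.1 (C.blockF2 w))
  refine (measure_eq_zero_iff_ae_notMem.1 h).mono fun y hy θ hθ hc => hy ?_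
  have h1 : e (Complex.arg (y - w - e θ)) = y - w - e θ := by
    have := Complex.norm_mul_exp_arg_mul_I (y - w - e θ)
    rwa [hθ, Complex.ofReal_one, one_mul] at this
  have h2 : w + e θ + e (Complex.arg (y - w - e θ)) = y := by rw [h1]; ring
  exact ⟨(θ, Complex.arg (y - w - e θ)), by simpa only [mem_ofPred_eq, h2, not_not] using hc, h2⟩

/-- Proof. `τ₀, K` from `rho_spec`. Fix `i`, `I = [-n, n]`,
`M = {s ∈ I | rho σ (v - w) s ∈ Th w i}`. For a.e. `x` near `v` and a.e. `s`, `y = x + e s`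
satisfies `blockY w` (`ae_circ`) and `‖y - w - e (rho σ (x - w) s)‖ = 1`, so
`arc i M x ≤ volume {s ∈ I | ¬ (rho σ (x - w) s ∈ Th w i ↔ rho σ (v - w) s ∈ Th w i)} → 0` (`cc`
along `𝓝 v`). Then `ae_notMem_S`. -/
theorem pair_rho : ∃ τ₀ > 0, ∀ σ : ℝ, (σ = 1 ∨ σ = -1) → ∀ v w : ℂ, ‖v - w‖ < τ₀ →
    ∀ᵐ θ, Disjoint (C.S v θ) (C.S w (rho σ (v - w) θ)) := by
  obtain ⟨τ₀, K, hτ₀, -, -, hspec, -⟩ := rho_spec
  refine ⟨τ₀, hτ₀, fun σ hσ v w hvw => ?_⟩
  have hnear : ∀ᶠ x in 𝓝 v, ‖x - w‖ ≤ τ₀ :=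
    ((continuous_id.sub continuous_const).norm.continuousAt.eventually
      (gt_mem_nhds hvw)).mono fun _ h => le_of_lt h
  have key : ∀ (i : Fin 5) (n : ℕ), ∀ᵐ θ,
      θ ∈ {s : ℝ | |s| ≤ n} ∩ rho σ (v - w) ⁻¹' C.Th w i → i ∉ C.S v θ := by
    intro i n
    refine C.ae_notMem_S v i _ ((Blocks.meas_abs_le n).inter
      (measurable_rho σ _ (C.measurableSet_Th w i))) ?_
    have hI : volume {s : ℝ | |s| ≤ n} ≠ ⊤ := by
      have : {s : ℝ | |s| ≤ n} = Icc (-(n : ℝ)) n := by ext s; simp [abs_le]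
      rw [this]; exact measure_Icc_lt_top.ne
    have h1 := cc (𝓝 v) {s : ℝ | |s| ≤ n} (Blocks.meas_abs_le n) hI (fun x => rho σ (x - w))
      (rho σ (v - w)) 2 zero_le_two
      (hnear.mono fun x hx => ⟨(measurable_rho σ _).aemeasurable,
        fun s _ t _ => (hspec σ hσ _ hx).2.2.1 s t⟩)
      (measurable_rho σ _).aemeasurable (fun s _ => by
        rw [tendsto_iff_dist_tendsto_zero]
        have h0 : Tendsto (fun x : ℂ => K * ‖x - w - (v - w)‖) (𝓝 v) (𝓝 0) := by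
          have : Continuous fun x : ℂ => K * ‖x - w - (v - w)‖ := by fun_prop
          simpa using this.tendsto v
        exact squeeze_zero' (Eventually.of_forall fun _ => dist_nonneg)
          (hnear.mono fun x hx => (hspec σ hσ _ hx).2.2.2.2 _ hvw.le s) h0)
      _ (C.measurableSet_Th w i)
    refine tendsto_of_tendsto_of_tendsto_of_le_of_le' tendsto_const_nhds
      (h1.mono_left inf_le_left) (Eventually.of_forall fun _ => zero_le) ?_
    have h2 := ae_circ _ (ae_iff.1 (C.blockY w))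
    filter_upwards [hnear.filter_mono inf_le_left, h2.filter_mono inf_le_right] with x hx hx'
    refine measure_mono_ae (hx'.mono fun s hs hsM => ⟨hsM.1.1, fun hiff => ?_⟩)
    have h3 := not_not.1 hs (rho σ (x - w) s) (by
      rw [← (hspec σ hσ _ hx).1 s]; congr 1; ring)
    rw [show C.c (x + e s) = i from hsM.2, mem_S] at h3
    exact h3 (hiff.2 hsM.1.2)
  have h : ∀ᵐ θ, ∀ (i : Fin 5) (n : ℕ),
      θ ∈ {s : ℝ | |s| ≤ n} ∩ rho σ (v - w) ⁻¹' C.Th w i → i ∉ C.S v θ := by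
    simpa only [ae_all_iff] using key
  refine h.mono fun θ hθ => Finset.disjoint_left.2 fun i hi hi' => ?_
  exact hθ i ⌈|θ|⌉₊ ⟨Nat.le_ceil |θ|, (C.mem_S _ _ _).1 hi'⟩ hi

/-- `pair_rho` with `v = w` -/
theorem s2 (v : ℂ) : ∀ᵐ θ, Disjoint (C.S v θ) (C.S v (θ + π / 3)) := by
  obtain ⟨τ₀, hτ₀, h⟩ := C.pair_rho
  have := h 1 (Or.inl rfl) v v (by simpa using hτ₀)
  simpa only [sub_self, rho_zero, one_mul] using this

end MCol

end Crest.Agent.R40
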