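import Crest.Agent.R40.Dens

/-!
# Row 40, task B2a: null sets and sums of two unit vectors
-/

set_option autoImplicit false

namespace Crest.Agent.R40
open MeasureTheory Set Filter Topology Metric
open scoped ENNReal Real

namespace Circ

/-- the sum map in real coordinates -/
noncomputable def Psi (v : ℂ) (p : ℝ × ℝ) : ℝ × ℝ :=
  (v.re + Real.cos p.1 + Real.cos p.2, v.im + Real.sin p.1 + Real.sin p.2)

/-- its derivative -/
noncomputable def dPsi (p : ℝ × ℝ) : ℝ × ℝ →L[ℝ] ℝ × ℝ :=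
  (Matrix.toLin (.finTwoProd ℝ) (.finTwoProd ℝ)
    !![-Real.sin p.1, -Real.sin p.2; Real.cos p.1, Real.cos p.2]).toContinuousLinearMap

lemma hasStrict_Psi (v : ℂ) (p : ℝ × ℝ) : HasStrictFDerivAt (Psi v) (dPsi p) p := by
  unfold dPsi Psi
  rw [Matrix.toLin_finTwoProd_toContinuousLinearMap]
  have c1 := (Real.hasStrictDerivAt_cos p.1).comp_hasStrictFDerivAt p
    (hasStrictFDerivAt_fst (𝕜 := ℝ) (p := p))
  have c2 := (Real.hasStrictDerivAt_cos p.2).comp_hasStrictFDerivAt p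
    (hasStrictFDerivAt_snd (𝕜 := ℝ) (p := p))
  have s1 := (Real.hasStrictDerivAt_sin p.1).comp_hasStrictFDerivAt p
    (hasStrictFDerivAt_fst (𝕜 := ℝ) (p := p))
  have s2 := (Real.hasStrictDerivAt_sin p.2).comp_hasStrictFDerivAt p
    (hasStrictFDerivAt_snd (𝕜 := ℝ) (p := p))
  exact HasStrictFDerivAt.prodMk ((c1.const_add v.re).add c2) ((s1.const_add v.im).add s2)

lemma det_dPsi (p : ℝ × ℝ) : (dPsi p).det = -Real.sin (p.1 - p.2) := by
  unfold dPsi
  simp only [LinearMap.det_toContinuousLinearMap, LinearMap.det_toLin, Matrix.det_fin_two_of,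
    Real.sin_sub]
  ring

lemma equiv_Phi (v : ℂ) (p : ℝ × ℝ) :
    Complex.measurableEquivRealProd (v + e p.1 + e p.2) = Psi v p := by
  simp [Psi, e_re, e_im]

lemma volume_image_eq (v : ℂ) (B : Set (ℝ × ℝ)) :
    volume ((fun p : ℝ × ℝ => v + e p.1 + e p.2) '' B) = volume (Psi v '' B) := by
  rw [← Complex.volume_preserving_equiv_real_prod.measure_preimage_equiv (Psi v '' B)]
  congr 1
  ext z
  simp only [mem_image, mem_preimage, ← equiv_Phi, EmbeddingLike.apply_eq_iff_eq]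

lemma continuous_Phi (v : ℂ) : Continuous fun p : ℝ × ℝ => v + e p.1 + e p.2 :=
  (continuous_const.add (continuous_e.comp continuous_fst)).add (continuous_e.comp continuous_snd)

lemma hasStrictDerivAt_e (θ : ℝ) : HasStrictDerivAt e (e θ * Complex.I) θ := by
  have h1 : HasStrictDerivAt (fun t : ℝ => (t : ℂ) * Complex.I) Complex.I θ := by
    simpa using (Complex.ofRealCLM.hasStrictDerivAt (x := θ)).mul_const Complex.I
  exact h1.cexp

lemma sin_null : volume {p : ℝ × ℝ | Real.sin (p.1 - p.2) = 0} = 0 := by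
  have hm : MeasurableSet {p : ℝ × ℝ | Real.sin (p.1 - p.2) = 0} :=
    (isClosed_eq (by fun_prop) continuous_const).measurableSet
  rw [Measure.volume_eq_prod, Measure.measure_prod_null hm]
  refine Eventually.of_forall fun θ => ?_
  refine Set.Countable.measure_zero ?_ _
  refine (countable_range fun n : ℤ => θ - n * π).mono fun φ hφ => ?_
  obtain ⟨n, hn⟩ := Real.sin_eq_zero_iff.1 (show Real.sin (θ - φ) = 0 from hφ)
  exact ⟨n, by simp only; linarith⟩

lemma null_image_of_locally {X : Type*} [TopologicalSpace X] [SecondCountableTopology X]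
    (M : Set X) (f : X → ℝ) (h : ∀ x ∈ M, ∃ U ∈ 𝓝[M] x, volume (f '' U) = 0) :
    volume (f '' M) = 0 := by
  choose! U hU h0 using h
  obtain ⟨t, htM, htc, hcov⟩ := TopologicalSpace.countable_cover_nhdsWithin hU
  refine measure_mono_null (image_mono hcov) ?_
  rw [image_iUnion₂]
  exact (measure_biUnion_null_iff htc).2 fun x hx => h0 x (htM hx)

lemma lip_image_null {g : ℝ → ℝ} {K : NNReal} {s : Set ℝ} (hg : LipschitzOnWith K g s)
    (hs : volume s = 0) : volume (g '' s) = 0 := by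
  have := hg.hausdorffMeasure_image_le (d := 1) zero_le_one
  rw [hausdorffMeasure_real, hs, mul_zero] at this
  exact le_antisymm this bot_le

lemma norm_sq_add (θ ψ : ℝ) : ‖e θ + e ψ‖ ^ 2 = 2 + 2 * Real.cos (θ - ψ) := by
  rw [Complex.sq_norm, Complex.normSq_apply, Complex.add_re, Complex.add_im, e_re, e_re, e_im,
    e_im, Real.cos_sub]
  nlinarith [Real.sin_sq_add_cos_sq θ, Real.sin_sq_add_cos_sq ψ]

lemma exists_e_of_norm {z : ℂ} (hz : ‖z‖ = 1) : ∃ ψ : ℝ, z = e ψ :=
  ⟨Complex.arg z, by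
    have := Complex.norm_mul_exp_arg_mul_I z
    rw [hz, Complex.ofReal_one, one_mul] at this
    exact this.symm⟩

end Circ

open Circ

/-- `Φ (θ, φ) = v + e θ + e φ` has Jacobian `|sin (θ - φ)| ≤ 1`
(`addHaar_image_le_lintegral_abs_det_fderiv`, transported along `Complex.equivRealProdCLM`,
`Complex.volume_preserving_equiv_real_prod`). -/
theorem img_le (v : ℂ) (B : Set (ℝ × ℝ)) (hB : MeasurableSet B) :
    volume ((fun p : ℝ × ℝ => v + e p.1 + e p.2) '' B) ≤ volume B := by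
  rw [volume_image_eq]
  refine (addHaar_image_le_lintegral_abs_det_fderiv volume hB
    (fun p _ => (hasStrict_Psi v p).hasFDerivAt.hasFDerivWithinAt)).trans ?_
  calc ∫⁻ p in B, ENNReal.ofReal |(dPsi p).det| ≤ ∫⁻ _ in B, 1 := by
        refine lintegral_mono fun p => ?_
        rw [det_dPsi, abs_neg]
        exact ENNReal.ofReal_le_one.2 (Real.abs_sin_le_one _)
    _ = volume B := by simp

theorem img_null (v : ℂ) (B : Set (ℝ × ℝ)) (hB : volume B = 0) :
    volume ((fun p : ℝ × ℝ => v + e p.1 + e p.2) '' B) = 0 := by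
  refine le_antisymm ?_ bot_le
  refine (measure_mono (image_mono (subset_toMeasurable volume B))).trans ?_
  refine (img_le v _ (measurableSet_toMeasurable _ _)).trans ?_
  rw [measure_toMeasurable, hB]

/-- inverse function theorem (`HasStrictFDerivAt.localInverse`) -/
theorem local_inv (θ₀ φ₀ : ℝ) (h : Real.sin (θ₀ - φ₀) ≠ 0) :
    ∃ (L : ℂ → ℝ × ℝ) (D : ℂ →L[ℝ] ℝ × ℝ), HasStrictFDerivAt L D (e θ₀ + e φ₀) ∧
      (∀ᶠ p : ℝ × ℝ in 𝓝 (θ₀, φ₀), L (e p.1 + e p.2) = p) ∧
      ∀ᶠ z in 𝓝 (e θ₀ + e φ₀), e (L z).1 + e (L z).2 = z := by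
  have hdet : (dPsi (θ₀, φ₀)).det ≠ 0 := by rw [det_dPsi]; exact neg_ne_zero.2 h
  let f' : (ℝ × ℝ) ≃L[ℝ] ℂ :=
    ((dPsi (θ₀, φ₀)).toContinuousLinearEquivOfDetNeZero hdet).trans Complex.equivRealProdCLM.symm
  have hf : HasStrictFDerivAt (fun p : ℝ × ℝ => e p.1 + e p.2) (f' : ℝ × ℝ →L[ℝ] ℂ) (θ₀, φ₀) := by
    have h1 := (Complex.equivRealProdCLM.symm : (ℝ × ℝ) →L[ℝ] ℂ).hasStrictFDerivAt.comp (θ₀, φ₀)
      (hasStrict_Psi 0 (θ₀, φ₀))
    have h2 : (fun p : ℝ × ℝ => e p.1 + e p.2) =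
        fun p => (Complex.equivRealProdCLM.symm : (ℝ × ℝ) →L[ℝ] ℂ) (Psi 0 p) := by
      funext p
      apply Complex.ext <;> simp [Psi, e_re, e_im, Complex.equivRealProdCLM_symm_apply,
        Complex.cos_ofReal_re, Complex.sin_ofReal_re]
    rw [h2]
    exact h1
  exact ⟨hf.localInverse _ _ _, _, hf.to_localInverse, hf.eventually_left_inverse,
    hf.eventually_right_inverse⟩

/-- Fubini and translation invariance (`toMeasurable`, `Measure.ae_ae_comm`) -/
theorem ae_circ (N : Set ℂ) (hN : volume N = 0) : ∀ᵐ x : ℂ, ∀ᵐ θ : ℝ, x + e θ ∉ N := by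
  have hm : MeasurableSet {q : ℂ × ℝ | q.1 + e q.2 ∉ toMeasurable volume N} :=
    (measurable_fst.add (measurable_e.comp measurable_snd)) (measurableSet_toMeasurable _ _).compl
  have h1 : ∀ᵐ x : ℂ, ∀ᵐ θ : ℝ, x + e θ ∉ toMeasurable volume N := by
    rw [Measure.ae_ae_comm hm]
    refine Eventually.of_forall fun θ => ?_
    have h0 : ∀ᵐ y : ℂ, y ∉ toMeasurable volume N :=
      measure_eq_zero_iff_ae_notMem.1 (by rw [measure_toMeasurable, hN])
    exact (measurePreserving_add_right volume (e θ)).quasiMeasurePreserving.ae h0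
  filter_upwards [h1] with x hx
  filter_upwards [hx] with θ hθ hN' using hθ (subset_toMeasurable _ _ hN')

/-- Proof. `{sin (θ - φ) = 0}` is null; near every other point `Φ` has a Lipschitz local inverse
(`local_inv`, `HasStrictFDerivAt.exists_lipschitzOnWith`; Lipschitz images of null sets are null),
Lindelöf. (Or `lintegral_abs_det_fderiv_le_addHaar_image` on pieces where `Φ` is injective.) -/
theorem ae_sum (v : ℂ) (N : Set ℂ) (hN : volume N = 0) :
    ∀ᵐ p : ℝ × ℝ, v + e p.1 + e p.2 ∉ N := by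
  set N' := toMeasurable volume N with hN'
  have hmN : MeasurableSet N' := measurableSet_toMeasurable _ _
  have h0 : volume N' = 0 := by rw [hN', measure_toMeasurable, hN]
  set S : Set (ℝ × ℝ) := {p | Real.sin (p.1 - p.2) ≠ 0 ∧ v + e p.1 + e p.2 ∈ N'} with hS
  have hSm : MeasurableSet S :=
    (isOpen_ne_fun (by fun_prop) continuous_const).measurableSet.inter
      ((continuous_Phi v).measurable hmN)
  have hS0 : volume S = 0 := by
    refine measure_null_of_locally_null S fun p₀ hp₀ => ?_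
    obtain ⟨L, D, -, hL, -⟩ := local_inv p₀.1 p₀.2 hp₀.1
    obtain ⟨U, hU, hUo, hp₀U⟩ := _root_.eventually_nhds_iff.1 hL
    refine ⟨S ∩ U, inter_mem_nhdsWithin S (hUo.mem_nhds hp₀U), ?_⟩
    have hm : MeasurableSet (S ∩ U) := hSm.inter hUo.measurableSet
    have hinj : InjOn (Psi v) (S ∩ U) := by
      intro p hp q hq hpq
      rw [← equiv_Phi, ← equiv_Phi, EmbeddingLike.apply_eq_iff_eq, add_assoc, add_assoc,
        add_right_inj] at hpq
      rw [← hU p hp.2, ← hU q hq.2, hpq]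
    have h1 := lintegral_abs_det_fderiv_le_addHaar_image volume hm
      (fun p _ => (hasStrict_Psi v p).hasFDerivAt.hasFDerivWithinAt) hinj
    have h2 : volume (Psi v '' (S ∩ U)) = 0 := by
      rw [← volume_image_eq]
      refine measure_mono_null ?_ h0
      rintro _ ⟨p, hp, rfl⟩
      exact hp.1.2
    rw [h2, nonpos_iff_eq_zero] at h1
    have hmeas : Measurable fun p : ℝ × ℝ => ENNReal.ofReal |(dPsi p).det| := by
      simp only [det_dPsi]
      fun_prop
    rw [lintegral_eq_zero_iff hmeas, EventuallyEq, ae_restrict_iff' hm] at h1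
    refine measure_eq_zero_iff_ae_notMem.2 ?_
    filter_upwards [h1] with p hp hpS
    have := hp hpS
    simp only [det_dPsi, Pi.zero_apply, ENNReal.ofReal_eq_zero, abs_neg, abs_nonpos_iff] at this
    exact hpS.1.1 this
  filter_upwards [measure_eq_zero_iff_ae_notMem.1 hS0, measure_eq_zero_iff_ae_notMem.1 sin_null]
    with p h1 h2 hp
  exact h1 ⟨h2, subset_toMeasurable _ _ hp⟩

/-- Proof. `z = c + e φ ≠ 0`; `‖z - e θ‖ = 1` forces `θ = arg z ± arccos (‖z‖/2) + 2πk`; on the open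
set `‖z‖ < 2` these are differentiable functions of `φ` (use `arg z` on `slitPlane` and
`arg (-z) + π` elsewhere); `addHaar_image_eq_zero_of_differentiableOn_of_addHaar_eq_zero`. -/
theorem img1_null (c : ℂ) (hc : ‖c‖ ≠ 1) (Φ : Set ℝ) (hΦ : volume Φ = 0) :
    volume {θ : ℝ | ∃ φ ∈ Φ, ‖c + e φ‖ < 2 ∧ ‖c + e φ - e θ‖ = 1} = 0 := by
  set M : Set ((ℝ × ℝ) × ℝ) :=
    {q | q.2 ∈ Φ ∧ Real.sin (q.1.1 - q.1.2) ≠ 0 ∧ e q.1.1 + e q.1.2 = c + e q.2} with hM
  have hsub : {θ : ℝ | ∃ φ ∈ Φ, ‖c + e φ‖ < 2 ∧ ‖c + e φ - e θ‖ = 1} ⊆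
      (fun q : (ℝ × ℝ) × ℝ => q.1.1) '' M := by
    rintro θ ⟨φ, hφ, h2, h1⟩
    obtain ⟨ψ, hψ⟩ := exists_e_of_norm h1
    have hsum : e θ + e ψ = c + e φ := by rw [← hψ]; ring
    refine ⟨((θ, ψ), φ), ⟨hφ, fun hs => ?_, hsum⟩, rfl⟩
    have hn := norm_sq_add θ ψ
    rw [hsum] at hn
    have hs' : Real.sin (θ - ψ) = 0 := hs
    rcases Real.sin_eq_zero_iff_cos_eq.1 hs' with hcos | hcos
    · rw [hcos] at hn
      nlinarith [norm_nonneg (c + e φ)]
    · rw [hcos] at hn
      have hz : c + e φ = 0 := by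
        rw [← norm_eq_zero]
        nlinarith [norm_nonneg (c + e φ)]
      apply hc
      rw [eq_neg_of_add_eq_zero_left hz, norm_neg, norm_e]
  refine measure_mono_null hsub (null_image_of_locally M _ fun q₀ hq₀ => ?_)
  obtain ⟨L, D, hD, hL, -⟩ := local_inv q₀.1.1 q₀.1.2 hq₀.2.1
  rw [hq₀.2.2] at hD
  have hg : HasStrictFDerivAt (fun φ : ℝ => (L (c + e φ)).1) _ q₀.2 :=
    (hD.comp q₀.2 ((hasStrictDerivAt_e q₀.2).hasStrictFDerivAt.const_add c)).fst
  obtain ⟨K, s, hs, hK⟩ := hg.exists_lipschitzOnWith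
  refine ⟨M ∩ {q | L (e q.1.1 + e q.1.2) = q.1 ∧ q.2 ∈ s}, inter_mem_nhdsWithin M ?_, ?_⟩
  · exact (continuous_fst.continuousAt.eventually hL).and
      (continuous_snd.continuousAt.eventually (show ∀ᶠ t in 𝓝 q₀.2, t ∈ s from hs))
  · refine measure_mono_null ?_ (lip_image_null (hK.mono (inter_subset_left (t := Φ)))
      (measure_mono_null inter_subset_right hΦ))
    rintro _ ⟨q, ⟨hq, hq1, hq2⟩, rfl⟩
    refine ⟨q.2, ⟨hq2, hq.1⟩, ?_⟩
    simp only
    rw [← hq.2.2, hq1]

/-- Proof. The image `ν` of Lebesgue measure on the box under `p ↦ e p.1 + e p.2` is finite,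
carried by `closedBall 0 2` and absolutely continuous (`ae_sum`), and the area of
`{z ∈ closedBall 0 2 | ¬ (x + z ∈ A ↔ v + z ∈ A)}` tends to `0`
(`tendsto_measure_symmDiff_preimage_nhds_zero` for `A ∩ ball v 4`); finish with the `ε-δ` form
of absolute continuity (`withDensity_rnDeriv_eq`, `tendsto_setLIntegral_zero`). -/
theorem transl_small (A : Set ℂ) (hA : MeasurableSet A) (v : ℂ) (K : ℝ) :
    Tendsto (fun x => volume {p : ℝ × ℝ | |p.1| ≤ K ∧ |p.2| ≤ K ∧
      ¬ (x + e p.1 + e p.2 ∈ A ↔ v + e p.1 + e p.2 ∈ A)}) (𝓝 v) (𝓝 0) := by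
  set box : Set (ℝ × ℝ) := {p | |p.1| ≤ K ∧ |p.2| ≤ K} with hbox
  have hboxm : MeasurableSet box :=
    ((isClosed_le continuous_fst.abs continuous_const).inter
      (isClosed_le continuous_snd.abs continuous_const)).measurableSet
  have hboxf : volume box ≠ ⊤ := by
    refine ne_top_of_le_ne_top (isCompact_closedBall (0 : ℝ × ℝ) K).measure_lt_top.ne
      (measure_mono fun p hp => ?_)
    rw [mem_closedBall_zero_iff, Prod.norm_def]
    exact max_le hp.1 hp.2
  set F : ℝ × ℝ → ℂ := fun p => 0 + e p.1 + e p.2 with hF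
  have hFm : Measurable F := (continuous_Phi 0).measurable
  set ν : Measure ℂ := (volume.restrict box).map F with hν
  have : IsFiniteMeasure (volume.restrict box) := isFiniteMeasure_restrict.2 hboxf
  have hac : ν ≪ volume := by
    refine Measure.AbsolutelyContinuous.mk fun N hNm hN => ?_
    rw [hν, Measure.map_apply hFm hNm]
    exact measure_mono_null Subset.rfl
      (Measure.absolutelyContinuous_restrict (measure_eq_zero_iff_ae_notMem.2 (ae_sum 0 N hN)))
  set A' : Set ℂ := A ∩ ball v 4 with hA'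
  have hA'm : MeasurableSet A' := hA.inter measurableSet_ball
  have hA'f : volume A' ≠ ⊤ :=
    ne_top_of_le_ne_top measure_ball_lt_top.ne (measure_mono inter_subset_right)
  let T : C(ℂ, C(ℂ, ℂ)) := ContinuousMap.curry ⟨fun q : ℂ × ℂ => q.1 + q.2, by fun_prop⟩
  have hT : ∀ x, MeasurePreserving (T x) volume volume := fun x =>
    measurePreserving_add_left volume x
  have h1 := tendsto_measure_symmDiff_preimage_nhds_zero (μ := volume) (ν := volume)
    (T.continuous.tendsto v) (Eventually.of_forall hT) (hT v) hA'm.nullMeasurableSet hA'f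
  have h2 := tendsto_setLIntegral_zero (μ := volume) (f := ν.rnDeriv volume)
    (Measure.lintegral_rnDeriv_lt_top ν volume).ne (l := 𝓝 v)
    (s := fun x => symmDiff (T x ⁻¹' A') (T v ⁻¹' A')) h1
  simp only [Measure.setLIntegral_rnDeriv hac] at h2
  refine tendsto_of_tendsto_of_tendsto_of_le_of_le' tendsto_const_nhds h2
    (Eventually.of_forall fun _ => bot_le) ?_
  filter_upwards [ball_mem_nhds v (by norm_num : (0 : ℝ) < 2)] with x hx
  have hm : MeasurableSet (symmDiff (T x ⁻¹' A') (T v ⁻¹' A')) :=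
    ((T x).continuous.measurable hA'm).symmDiff ((T v).continuous.measurable hA'm)
  rw [hν, Measure.map_apply hFm hm, Measure.restrict_apply (hFm hm)]
  refine measure_mono fun p hp => ⟨?_, hp.1, hp.2.1⟩
  have hn : ‖e p.1 + e p.2‖ ≤ 2 := (norm_add_le _ _).trans (by rw [norm_e, norm_e]; norm_num)
  have hb1 : x + (e p.1 + e p.2) ∈ ball v 4 := by
    rw [mem_ball_iff_norm] at hx ⊢
    calc ‖x + (e p.1 + e p.2) - v‖ = ‖(x - v) + (e p.1 + e p.2)‖ := by congr 1; ring
      _ ≤ ‖x - v‖ + ‖e p.1 + e p.2‖ := norm_add_le _ _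
      _ < 4 := by linarith
  have hb2 : v + (e p.1 + e p.2) ∈ ball v 4 := by
    rw [mem_ball_iff_norm, add_sub_cancel_left]
    linarith
  have h3 := hp.2.2
  rw [add_assoc, add_assoc] at h3
  have e1 : F p ∈ T x ⁻¹' A' ↔ x + (e p.1 + e p.2) ∈ A := by
    show x + (0 + e p.1 + e p.2) ∈ A ∩ ball v 4 ↔ _
    rw [zero_add]
    exact and_iff_left hb1
  have e2 : F p ∈ T v ⁻¹' A' ↔ v + (e p.1 + e p.2) ∈ A := by
    show v + (0 + e p.1 + e p.2) ∈ A ∩ ball v 4 ↔ _
    rw [zero_add]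
    exact and_iff_left hb2
  rw [mem_preimage, mem_symmDiff, e1, e2]
  tauto

theorem MCol.ae_proper (C : MCol) : ∀ᵐ x : ℂ, ∀ᵐ θ : ℝ, C.c x ≠ C.c (x + e θ) := by
  have hm : MeasurableSet {q : ℂ × ℝ | C.c q.1 ≠ C.c (q.1 + e q.2)} :=
    (measurableSet_eq_fun (C.meas.comp measurable_fst)
      (C.meas.comp (measurable_fst.add (measurable_e.comp measurable_snd)))).compl
  rw [Measure.ae_ae_comm hm]
  exact Eventually.of_forall fun θ => C.proper (e θ) (norm_e θ)

/-- for a.e. `x`, `θ`, `φ`: the points `x + e θ` and `x + e θ + e φ` have different colours -/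
theorem MCol.ae_proper₂ (C : MCol) :
    ∀ᵐ x : ℂ, ∀ᵐ p : ℝ × ℝ, C.c (x + e p.1) ≠ C.c (x + e p.1 + e p.2) := by
  have h1 : Measurable fun q : ℂ × (ℝ × ℝ) => q.1 + e q.2.1 :=
    measurable_fst.add (measurable_e.comp measurable_snd.fst)
  have hm : MeasurableSet
      {q : ℂ × (ℝ × ℝ) | C.c (q.1 + e q.2.1) ≠ C.c (q.1 + e q.2.1 + e q.2.2)} :=
    (measurableSet_eq_fun (C.meas.comp h1)
      (C.meas.comp (h1.add (measurable_e.comp measurable_snd.snd)))).compl
  rw [Measure.ae_ae_comm hm]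
  exact Eventually.of_forall fun p =>
    (measurePreserving_add_right volume (e p.1)).quasiMeasurePreserving.ae
      (C.proper (e p.2) (norm_e p.2))

end Crest.Agent.R40
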