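import Crest.Agent.R40.Defs

/-!
# Row 40, task E1: plane geometry near the unit circle about a point
-/

set_option autoImplicit false

namespace Crest.Agent.R40
open MeasureTheory Set Filter Topology Metric
open scoped ENNReal Real

namespace Geo

lemma e_add_e_neg (β : ℝ) : e β + e (-β) = ((2 * Real.cos β : ℝ) : ℂ) := by
  apply Complex.ext
  · simp only [Complex.add_re, e_re, Complex.ofReal_re, Real.cos_neg]; ring
  · simp only [Complex.add_im, e_im, Complex.ofReal_im, Real.sin_neg]; ring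

lemma eventually_iff_eta (θ : ℝ) (P : ℝ × ℝ → Prop) :
    (∀ᶠ p : ℝ × ℝ in 𝓝 θ ×ˢ 𝓝[>] 0, P p) ↔
      ∃ η > 0, ∀ θ' : ℝ, |θ' - θ| < η → ∀ t : ℝ, 0 < t → t < η → P (θ', t) := by
  constructor
  · intro h
    obtain ⟨pa, ha, pb, hb, hh⟩ := eventually_prod_iff.1 h
    obtain ⟨a, ha0, ha1⟩ := Metric.eventually_nhds_iff.1 ha
    obtain ⟨b, hb0, hb1⟩ := (mem_nhdsGT_iff_exists_Ioo_subset).1 hb
    refine ⟨min a b, lt_min ha0 hb0, fun θ' h1 t h2 h3 => hh (ha1 ?_) (hb1 ⟨h2, ?_⟩)⟩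
    · rw [Real.dist_eq]; exact h1.trans_le (min_le_left _ _)
    · exact h3.trans_le (min_le_right _ _)
  · rintro ⟨η, hη, h⟩
    refine eventually_prod_iff.2 ⟨fun θ' => |θ' - θ| < η, ?_, fun t => t ∈ Ioo (0 : ℝ) η,
      Ioo_mem_nhdsGT hη, fun {θ'} h1 {t} h2 => h θ' h1 t h2.1 h2.2⟩
    filter_upwards [Metric.ball_mem_nhds θ hη] with x hx
    simpa [Real.dist_eq] using hx

lemma eventually_eventually {θ : ℝ} {P : ℝ × ℝ → Prop}
    (h : ∀ᶠ p : ℝ × ℝ in 𝓝 θ ×ˢ 𝓝[>] 0, P p) :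
    ∀ᶠ θ' in 𝓝 θ, ∀ᶠ p : ℝ × ℝ in 𝓝 θ' ×ˢ 𝓝[>] 0, P p := by
  obtain ⟨pa, ha, pb, hb, hh⟩ := eventually_prod_iff.1 h
  filter_upwards [ha.eventually_nhds] with θ' h'
  exact eventually_prod_iff.2 ⟨pa, h', pb, hb, hh⟩

lemma le_nhds (θ : ℝ) : (𝓝 θ ×ˢ 𝓝[>] (0 : ℝ)) ≤ 𝓝 (θ, (0 : ℝ)) := by
  rw [nhds_prod_eq]
  exact prod_mono le_rfl nhdsWithin_le_nhds

lemma av_iff (X : Top) (v : ℂ) (θ σ : ℝ) (i : Fin 5) : X.Av v θ σ i ↔
    ∀ᶠ p : ℝ × ℝ in 𝓝 θ ×ˢ 𝓝[>] 0, v + ((1 + σ * p.2 : ℝ) : ℂ) * e p.1 ∉ X.F i :=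
  (eventually_iff_eta θ (fun p => v + ((1 + σ * p.2 : ℝ) : ℂ) * e p.1 ∉ X.F i)).symm

lemma eventually_all_av (X : Top) (v : ℂ) (θ σ : ℝ) (Q : Fin 5 → Prop)
    (h : ∀ k, Q k → X.Av v θ σ k) :
    ∀ᶠ p : ℝ × ℝ in 𝓝 θ ×ˢ 𝓝[>] 0, ∀ k, Q k → v + ((1 + σ * p.2 : ℝ) : ℂ) * e p.1 ∉ X.F k :=
  eventually_all.2 (fun k => eventually_all.2 (fun hk => (av_iff X v θ σ k).1 (h k hk)))

end Geo

/-- a vector of length `ρ ∈ [0,2]` is a sum of two unit vectors -/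
theorem polar_split (ρ θ : ℝ) (h0 : 0 ≤ ρ) (h2 : ρ ≤ 2) :
    (ρ : ℂ) * e θ = e (θ + Real.arccos (ρ / 2)) + e (θ - Real.arccos (ρ / 2)) := by
  have hc : Real.cos (Real.arccos (ρ / 2)) = ρ / 2 :=
    Real.cos_arccos (by linarith) (by linarith)
  rw [sub_eq_add_neg, e_add, e_add, ← mul_add, Geo.e_add_e_neg, hc]
  push_cast
  ring

/-- two different unit circles meet in countably many angles (at most two points) -/
theorem finite_circ (c : ℂ) (hc : c ≠ 0) : {z : ℂ | ‖z‖ = 1 ∧ ‖z - c‖ = 1}.Finite := by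
  classical
  let p : Polynomial ℂ := Polynomial.C ((starRingEnd ℂ) c) * Polynomial.X ^ 2
    - Polynomial.C (c * (starRingEnd ℂ) c) * Polynomial.X + Polynomial.C c
  have hp : p ≠ 0 := by
    intro h
    have h0 : p.eval 0 = 0 := by rw [h]; simp
    simp [p] at h0
    exact hc h0
  refine (p.roots.toFinset.finite_toSet).subset ?_
  rintro z ⟨h1, h2⟩
  simp only [Finset.mem_coe, Multiset.mem_toFinset, Polynomial.mem_roots hp, Polynomial.IsRoot.def]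
  have a1 : z * (starRingEnd ℂ) z = 1 := by
    rw [Complex.mul_conj, Complex.normSq_eq_norm_sq, h1]; simp
  have a2 : (z - c) * (starRingEnd ℂ) (z - c) = 1 := by
    rw [Complex.mul_conj, Complex.normSq_eq_norm_sq, h2]; simp
  rw [map_sub] at a2
  simp only [p, Polynomial.eval_add, Polynomial.eval_sub, Polynomial.eval_mul, Polynomial.eval_C,
    Polynomial.eval_pow, Polynomial.eval_X]
  linear_combination (-z) * a2 + (z - c) * a1

theorem countable_preimage_e (s : Set ℂ) (hs : s.Countable) : {θ : ℝ | e θ ∈ s}.Countable := by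
  have h1 : (Complex.exp ⁻¹' s).Countable := Complex.countable_preimage_exp.2 hs
  have hinj : Function.Injective (fun θ : ℝ => (θ : ℂ) * Complex.I) := by
    intro a b h
    have := mul_right_cancel₀ Complex.I_ne_zero h
    exact_mod_cast this
  exact h1.preimage_of_injOn hinj.injOn

/-- The unit circle about `e θ₁ + e θ₂` crosses the unit circle about `0` transversally at `e θ₁`.

Proof. `q ψ = e θ₁ + e θ₂ - e (θ₂ + ψ)` is on the circle, `q 0 = e θ₁`, and `‖q ψ‖²` has the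
nonzero derivative `2 sin (θ₂ - θ₁)` at `0`, so `‖q ψ‖ - 1` takes both signs near `0`; write
`q ψ = ‖q ψ‖ e (θ₁ + arg (q ψ * e (-θ₁)))`. (Or the law of cosines.) -/
theorem enter_side (θ₁ θ₂ σ η : ℝ) (hs : Real.sin (θ₁ - θ₂) ≠ 0) (hσ : σ = 1 ∨ σ = -1)
    (hη : 0 < η) : ∃ θ' t : ℝ, |θ' - θ₁| < η ∧ 0 < t ∧ t < η ∧
      ‖e θ₁ + e θ₂ - ((1 + σ * t : ℝ) : ℂ) * e θ'‖ = 1 := by
  -- the squared distance minus one
  obtain ⟨g, hg⟩ : ∃ g : ℝ → ℝ → ℝ, ∀ θ' t,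
      g θ' t = ‖e θ₁ + e θ₂ - ((1 + σ * t : ℝ) : ℂ) * e θ'‖ ^ 2 - 1 := ⟨_, fun _ _ => rfl⟩
  have hgc : Continuous (fun p : ℝ × ℝ => g p.1 p.2) := by
    have := continuous_e
    simp only [hg]
    fun_prop
  have hg0 : ∀ θ', g θ' 0 =
      2 + 2 * Real.cos (θ₁ - θ₂) - 2 * Real.cos (θ' - θ₁) - 2 * Real.cos (θ' - θ₂) := by
    intro θ'
    simp only [hg, mul_zero, add_zero, Complex.ofReal_one, one_mul]
    rw [Complex.sq_norm, Complex.normSq_apply]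
    simp only [Complex.sub_re, Complex.add_re, Complex.sub_im, Complex.add_im, e_re, e_im,
      Real.cos_sub]
    have h1 := Real.sin_sq_add_cos_sq θ₁
    have h2 := Real.sin_sq_add_cos_sq θ₂
    have h3 := Real.sin_sq_add_cos_sq θ'
    linear_combination h1 + h2 + h3
  have hder : HasDerivAt (fun θ' => g θ' 0) (2 * Real.sin (θ₁ - θ₂)) θ₁ := by
    have h1 : HasDerivAt (fun θ' : ℝ => Real.cos (θ' - θ₁)) (-Real.sin (θ₁ - θ₁) * 1) θ₁ :=
      ((hasDerivAt_id θ₁).sub_const θ₁).cos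
    have h2 : HasDerivAt (fun θ' : ℝ => Real.cos (θ' - θ₂)) (-Real.sin (θ₁ - θ₂) * 1) θ₁ :=
      ((hasDerivAt_id θ₁).sub_const θ₂).cos
    have h3 := (((h1.const_mul 2).const_sub (2 + 2 * Real.cos (θ₁ - θ₂))).sub (h2.const_mul 2))
    have h4 : (fun θ' => g θ' 0) = fun θ' => 2 + 2 * Real.cos (θ₁ - θ₂) -
        2 * Real.cos (θ' - θ₁) - 2 * Real.cos (θ' - θ₂) := funext hg0
    rw [h4]
    refine h3.congr_deriv ?_
    simp
  have hz : g θ₁ 0 = 0 := by rw [hg0]; simp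
  have hball : ∀ᶠ θ' in 𝓝 θ₁, |θ' - θ₁| < η := by
    have := Metric.ball_mem_nhds θ₁ hη
    filter_upwards [this] with x hx
    simpa [Real.dist_eq] using hx
  have hneg : ∃ a, |a - θ₁| < η ∧ g a 0 < 0 := by
    by_contra hcon
    push Not at hcon
    have hmin : IsLocalMin (fun θ' => g θ' 0) θ₁ := by
      filter_upwards [hball] with x hx
      rw [hz]; exact hcon x hx
    have := hmin.hasDerivAt_eq_zero hder
    exact hs (by linarith)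
  have hpos : ∃ b, |b - θ₁| < η ∧ 0 < g b 0 := by
    by_contra hcon
    push Not at hcon
    have hmax : IsLocalMax (fun θ' => g θ' 0) θ₁ := by
      filter_upwards [hball] with x hx
      rw [hz]; exact hcon x hx
    have := hmax.hasDerivAt_eq_zero hder
    exact hs (by linarith)
  obtain ⟨a, ha, hga⟩ := hneg
  obtain ⟨b, hb, hgb⟩ := hpos
  have hca : Continuous (fun t => g a t) := hgc.comp (Continuous.prodMk_right a)
  have hcb : Continuous (fun t => g b t) := hgc.comp (Continuous.prodMk_right b)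
  have e1 : ∀ᶠ t in 𝓝[>] (0 : ℝ), g a t < 0 :=
    nhdsWithin_le_nhds (hca.continuousAt.eventually_lt continuousAt_const hga)
  have e2 : ∀ᶠ t in 𝓝[>] (0 : ℝ), 0 < g b t :=
    nhdsWithin_le_nhds (continuousAt_const.eventually_lt hcb.continuousAt hgb)
  have e3 : ∀ᶠ t in 𝓝[>] (0 : ℝ), t ∈ Ioo (0 : ℝ) η := Ioo_mem_nhdsGT hη
  obtain ⟨t, ht1, ht2, ht3⟩ := (e1.and (e2.and e3)).exists
  have hct : Continuous (fun θ' => g θ' t) := hgc.comp (Continuous.prodMk_left t)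
  have hpc : IsPreconnected (Ioo (θ₁ - η) (θ₁ + η)) := isPreconnected_Ioo
  have hmem : ∀ x, |x - θ₁| < η ↔ x ∈ Ioo (θ₁ - η) (θ₁ + η) := by
    intro x
    rw [abs_lt, mem_Ioo]
    constructor <;> rintro ⟨h1, h2⟩ <;> constructor <;> linarith
  obtain ⟨θ', hθ', hg'⟩ := hpc.intermediate_value ((hmem a).1 ha) ((hmem b).1 hb)
    hct.continuousOn (show (0 : ℝ) ∈ Icc (g a t) (g b t) from ⟨ht1.le, ht2.le⟩)
  refine ⟨θ', t, (hmem θ').2 hθ', ht3.1, ht3.2, ?_⟩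
  have h5 : ‖e θ₁ + e θ₂ - ((1 + σ * t : ℝ) : ℂ) * e θ'‖ ^ 2 = 1 := by
    have h6 : g θ' t = 0 := hg'
    rw [hg] at h6
    linarith
  exact (pow_eq_one_iff_of_nonneg (norm_nonneg _) two_ne_zero).1 h5

/-- points near `e θ` are sums `e θ₁ + e θ₂` with `θ₁` near `θ ± π/3` -/
lemma Geo.near_split (θ σ ε : ℝ) (hε : ε = 1 ∨ ε = -1) {P : ℝ → Prop}
    (hP : ∀ᶠ θ₁ in 𝓝 (θ + ε * (π / 3)), P θ₁) :
    ∀ᶠ p : ℝ × ℝ in 𝓝 θ ×ˢ 𝓝[>] 0, ∃ θ₁ θ₂ : ℝ, P θ₁ ∧ Real.sin (θ₁ - θ₂) ≠ 0 ∧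
      ((1 + σ * p.2 : ℝ) : ℂ) * e p.1 = e θ₁ + e θ₂ := by
  have hβ0 : Real.arccos ((1 + σ * 0) / 2) = π / 3 := by
    have h1 : (1 + σ * 0) / 2 = Real.cos (π / 3) := by rw [Real.cos_pi_div_three]; ring
    rw [h1]
    exact Real.arccos_cos (by positivity) (by linarith [Real.pi_pos])
  have hβ : Tendsto (fun p : ℝ × ℝ => Real.arccos ((1 + σ * p.2) / 2)) (𝓝 θ ×ˢ 𝓝[>] 0)
      (𝓝 (π / 3)) := by
    have hc : Continuous (fun p : ℝ × ℝ => Real.arccos ((1 + σ * p.2) / 2)) :=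
      Real.continuous_arccos.comp (by fun_prop)
    have := (hc.tendsto (θ, 0)).mono_left (Geo.le_nhds θ)
    rwa [hβ0] at this
  have hρ : Tendsto (fun p : ℝ × ℝ => 1 + σ * p.2) (𝓝 θ ×ˢ 𝓝[>] 0) (𝓝 1) := by
    have hc : Continuous (fun p : ℝ × ℝ => 1 + σ * p.2) := by fun_prop
    have := (hc.tendsto (θ, 0)).mono_left (Geo.le_nhds θ)
    simpa using this
  have h1 : Tendsto (fun p : ℝ × ℝ => p.1 + ε * Real.arccos ((1 + σ * p.2) / 2))
      (𝓝 θ ×ˢ 𝓝[>] 0) (𝓝 (θ + ε * (π / 3))) := tendsto_fst.add (hβ.const_mul ε)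
  have hpi := Real.pi_pos
  filter_upwards [h1.eventually hP, hβ.eventually_const_lt (show (0 : ℝ) < π / 3 by positivity),
    hβ.eventually_lt_const (show π / 3 < π / 2 by linarith),
    hρ.eventually_const_lt (show (0 : ℝ) < 1 by norm_num),
    hρ.eventually_lt_const (show (1 : ℝ) < 2 by norm_num)] with p hp hb0 hb1 hr0 hr1
  have hsp := polar_split (1 + σ * p.2) p.1 hr0.le hr1.le
  set β := Real.arccos ((1 + σ * p.2) / 2) with hβdef
  have hsin : 0 < Real.sin (2 * β) := Real.sin_pos_of_pos_of_lt_pi (by linarith) (by linarith)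
  refine ⟨p.1 + ε * β, p.1 - ε * β, hp, ?_, ?_⟩
  · rcases hε with rfl | rfl
    · have : p.1 + 1 * β - (p.1 - 1 * β) = 2 * β := by ring
      rw [this]; exact hsin.ne'
    · have : p.1 + -1 * β - (p.1 - -1 * β) = -(2 * β) := by ring
      rw [this, Real.sin_neg]; exact neg_ne_zero.2 hsin.ne'
  · rw [hsp]
    rcases hε with rfl | rfl
    · simp
    · rw [add_comm]
      congr 2 <;> ring

namespace Top
variable (X : Top) (v : ℂ)

theorem isOpen_av (σ : ℝ) (i : Fin 5) : IsOpen {θ | X.Av v θ σ i} := by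
  rw [isOpen_iff_mem_nhds]
  intro θ hθ
  have := Geo.eventually_eventually ((Geo.av_iff X v θ σ i).1 hθ)
  filter_upwards [this] with θ' h'
  exact (Geo.av_iff X v θ' σ i).2 h'

theorem isOpen_solid (σ : ℝ) (i : Fin 5) : IsOpen {θ | X.Solid v θ σ i} := by
  have : {θ | X.Solid v θ σ i} = ⋂ j ∈ {j : Fin 5 | j ≠ i}, {θ | X.Av v θ σ j} := by
    ext θ; simp [Solid]
  rw [this]
  exact (Set.toFinite _).isOpen_biInter (fun j _ => X.isOpen_av v σ j)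

theorem av_add_two_pi (θ σ : ℝ) (i : Fin 5) : X.Av v (θ + 2 * π) σ i ↔ X.Av v θ σ i := by
  constructor
  · rintro ⟨η, hη, h⟩
    refine ⟨η, hη, fun θ' hθ' t ht0 ht => ?_⟩
    have := h (θ' + 2 * π) (by simpa using hθ') t ht0 ht
    rwa [e_add_two_pi] at this
  · rintro ⟨η, hη, h⟩
    refine ⟨η, hη, fun θ' hθ' t ht0 ht => ?_⟩
    have h1 : θ' - 2 * π - θ = θ' - (θ + 2 * π) := by ring
    have := h (θ' - 2 * π) (by rwa [h1]) t ht0 ht
    rwa [← e_add_two_pi, sub_add_cancel] at this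

theorem solid_add_two_pi (θ σ : ℝ) (i : Fin 5) :
    X.Solid v (θ + 2 * π) σ i ↔ X.Solid v θ σ i := by
  simp only [Solid, av_add_two_pi]

/-- by `X.cover` -/
theorem not_all_av (θ σ : ℝ) : ¬ ∀ i, X.Av v θ σ i := by
  intro h
  have h1 : ∀ᶠ p : ℝ × ℝ in 𝓝 θ ×ˢ 𝓝[>] 0, ∀ i, v + ((1 + σ * p.2 : ℝ) : ℂ) * e p.1 ∉ X.F i :=
    eventually_all.2 (fun i => (Geo.av_iff X v θ σ i).1 (h i))
  obtain ⟨p, hp⟩ := h1.exists
  obtain ⟨i, hi⟩ := X.cover (v + ((1 + σ * p.2 : ℝ) : ℂ) * e p.1)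
  exact hp i hi

/-- `enter_side` and `X.c2` -/
theorem notF_of_solid (θ₁ θ₂ σ : ℝ) (hs : Real.sin (θ₁ - θ₂) ≠ 0) (hσ : σ = 1 ∨ σ = -1)
    (i : Fin 5) (h : X.Solid v θ₁ σ i) : v + e θ₁ + e θ₂ ∉ X.F i := by
  obtain ⟨η, hη, hh⟩ := (Geo.eventually_iff_eta _ _).1 (Geo.eventually_all_av X v θ₁ σ _ h)
  obtain ⟨θ', t, h1, h2, h3, h4⟩ := enter_side θ₁ θ₂ σ η hs hσ hη
  refine X.c2 i (v + ((1 + σ * t : ℝ) : ℂ) * e θ') _ ?_ (hh θ' h1 t h2 h3)
  rw [← norm_neg]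
  refine Eq.trans ?_ h4
  congr 1
  ring

/-- `enter_side` and `X.c3` -/
theorem notF_pair (θ₁ θ₂ σ : ℝ) (hs : Real.sin (θ₁ - θ₂) ≠ 0) (hσ : σ = 1 ∨ σ = -1)
    (i j : Fin 5) (hij : i ≠ j) (h : ∀ k, k ≠ i → k ≠ j → X.Av v θ₁ σ k)
    (hz : ∀ k, k ≠ i → k ≠ j → v + e θ₁ + e θ₂ ∉ X.F k) :
    v + e θ₁ + e θ₂ ∉ X.F i ∨ v + e θ₁ + e θ₂ ∉ X.F j := by
  have h' : ∀ k, (k ≠ i ∧ k ≠ j) → X.Av v θ₁ σ k := fun k hk => h k hk.1 hk.2
  obtain ⟨η, hη, hh⟩ := (Geo.eventually_iff_eta _ _).1 (Geo.eventually_all_av X v θ₁ σ _ h')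
  obtain ⟨θ', t, h1, h2, h3, h4⟩ := enter_side θ₁ θ₂ σ η hs hσ hη
  refine X.c3 i j _ (v + ((1 + σ * t : ℝ) : ℂ) * e θ') hij ?_ hz
    (fun k hki hkj => hh θ' h1 t h2 h3 k ⟨hki, hkj⟩)
  refine Eq.trans ?_ h4
  congr 1
  ring

/-- Proof. A point `z = v + ρ e θ'` near `v + e θ` is `v + e (θ' + β) + e (θ' - β)` with
`β = arccos (ρ/2)` near `π/3` (`polar_split`); `θ' + ε β` is near `θ + ε π/3`, hence still solid
(`isOpen_solid`), so `notF_of_solid` applies. -/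
theorem av_of_solid (θ σ σ' ε : ℝ) (hσ : σ = 1 ∨ σ = -1) (hσ' : σ' = 1 ∨ σ' = -1)
    (hε : ε = 1 ∨ ε = -1) (i : Fin 5) (h : X.Solid v (θ + ε * (π / 3)) σ' i) : X.Av v θ σ i := by
  have hn : ∀ᶠ θ₁ in 𝓝 (θ + ε * (π / 3)), X.Solid v θ₁ σ' i :=
    (X.isOpen_solid v σ' i).mem_nhds h
  rw [Geo.av_iff]
  filter_upwards [Geo.near_split θ σ ε hε hn] with p hp
  obtain ⟨θ₁, θ₂, h1, h2, h3⟩ := hp
  rw [h3, ← add_assoc]
  exact X.notF_of_solid v θ₁ θ₂ σ' h2 hσ' i h1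

/-- Proof. The half neighbourhood is the continuous image of a rectangle (preconnected), covered by
the closed sets `F i`, `F j`, which are disjoint on it. -/
theorem solid_of_half (θ σ : ℝ) (i j : Fin 5) (hij : i ≠ j)
    (h : ∀ k, k ≠ i → k ≠ j → X.Av v θ σ k)
    (h2 : ∃ η > 0, ∀ θ' : ℝ, |θ' - θ| < η → ∀ t : ℝ, 0 < t → t < η →
      v + ((1 + σ * t : ℝ) : ℂ) * e θ' ∉ X.F i ∨ v + ((1 + σ * t : ℝ) : ℂ) * e θ' ∉ X.F j) :
    X.Solid v θ σ i ∨ X.Solid v θ σ j := by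
  have h' : ∀ k, (k ≠ i ∧ k ≠ j) → X.Av v θ σ k := fun k hk => h k hk.1 hk.2
  have h3 : ∀ᶠ p : ℝ × ℝ in 𝓝 θ ×ˢ 𝓝[>] 0, v + ((1 + σ * p.2 : ℝ) : ℂ) * e p.1 ∉ X.F i ∨
      v + ((1 + σ * p.2 : ℝ) : ℂ) * e p.1 ∉ X.F j := (Geo.eventually_iff_eta _ _).2 h2
  obtain ⟨η, hη, hh⟩ := (Geo.eventually_iff_eta _ _).1
    ((Geo.eventually_all_av X v θ σ _ h').and h3)
  let f : ℝ × ℝ → ℂ := fun p => v + ((1 + σ * p.2 : ℝ) : ℂ) * e p.1
  have hf : Continuous f := by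
    have := continuous_e
    simp only [f]
    fun_prop
  have hpc : IsPreconnected (ball θ η ×ˢ Ioo (0 : ℝ) η) :=
    (convex_ball θ η).isPreconnected.prod isPreconnected_Ioo
  have hS : ∀ p ∈ ball θ η ×ˢ Ioo (0 : ℝ) η,
      (∀ k, (k ≠ i ∧ k ≠ j) → f p ∉ X.F k) ∧ (f p ∉ X.F i ∨ f p ∉ X.F j) := by
    rintro ⟨θ', t⟩ ⟨hp1, hp2⟩
    exact hh θ' (by simpa [Real.dist_eq] using hp1) t hp2.1 hp2.2
  have hsub : ball θ η ×ˢ Ioo (0 : ℝ) η ⊆ f ⁻¹' X.F i ∪ f ⁻¹' X.F j := by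
    intro p hp
    obtain ⟨k, hk⟩ := X.cover (f p)
    by_cases hki : k = i
    · left; rw [← hki]; exact hk
    by_cases hkj : k = j
    · right; rw [← hkj]; exact hk
    exact absurd hk ((hS p hp).1 k ⟨hki, hkj⟩)
  have hdisj : (ball θ η ×ˢ Ioo (0 : ℝ) η) ∩ (f ⁻¹' X.F i ∩ f ⁻¹' X.F j) = ∅ := by
    rw [Set.eq_empty_iff_forall_notMem]
    rintro p ⟨hp, hi, hj⟩
    rcases (hS p hp).2 with h4 | h4
    · exact h4 hi
    · exact h4 hj
  have hmem : ∀ θ' t : ℝ, |θ' - θ| < η → 0 < t → t < η →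
      (θ', t) ∈ ball θ η ×ˢ Ioo (0 : ℝ) η := fun θ' t h1 h2 h3 =>
    ⟨by simpa [Real.dist_eq] using h1, h2, h3⟩
  rcases isPreconnected_iff_subset_of_disjoint_closed.1 hpc _ _ ((X.closed i).preimage hf)
    ((X.closed j).preimage hf) hsub hdisj with h4 | h4
  · left
    intro k hki
    by_cases hkj : k = j
    · subst hkj
      refine ⟨η, hη, fun θ' h1 t h2 h3 => ?_⟩
      have hp := hmem θ' t h1 h2 h3
      exact ((hS _ hp).2).resolve_left (not_not.2 (h4 hp))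
    · exact h k hki hkj
  · right
    intro k hkj
    by_cases hki : k = i
    · subst hki
      refine ⟨η, hη, fun θ' h1 t h2 h3 => ?_⟩
      have hp := hmem θ' t h1 h2 h3
      exact ((hS _ hp).2).resolve_right (not_not.2 (h4 hp))
    · exact h k hki hkj

/-- as `av_of_solid`, with `notF_pair` and `solid_of_half` -/
theorem solid_of_pair (θ σ σ' ε : ℝ) (hσ : σ = 1 ∨ σ = -1) (hσ' : σ' = 1 ∨ σ' = -1)
    (hε : ε = 1 ∨ ε = -1) (i j : Fin 5) (hij : i ≠ j)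
    (h : ∀ k, k ≠ i → k ≠ j → X.Av v θ σ k)
    (h' : ∀ k, k ≠ i → k ≠ j → X.Av v (θ + ε * (π / 3)) σ' k) :
    X.Solid v θ σ i ∨ X.Solid v θ σ j := by
  have h0 : ∀ k, (k ≠ i ∧ k ≠ j) → X.Av v θ σ k := fun k hk => h k hk.1 hk.2
  have hn : ∀ᶠ θ₁ in 𝓝 (θ + ε * (π / 3)), ∀ k, k ≠ i → k ≠ j → X.Av v θ₁ σ' k := by
    refine eventually_all.2 (fun k => eventually_all.2 (fun hki => eventually_all.2 (fun hkj => ?_)))
    exact (X.isOpen_av v σ' k).mem_nhds (h' k hki hkj)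
  refine X.solid_of_half v θ σ i j hij h ((Geo.eventually_iff_eta θ (fun p : ℝ × ℝ =>
    v + ((1 + σ * p.2 : ℝ) : ℂ) * e p.1 ∉ X.F i ∨
      v + ((1 + σ * p.2 : ℝ) : ℂ) * e p.1 ∉ X.F j)).1 ?_)
  filter_upwards [Geo.near_split θ σ ε hε hn, Geo.eventually_all_av X v θ σ _ h0] with p hp hq
  obtain ⟨θ₁, θ₂, h1, h2, h3⟩ := hp
  rw [h3, ← add_assoc] at hq ⊢
  exact X.notF_pair v θ₁ θ₂ σ' h2 hσ' i j hij h1 (fun k hki hkj => hq k ⟨hki, hkj⟩)

/-- points just outside (inside) the unit circle about `v` and inside (outside) the one about `p` -/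
theorem av_of_block (L : Finset (Fin 5)) (p : ℂ) (hB : Block X.F L v p) (θ : ℝ) :
    (‖v + e θ - p‖ < 1 → ∀ i ∈ L, X.Av v θ 1 i) ∧
      (1 < ‖v + e θ - p‖ → ∀ i ∈ L, X.Av v θ (-1) i) := by
  have key : ∀ σ : ℝ, Tendsto (fun q : ℝ × ℝ => ‖v + ((1 + σ * q.2 : ℝ) : ℂ) * e q.1 - p‖)
      (𝓝 θ ×ˢ 𝓝[>] 0) (𝓝 ‖v + e θ - p‖) := by
    intro σ
    have hc : Continuous (fun q : ℝ × ℝ => ‖v + ((1 + σ * q.2 : ℝ) : ℂ) * e q.1 - p‖) := by
      have := continuous_e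
      fun_prop
    have := (hc.tendsto (θ, 0)).mono_left (Geo.le_nhds θ)
    simpa using this
  have ht : ∀ᶠ q : ℝ × ℝ in 𝓝 θ ×ˢ 𝓝[>] 0, q.2 ∈ Ioo (0 : ℝ) 1 :=
    tendsto_snd.eventually (Ioo_mem_nhdsGT one_pos)
  constructor
  · intro h i hi
    rw [Geo.av_iff]
    filter_upwards [(key 1).eventually_lt_const h, ht] with q h1 h2
    refine hB _ ?_ i hi
    rw [add_sub_cancel_left, norm_mul, norm_e, Complex.norm_real, Real.norm_eq_abs,
      abs_of_pos (by linarith [h2.1])]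
    exact mul_neg_of_pos_of_neg (by linarith [h2.1]) (by linarith)
  · intro h i hi
    rw [Geo.av_iff]
    filter_upwards [(key (-1)).eventually_const_lt h, ht] with q h1 h2
    refine hB _ ?_ i hi
    rw [add_sub_cancel_left, norm_mul, norm_e, Complex.norm_real, Real.norm_eq_abs,
      abs_of_pos (by linarith [h2.2])]
    exact mul_neg_of_neg_of_pos (by linarith [h2.1]) (by linarith)

/-- Proof. `p_n - v = s_n e φ_n` with `s_n → 0`, `φ_n ∈ [-π, π]`, a subsequence `φ_n → φ`;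
`‖e θ - s e φ_n‖² = 1 - 2 s cos (θ - φ_n) + s²`; use `av_of_block` with `n` large. -/
theorem dir_of_arms (L : Finset (Fin 5)) (ρ : ℝ) (hρ : 0 < ρ)
    (h : ∀ s, 0 < s → s < ρ → ∃ p, ‖p - v‖ = s ∧ Block X.F L v p) : ∃ φ, X.Dir v L φ := by
  let s : ℕ → ℝ := fun n => ρ / 2 * (1 / ((n : ℝ) + 1))
  have hs0 : ∀ n, 0 < s n := fun n => by simp only [s]; positivity
  have hs1 : ∀ n, s n < ρ := fun n => by
    have h1 : 1 / ((n : ℝ) + 1) ≤ 1 := by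
      rw [div_le_one (by positivity)]
      have : (0 : ℝ) ≤ n := Nat.cast_nonneg n
      linarith
    have h2 : ρ / 2 * (1 / ((n : ℝ) + 1)) ≤ ρ / 2 * 1 :=
      mul_le_mul_of_nonneg_left h1 (by positivity)
    simp only [s]
    linarith
  have hst : Tendsto s atTop (𝓝 0) := by
    have := (tendsto_one_div_add_atTop_nhds_zero_nat (𝕜 := ℝ)).const_mul (ρ / 2)
    simpa [s] using this
  choose p hp hB using fun n => h (s n) (hs0 n) (hs1 n)
  let φ : ℕ → ℝ := fun n => Complex.arg (p n - v)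
  have hφ : ∀ n, φ n ∈ Icc (-π) π := fun n =>
    ⟨(Complex.neg_pi_lt_arg _).le, Complex.arg_le_pi _⟩
  obtain ⟨φ₀, -, u, hu, hlim⟩ := isCompact_Icc.tendsto_subseq hφ
  have hpol : ∀ n, p n = v + (s n : ℂ) * e (φ n) := fun n => by
    have := Complex.norm_mul_exp_arg_mul_I (p n - v)
    rw [hp n] at this
    simp only [e, φ]
    rw [this]; ring
  have hsq : ∀ n θ, ‖v + e θ - p n‖ ^ 2 = 1 - s n * (2 * Real.cos (θ - φ n) - s n) := by
    intro n θ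
    have h1 : v + e θ - p n = e θ - (s n : ℂ) * e (φ n) := by rw [hpol n]; ring
    rw [h1, Complex.sq_norm, Complex.normSq_apply]
    simp only [Complex.sub_re, Complex.sub_im, Complex.re_ofReal_mul, Complex.im_ofReal_mul,
      e_re, e_im, Real.cos_sub]
    have h2 := Real.sin_sq_add_cos_sq θ
    have h3 := Real.sin_sq_add_cos_sq (φ n)
    linear_combination h2 + (s n) ^ 2 * h3
  refine ⟨φ₀, fun θ => ?_⟩
  have hT : Tendsto (fun n => 2 * Real.cos (θ - φ (u n)) - s (u n)) atTop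
      (𝓝 (2 * Real.cos (θ - φ₀) - 0)) := by
    refine Tendsto.sub (Tendsto.const_mul 2 ?_) (hst.comp hu.tendsto_atTop)
    exact (Real.continuous_cos.tendsto _).comp (tendsto_const_nhds.sub hlim)
  constructor
  · intro hc
    obtain ⟨n, hn⟩ := (hT.eventually_const_lt (show (0 : ℝ) < _ by linarith)).exists
    refine (X.av_of_block v L (p (u n)) (hB (u n)) θ).1 ?_
    have h1 := hsq (u n) θ
    have h2 := mul_pos (hs0 (u n)) hn
    exact (pow_lt_one_iff_of_nonneg (norm_nonneg _) two_ne_zero).1 (by linarith)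
  · intro hc
    obtain ⟨n, hn⟩ := (hT.eventually_lt_const (show _ < (0 : ℝ) by linarith)).exists
    refine (X.av_of_block v L (p (u n)) (hB (u n)) θ).2 ?_
    have h1 := hsq (u n) θ
    have h2 := mul_neg_of_pos_of_neg (hs0 (u n)) hn
    exact (one_lt_pow_iff_of_nonneg (norm_nonneg _) two_ne_zero).1 (by linarith)

end Top

end Crest.Agent.R40
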