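import Crest.Agent.R40.Blocks
import Crest.Agent.R40.Geo

/-!
# Row 40, task C5: crossing circles
-/

set_option autoImplicit false

namespace Crest.Agent.R40
open MeasureTheory Set Filter Topology Metric
open scoped ENNReal Real

namespace Cross

lemma normsq_zero (θ φ t : ℝ) :
    ‖e θ + e (θ + π + t) - e φ‖ ^ 2 =
      1 + 2 * (1 - Real.cos t) * (1 - Real.cos (θ - φ)) - 2 * Real.sin (θ - φ) * Real.sin t := by
  rw [Complex.sq_norm, Complex.normSq_apply]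
  simp only [Complex.sub_re, Complex.add_re, Complex.sub_im, Complex.add_im, e_re, e_im]
  have h1 : Real.cos (θ + π + t) = -(Real.cos θ * Real.cos t - Real.sin θ * Real.sin t) := by
    rw [show θ + π + t = (θ + t) + π by ring, Real.cos_add_pi, Real.cos_add]
  have h2 : Real.sin (θ + π + t) = -(Real.sin θ * Real.cos t + Real.cos θ * Real.sin t) := by
    rw [show θ + π + t = (θ + t) + π by ring, Real.sin_add_pi, Real.sin_add]
  rw [h1, h2, Real.cos_sub, Real.sin_sub]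
  have a := Real.sin_sq_add_cos_sq θ
  have b := Real.sin_sq_add_cos_sq φ
  have c := Real.sin_sq_add_cos_sq t
  linear_combination (1 + Real.sin t ^ 2 + Real.cos t ^ 2 - 2 * Real.cos t) * a + b + c

lemma norm_add_le_abs (θ t : ℝ) : ‖e θ + e (θ + π + t)‖ ≤ |t| := by
  have h : ‖e θ + e (θ + π + t)‖ ^ 2 = 2 - 2 * Real.cos t := by
    rw [Complex.sq_norm, Complex.normSq_apply]
    simp only [Complex.add_re, Complex.add_im, e_re, e_im]
    have h1 : Real.cos (θ + π + t) = -(Real.cos θ * Real.cos t - Real.sin θ * Real.sin t) := by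
      rw [show θ + π + t = (θ + t) + π by ring, Real.cos_add_pi, Real.cos_add]
    have h2 : Real.sin (θ + π + t) = -(Real.sin θ * Real.cos t + Real.cos θ * Real.sin t) := by
      rw [show θ + π + t = (θ + t) + π by ring, Real.sin_add_pi, Real.sin_add]
    rw [h1, h2]
    have a := Real.sin_sq_add_cos_sq θ
    have c := Real.sin_sq_add_cos_sq t
    linear_combination (1 + Real.sin t ^ 2 + Real.cos t ^ 2 - 2 * Real.cos t) * a + c
  have h3 := Real.one_sub_sq_div_two_le_cos (x := t)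
  refine (abs_le_of_sq_le_sq' ?_ (abs_nonneg t)).2
  rw [h, sq_abs]; linarith

/-- the angles nearly parallel to `θ` have uniformly small length -/
lemma exists_kappa (μ : ℝ≥0∞) (hμ : μ ≠ 0) :
    ∃ κ > 0, ∀ θ : ℝ, volume ({φ | |Real.sin (θ - φ)| < κ} ∩ Icc 0 (2 * π)) < μ := by
  let T : ℕ → Set ℝ := fun n =>
    {x | |Real.sin x| < 1 / ((n : ℝ) + 1)} ∩ Icc (-(2 * π)) (2 * π)
  have hTm : ∀ n, MeasurableSet (T n) := fun n =>
    (isOpen_lt (by fun_prop) continuous_const).measurableSet.inter measurableSet_Icc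
  have hanti : Antitone T := by
    intro n k hnk x hx
    have h1 : |Real.sin x| < 1 / ((k : ℝ) + 1) := hx.1
    exact ⟨lt_of_lt_of_le h1 (Nat.one_div_le_one_div hnk), hx.2⟩
  have hfin : ∃ n, volume (T n) ≠ ⊤ :=
    ⟨0, ne_top_of_le_ne_top (by simp) (measure_mono inter_subset_right)⟩
  have hlim := tendsto_measure_iInter_atTop (μ := volume) (fun n => (hTm n).nullMeasurableSet)
    hanti hfin
  have h0 : volume (⋂ n, T n) = 0 := by
    have hc : (range (fun k : ℤ => (k : ℝ) * π)).Countable := countable_range _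
    refine measure_mono_null ?_ (hc.measure_zero _)
    intro x hx
    rw [mem_iInter] at hx
    have : Real.sin x = 0 := by
      by_contra hne
      obtain ⟨n, hn⟩ := exists_nat_one_div_lt (abs_pos.2 hne)
      exact absurd (hx n).1 (not_lt.2 hn.le)
    obtain ⟨k, hk⟩ := Real.sin_eq_zero_iff.1 this
    exact ⟨k, hk⟩
  rw [h0] at hlim
  obtain ⟨n, hn⟩ := (hlim.eventually (gt_mem_nhds (pos_iff_ne_zero.2 hμ))).exists
  refine ⟨1 / ((n : ℝ) + 1), Nat.one_div_pos_of_nat, fun θ => ?_⟩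
  have hp : (0 : ℝ) < 2 * π := by positivity
  set θ' := toIcoMod hp 0 θ with hθ'
  have hmem : θ' ∈ Ico 0 (0 + 2 * π) := toIcoMod_mem_Ico hp 0 θ
  have hsin : ∀ φ, Real.sin (θ - φ) = Real.sin (θ' - φ) := by
    intro φ
    have h := toIcoMod_add_toIcoDiv_zsmul hp 0 θ
    rw [← hθ', zsmul_eq_mul] at h
    rw [← h, show θ' + (toIcoDiv hp 0 θ : ℝ) * (2 * π) - φ =
      (θ' - φ) + (toIcoDiv hp 0 θ : ℝ) * (2 * π) by ring, Real.sin_add_int_mul_two_pi]
  refine lt_of_le_of_lt ?_ hn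
  calc volume ({φ | |Real.sin (θ - φ)| < 1 / ((n : ℝ) + 1)} ∩ Icc 0 (2 * π))
      ≤ volume ((fun φ => θ' - φ) ⁻¹' T n) := by
        refine measure_mono fun φ hφ => ⟨?_, ?_, ?_⟩
        · have := hφ.1
          simp only [mem_ofPred_eq] at this ⊢
          rwa [hsin] at this
        · linarith [hφ.2.2, hmem.1]
        · linarith [hφ.2.1, hmem.2]
    _ = volume (T n) := (Measure.measurePreserving_sub_left volume θ').measure_preimage (hTm n).nullMeasurableSet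

end Cross

/-- Two unit circles passing near each other at a definite angle meet nearby.

Proof. `ψ = θ + π + t`, `h t = ‖τ + e θ + e ψ - e φ‖² - 1`; for `τ = 0`,
`h t = 2 - 2 cos t - 2 cos (θ - φ) + 2 cos (θ - φ + t) = -2 t sin (θ - φ) + O(t²)`, so `h` has
opposite signs (with a margin depending on `κ`, `t₀` only) at `t = ± t₀`, `t₀ ≤ r` small; the margin
survives for `‖τ‖ < η`; intermediate value theorem; `‖e θ + e ψ‖ ≤ |t|`. -/
theorem circles_meet (κ r : ℝ) (hκ : 0 < κ) (hr : 0 < r) : ∃ η > 0, ∀ (τ : ℂ) (θ φ : ℝ),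
    ‖τ‖ < η → κ ≤ |Real.sin (θ - φ)| →
      ∃ ψ, ‖e θ + e ψ‖ ≤ r ∧ ‖τ + e θ + e ψ - e φ‖ = 1 := by
  set t₀ := min r (min (κ / 4) 1) with ht₀
  have ht0 : 0 < t₀ := by positivity
  have htr : t₀ ≤ r := min_le_left _ _
  have htκ : t₀ ≤ κ / 4 := (min_le_right _ _).trans (min_le_left _ _)
  have ht1 : t₀ ≤ 1 := (min_le_right _ _).trans (min_le_right _ _)
  refine ⟨κ * t₀ / 8, by positivity, fun τ θ φ hτ hsin => ?_⟩
  have hκ1 : κ ≤ 1 := hsin.trans (Real.abs_sin_le_one _)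
  have hs0 : t₀ / 2 ≤ Real.sin t₀ := by
    have h := Real.sin_gt_sub_cube ht0
    nlinarith [mul_le_mul ht1 ht1 ht0.le zero_le_one, mul_pos ht0 ht0]
  have hc0 : 1 - Real.cos t₀ ≤ t₀ ^ 2 / 2 := by
    linarith [Real.one_sub_sq_div_two_le_cos (x := t₀)]
  have hc1 : 0 ≤ 1 - Real.cos t₀ := by linarith [Real.cos_le_one t₀]
  have hd0 : 0 ≤ 1 - Real.cos (θ - φ) := by linarith [Real.cos_le_one (θ - φ)]
  have hd1 : 1 - Real.cos (θ - φ) ≤ 2 := by linarith [Real.neg_one_le_cos (θ - φ)]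
  let g : ℝ → ℝ := fun t => ‖τ + e θ + e (θ + π + t) - e φ‖
  have hg : Continuous g := by
    have := continuous_e
    fun_prop
  have hκt : 0 < κ * t₀ := by positivity
  have hκt1 : κ * t₀ ≤ 1 := by nlinarith
  -- the two signs
  have key : ∀ t : ℝ, Real.cos t = Real.cos t₀ →
      (κ * (t₀ / 2) ≤ Real.sin (θ - φ) * Real.sin t → g t < 1) ∧
      (Real.sin (θ - φ) * Real.sin t ≤ -(κ * (t₀ / 2)) → 1 < g t) := by
    intro t hct
    have hn := Cross.normsq_zero θ φ t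
    rw [hct] at hn
    have hnn := norm_nonneg (e θ + e (θ + π + t) - e φ)
    have heq : τ + e θ + e (θ + π + t) - e φ = τ + (e θ + e (θ + π + t) - e φ) := by ring
    constructor
    · intro h
      have h1 : 2 * (1 - Real.cos t₀) * (1 - Real.cos (θ - φ)) ≤ 2 * t₀ ^ 2 := by nlinarith
      have h2 : ‖e θ + e (θ + π + t) - e φ‖ ^ 2 ≤ (1 - κ * t₀ / 4) ^ 2 := by
        rw [hn]; nlinarith [sq_nonneg (κ * t₀)]
      have h3 : ‖e θ + e (θ + π + t) - e φ‖ ≤ 1 - κ * t₀ / 4 :=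
        (abs_le_of_sq_le_sq' h2 (by linarith)).2
      have h4 := norm_add_le τ (e θ + e (θ + π + t) - e φ)
      show ‖τ + e θ + e (θ + π + t) - e φ‖ < 1
      rw [heq]; linarith
    · intro h
      have h1 : 0 ≤ 2 * (1 - Real.cos t₀) * (1 - Real.cos (θ - φ)) := by positivity
      have h2 : (1 + κ * t₀ / 8) ^ 2 ≤ ‖e θ + e (θ + π + t) - e φ‖ ^ 2 := by
        rw [hn]; nlinarith
      have h3 : 1 + κ * t₀ / 8 ≤ ‖e θ + e (θ + π + t) - e φ‖ :=
        (abs_le_of_sq_le_sq' h2 hnn).2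
      have h4 : ‖e θ + e (θ + π + t) - e φ‖ ≤ ‖τ + (e θ + e (θ + π + t) - e φ)‖ + ‖τ‖ := by
        simpa using norm_sub_le (τ + (e θ + e (θ + π + t) - e φ)) τ
      show 1 < ‖τ + e θ + e (θ + π + t) - e φ‖
      rw [heq]; linarith
  have hIVT : (1 : ℝ) ∈ uIcc (g (-t₀)) (g t₀) := by
    have k1 := key t₀ rfl
    have k2 := key (-t₀) (Real.cos_neg _)
    rw [Real.sin_neg] at k2
    rcases le_abs.1 hsin with h | h
    · have hh : κ * (t₀ / 2) ≤ Real.sin (θ - φ) * Real.sin t₀ :=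
        mul_le_mul h hs0 (by positivity) (by linarith)
      exact mem_uIcc_of_ge (k1.1 hh).le (k2.2 (by linarith)).le
    · have hh : κ * (t₀ / 2) ≤ -Real.sin (θ - φ) * Real.sin t₀ :=
        mul_le_mul h hs0 (by positivity) (by linarith)
      exact mem_uIcc_of_le (k2.1 (by linarith)).le (k1.2 (by linarith)).le
  obtain ⟨t, ht, hgt⟩ := intermediate_value_uIcc hg.continuousOn hIVT
  refine ⟨θ + π + t, ?_, hgt⟩
  rw [uIcc_of_le (by linarith)] at ht
  exact (Cross.norm_add_le_abs θ t).trans ((abs_le.2 ht).trans htr)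

/-- Proof. Colour `m` is null in `ball v₀ r₀`, `r₀ ≤ 1`. Let `κ > 0` with
`volume {φ ∈ [0, 2π] | |sin (θ - φ)| < κ} < μ` for all `θ`; `η` from `circles_meet κ (r₀/2)`.
Given `v ≠ w`, pick `θ` with `s ⊆ S v θ`, `‖v + e θ - w‖ ≠ 1` (`finite_circ`,
`countable_preimage_e`) and such that for `ψ` outside a null set `Ψ` the point `z = v + e θ + e ψ`
has `c z ∉ S v θ` (`blockF2`), satisfies `blockY w`, and is not in `A {m} ∩ ball v₀ r₀` (`ae_sum`;
`Measure.ae_ae_of_ae_prod`). By `img1_null` with `c = v + e θ - w` there is `φ` with `s' ⊆ S w φ`,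
`|sin (θ - φ)| ≥ κ` and such that no `ψ ∈ Ψ` has `‖c + e ψ‖ < 2`, `‖c + e ψ - e φ‖ = 1`.
`circles_meet` gives `ψ`; `ψ ∉ Ψ`; the colour of `z` is not `m`, not in `s`, not in `s'`. -/
theorem MCol.crossing (C : MCol) (v₀ : ℂ) (m : Fin 5) (hm : v₀ ∉ C.F m) (s s' : Finset (Fin 5))
    (hs : ∀ k, k ≠ m → k ∈ s ∨ k ∈ s') (μ : ℝ≥0∞) (hμ : μ ≠ 0) :
    ∃ η > 0, ∀ v w : ℂ, ‖v - v₀‖ < η → ‖w - v₀‖ < η → v ≠ w → (∃ᵐ θ : ℝ, s ⊆ C.S v θ) →
      μ ≤ volume ({φ | s' ⊆ C.S w φ} ∩ Icc 0 (2 * π)) → False := by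
  obtain ⟨r, hr, hnull⟩ : ∃ r > 0, volume (C.A {m} ∩ ball v₀ r) = 0 := by
    by_contra h
    push Not at h
    exact hm h
  set r₀ := min r 1 with hr₀
  have hr0 : 0 < r₀ := by positivity
  have hr0r : r₀ ≤ r := min_le_left _ _
  have hr01 : r₀ ≤ 1 := min_le_right _ _
  obtain ⟨κ, hκ, hκμ⟩ := Cross.exists_kappa μ hμ
  obtain ⟨η₁, hη₁, hmeet⟩ := circles_meet κ (r₀ / 2) hκ (by positivity)
  refine ⟨min (η₁ / 2) (r₀ / 2), by positivity, fun v w hv hw hvw hθ hφ => ?_⟩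
  have hv1 : ‖v - v₀‖ < η₁ / 2 := hv.trans_le (min_le_left _ _)
  have hv2 : ‖v - v₀‖ < r₀ / 2 := hv.trans_le (min_le_right _ _)
  have hw1 : ‖w - v₀‖ < η₁ / 2 := hw.trans_le (min_le_left _ _)
  have hw2 : ‖w - v₀‖ < r₀ / 2 := hw.trans_le (min_le_right _ _)
  have hd : ‖v - w‖ ≤ ‖v - v₀‖ + ‖w - v₀‖ := by
    simpa using norm_sub_le (v - v₀) (w - v₀)
  -- the exceptional null set of points
  let N : Set ℂ := {y | ¬ ∀ θ, ‖y - w - e θ‖ = 1 → C.c y ∉ C.S w θ} ∪ (C.A {m} ∩ ball v₀ r)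
  have hN : volume N = 0 := measure_union_null (ae_iff.1 (C.blockY w)) hnull
  have h12 : ∀ᵐ p : ℝ × ℝ, C.c (v + e p.1 + e p.2) ∉ C.S v p.1 ∧ v + e p.1 + e p.2 ∉ N :=
    (C.blockF2 v).and (ae_sum v N hN)
  rw [Measure.volume_eq_prod] at h12
  have h12' := Measure.ae_ae_of_ae_prod h12
  have h3 : ∀ᵐ θ : ℝ, ‖v + e θ - w‖ ≠ 1 := by
    have hc := countable_preimage_e _ (finite_circ (w - v) (sub_ne_zero.2 hvw.symm)).countable
    rw [ae_iff]
    refine measure_mono_null ?_ (hc.measure_zero _)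
    intro θ hθ
    simp only [ne_eq, not_not, mem_ofPred_eq] at hθ ⊢
    refine ⟨norm_e θ, ?_⟩
    rw [← hθ]; congr 1; ring
  obtain ⟨θ, hsθ, hΨ, hc⟩ := (hθ.and_eventually (h12'.and h3)).exists
  have hB := img1_null (v + e θ - w) hc _ (ae_iff.1 hΨ)
  obtain ⟨φ, hφ1, hφ2, hφ3⟩ : ∃ φ, s' ⊆ C.S w φ ∧ κ ≤ |Real.sin (θ - φ)| ∧
      ∀ ψ, ‖v + e θ - w + e ψ‖ < 2 → ‖v + e θ - w + e ψ - e φ‖ = 1 →
        C.c (v + e θ + e ψ) ∉ C.S v θ ∧ v + e θ + e ψ ∉ N := by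
    by_contra hcon
    refine absurd (hφ.trans ?_) (not_le.2 (hκμ θ))
    rw [← add_zero (volume ({φ | |Real.sin (θ - φ)| < κ} ∩ Icc 0 (2 * π))), ← hB]
    refine le_trans (measure_mono ?_) (measure_union_le _ _)
    intro φ hφ'
    by_cases h : |Real.sin (θ - φ)| < κ
    · exact Or.inl ⟨h, hφ'.2⟩
    · right
      by_contra hnot
      refine hcon ⟨φ, hφ'.1, not_lt.1 h, fun ψ h1 h2 => ?_⟩
      by_contra hbad
      exact hnot ⟨ψ, hbad, h1, h2⟩
  obtain ⟨ψ, hψ1, hψ2⟩ := hmeet (v - w) θ φ (by linarith) hφ2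
  have hlt : ‖v + e θ - w + e ψ‖ < 2 := by
    have h := norm_add_le (v - w) (e θ + e ψ)
    rw [show v + e θ - w + e ψ = v - w + (e θ + e ψ) by ring]
    linarith
  have heq : ‖v + e θ - w + e ψ - e φ‖ = 1 := by
    rw [← hψ2]; congr 1; ring
  obtain ⟨hz1, hz2⟩ := hφ3 ψ hlt heq
  have hz3 : C.c (v + e θ + e ψ) ∉ C.S w φ := by
    by_contra hmem
    refine hz2 (Or.inl fun h => h φ ?_ hmem)
    rw [← hψ2]; congr 1; ring
  have hz4 : C.c (v + e θ + e ψ) ≠ m := by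
    intro hm'
    refine hz2 (Or.inr ⟨by simp [MCol.A, hm'], ?_⟩)
    rw [mem_ball, dist_eq_norm, show v + e θ + e ψ - v₀ = v - v₀ + (e θ + e ψ) by ring]
    have h := norm_add_le (v - v₀) (e θ + e ψ)
    linarith
  rcases hs _ hz4 with h | h
  · exact hz1 (hsθ h)
  · exact hz3 (hφ1 h)

end Crest.Agent.R40
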