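import Crest.Agent.R40.Blocks

/-!
# Row 40, task C6a: a double cone of colour `m`
-/

set_option autoImplicit false

namespace Crest.Agent.R40
open MeasureTheory Set Filter Topology Metric
open scoped ENNReal Real

namespace Dcone

theorem contDiff_e : ContDiff ℝ 1 e :=
  Complex.contDiff_exp.comp (Complex.ofRealCLM.contDiff.mul contDiff_const)

theorem exists_e {w : ℂ} (hw : ‖w‖ = 1) : ∃ ψ, e ψ = w :=
  ⟨w.arg, by simpa [hw, e] using Complex.norm_mul_exp_arg_mul_I w⟩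

theorem norm_e_sub_le (a b : ℝ) : ‖e a - e b‖ ≤ |a - b| := by
  have h1 : e a - e b = e b * (e (a - b) - 1) := by
    rw [mul_sub, ← e_add, mul_one, add_sub_cancel]
  rw [h1, norm_mul, norm_e, one_mul, e, mul_comm, ← Real.norm_eq_abs]
  exact Real.norm_exp_I_mul_ofReal_sub_one_le

theorem sin_null (η : ℝ) : volume {θ : ℝ | Real.sin (η - θ) = 0} = 0 := by
  refine Set.Countable.measure_zero
    ((countable_range fun n : ℤ => η - n * π).mono fun θ hθ => ?_) _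
  obtain ⟨n, hn⟩ := Real.sin_eq_zero_iff.1 hθ
  exact ⟨n, by simp only [hn]; ring⟩

end Dcone

/-- Solving `‖c + e θ' - e s‖ = 1` for `θ' = g c s` near `c = e η`, `θ' = s = s₀`.

Proof. `local_inv η (s₀ + π)` gives `L`; `g c s = (L (c - e s)).2 - π`: then
`c - e s = e ψ + e (g c s + π)`, i.e. `c + e (g c s) - e s = e ψ`. At `c = e η`, `L (e η + e (s + π)) = (η, s + π)` for `s` near `s₀`, so
`g (e η) s = s`. `(c, s) ↦ g c s` is strictly differentiable at `(e η, s₀)` with derivative `1` in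
`s`, which gives `|g c s - g c t - (s - t)| ≤ |s - t|/2` near `(e η, s₀)`; `L` is Lipschitz near the
base point (`HasStrictFDerivAt.exists_lipschitzOnWith`), which gives continuity and the limits. -/
theorem relation (η s₀ : ℝ) (h : Real.sin (η - s₀) ≠ 0) : ∃ κ > 0, ∃ g : ℂ → ℝ → ℝ,
    (∀ᶠ c in 𝓝 (e η), ContinuousOn (g c) (Ioo (s₀ - κ) (s₀ + κ)) ∧
      (∀ s ∈ Ioo (s₀ - κ) (s₀ + κ), ∀ t ∈ Ioo (s₀ - κ) (s₀ + κ), |s - t| ≤ 2 * |g c s - g c t|) ∧
      ∀ s ∈ Ioo (s₀ - κ) (s₀ + κ), ‖c + e (g c s) - e s‖ = 1 ∧ |g c s - s| < 1) ∧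
    ∀ s ∈ Ioo (s₀ - κ) (s₀ + κ), Tendsto (fun c => g c s) (𝓝 (e η)) (𝓝 s) := by
  obtain ⟨L, D, hL, hleft, hright⟩ := local_inv η (s₀ + π) (by
    rw [← sub_sub, Real.sin_sub_pi]; exact neg_ne_zero.2 h)
  have hA : ContDiff ℝ 1 fun p : ℂ × ℝ => p.1 - e p.2 :=
    contDiff_fst.sub (Dcone.contDiff_e.comp contDiff_snd)
  have hbase : ((e η, s₀) : ℂ × ℝ).1 - e ((e η, s₀) : ℂ × ℝ).2 = e η + e (s₀ + π) := by
    simp only [e_add_pi, sub_eq_add_neg]
  obtain ⟨H, hH⟩ : ∃ H : ℂ × ℝ → ℝ, H = fun p => (L (p.1 - e p.2)).2 - π - p.2 := ⟨_, rfl⟩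
  obtain ⟨D', hD'⟩ : ∃ D' : ℂ × ℝ →L[ℝ] ℝ, HasStrictFDerivAt H D' (e η, s₀) := by
    have h1 := (hA.contDiffAt (x := (e η, s₀))).hasStrictFDerivAt one_ne_zero
    have h2 := HasStrictFDerivAt.comp (e η, s₀) (g := L) (g' := D) (by rw [hbase]; exact hL) h1
    rw [hH]
    exact ⟨_, (h2.snd.sub_const π).sub hasStrictFDerivAt_snd⟩
  have hzero : ∀ᶠ s in 𝓝 s₀, H (e η, s) = 0 := by
    have ht : Tendsto (fun s : ℝ => (η, s + π)) (𝓝 s₀) (𝓝 (η, s₀ + π)) :=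
      Continuous.tendsto (by fun_prop) s₀
    filter_upwards [ht.eventually hleft] with s hs
    simp only [e_add_pi, ← sub_eq_add_neg] at hs
    simp only [hH, hs]
    ring
  have hD0 : ∀ t : ℝ, D' (0, t) = 0 := by
    have h1 : HasFDerivAt (fun s : ℝ => H (e η, s)) (D'.comp (ContinuousLinearMap.inr ℝ ℂ ℝ)) s₀ :=
      HasFDerivAt.comp s₀ hD'.hasFDerivAt (hasFDerivAt_prodMk_right (e η) s₀)
    have h2 : HasFDerivAt (fun s : ℝ => H (e η, s)) (0 : ℝ →L[ℝ] ℝ) s₀ :=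
      (hasFDerivAt_const (0 : ℝ) s₀).congr_of_eventuallyEq hzero
    intro t
    simpa using congrArg (fun T : ℝ →L[ℝ] ℝ => T t) (h1.unique h2)
  obtain ⟨δ₁, hδ₁, h₁⟩ := Metric.eventually_nhds_iff.1
    (hD'.isLittleO.def (show (0 : ℝ) < 1 / 2 by norm_num))
  have hev : ∀ᶠ p : ℂ × ℝ in 𝓝 (e η, s₀), (e (L (p.1 - e p.2)).1 + e (L (p.1 - e p.2)).2 =
      p.1 - e p.2 ∧ |H p| < 1) ∧ H (e η, p.2) = 0 := by
    refine (Eventually.and ?_ ?_).and ((continuous_snd.tendsto (e η, s₀)).eventually hzero)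
    · have := hA.continuous.tendsto (e η, s₀)
      rw [hbase] at this
      exact this.eventually hright
    · have := hD'.hasFDerivAt.continuousAt.tendsto
      rw [hzero.self_of_nhds] at this
      have h3 := this.abs
      rw [abs_zero] at h3
      exact h3.eventually (gt_mem_nhds one_pos)
  obtain ⟨δ₂, hδ₂, h₂⟩ := Metric.eventually_nhds_iff.1 hev
  have hδ : 0 < min δ₁ δ₂ := lt_min hδ₁ hδ₂
  have hap : ∀ p ∈ ball (e η, s₀) (min δ₁ δ₂), ∀ q ∈ ball (e η, s₀) (min δ₁ δ₂),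
      ‖H p - H q - D' (p - q)‖ ≤ 1 / 2 * ‖p - q‖ := fun p hp q hq =>
    h₁ (y := (p, q)) (by
      rw [Prod.dist_eq]
      exact max_lt (hp.trans_le (min_le_left _ _)) (hq.trans_le (min_le_left _ _)))
  have hcont : ContinuousOn H (ball (e η, s₀) (min δ₁ δ₂)) := by
    refine (LipschitzOnWith.of_dist_le' (K := ‖D'‖ + 1 / 2) fun p hp q hq => ?_).continuousOn
    have h3 := hap p hp q hq
    have h4 := D'.le_opNorm (p - q)
    have h5 := norm_sub_norm_le (H p - H q) (D' (p - q))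
    rw [dist_eq_norm, dist_eq_norm]
    linarith
  have hmem : ∀ c ∈ ball (e η) (min δ₁ δ₂), ∀ s ∈ Ioo (s₀ - min δ₁ δ₂) (s₀ + min δ₁ δ₂),
      (c, s) ∈ ball (e η, s₀) (min δ₁ δ₂) := by
    intro c hc s hs
    rw [← ball_prod_same, Real.ball_eq_Ioo]
    exact ⟨hc, hs⟩
  refine ⟨min δ₁ δ₂, hδ, fun c s => H (c, s) + s, ?_, fun s hs => ?_⟩
  · filter_upwards [ball_mem_nhds (e η) hδ] with c hc
    refine ⟨(hcont.comp (by fun_prop) fun s hs => hmem c hc s hs).add continuousOn_id,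
      fun s hs t ht => ?_, fun s hs => ?_⟩
    · have h3 := hap _ (hmem c hc s hs) _ (hmem c hc t ht)
      rw [Prod.mk_sub_mk, sub_self, hD0, sub_zero, Prod.norm_def, norm_zero,
        max_eq_right (norm_nonneg _), Real.norm_eq_abs, Real.norm_eq_abs] at h3
      have h4 : s - t = (H (c, s) + s - (H (c, t) + t)) - (H (c, s) - H (c, t)) := by ring
      have h5 := abs_sub (H (c, s) + s - (H (c, t) + t)) (H (c, s) - H (c, t))
      rw [← h4] at h5
      linarith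
    · obtain ⟨⟨h3, h4⟩, -⟩ := h₂ (y := (c, s)) ((hmem c hc s hs).trans_le (min_le_right _ _))
      refine ⟨?_, by simpa using h4⟩
      have h5 : (L (c - e s)).2 = H (c, s) + s + π := by simp only [hH]; ring
      simp only at h3
      rw [h5, e_add_pi] at h3
      rw [show c + e (H (c, s) + s) - e s = e (L (c - e s)).1 by linear_combination -h3, norm_e]
  · have hp := hmem _ (mem_ball_self hδ) s hs
    have h3 : ContinuousAt H (e η, s) := hcont.continuousAt (isOpen_ball.mem_nhds hp)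
    have h4 := (h₂ (y := (e η, s)) (hp.trans_le (min_le_right _ _))).2
    have h5 : Tendsto (fun c : ℂ => H (c, s)) (𝓝 (e η)) (𝓝 (H (e η, s))) :=
      h3.tendsto.comp (Continuous.tendsto (f := fun c : ℂ => (c, s)) (by fun_prop) (e η))
    simp only at h4
    rw [h4] at h5
    simpa using h5.add_const s

/-- Proof. `M = {θ | s ⊆ S v θ ∧ s' ⊆ S v (θ + π)}` is measurable of positive measure; choose `s₀`
with `sin (η - s₀) ≠ 0` such that every neighbourhood of `s₀` meets `M` in positive measure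
(`measure_null_of_locally_null`). `relation`, `I = (s₀ - κ, s₀ + κ)`; by `cc`, for `c` near `e η` the
set `{t ∈ I ∩ M | g c t ∈ M}` has positive measure. Let `y = v + c` with `‖c‖ ≠ 1` be such that for
`ψ` outside a null set `Ψ`: `c (y + e ψ) ≠ c y` and `y + e ψ` satisfies `blockY v` (`ae_proper`,
`ae_circ`; a.e. `y`; the circle `‖c‖ = 1` is null). By `img1_null` pick `t ∈ I ∩ M` with
`θ = g c t ∈ M` such that no `ψ ∈ Ψ` has `‖c + e ψ‖ < 2`, `‖c + e ψ - e t‖ = 1`.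
Put `z = v + e t - e θ`; `‖z - y‖ = 1`, so `z = y + e ψ`; `‖c + e ψ‖ = ‖e t - e θ‖ < 2` and
`c + e ψ - e t = -e θ`; so `ψ ∉ Ψ`. `blockY` at `z` with the angles `t` and `θ + π` gives
`c z ∉ s`, `c z ∉ s'`, so `c z = m` and `c y ≠ m`. Conclude with `notMem_F_iff`. -/
theorem MCol.dcone (C : MCol) (v : ℂ) (m : Fin 5) (s s' : Finset (Fin 5))
    (hs : ∀ k, k ≠ m → k ∈ s ∨ k ∈ s') (h : ∃ᵐ θ : ℝ, s ⊆ C.S v θ ∧ s' ⊆ C.S v (θ + π)) (η : ℝ) :
    v + e η ∉ C.F m := by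
  set M : Set ℝ := {θ | s ⊆ C.S v θ ∧ s' ⊆ C.S v (θ + π)} with hM
  have hMm : MeasurableSet M :=
    (C.measurableSet_S v fun t => s ⊆ t).inter
      ((measurable_add_const π) (C.measurableSet_S v fun t => s' ⊆ t))
  have hM0 : volume M ≠ 0 := frequently_ae_iff.1 h
  have hM1 : volume (M \ {θ | Real.sin (η - θ) = 0}) ≠ 0 := by
    rwa [measure_sdiff_null (Dcone.sin_null η)]
  obtain ⟨s₀, hs₀, hpos⟩ := exists_mem_forall_mem_nhdsWithin_pos_measure hM1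
  obtain ⟨κ, hκ, g, hg, hlim⟩ := relation η s₀ hs₀.2
  set I := Ioo (s₀ - κ) (s₀ + κ) with hI
  have hIM : 0 < volume (I ∩ M) := by
    refine hpos _ (inter_mem (mem_nhdsWithin_of_mem_nhds (Ioo_mem_nhds (by linarith) (by linarith)))
      (mem_of_superset self_mem_nhdsWithin sdiff_subset))
  have hcc := cc (𝓝 (e η)) I measurableSet_Ioo (by simp [hI]) g id 2 (by norm_num)
    (hg.mono fun c hc => ⟨hc.1.aemeasurable measurableSet_Ioo, hc.2.1⟩) aemeasurable_id hlim M hMm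
  have hev := (hcc.eventually (gt_mem_nhds hIM)).and hg
  have ht : Tendsto (fun y : ℂ => y - v) (𝓝 (v + e η)) (𝓝 (e η)) := by
    simpa using (continuous_sub_right v).tendsto (v + e η)
  have hN : volume {z : ℂ | ¬ ∀ θ, ‖z - v - e θ‖ = 1 → C.c z ∉ C.S v θ} = 0 := ae_iff.1 (C.blockY v)
  have hsph : ∀ᵐ y : ℂ, y ∉ sphere v 1 :=
    measure_eq_zero_iff_ae_notMem.1 (Measure.addHaar_sphere volume v 1)
  rw [C.notMem_F_iff]
  filter_upwards [(ht.eventually hev).filter_mono inf_le_left,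
    (hsph.and (C.ae_proper.and (ae_circ _ hN))).filter_mono inf_le_right] with y hy hy'
  obtain ⟨hlt, -, -, hrel⟩ := hy
  obtain ⟨hy1, hy2, hy3⟩ := hy'
  rw [mem_sphere, dist_eq_norm] at hy1
  have hΨ := img1_null (y - v) hy1 _ (ae_iff.1 (hy2.and hy3))
  obtain ⟨t, ⟨⟨htI, htM⟩, htg⟩, htΨ⟩ : ∃ t ∈ (I ∩ M) ∩ {t | g (y - v) t ∈ M}, t ∉ {θ : ℝ | ∃ φ ∈
      {ψ : ℝ | ¬ (C.c y ≠ C.c (y + e ψ) ∧
        y + e ψ ∉ {z : ℂ | ¬ ∀ θ, ‖z - v - e θ‖ = 1 → C.c z ∉ C.S v θ})},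
      ‖y - v + e φ‖ < 2 ∧ ‖y - v + e φ - e θ‖ = 1} := by
    by_contra hcon
    have h0 := measure_mono_null (s := (I ∩ M) ∩ {t | g (y - v) t ∈ M})
      (fun t ht => by_contra fun h => hcon ⟨t, ht, h⟩) hΨ
    have h1 : I ∩ M ⊆ ((I ∩ M) ∩ {t | g (y - v) t ∈ M}) ∪
        {t ∈ I | ¬ (g (y - v) t ∈ M ↔ id t ∈ M)} := by
      intro t ht
      by_cases h2 : g (y - v) t ∈ M
      · exact Or.inl ⟨ht, h2⟩
      · exact Or.inr ⟨ht.1, fun h3 => h2 (h3.2 ht.2)⟩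
    have h2 := (measure_mono h1).trans (measure_union_le (μ := volume) _ _)
    rw [h0, zero_add] at h2
    exact absurd hlt (not_lt.2 h2)
  obtain ⟨h1, h2⟩ := hrel t htI
  obtain ⟨θ, hθ⟩ : ∃ θ, θ = g (y - v) t := ⟨_, rfl⟩
  rw [mem_ofPred_eq, ← hθ] at htg
  rw [← hθ] at h1 h2
  obtain ⟨ψ, hψ⟩ := Dcone.exists_e (w := -(y - v + e θ - e t)) (by rw [norm_neg, h1])
  have h3 : y - v + e ψ = e t - e θ := by rw [hψ]; ring
  have h4 : C.c y ≠ C.c (y + e ψ) ∧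
      y + e ψ ∉ {z : ℂ | ¬ ∀ θ, ‖z - v - e θ‖ = 1 → C.c z ∉ C.S v θ} := by
    by_contra hcon
    refine htΨ ⟨ψ, hcon, ?_, ?_⟩
    · rw [h3]
      have := Dcone.norm_e_sub_le t θ
      rw [abs_sub_comm] at this
      linarith
    · rw [h3, sub_sub_cancel_left, norm_neg, norm_e]
  obtain ⟨h5, h6⟩ := h4
  rw [mem_ofPred_eq, not_not] at h6
  have h7 := h6 t (by
    rw [show y + e ψ - v - e t = -e θ by linear_combination h3, norm_neg, norm_e])
  have h8 := h6 (θ + π) (by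
    rw [e_add_pi, show y + e ψ - v - -e θ = e t by linear_combination h3, norm_e])
  intro hm
  rcases hs _ (hm ▸ h5.symm) with h9 | h9
  · exact h7 (htM.1 h9)
  · exact h8 (htg.2 h9)

end Crest.Agent.R40
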