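import Mathlib

/-!
# Row 40 (the plane is not 5-colourable): definitions shared by all files
-/

set_option autoImplicit false

namespace Crest.Agent.R40
open MeasureTheory Set Filter Topology Metric
open scoped ENNReal Real

/-- the unit vector at angle `θ` -/
noncomputable def e (θ : ℝ) : ℂ := Complex.exp (θ * Complex.I)

lemma norm_e (θ : ℝ) : ‖e θ‖ = 1 := by simp [e, Complex.norm_exp_ofReal_mul_I]
lemma e_add (a b : ℝ) : e (a + b) = e a * e b := by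
  simp only [e, ← Complex.exp_add]; congr 1; push_cast; ring
lemma e_zero : e 0 = 1 := by simp [e]
lemma e_re (θ : ℝ) : (e θ).re = Real.cos θ := by simp [e, Complex.exp_ofReal_mul_I_re]
lemma e_im (θ : ℝ) : (e θ).im = Real.sin θ := by simp [e, Complex.exp_ofReal_mul_I_im]
lemma e_pi : e π = -1 := by simp [e]
lemma e_add_pi (θ : ℝ) : e (θ + π) = -e θ := by rw [e_add, e_pi]; ring
lemma e_add_two_pi (θ : ℝ) : e (θ + 2 * π) = e θ := by
  rw [two_mul, ← add_assoc, e_add_pi, e_add_pi, neg_neg]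
lemma continuous_e : Continuous e := by unfold e; fun_prop
lemma measurable_e : Measurable e := continuous_e.measurable

/-- A mean: a linear functional, positive on bounded functions, normalised. -/
structure Mean (X : Type*) where
  m : (X → ℝ) →ₗ[ℝ] ℝ
  nonneg : ∀ f : X → ℝ, (∃ B, ∀ x, |f x| ≤ B) → (∀ x, 0 ≤ f x) → 0 ≤ m f
  one : m (fun _ => 1) = 1

/-- A mean on `ℝ` living on `[0,1)` and almost invariant under small translations. -/
structure LocMean extends Mean ℝ where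
  congr : ∀ f g : ℝ → ℝ, (∀ t ∈ Ico (0 : ℝ) 1, f t = g t) → m f = m g
  shift : ∀ (f : ℝ → ℝ) (B : ℝ), (∀ x, |f x| ≤ B) → ∀ N : ℕ, 0 < N → ∀ a : ℝ, 0 ≤ a → a ≤ 1 / N →
    |m (fun t => f (t + a)) - m f| ≤ 2 * B / N

/-- A measurable colouring which is proper up to null sets. -/
structure MCol where
  c : ℂ → Fin 5
  meas : Measurable c
  proper : ∀ u : ℂ, ‖u‖ = 1 → ∀ᵐ x, c x ≠ c (x + u)

/-- relative area of `s` in the closed disc of centre `x` and radius `r` -/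
noncomputable def dens (s : Set ℂ) (x : ℂ) (r : ℝ) : ℝ :=
  volume.real (s ∩ closedBall x r) / (π * r ^ 2)

/-- For `σ = ±1` and small `τ`: the angle of a point of the unit circle at unit distance from
`τ + e θ`. -/
noncomputable def rho (σ : ℝ) (τ : ℂ) (θ : ℝ) : ℝ :=
  θ + Complex.arg (1 + τ * e (-θ)) + σ * Real.arccos (‖1 + τ * e (-θ)‖ / 2)

/-- every unit circle separating `v` from `p` has its centre outside `F i`, `i ∈ L` -/
def Block (F : Fin 5 → Set ℂ) (L : Finset (Fin 5)) (v p : ℂ) : Prop :=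
  ∀ y : ℂ, (‖y - v‖ - 1) * (‖y - p‖ - 1) < 0 → ∀ i ∈ L, y ∉ F i

/-- The topological shadow of a measurable colouring (essential closures of the classes). -/
structure Top where
  F : Fin 5 → Set ℂ
  closed : ∀ i, IsClosed (F i)
  cover : ∀ x, ∃ i, x ∈ F i
  c2 : ∀ (i : Fin 5) (p q : ℂ), ‖p - q‖ = 1 → (∀ j, j ≠ i → p ∉ F j) → q ∉ F i
  c3 : ∀ (i j : Fin 5) (p q : ℂ), i ≠ j → ‖p - q‖ = 1 → (∀ k, k ≠ i → k ≠ j → p ∉ F k) →
    (∀ k, k ≠ i → k ≠ j → q ∉ F k) → p ∉ F i ∨ p ∉ F j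

/-- colour `i` is absent on the side `σ = ±1` (outer / inner) of the unit circle about `v`, near
the angle `θ` -/
def Top.Av (X : Top) (v : ℂ) (θ σ : ℝ) (i : Fin 5) : Prop :=
  ∃ η > 0, ∀ θ' : ℝ, |θ' - θ| < η → ∀ t : ℝ, 0 < t → t < η →
    v + ((1 + σ * t : ℝ) : ℂ) * e θ' ∉ X.F i

/-- only colour `i` is present on the side `σ` near the angle `θ` -/
def Top.Solid (X : Top) (v : ℂ) (θ σ : ℝ) (i : Fin 5) : Prop :=
  ∀ j, j ≠ i → X.Av v θ σ j

/-- an interface of the colours `L` leaves `v` in the direction of angle `φ` -/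
def Top.Dir (X : Top) (v : ℂ) (L : Finset (Fin 5)) (φ : ℝ) : Prop :=
  ∀ θ : ℝ, (0 < Real.cos (θ - φ) → ∀ i ∈ L, X.Av v θ 1 i) ∧
    (Real.cos (θ - φ) < 0 → ∀ i ∈ L, X.Av v θ (-1) i)

/-- two families of colour sets, each of them intersecting -/
def Inter (𝒮 : Set (Finset (Fin 5))) : Prop := ∀ s ∈ 𝒮, ∀ t ∈ 𝒮, ¬ Disjoint s t

namespace MCol
variable (C : MCol)

/-- points whose colour is in `L` -/
def A (L : Finset (Fin 5)) : Set ℂ := {x | C.c x ∈ L}

/-- density of the colours `L` in the disc `(x, r)` -/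
noncomputable def f (L : Finset (Fin 5)) (x : ℂ) (r : ℝ) : ℝ := dens (C.A L) x r

/-- essential closure of the colour class `i` -/
def F (i : Fin 5) : Set ℂ := {x | ∀ r > 0, volume (C.A {i} ∩ ball x r) ≠ 0}

/-- length of the angles in `M` at which the unit circle about `x` has colour `i` -/
noncomputable def arc (i : Fin 5) (M : Set ℝ) (x : ℂ) : ℝ≥0∞ :=
  volume (M ∩ {θ | C.c (x + e θ) = i})

/-- colour `i` disappears from the angles `M` of the unit circles about `x → v` -/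
def Null (i : Fin 5) (v : ℂ) (M : Set ℝ) : Prop :=
  Tendsto (C.arc i M) (𝓝 v ⊓ ae volume) (𝓝 0)

def IsMaxNull (i : Fin 5) (v : ℂ) (N : Set ℝ) : Prop :=
  MeasurableSet N ∧ (∀ θ, θ + 2 * π ∈ N ↔ θ ∈ N) ∧
    (∀ M, MeasurableSet M → volume M ≠ ⊤ → M ⊆ N → C.Null i v M) ∧
    (∀ M, MeasurableSet M → C.Null i v M → volume (M \ N) = 0)

/-- the angles at which colour `i` is essentially present near the unit circle about `v` -/
noncomputable def Th (v : ℂ) (i : Fin 5) : Set ℝ := (Classical.epsilon (C.IsMaxNull i v))ᶜ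

open Classical in
/-- the colours essentially present near `v + e θ` along circles about points close to `v` -/
noncomputable def S (v : ℂ) (θ : ℝ) : Finset (Fin 5) := Finset.univ.filter (fun i => θ ∈ C.Th v i)

lemma mem_S (v : ℂ) (θ : ℝ) (i : Fin 5) : i ∈ C.S v θ ↔ θ ∈ C.Th v i := by simp [S]

open Classical in
/-- the palette at `v` -/
noncomputable def P (v : ℂ) : Finset (Fin 5) := Finset.univ.filter (fun i => v ∈ C.F i)

lemma mem_P (v : ℂ) (i : Fin 5) : i ∈ C.P v ↔ v ∈ C.F i := by simp [P]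

/-- edge event: `i`, `j` substantial in the disc `(x, r)`, the others rare in `(x, 3 r)` -/
def EE (i j : Fin 5) (x : ℂ) (r δ : ℝ) : Prop :=
  1 / 6 ≤ C.f {i} x r ∧ 1 / 6 ≤ C.f {j} x r ∧ ∀ k, k ≠ i → k ≠ j → C.f {k} x (3 * r) < δ

/-- adjacency graph at `v` -/
def G (v : ℂ) (i j : Fin 5) : Prop :=
  i ≠ j ∧ ∀ δ > 0, ∃ᶠ p : ℂ × ℝ in 𝓝 v ×ˢ 𝓝[>] 0, C.EE i j p.1 p.2 δ

/-- rigid points -/
def Rig : Set ℂ :=
  {v | ∃ 𝒮₁ 𝒮₂ : Set (Finset (Fin 5)), Inter 𝒮₁ ∧ Inter 𝒮₂ ∧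
    ∀ᵐ θ, C.S v θ ∈ 𝒮₁ ∨ C.S v θ ∈ 𝒮₂}

/-- points with (at least) four colours in the palette -/
def Sig : Set ℂ := {v | 4 ≤ (C.P v).card}

/-- points whose adjacency graph has a triangle or a 4-cycle -/
def Q : Set ℂ :=
  {v | (∃ a b c, C.G v a b ∧ C.G v b c ∧ C.G v c a) ∨
    (∃ a b c d, a ≠ c ∧ b ≠ d ∧ C.G v a b ∧ C.G v b c ∧ C.G v c d ∧ C.G v d a)}

/-- three colours have density at least `δ` in the disc `(x, R)` -/
def Tri (δ R : ℝ) (x : ℂ) : Prop :=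
  ∃ a b c : Fin 5, a ≠ b ∧ b ≠ c ∧ a ≠ c ∧ δ ≤ C.f {a} x R ∧ δ ≤ C.f {b} x R ∧ δ ≤ C.f {c} x R

/-- one step of a chain carrying the colours `L` (except near `Z`) -/
def Step (Z : Set ℂ) (L : Finset (Fin 5)) (ε δ R : ℝ) (x y : ℂ) : Prop :=
  ((∃ z ∈ Z, ‖x - z‖ ≤ ε) ∨ ∀ i ∈ L, δ ≤ C.f {i} x R) ∧
    (‖x - y‖ ≤ δ * R / 4 ∨ (‖x - y‖ ≤ 2 * ε ∧ ∃ z ∈ Z, ‖x - z‖ ≤ ε))

end MCol

/-! ### The grid -/

/-- the four corners of the unit square with lower left corner `T` -/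
def corners (T : ℤ × ℤ) : Finset (ℤ × ℤ) :=
  {T, (T.1 + 1, T.2), (T.1, T.2 + 1), (T.1 + 1, T.2 + 1)}

/-- the squares of the `N × N` board -/
noncomputable def board (N : ℕ) : Finset (ℤ × ℤ) := Finset.Ico (0 : ℤ) N ×ˢ Finset.Ico (0 : ℤ) N

/-- at most two labels on the corners of `T` -/
def Two (l : ℤ × ℤ → Fin 5) (T : ℤ × ℤ) : Prop :=
  ∀ x ∈ corners T, ∀ y ∈ corners T, ∀ z ∈ corners T, l x = l y ∨ l y = l z ∨ l x = l z

/-- the signed indicator of `(i, j)`-edges -/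
def om (l : ℤ × ℤ → Fin 5) (i j : Fin 5) (x y : ℤ × ℤ) : ℤ :=
  (if l x = i ∧ l y = j then 1 else 0) - (if l x = j ∧ l y = i then 1 else 0)

/-- circulation of a 1-cochain around the square `T` -/
def curl (w : ℤ × ℤ → ℤ × ℤ → ℤ) (T : ℤ × ℤ) : ℤ :=
  w T (T.1 + 1, T.2) + w (T.1 + 1, T.2) (T.1 + 1, T.2 + 1)
    - w (T.1, T.2 + 1) (T.1 + 1, T.2 + 1) - w T (T.1, T.2 + 1)

/-- flux of the `(i, j)`-interfaces out of the set of squares `R` -/
def flux (l : ℤ × ℤ → Fin 5) (i j : Fin 5) (R : Finset (ℤ × ℤ)) : ℤ :=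
  ∑ T ∈ R, curl (om l i j) T

/-- one step of a monochromatic chain of vertices: same colour `i`, corners of a common square of
the board, or corners of two squares of the same bad set -/
def MonoStep {ι : Type} (l : ℤ × ℤ → Fin 5) (N : ℕ) (Q0 : Finset ι) (bad : ι → Finset (ℤ × ℤ))
    (i : Fin 5) (x y : ℤ × ℤ) : Prop :=
  l x = i ∧ l y = i ∧ ((∃ T ∈ board N, x ∈ corners T ∧ y ∈ corners T) ∨
    ∃ q ∈ Q0, ∃ T ∈ bad q, ∃ T' ∈ bad q, x ∈ corners T ∧ y ∈ corners T')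

/-- one step of an interface chain of squares -/
def IntStep (l : ℤ × ℤ → Fin 5) (i j : Fin 5) (B : Finset (ℤ × ℤ)) (T T' : ℤ × ℤ) : Prop :=
  T ∈ B ∧ |T.1 - T'.1| + |T.2 - T'.2| = 1 ∧ (∃ x ∈ corners T, l x = i) ∧ ∃ y ∈ corners T, l y = j

/-- position of a grid vertex: the board is the square of side 10 with corner `o` -/
noncomputable def pos (o : ℂ) (N : ℕ) (x : ℤ × ℤ) : ℂ :=
  o + ((10 / N : ℝ) : ℂ) * ((x.1 : ℂ) + (x.2 : ℂ) * Complex.I)

/-- the closed square of side 10 with corner `o` -/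
def square (o : ℂ) : Set ℂ :=
  {z | o.re ≤ z.re ∧ z.re ≤ o.re + 10 ∧ o.im ≤ z.im ∧ z.im ≤ o.im + 10}

end Crest.Agent.R40
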