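import Crest.Agent.R40.Defs

/-!
# Row 40, task B1: densities in discs, essential closures
-/

set_option autoImplicit false

namespace Crest.Agent.R40
open MeasureTheory Set Filter Topology Metric
open scoped ENNReal Real

namespace Dens

theorem vol_closedBall (x : ℂ) {r : ℝ} (hr : 0 ≤ r) :
    volume.real (closedBall x r) = π * r ^ 2 := by
  rw [Measure.real, Complex.volume_closedBall, ENNReal.toReal_mul, ENNReal.toReal_pow,
    ENNReal.toReal_ofReal hr]
  simp [mul_comm]

theorem vol_ne_top (s : Set ℂ) (x : ℂ) (r : ℝ) : volume (s ∩ closedBall x r) ≠ ⊤ :=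
  measure_ne_top_of_subset inter_subset_right measure_closedBall_lt_top.ne

theorem area_mono (s : Set ℂ) {x x' : ℂ} {r r' : ℝ} (h : closedBall x r ⊆ closedBall x' r') :
    volume.real (s ∩ closedBall x r) ≤ volume.real (s ∩ closedBall x' r') :=
  measureReal_mono (inter_subset_inter_right _ h) (vol_ne_top _ _ _)

/-- the area in a larger concentric disc exceeds the area in a smaller one by at most the annulus -/
theorem area_le_add (s : Set ℂ) (x : ℂ) {ρ r : ℝ} (hρ : 0 ≤ ρ) (h : ρ ≤ r) :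
    volume.real (s ∩ closedBall x r) ≤ volume.real (s ∩ closedBall x ρ) + (π * r ^ 2 - π * ρ ^ 2) := by
  have h1 : s ∩ closedBall x r ⊆ (s ∩ closedBall x ρ) ∪ (closedBall x r \ closedBall x ρ) := by
    rintro y ⟨hs, hy⟩
    by_cases hy' : y ∈ closedBall x ρ
    · exact Or.inl ⟨hs, hy'⟩
    · exact Or.inr ⟨hy, hy'⟩
  have h2 : volume.real (closedBall x r \ closedBall x ρ) = π * r ^ 2 - π * ρ ^ 2 := by
    rw [measureReal_sdiff (closedBall_subset_closedBall h) measurableSet_closedBall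
      measure_closedBall_lt_top.ne, vol_closedBall x hρ, vol_closedBall x (hρ.trans h)]
  rw [← h2]
  refine (measureReal_mono h1 ?_).trans (measureReal_union_le _ _)
  exact (measure_union_lt_top (vol_ne_top _ _ _).lt_top
    ((measure_mono sdiff_subset).trans_lt measure_closedBall_lt_top)).ne

theorem area_le (s : Set ℂ) (x : ℂ) {r : ℝ} (hr : 0 ≤ r) :
    volume.real (s ∩ closedBall x r) ≤ π * r ^ 2 := by
  rw [← vol_closedBall x hr]
  exact measureReal_mono inter_subset_right measure_closedBall_lt_top.ne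

theorem area_sub_le (s : Set ℂ) (x x' : ℂ) {r : ℝ} (hr : 0 < r) :
    volume.real (s ∩ closedBall x r) - volume.real (s ∩ closedBall x' r)
      ≤ 2 * π * r * ‖x - x'‖ := by
  have hd := norm_nonneg (x - x')
  have hpi := Real.pi_pos
  rcases le_total ‖x - x'‖ r with h | h
  · have h1 := area_le_add s x (sub_nonneg.mpr h) (sub_le_self r hd)
    have h2 : volume.real (s ∩ closedBall x (r - ‖x - x'‖)) ≤ volume.real (s ∩ closedBall x' r) :=
      area_mono s (closedBall_subset_closedBall' (by rw [dist_eq_norm]; linarith))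
    nlinarith [mul_nonneg hpi.le (sq_nonneg ‖x - x'‖)]
  · have h1 := area_le s x hr.le
    have h2 : 0 ≤ volume.real (s ∩ closedBall x' r) := measureReal_nonneg
    have h3 : π * r * r ≤ π * r * ‖x - x'‖ := mul_le_mul_of_nonneg_left h (by positivity)
    nlinarith [mul_nonneg (mul_pos hpi hr).le hd]

theorem dens_of_nonpos (s : Set ℂ) (x : ℂ) {r : ℝ} (hr : r ≤ 0) : dens s x r = 0 := by
  rcases hr.eq_or_lt with rfl | h
  · simp [dens]
  · simp [dens, closedBall_eq_empty.mpr h]

theorem dens_eq_zero_of_null {s : Set ℂ} {x : ℂ} {r : ℝ} (h : volume (s ∩ closedBall x r) = 0) :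
    dens s x r = 0 := by
  simp [dens, Measure.real, h]

end Dens

open Dens

theorem dens_nonneg (s : Set ℂ) (x : ℂ) (r : ℝ) : 0 ≤ dens s x r :=
  div_nonneg measureReal_nonneg (by positivity)

/-- `Complex.volume_closedBall` -/
theorem dens_univ (x : ℂ) (r : ℝ) (hr : 0 < r) : dens univ x r = 1 := by
  rw [dens, univ_inter, vol_closedBall x hr.le, div_self (by positivity)]

theorem dens_mono {s t : Set ℂ} (h : s ⊆ t) (x : ℂ) (r : ℝ) : dens s x r ≤ dens t x r :=
  div_le_div_of_nonneg_right (measureReal_mono (inter_subset_inter_left _ h) (vol_ne_top _ _ _))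
    (by positivity)

theorem dens_le_one (s : Set ℂ) (x : ℂ) (r : ℝ) : dens s x r ≤ 1 := by
  rcases le_or_gt r 0 with hr | hr
  · rw [dens_of_nonpos s x hr]; exact zero_le_one
  · exact (dens_mono (subset_univ s) x r).trans (dens_univ x r hr).le

theorem dens_eq_zero_iff (s : Set ℂ) (x : ℂ) (r : ℝ) (hr : 0 < r) :
    dens s x r = 0 ↔ volume (s ∩ closedBall x r) = 0 := by
  have : π * r ^ 2 ≠ 0 := by positivity
  rw [dens, div_eq_zero_iff, or_iff_left this, measureReal_eq_zero_iff (vol_ne_top _ _ _)]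

theorem dens_add_compl (s : Set ℂ) (hs : MeasurableSet s) (x : ℂ) (r : ℝ) (hr : 0 < r) :
    dens s x r + dens sᶜ x r = 1 := by
  have : π * r ^ 2 ≠ 0 := by positivity
  rw [dens, dens, ← add_div, div_eq_one_iff_eq this, ← vol_closedBall x hr.le, inter_comm s,
    inter_comm sᶜ, ← sdiff_eq]
  exact measureReal_inter_add_sdiff hs measure_closedBall_lt_top.ne

theorem volume_inter_closedBall (s : Set ℂ) (x : ℂ) (r : ℝ) (hr : 0 < r) :
    volume (s ∩ closedBall x r) = ENNReal.ofReal (dens s x r * (π * r ^ 2)) := by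
  have : π * r ^ 2 ≠ 0 := by positivity
  rw [dens, div_mul_cancel₀ _ this, ofReal_measureReal (vol_ne_top _ _ _)]

/-- `closedBall x r \ closedBall x' r ⊆ closedBall x r \ closedBall x (r - d)`, of area
`≤ 2 π r d`, `d = ‖x - x'‖`. -/
theorem dens_lip (s : Set ℂ) (x x' : ℂ) (r : ℝ) (hr : 0 < r) :
    |dens s x r - dens s x' r| ≤ 2 * ‖x - x'‖ / r := by
  have hpi := Real.pi_pos
  have h1 := area_sub_le s x x' hr
  have h2 := area_sub_le s x' x hr
  rw [norm_sub_rev] at h2
  have e : 2 * ‖x - x'‖ / r = 2 * π * r * ‖x - x'‖ / (π * r ^ 2) := by field_simp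
  rw [dens, dens, ← sub_div, abs_div, abs_of_pos (show 0 < π * r ^ 2 by positivity), e]
  exact div_le_div_of_nonneg_right (abs_le.mpr ⟨by linarith, h1⟩) (by positivity)

theorem dens_scale (s : Set ℂ) {x x' : ℂ} {r r' : ℝ} (hr : 0 < r) (h : ‖x - x'‖ + r ≤ r') :
    dens s x r * r ^ 2 ≤ dens s x' r' * r' ^ 2 := by
  have hpi := Real.pi_pos
  have hr' : 0 < r' := by linarith [norm_nonneg (x - x')]
  have e : ∀ (y : ℂ) (ρ : ℝ), 0 < ρ → dens s y ρ * ρ ^ 2 = volume.real (s ∩ closedBall y ρ) / π := by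
    intro y ρ hρ
    rw [dens]; field_simp
  rw [e x r hr, e x' r' hr']
  exact div_le_div_of_nonneg_right
    (area_mono s (closedBall_subset_closedBall' (by rw [dist_eq_norm]; linarith))) hpi.le

/-- the area in the disc is locally Lipschitz in the radius (annulus) -/
theorem dens_continuousOn (s : Set ℂ) (x : ℂ) : ContinuousOn (dens s x) (Ioi 0) := by
  have hpi := Real.pi_pos
  have key : ContinuousOn (fun r => volume.real (s ∩ closedBall x r)) (Ioi 0) := by
    intro r₀ hr₀
    rw [ContinuousWithinAt, tendsto_iff_norm_sub_tendsto_zero]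
    have hg : Tendsto (fun r : ℝ => |π * r ^ 2 - π * r₀ ^ 2|) (𝓝[Ioi 0] r₀) (𝓝 0) := by
      have : Continuous fun r : ℝ => |π * r ^ 2 - π * r₀ ^ 2| := by fun_prop
      simpa using (this.tendsto r₀).mono_left nhdsWithin_le_nhds
    refine squeeze_zero' (Eventually.of_forall fun _ => norm_nonneg _) ?_ hg
    filter_upwards [self_mem_nhdsWithin] with r hr
    rw [Real.norm_eq_abs]
    rcases le_total r r₀ with h | h
    · have h1 := area_le_add s x (le_of_lt hr) h
      have h2 := area_mono s (closedBall_subset_closedBall (x := x) h)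
      rw [abs_sub_comm, abs_of_nonneg (by linarith), abs_sub_comm]
      exact le_trans (by linarith) (le_abs_self _)
    · have h1 := area_le_add s x (le_of_lt hr₀) h
      have h2 := area_mono s (closedBall_subset_closedBall (x := x) h)
      rw [abs_of_nonneg (by linarith)]
      exact le_trans (by linarith) (le_abs_self _)
  refine key.div (by fun_prop) fun r hr => ?_
  have : 0 < r := hr
  positivity

/-- Lebesgue density theorem (`Besicovitch.ae_tendsto_measure_inter_div`) -/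
theorem ae_dens (s : Set ℂ) : ∀ᵐ x : ℂ, x ∈ s → Tendsto (dens s x) (𝓝[>] 0) (𝓝 1) := by
  filter_upwards [ae_imp_of_ae_restrict (Besicovitch.ae_tendsto_measure_inter_div volume s)]
    with x hx hxs
  have h := (ENNReal.tendsto_toReal ENNReal.one_ne_top).comp (hx hxs)
  rw [ENNReal.toReal_one] at h
  refine h.congr' ?_
  filter_upwards [self_mem_nhdsWithin] with r hr
  rw [Function.comp_apply, ENNReal.toReal_div, dens, ← vol_closedBall x (le_of_lt hr)]
  rfl

theorem Dens.continuous_dens (s : Set ℂ) (r : ℝ) : Continuous fun x => dens s x r := by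
  rcases le_or_gt r 0 with hr | hr
  · simp only [dens_of_nonpos s _ hr]; exact continuous_const
  · refine (LipschitzWith.of_dist_le' (K := 2 / r) fun x y => ?_).continuous
    rw [Real.dist_eq, dist_eq_norm, div_mul_eq_mul_div]
    exact dens_lip s x y r hr

namespace MCol
variable (C : MCol)

theorem measurableSet_A (L : Finset (Fin 5)) : MeasurableSet (C.A L) :=
  C.meas (MeasurableSet.of_discrete (s := (L : Set (Fin 5))))

theorem f_eq_sum (L : Finset (Fin 5)) (x : ℂ) (r : ℝ) : C.f L x r = ∑ i ∈ L, C.f {i} x r := by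
  simp only [f, dens]
  rw [← Finset.sum_div]
  congr 1
  have e : C.A L ∩ closedBall x r = ⋃ i ∈ L, (C.A {i} ∩ closedBall x r) := by
    ext y; simp [A]
  rw [e]
  refine measureReal_biUnion_finset ?_ ?_ ?_
  · intro i _ j _ hij
    refine Set.disjoint_left.mpr fun y hy hy' => hij ?_
    have h1 := hy.1
    have h2 := hy'.1
    simp only [A, Finset.mem_singleton, mem_ofPred_eq] at h1 h2
    rw [← h1, h2]
  · exact fun i _ => (C.measurableSet_A _).inter measurableSet_closedBall
  · exact fun i _ => vol_ne_top _ _ _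

theorem sum_f (x : ℂ) (r : ℝ) (hr : 0 < r) : ∑ i, C.f {i} x r = 1 := by
  rw [← f_eq_sum, f, ← dens_univ x r hr]
  congr 1
  ext y; simp [A]

/-- translate the second disc back by `u` and use `C.proper u` -/
theorem f_add_f_le (i : Fin 5) (x u : ℂ) (hu : ‖u‖ = 1) (r : ℝ) :
    C.f {i} x r + C.f {i} (x + u) r ≤ 1 := by
  rcases le_or_gt r 0 with hr | hr
  · simp [f, dens_of_nonpos _ _ hr]
  have hpos : 0 < π * r ^ 2 := by have := Real.pi_pos; positivity
  set T : Set ℂ := (fun y => y + u) ⁻¹' (C.A {i} ∩ closedBall (x + u) r) with hT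
  have hTm : MeasurableSet T :=
    (measurable_add_const u) ((C.measurableSet_A _).inter measurableSet_closedBall)
  have hTv : volume T = volume (C.A {i} ∩ closedBall (x + u) r) := measure_preimage_add_right _ _ _
  have hTs : T ⊆ closedBall x r := fun y hy => by simpa using hy.2
  have hd : AEDisjoint volume (C.A {i} ∩ closedBall x r) T := by
    refine measure_mono_null (fun y hy => ?_) (ae_iff.mp (C.proper u hu))
    have h1 := hy.1.1
    have h2 := hy.2.1
    simp only [A, Finset.mem_singleton, mem_ofPred_eq] at h1 h2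
    simp [h1, h2]
  have h1 : volume.real (C.A {i} ∩ closedBall x r) + volume.real T ≤ π * r ^ 2 := by
    rw [← measureReal_union₀ hTm.nullMeasurableSet hd (vol_ne_top _ _ _)
      (hTv ▸ vol_ne_top _ _ _), ← vol_closedBall x hr.le]
    exact measureReal_mono (union_subset inter_subset_right hTs) measure_closedBall_lt_top.ne
  have h2 : volume.real T = volume.real (C.A {i} ∩ closedBall (x + u) r) := by
    simp only [Measure.real, hTv]
  rw [f, f, dens, dens, ← add_div, div_le_one hpos, ← h2]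
  exact h1

theorem ae_f : ∀ᵐ x : ℂ, Tendsto (C.f {C.c x} x) (𝓝[>] 0) (𝓝 1) := by
  filter_upwards [ae_all_iff.mpr fun i : Fin 5 => ae_dens (C.A {i})] with x hx
  exact hx (C.c x) (by simp [A])

/-- `ae_f` and dominated convergence (the sets are measurable: `f {i} · R` is continuous) -/
theorem good_small (δ : ℝ) (hδ : 0 < δ) (B : ℝ) :
    Tendsto (fun R => volume {y : ℂ | ‖y‖ ≤ B ∧ C.f {C.c y} y R ≤ 1 - δ}) (𝓝[>] 0) (𝓝 0) := by
  have hm : ∀ R : ℝ, MeasurableSet {y : ℂ | ‖y‖ ≤ B ∧ C.f {C.c y} y R ≤ 1 - δ} := by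
    intro R
    have e : {y : ℂ | ‖y‖ ≤ B ∧ C.f {C.c y} y R ≤ 1 - δ}
        = closedBall 0 B ∩ ⋃ i : Fin 5, (C.A {i} ∩ {y | C.f {i} y R ≤ 1 - δ}) := by
      ext y; simp [A]
    rw [e]
    refine measurableSet_closedBall.inter (MeasurableSet.iUnion fun i => ?_)
    exact (C.measurableSet_A _).inter
      (isClosed_le (continuous_dens _ R) continuous_const).measurableSet
  have := tendsto_measure_of_ae_tendsto_indicator (μ := (volume : Measure ℂ)) (𝓝[>] (0 : ℝ))
    (A := ∅) MeasurableSet.empty hm (B := closedBall 0 B) measurableSet_closedBall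
    measure_closedBall_lt_top.ne (Eventually.of_forall fun R y hy => by simpa using hy.1) ?_
  · simpa using this
  filter_upwards [C.ae_f] with y hy
  filter_upwards [hy.eventually (lt_mem_nhds (show 1 - δ < 1 by linarith))] with R hR
  simp only [mem_empty_iff_false, iff_false, not_and, not_le]
  exact fun _ => hR

theorem notMem_F_iff' (v : ℂ) (i : Fin 5) :
    v ∉ C.F i ↔ ∃ r > 0, volume (C.A {i} ∩ ball v r) = 0 := by
  simp [F]

theorem notMem_F_iff (v : ℂ) (i : Fin 5) :
    v ∉ C.F i ↔ ∀ᶠ x in 𝓝 v ⊓ ae volume, C.c x ≠ i := by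
  rw [notMem_F_iff', eventually_inf]
  constructor
  · rintro ⟨r, hr, h⟩
    refine ⟨ball v r, ball_mem_nhds v hr, (C.A {i} ∩ ball v r)ᶜ, compl_mem_ae_iff.mpr h, ?_⟩
    rintro x ⟨hx, hx'⟩ hc
    exact hx' ⟨by simp [A, hc], hx⟩
  · rintro ⟨s, hs, t, ht, h⟩
    obtain ⟨r, hr, hrs⟩ := Metric.mem_nhds_iff.mp hs
    refine ⟨r, hr, measure_mono_null (t := tᶜ) (fun x hx hxt => ?_) (mem_ae_iff.mp ht)⟩
    exact h x ⟨hrs hx.2, hxt⟩ (by simpa [A] using hx.1)

theorem isClosed_F (i : Fin 5) : IsClosed (C.F i) := by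
  rw [← isOpen_compl_iff, Metric.isOpen_iff]
  intro v hv
  obtain ⟨r, hr, h⟩ := (C.notMem_F_iff' v i).mp hv
  refine ⟨r, hr, fun w hw => (C.notMem_F_iff' w i).mpr ⟨r - dist w v, sub_pos.mpr hw, ?_⟩⟩
  exact measure_mono_null (inter_subset_inter_right _ (ball_subset_ball' (by linarith))) h

theorem exists_mem_F (x : ℂ) : ∃ i, x ∈ C.F i := by
  by_contra h
  push Not at h
  have h1 : ∀ᶠ y in 𝓝 x ⊓ ae volume, ∀ i, C.c y ≠ i :=
    eventually_all.mpr fun i => (C.notMem_F_iff x i).mp (h i)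
  obtain ⟨s, hs, t, ht, h2⟩ := eventually_inf.mp h1
  obtain ⟨r, hr, hrs⟩ := Metric.mem_nhds_iff.mp hs
  refine (measure_ball_pos volume x hr).ne' (measure_mono_null (t := tᶜ) (fun y hy hyt => ?_)
    (mem_ae_iff.mp ht))
  exact h2 y ⟨hrs hy, hyt⟩ _ rfl

theorem f_eq_zero_of_notMem_F (v : ℂ) (i : Fin 5) (h : v ∉ C.F i) :
    ∃ η > 0, ∀ x r, ‖x - v‖ < η → r < η → C.f {i} x r = 0 := by
  obtain ⟨ρ, hρ, h0⟩ := (C.notMem_F_iff' v i).mp h
  refine ⟨ρ / 2, half_pos hρ, fun x r hx hr => dens_eq_zero_of_null ?_⟩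
  refine measure_mono_null (inter_subset_inter_right _ (closedBall_subset_ball' ?_)) h0
  rw [dist_eq_norm]; linarith

theorem mem_F_of_f (p : ℂ) (i : Fin 5)
    (h : ∀ η > 0, ∃ x r, ‖x - p‖ < η ∧ 0 < r ∧ r < η ∧ 0 < C.f {i} x r) : p ∈ C.F i := by
  by_contra hp
  obtain ⟨η, hη, h0⟩ := C.f_eq_zero_of_notMem_F p i hp
  obtain ⟨x, r, hx, -, hr, hf⟩ := h η hη
  exact hf.ne' (h0 x r hx hr)

theorem exists_dens_point (v : ℂ) (i : Fin 5) (h : v ∈ C.F i) (η : ℝ) (hη : 0 < η) :
    ∃ y, ‖y - v‖ < η ∧ Tendsto (C.f {i} y) (𝓝[>] 0) (𝓝 1) := by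
  obtain ⟨y, hy, hy'⟩ := Measure.exists_mem_of_measure_ne_zero_of_ae (h η hη)
    (ae_restrict_of_ae (ae_dens (C.A {i})))
  exact ⟨y, by simpa [dist_eq_norm] using hy.2, hy' hy.1⟩

theorem G_symm {v : ℂ} {i j : Fin 5} (h : C.G v i j) : C.G v j i :=
  ⟨h.1.symm, fun δ hδ => (h.2 δ hδ).mono fun _ hp => ⟨hp.2.1, hp.1, fun k h1 h2 => hp.2.2 k h2 h1⟩⟩

theorem mem_F_of_G {v : ℂ} {i j : Fin 5} (h : C.G v i j) : v ∈ C.F i := by
  refine C.mem_F_of_f v i fun η hη => ?_
  have hev : ∀ᶠ p : ℂ × ℝ in 𝓝 v ×ˢ 𝓝[>] 0, p.1 ∈ ball v η ∧ p.2 ∈ Ioo 0 η :=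
    Eventually.prod_mk (ball_mem_nhds v hη) (Ioo_mem_nhdsGT hη)
  obtain ⟨p, hp, h1, h2⟩ := ((h.2 1 one_pos).and_eventually hev).exists
  exact ⟨p.1, p.2, by simpa [dist_eq_norm] using h1, h2.1, h2.2, by linarith [hp.1]⟩

theorem isClosed_Sig : IsClosed C.Sig := by
  rw [← isOpen_compl_iff, isOpen_iff_mem_nhds]
  intro v hv
  have h1 : ∀ᶠ w in 𝓝 v, ∀ i, v ∉ C.F i → w ∉ C.F i := by
    refine eventually_all.mpr fun i => ?_
    by_cases hi : v ∈ C.F i
    · exact Eventually.of_forall fun w h => (h hi).elim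
    · filter_upwards [(C.isClosed_F i).isOpen_compl.mem_nhds hi] with w hw _ using hw
  filter_upwards [h1] with w hw hw'
  refine hv (le_trans hw' (Finset.card_le_card fun i hi => ?_))
  rw [mem_P] at hi ⊢
  by_contra h
  exact hw i h hi

end MCol

end Crest.Agent.R40
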