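import Crest.Agent.R40.Rigid
import Crest.Agent.R40.Blocks
import Crest.Agent.R40.Geo

/-!
# Row 40, task C4: rigid points are locally finite; `|S v θ| ≤ 2`
-/

set_option autoImplicit false

namespace Crest.Agent.R40
open MeasureTheory Set Filter Topology Metric
open scoped ENNReal Real

namespace RigFin

/-- antilipschitz maps pull conull sets back to conull sets -/
theorem ae_comp (g : ℝ → ℝ) (K : ℝ) (hK : 0 ≤ K) (h : ∀ s t, |s - t| ≤ K * |g s - g t|)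
    {p : ℝ → Prop} (hp : ∀ᵐ θ, p θ) : ∀ᵐ θ, p (g θ) := by
  rw [ae_iff] at hp ⊢
  have := vol_preimage_le g univ K hK (fun s _ t _ => h s t) {θ | ¬ p θ}
  rw [hp, mul_zero, univ_inter] at this
  exact le_antisymm this (zero_le)

/-- passing to the limit in an a.e. relation -/
theorem ae_lim (g h : ℕ → ℝ → ℝ) (g₀ h₀ : ℝ → ℝ) (K : ℝ) (hK : 0 ≤ K)
    (hgm : ∀ n, Measurable (g n)) (hhm : ∀ n, Measurable (h n))
    (hg₀ : Measurable g₀) (hh₀ : Measurable h₀)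
    (hga : ∀ n s t, |s - t| ≤ K * |g n s - g n t|) (hha : ∀ n s t, |s - t| ≤ K * |h n s - h n t|)
    (hgl : ∀ s, Tendsto (fun n => g n s) atTop (𝓝 (g₀ s)))
    (hhl : ∀ s, Tendsto (fun n => h n s) atTop (𝓝 (h₀ s)))
    (E F : Set ℝ) (hE : MeasurableSet E) (hF : MeasurableSet F)
    (hrel : ∀ n, ∀ᵐ θ, g n θ ∈ E ↔ h n θ ∈ F) : ∀ᵐ θ, g₀ θ ∈ E ↔ h₀ θ ∈ F := by
  have key : ∀ k : ℕ, volume {s ∈ Icc (-(k : ℝ)) k | ¬ (g₀ s ∈ E ↔ h₀ s ∈ F)} = 0 := by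
    intro k
    have hI : volume (Icc (-(k : ℝ)) k) ≠ ⊤ := by simp
    have h1 := cc atTop (Icc (-(k : ℝ)) k) measurableSet_Icc hI g g₀ K hK
      (Eventually.of_forall fun n => ⟨(hgm n).aemeasurable, fun s _ t _ => hga n s t⟩)
      hg₀.aemeasurable (fun s _ => hgl s) E hE
    have h2 := cc atTop (Icc (-(k : ℝ)) k) measurableSet_Icc hI h h₀ K hK
      (Eventually.of_forall fun n => ⟨(hhm n).aemeasurable, fun s _ t _ => hha n s t⟩)
      hh₀.aemeasurable (fun s _ => hhl s) F hF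
    have h3 := h1.add h2
    rw [add_zero] at h3
    refine le_antisymm (ge_of_tendsto' h3 fun n => ?_) (zero_le)
    refine le_trans (measure_mono_ae ?_) (measure_union_le _ _)
    filter_upwards [hrel n] with θ hθ hb
    obtain ⟨hb1, hb2⟩ := hb
    by_cases h4 : g n θ ∈ E ↔ g₀ θ ∈ E
    · refine Or.inr ⟨hb1, fun h5 => hb2 ?_⟩
      rw [← h4, ← h5]; exact hθ
    · exact Or.inl ⟨hb1, h4⟩
  rw [ae_iff]
  refine measure_mono_null (fun s hs => ?_) (measure_iUnion_null key)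
  obtain ⟨k, hk⟩ := exists_nat_ge |s|
  exact mem_iUnion.2 ⟨k, ⟨(abs_le.1 hk).1, (abs_le.1 hk).2⟩, hs⟩

/-- what is used of `rho_spec` -/
theorem rho_facts : ∃ τ₀ : ℝ, 0 < τ₀ ∧ ∀ σ : ℝ, (σ = 1 ∨ σ = -1) →
    (∀ τ : ℂ, ‖τ‖ ≤ τ₀ → ∀ s t, |s - t| ≤ 2 * |rho σ τ s - rho σ τ t|) ∧
    ∀ (τ : ℕ → ℂ) (τ' : ℂ) (s : ℕ → ℝ) (s' : ℝ), (∀ n, ‖τ n‖ ≤ τ₀) → ‖τ'‖ ≤ τ₀ →
      Tendsto τ atTop (𝓝 τ') → Tendsto s atTop (𝓝 s') →
      Tendsto (fun n => rho σ (τ n) (s n)) atTop (𝓝 (rho σ τ' s')) := by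
  obtain ⟨τ₀, K, h0, hK, hKτ, h, -⟩ := rho_spec
  refine ⟨τ₀, h0, fun σ hσ => ⟨fun τ hτ => (h σ hσ τ hτ).2.2.1, ?_⟩⟩
  intro τ τ' s s' hτ hτ' hl hs
  have hc : Continuous (rho σ τ') := (h σ hσ τ' hτ').2.1.continuous
  have h1 : Tendsto (fun n => rho σ τ' (s n)) atTop (𝓝 (rho σ τ' s')) := (hc.tendsto s').comp hs
  have h2 : Tendsto (fun n => rho σ (τ n) (s n) - rho σ τ' (s n)) atTop (𝓝 0) := by
    have h3 : Tendsto (fun n => K * ‖τ n - τ'‖) atTop (𝓝 0) := by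
      have := (tendsto_iff_norm_sub_tendsto_zero.1 hl).const_mul K
      rwa [mul_zero] at this
    refine squeeze_zero_norm (fun n => ?_) h3
    exact (h σ hσ (τ n) (hτ n)).2.2.2.2 τ' hτ' (s n)
  have := h2.add h1
  simpa using this

theorem rigid_seq' (τ₀ : ℝ) (hτ₀ : ∀ σ : ℝ, (σ = 1 ∨ σ = -1) →
    (∀ τ : ℂ, ‖τ‖ ≤ τ₀ → ∀ s t, |s - t| ≤ 2 * |rho σ τ s - rho σ τ t|) ∧
    ∀ (τ : ℕ → ℂ) (τ' : ℂ) (s : ℕ → ℝ) (s' : ℝ), (∀ n, ‖τ n‖ ≤ τ₀) → ‖τ'‖ ≤ τ₀ →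
      Tendsto τ atTop (𝓝 τ') → Tendsto s atTop (𝓝 s') →
      Tendsto (fun n => rho σ (τ n) (s n)) atTop (𝓝 (rho σ τ' s')))
    (E : ℕ → Set ℝ) (hE : ∀ n, MeasurableSet (E n)) (v : ℕ → ℂ) (v₀ : ℂ)
    (hv : Tendsto v atTop (𝓝 v₀)) (hne : ∀ n, v n ≠ v₀) (hcl : ∀ n, ‖v n - v₀‖ ≤ τ₀ / 2)
    (hrel : ∀ σ : ℝ, (σ = 1 ∨ σ = -1) → ∀ m n, ∀ᵐ θ, θ ∈ E m ↔ rho σ (v m - v n) θ ∉ E n) :
    False := by
  have h1 : (1 : ℝ) = 1 ∨ (1 : ℝ) = -1 := Or.inl rfl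
  have hm1 : (-1 : ℝ) = 1 ∨ (-1 : ℝ) = -1 := Or.inr rfl
  have hτpos : 0 ≤ τ₀ := by have := (norm_nonneg _).trans (hcl 0); linarith
  have hmn : ∀ m n, ‖v m - v n‖ ≤ τ₀ := fun m n => by
    have := norm_sub_le_norm_sub_add_norm_sub (v m) v₀ (v n)
    have h2 := hcl n
    rw [← norm_sub_rev] at h2
    linarith [hcl m]
  have hm0 : ∀ m, ‖v m - v₀‖ ≤ τ₀ := fun m => by linarith [hcl m]
  have h0m : ∀ m, ‖v₀ - v m‖ ≤ τ₀ := fun m => by rw [norm_sub_rev]; exact hm0 m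
  set E' : Set ℝ := {θ | rho 1 (v₀ - v 0) θ ∉ E 0} with hE'
  have hE'm : MeasurableSet E' := (measurable_rho 1 (v₀ - v 0)) (hE 0).compl
  have hv0 : Tendsto (fun n => v n - v 0) atTop (𝓝 (v₀ - v 0)) := hv.sub_const _
  -- the limit relation
  have hlim : ∀ σ : ℝ, (σ = 1 ∨ σ = -1) → ∀ m, ∀ᵐ θ, θ ∈ E m ↔ rho σ (v m - v₀) θ ∉ E' := by
    intro σ hσ m
    have := ae_lim (fun _ θ => θ) (fun n θ => rho 1 (v n - v 0) (rho σ (v m - v n) θ)) (fun θ => θ)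
      (fun θ => rho 1 (v₀ - v 0) (rho σ (v m - v₀) θ)) 4 (by norm_num)
      (fun _ => measurable_id) (fun n => (measurable_rho _ _).comp (measurable_rho _ _))
      measurable_id ((measurable_rho _ _).comp (measurable_rho _ _))
      (fun _ s t => by linarith [abs_nonneg (s - t)])
      (fun n s t => by
        have a1 := (hτ₀ σ hσ).1 _ (hmn m n) s t
        have a2 := (hτ₀ 1 h1).1 _ (hmn n 0) (rho σ (v m - v n) s) (rho σ (v m - v n) t)
        linarith)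
      (fun _ => tendsto_const_nhds)
      (fun s => (hτ₀ 1 h1).2 _ _ _ _ (fun n => hmn n 0) (h0m 0) hv0
        ((hτ₀ σ hσ).2 _ _ (fun _ => s) s (fun n => hmn m n) (hm0 m) (hv.const_sub _)
          tendsto_const_nhds))
      (E m) (E 0) (hE m) (hE 0) (fun n => by
        have a1 := ae_comp (rho σ (v m - v n)) 2 (by norm_num) ((hτ₀ σ hσ).1 _ (hmn m n))
          (hrel 1 h1 n 0)
        filter_upwards [a1, hrel σ hσ m n] with θ b1 b2
        rw [b2, b1, not_not])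
    filter_upwards [this] with θ hθ
    rw [hθ, hE', mem_ofPred_eq, not_not]
  -- the flip property
  have hflip : ∀ᵐ θ, θ ∈ E' ↔ θ + π / 3 ∉ E' := by
    have := ae_lim (fun n θ => rho 1 (v n - v 0) θ) (fun n θ => rho 1 (v n - v 0) (θ + π / 3))
      (fun θ => rho 1 (v₀ - v 0) θ) (fun θ => rho 1 (v₀ - v 0) (θ + π / 3)) 2 (by norm_num)
      (fun _ => measurable_rho _ _) (fun n => (measurable_rho _ _).comp (measurable_add_const _))
      (measurable_rho _ _) ((measurable_rho _ _).comp (measurable_add_const _))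
      (fun n s t => (hτ₀ 1 h1).1 _ (hmn n 0) s t)
      (fun n s t => by
        have a1 := (hτ₀ 1 h1).1 _ (hmn n 0) (s + π / 3) (t + π / 3)
        rwa [add_sub_add_right_eq_sub] at a1)
      (fun s => (hτ₀ 1 h1).2 _ _ (fun _ => s) s (fun n => hmn n 0) (h0m 0) hv0 tendsto_const_nhds)
      (fun s => (hτ₀ 1 h1).2 _ _ (fun _ => s + π / 3) _ (fun n => hmn n 0) (h0m 0) hv0
        tendsto_const_nhds)
      (E 0)ᶜ (E 0) (hE 0).compl (hE 0) (fun n => by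
        have a1 := ae_comp (fun θ => θ + π / 3) 1 (by norm_num)
          (fun s t => by rw [add_sub_add_right_eq_sub, one_mul]) (hrel 1 h1 n 0)
        filter_upwards [a1, hrel 1 h1 n 0, hrel 1 h1 n n] with θ b1 b2 b3
        rw [sub_self, rho_zero, one_mul] at b3
        rw [mem_compl_iff, ← b2, b3, b1, not_not])
    filter_upwards [this] with θ hθ
    rw [hE', mem_ofPred_eq, mem_ofPred_eq, not_not]
    exact hθ
  refine rigid_core E' hE'm hflip (fun m => v m - v₀) (fun j => sub_ne_zero.2 (hne j)) ?_ ?_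
  · have := hv.sub_const v₀
    rwa [sub_self] at this
  · intro j
    filter_upwards [hlim 1 h1 j, hlim (-1) hm1 j] with θ b1 b2
    rw [b1] at b2
    exact not_iff_not.1 b2

theorem two_cover (s : Finset (Fin 5)) (hs : 3 ≤ s.card) :
    ∃ d e : Fin 5, ∀ k, k ∉ s → k = d ∨ k = e := by
  have h : sᶜ.card ≤ 2 := by
    rw [Finset.card_compl, Fintype.card_fin]; omega
  obtain h | h | h : sᶜ.card = 0 ∨ sᶜ.card = 1 ∨ sᶜ.card = 2 := by omega
  · rw [Finset.card_eq_zero] at h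
    refine ⟨0, 0, fun k hk => ?_⟩
    have : k ∈ sᶜ := Finset.mem_compl.2 hk
    rw [h] at this
    exact absurd this (Finset.notMem_empty k)
  · obtain ⟨a, ha⟩ := Finset.card_eq_one.1 h
    refine ⟨a, a, fun k hk => ?_⟩
    have : k ∈ sᶜ := Finset.mem_compl.2 hk
    rw [ha] at this
    exact Or.inl (Finset.mem_singleton.1 this)
  · obtain ⟨a, b, -, ha⟩ := Finset.card_eq_two.1 h
    refine ⟨a, b, fun k hk => ?_⟩
    have : k ∈ sᶜ := Finset.mem_compl.2 hk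
    rw [ha] at this
    simpa using this

end RigFin

/-- Proof. Drop an initial segment so that all `v n` are within `τ₀/2` of `v₀` (`rho_spec`).
`E' = {θ | rho 1 (v₀ - v 0) θ ∉ E 0}`. By `hrel 1 n 0` and `cc`, for bounded intervals `I`
`volume {θ ∈ I | ¬ (θ ∈ E n ↔ θ ∈ E')} → 0`. Passing to the limit `n → ∞` in `hrel σ m n`
(`vol_preimage_le` with a larger interval, and `cc`) gives
`∀ᵐ θ, θ ∈ E m ↔ rho σ (v m - v₀) θ ∉ E'` for both `σ`, and in `hrel 1 n n` (`rho_zero`) the flip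
property of `E'`. Apply `rigid_core` with `τ m = v m - v₀`. -/
theorem rigid_seq (E : ℕ → Set ℝ) (hE : ∀ n, MeasurableSet (E n)) (v : ℕ → ℂ) (v₀ : ℂ)
    (hv : Tendsto v atTop (𝓝 v₀)) (hne : ∀ n, v n ≠ v₀)
    (hrel : ∀ σ : ℝ, (σ = 1 ∨ σ = -1) → ∀ m n, ∀ᵐ θ, θ ∈ E m ↔ rho σ (v m - v n) θ ∉ E n) :
    False := by
  obtain ⟨τ₀, h0, hτ₀⟩ := RigFin.rho_facts
  have h1 : ∀ᶠ n in atTop, ‖v n - v₀‖ ≤ τ₀ / 2 := by
    have := tendsto_iff_norm_sub_tendsto_zero.1 hv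
    exact this.eventually (eventually_le_nhds (by linarith))
  obtain ⟨N, hN⟩ := eventually_atTop.1 h1
  exact RigFin.rigid_seq' τ₀ hτ₀ (fun n => E (n + N)) (fun n => hE _) (fun n => v (n + N)) v₀
    (hv.comp (tendsto_add_atTop_nat N)) (fun n => hne _) (fun n => hN _ (Nat.le_add_left _ _))
    (fun σ hσ m n => hrel σ hσ _ _)

namespace MCol
variable (C : MCol)

/-- Proof. Otherwise infinitely many points share the pair `(𝒮₁, 𝒮₂)` (pigeonhole, finite type);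
they accumulate at some `v₀`; take a sequence `v n → v₀`, `v n ≠ v₀`, of such points within
`min τ₀ τ₀' / 2` of `v₀`. `E n = {θ | S (v n) θ ∈ 𝒮₁}`. For a.e. `θ`: `S (v m) θ` and
`S (v n) (rho σ (v m - v n) θ)` are disjoint (`pair_rho`) members of `𝒮₁ ∪ 𝒮₂`
(`vol_preimage_le`), so exactly one is in `𝒮₁`. `rigid_seq`. -/
theorem rig_finite (R : ℝ) : (C.Rig ∩ closedBall 0 R).Finite := by
  by_contra hinf
  obtain ⟨τ₀, h0, hτ₀⟩ := RigFin.rho_facts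
  obtain ⟨τ₁, h1, hτ₁⟩ := C.pair_rho
  let T : Set (Finset (Fin 5)) × Set (Finset (Fin 5)) → Set ℂ := fun q =>
    {v | v ∈ closedBall (0 : ℂ) R ∧ Inter q.1 ∧ Inter q.2 ∧ ∀ᵐ θ, C.S v θ ∈ q.1 ∨ C.S v θ ∈ q.2}
  have hT : ∃ q, (T q).Infinite := by
    by_contra hn
    apply hinf
    have hfin : ∀ q, (T q).Finite := fun q => by
      by_contra hq
      exact hn ⟨q, hq⟩
    refine (Set.finite_iUnion hfin).subset ?_
    rintro v ⟨⟨𝒮₁, 𝒮₂, a1, a2, a3⟩, hv⟩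
    exact mem_iUnion.2 ⟨(𝒮₁, 𝒮₂), hv, a1, a2, a3⟩
  obtain ⟨q, hq⟩ := hT
  obtain ⟨v₀, -, hacc⟩ := hq.exists_accPt_of_subset_isCompact (isCompact_closedBall (0 : ℂ) R)
    (fun v hv => hv.1)
  set η := min τ₀ τ₁ / 2 with hη
  have hηpos : 0 < η := by positivity
  have hex : ∀ n : ℕ, ∃ w, w ∈ T q ∧ w ≠ v₀ ∧ ‖w - v₀‖ < min η (1 / ((n : ℝ) + 1)) := by
    intro n
    have hpos : 0 < min η (1 / ((n : ℝ) + 1)) := by positivity
    obtain ⟨w, ⟨hw1, hw2⟩, hw3⟩ := accPt_iff_nhds.1 hacc (ball v₀ _) (ball_mem_nhds v₀ hpos)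
    exact ⟨w, hw2, hw3, by simpa [dist_eq_norm] using hw1⟩
  choose v hvT hvne hvcl using hex
  have hv : Tendsto v atTop (𝓝 v₀) := by
    rw [tendsto_iff_norm_sub_tendsto_zero]
    refine squeeze_zero (fun n => norm_nonneg _)
      (fun n => ((hvcl n).trans_le (min_le_right _ _)).le) tendsto_one_div_add_atTop_nhds_zero_nat
  have hmn : ∀ m n, ‖v m - v n‖ < min τ₀ τ₁ := fun m n => by
    have a1 := norm_sub_le_norm_sub_add_norm_sub (v m) v₀ (v n)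
    have a2 := (hvcl n).trans_le (min_le_left _ _)
    have a3 := (hvcl m).trans_le (min_le_left _ _)
    rw [← norm_sub_rev] at a2
    linarith
  refine rigid_seq (fun n => {θ | C.S (v n) θ ∈ q.1}) (fun n => C.measurableSet_S (v n) _) v v₀ hv
    hvne (fun σ hσ m n => ?_)
  have a1 := RigFin.ae_comp (rho σ (v m - v n)) 2 (by norm_num)
    ((hτ₀ σ hσ).1 _ ((hmn m n).le.trans (min_le_left _ _))) (hvT n).2.2.2
  filter_upwards [a1, (hvT m).2.2.2, hτ₁ σ hσ (v m) (v n) ((hmn m n).trans_le (min_le_right _ _))]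
    with θ b1 b2 b3
  constructor
  · intro c1 c2
    exact (hvT m).2.1 _ c1 _ c2 b3
  · intro c1
    rcases b2 with b2 | b2
    · exact b2
    · exact absurd b3 ((hvT m).2.2.1 _ b2 _ (b1.resolve_left c1))

theorem rig_countable : C.Rig.Countable := by
  have h : C.Rig ⊆ ⋃ n : ℕ, C.Rig ∩ closedBall 0 n := by
    intro v hv
    obtain ⟨n, hn⟩ := exists_nat_ge ‖v‖
    exact mem_iUnion.2 ⟨n, hv, by simpa using hn⟩
  exact (countable_iUnion fun n : ℕ => (C.rig_finite n).countable).mono h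

/-- Proof. For a.e. `θ`: `y = v + e θ ∉ Rig` (`rig_countable`, `countable_preimage_e`), and for
a.e. `φ` the colour `k = c (y + e φ)` is not in `S v θ` (`blockF2`) and `y + e φ` is a density point
of `k` (`ae_sum` with `ae_f`), so `k ∈ S y φ` (`pres` with `L = {k}`). If `|S v θ| ≥ 3` its
complement lies in some `{d, e}` and `y ∈ Rig` with `𝒮₁ = {s | d ∈ s}`, `𝒮₂ = {s | e ∈ s}`. -/
theorem card_S_le (v : ℂ) : ∀ᵐ θ, (C.S v θ).card ≤ 2 := by
  have h1 : ∀ᵐ θ : ℝ, v + e θ ∉ C.Rig := by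
    have hc : ((fun z => v + z) ⁻¹' C.Rig).Countable :=
      C.rig_countable.preimage (add_right_injective v)
    have := (countable_preimage_e _ hc).measure_zero volume
    rw [ae_iff]
    simpa using this
  have h2 := C.blockF2 v
  have h3 := ae_sum v {x | ¬ Tendsto (C.f {C.c x} x) (𝓝[>] 0) (𝓝 1)} (ae_iff.1 C.ae_f)
  have h4 := h2.and h3
  rw [Measure.volume_eq_prod] at h4
  filter_upwards [h1, Measure.ae_ae_of_ae_prod h4] with θ a1 a2
  by_contra hc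
  obtain ⟨d, d', hd⟩ := RigFin.two_cover (C.S v θ) (by omega)
  apply a1
  refine ⟨{s | d ∈ s}, {s | d' ∈ s}, fun s hs t ht h => Finset.disjoint_left.1 h hs ht,
    fun s hs t ht h => Finset.disjoint_left.1 h hs ht, ?_⟩
  have a3 : ∀ᵐ φ, ∀ k : Fin 5, Tendsto (C.f {k} (v + e θ + e φ)) (𝓝[>] 0) (𝓝 1) →
      ∃ i ∈ ({k} : Finset (Fin 5)), i ∈ C.S (v + e θ) φ :=
    ae_all_iff.2 fun k => C.pres (v + e θ) {k}
  filter_upwards [a2, a3] with φ b1 b2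
  obtain ⟨b3, b4⟩ := b1
  simp only [not_not] at b4
  obtain ⟨i, hi, hi'⟩ := b2 _ b4
  rw [Finset.mem_singleton] at hi
  subst hi
  rcases hd _ b3 with h | h
  · left; rwa [← h]
  · right; rwa [← h]

end MCol

end Crest.Agent.R40
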