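import Crest.Agent.R40.Blocks

/-!
# Row 40, task C6b: the circle of radius `√3`
-/

set_option autoImplicit false

namespace Crest.Agent.R40
open MeasureTheory Set Filter Topology Metric
open scoped ENNReal Real

namespace Sqrt3

/-- Lebesgue density for the level sets of a finite-valued function on the line -/
lemma ae_level {α : Type} [Fintype α] (g : ℝ → α) (hg : ∀ a, MeasurableSet {θ | g θ ≠ a}) :
    ∀ᵐ θ₀ : ℝ, ∀ ε > (0 : ℝ), ∀ᶠ r in 𝓝[>] (0 : ℝ),
      volume ({θ | g θ ≠ g θ₀} ∩ closedBall θ₀ r) ≤ ENNReal.ofReal (ε * r) := by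
  have h1 : ∀ᵐ θ₀ : ℝ, ∀ a : α,
      Tendsto (fun r => volume ({θ | g θ ≠ a} ∩ closedBall θ₀ r) / volume (closedBall θ₀ r))
        (𝓝[>] 0) (𝓝 (({θ | g θ ≠ a} : Set ℝ).indicator 1 θ₀)) :=
    ae_all_iff.2 fun a => Besicovitch.ae_tendsto_measure_inter_div_of_measurableSet volume (hg a)
  filter_upwards [h1] with θ₀ h ε hε
  have h2 := h (g θ₀)
  rw [Set.indicator_of_notMem (by simp)] at h2
  have h3 : (0 : ℝ≥0∞) < ENNReal.ofReal (ε / 2) := by simpa using hε
  filter_upwards [h2.eventually (gt_mem_nhds h3), self_mem_nhdsWithin] with r hr hr0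
  have hr0' : 0 < r := hr0
  rw [Real.volume_closedBall] at hr
  have hne : ENNReal.ofReal (2 * r) ≠ 0 := by simpa using hr0'
  have := (ENNReal.div_lt_iff (Or.inl hne) (Or.inl ENNReal.ofReal_ne_top)).1 hr
  refine this.le.trans (le_of_eq ?_)
  rw [← ENNReal.ofReal_mul (by positivity)]
  congr 1
  ring

/-- a Lipschitz local inverse at the base point -/
lemma exists_inv (θ₀ φ₀ : ℝ) (h : Real.sin (θ₀ - φ₀) ≠ 0) :
    ∃ K > (0 : ℝ), ∃ ρ > (0 : ℝ), ∀ w : ℂ, ‖w - (e θ₀ + e φ₀)‖ < ρ →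
      ∃ θ φ : ℝ, e θ + e φ = w ∧ |θ - θ₀| ≤ K * ‖w - (e θ₀ + e φ₀)‖ ∧
        |φ - φ₀| ≤ K * ‖w - (e θ₀ + e φ₀)‖ := by
  obtain ⟨L, D, hD, h1, h2⟩ := local_inv θ₀ φ₀ h
  have h0 : L (e θ₀ + e φ₀) = (θ₀, φ₀) := h1.self_of_nhds
  obtain ⟨K, hK, hO⟩ := hD.hasFDerivAt.isBigO_sub.exists_pos
  have h3 := hO.bound.and h2
  obtain ⟨ρ, hρ, h4⟩ := Metric.eventually_nhds_iff.1 h3
  refine ⟨K, hK, ρ, hρ, fun w hw => ?_⟩
  obtain ⟨h5, h6⟩ := h4 (y := w) (by rwa [dist_eq_norm])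
  rw [h0] at h5
  refine ⟨(L w).1, (L w).2, h6, ?_, ?_⟩
  · exact le_trans (by simpa using norm_fst_le (L w - (θ₀, φ₀))) h5
  · exact le_trans (by simpa using norm_snd_le (L w - (θ₀, φ₀))) h5

/-- at a good angle the colour `m` dominates small discs -/
lemma half_lt (C : MCol) (v : ℂ) (m : Fin 5) (θ₀ φ₀ : ℝ) (hs : Real.sin (θ₀ - φ₀) ≠ 0)
    (h : ∀ k, k ≠ m → k ∈ C.S v θ₀ ∨ k ∈ C.S v φ₀)
    (h1 : ∀ ε > (0 : ℝ), ∀ᶠ r in 𝓝[>] (0 : ℝ),
      volume ({θ | C.S v θ ≠ C.S v θ₀} ∩ closedBall θ₀ r) ≤ ENNReal.ofReal (ε * r))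
    (h2 : ∀ ε > (0 : ℝ), ∀ᶠ r in 𝓝[>] (0 : ℝ),
      volume ({θ | C.S v θ ≠ C.S v φ₀} ∩ closedBall φ₀ r) ≤ ENNReal.ofReal (ε * r)) :
    ∀ᶠ r in 𝓝[>] (0 : ℝ), 1 / 2 < C.f {m} (v + e θ₀ + e φ₀) r := by
  obtain ⟨K, hK, ρ, hρ, hinv⟩ := exists_inv θ₀ φ₀ hs
  have hε : (0 : ℝ) < 1 / (4 * K ^ 2) := by positivity
  have hT : Tendsto (fun r : ℝ => K * r) (𝓝[>] 0) (𝓝[>] 0) := by
    refine tendsto_nhdsWithin_iff.2 ⟨?_, ?_⟩
    · have : Tendsto (fun r : ℝ => K * r) (𝓝 0) (𝓝 (K * 0)) :=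
        (continuous_const.mul continuous_id).tendsto 0
      rw [mul_zero] at this
      exact this.mono_left nhdsWithin_le_nhds
    · filter_upwards [self_mem_nhdsWithin] with r hr
      exact mul_pos hK hr
  filter_upwards [hT.eventually (h1 _ hε), hT.eventually (h2 _ hε), self_mem_nhdsWithin,
    Ioo_mem_nhdsGT hρ] with r hr1 hr2 hr0 hrρ
  have hr0' : 0 < r := hr0
  set z : ℂ := v + e θ₀ + e φ₀ with hz
  set B1 : Set ℝ := {θ | C.S v θ ≠ C.S v θ₀} ∩ closedBall θ₀ (K * r) with hB1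
  set B2 : Set ℝ := {θ | C.S v θ ≠ C.S v φ₀} ∩ closedBall φ₀ (K * r) with hB2
  have mB1 : MeasurableSet B1 :=
    (C.measurableSet_S v (fun s => s ≠ C.S v θ₀)).inter measurableSet_closedBall
  have mB2 : MeasurableSet B2 :=
    (C.measurableSet_S v (fun s => s ≠ C.S v φ₀)).inter measurableSet_closedBall
  set B : Set (ℝ × ℝ) := B1 ×ˢ closedBall φ₀ (K * r) ∪ closedBall θ₀ (K * r) ×ˢ B2 with hB
  have mB : MeasurableSet B :=
    (mB1.prod measurableSet_closedBall).union (measurableSet_closedBall.prod mB2)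
  have hvB : volume B ≤ ENNReal.ofReal (r ^ 2) := by
    have e1 : volume (B1 ×ˢ closedBall φ₀ (K * r)) ≤ ENNReal.ofReal (r ^ 2 / 2) := by
      rw [Measure.volume_eq_prod, Measure.prod_prod, Real.volume_closedBall]
      refine (mul_le_mul_left hr1 _).trans (le_of_eq ?_)
      rw [← ENNReal.ofReal_mul (by positivity)]
      congr 1
      field_simp
      ring
    have e2 : volume (closedBall θ₀ (K * r) ×ˢ B2) ≤ ENNReal.ofReal (r ^ 2 / 2) := by
      rw [Measure.volume_eq_prod, Measure.prod_prod, Real.volume_closedBall]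
      refine (mul_le_mul_right hr2 _).trans (le_of_eq ?_)
      rw [← ENNReal.ofReal_mul (by positivity)]
      congr 1
      field_simp
      ring
    refine (measure_union_le _ _).trans ((add_le_add e1 e2).trans (le_of_eq ?_))
    rw [← ENNReal.ofReal_add (by positivity) (by positivity)]
    congr 1
    ring
  have hsub : ∀ᵐ y : ℂ, y ∈ (C.A {m})ᶜ ∩ closedBall z r →
      y ∈ (fun p : ℝ × ℝ => v + e p.1 + e p.2) '' B := by
    filter_upwards [C.blockY v] with y hy hyA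
    obtain ⟨hyA, hyb⟩ := hyA
    have hym : C.c y ≠ m := by simpa [MCol.A] using hyA
    have hw : ‖(y - v) - (e θ₀ + e φ₀)‖ ≤ r := by
      rw [mem_closedBall, dist_eq_norm] at hyb
      rwa [show (y - v) - (e θ₀ + e φ₀) = y - z by rw [hz]; ring]
    obtain ⟨θ, φ, hsum, hθ, hφ⟩ := hinv (y - v) (lt_of_le_of_lt hw hrρ.2)
    have hθ' : θ ∈ closedBall θ₀ (K * r) := by
      rw [mem_closedBall, Real.dist_eq]
      exact hθ.trans (mul_le_mul_of_nonneg_left hw hK.le)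
    have hφ' : φ ∈ closedBall φ₀ (K * r) := by
      rw [mem_closedBall, Real.dist_eq]
      exact hφ.trans (mul_le_mul_of_nonneg_left hw hK.le)
    have n1 : C.c y ∉ C.S v θ := hy θ (by rw [← hsum, add_sub_cancel_left, norm_e])
    have n2 : C.c y ∉ C.S v φ := hy φ (by rw [← hsum, add_sub_cancel_right, norm_e])
    refine ⟨(θ, φ), ?_, ?_⟩
    · rcases h _ hym with h' | h'
      · left
        refine ⟨⟨?_, hθ'⟩, hφ'⟩
        intro he
        exact n1 (by rw [show C.S v θ = C.S v θ₀ from he]; exact h')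
      · right
        refine ⟨hθ', ?_, hφ'⟩
        intro he
        exact n2 (by rw [show C.S v φ = C.S v φ₀ from he]; exact h')
    · show v + e θ + e φ = y
      rw [add_assoc, hsum]; ring
  have hle : volume ((C.A {m})ᶜ ∩ closedBall z r) ≤ ENNReal.ofReal (r ^ 2) :=
    (measure_mono_ae hsub).trans ((img_le v B mB).trans hvB)
  rw [volume_inter_closedBall _ _ _ hr0', ENNReal.ofReal_le_ofReal_iff (by positivity)] at hle
  have hadd := dens_add_compl (C.A {m}) (C.measurableSet_A _) z r hr0'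
  have hd : dens (C.A {m})ᶜ z r < 1 / 2 := by
    by_contra hc
    push Not at hc
    have hpi := Real.pi_gt_three
    have hr2' : 0 < r ^ 2 := by positivity
    have : 1 / 2 * (π * r ^ 2) ≤ dens (C.A {m})ᶜ z r * (π * r ^ 2) :=
      mul_le_mul_of_nonneg_right hc (by positivity)
    nlinarith
  show 1 / 2 < dens (C.A {m}) z r
  linarith

/-- a rotation moving the points of the circle of radius `√3` by a unit distance -/
lemma exists_alpha : ∃ α : ℝ, ∀ θ : ℝ,
    ‖(e (θ + α) + e (θ + α + π / 3)) - (e θ + e (θ + π / 3))‖ = 1 := by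
  refine ⟨Real.arccos (5 / 6), fun θ => ?_⟩
  set α := Real.arccos (5 / 6) with hα
  have hc : Real.cos α = 5 / 6 := Real.cos_arccos (by norm_num) (by norm_num)
  have e1 : (e (θ + α) + e (θ + α + π / 3)) - (e θ + e (θ + π / 3))
      = e θ * ((1 + e (π / 3)) * (e α - 1)) := by
    simp only [e_add]; ring
  have n1 : ‖1 + e (π / 3)‖ ^ 2 = 3 := by
    rw [Complex.sq_norm, Complex.normSq_apply]
    simp only [Complex.add_re, Complex.add_im, Complex.one_re, Complex.one_im, e_re, e_im]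
    have := Real.sin_sq_add_cos_sq (π / 3)
    rw [Real.cos_pi_div_three] at this ⊢
    nlinarith
  have n2 : ‖e α - 1‖ ^ 2 = 1 / 3 := by
    rw [Complex.sq_norm, Complex.normSq_apply]
    simp only [Complex.sub_re, Complex.sub_im, Complex.one_re, Complex.one_im, e_re, e_im]
    have := Real.sin_sq_add_cos_sq α
    rw [hc] at this ⊢
    nlinarith
  rw [e1, norm_mul, norm_e, one_mul, norm_mul]
  have : (‖1 + e (π / 3)‖ * ‖e α - 1‖) ^ 2 = 1 := by rw [mul_pow, n1, n2]; norm_num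
  have hp : 0 ≤ ‖1 + e (π / 3)‖ * ‖e α - 1‖ := by positivity
  nlinarith

end Sqrt3

/-- Proof. `z θ = v + e θ + e (θ + π/3) = v + √3 e (θ + π/6)`. Claim: for a.e. `θ₀`,
`f {m} (z θ₀) r → 1` as `r → 0`. Indeed for a.e. `θ₀`, `θ₀` is a density point of
`M = {θ | S v θ = S v θ₀}` and `θ₀ + π/3` of `M' = {θ | S v θ = S v (θ₀ + π/3)}` (finitely many
values; `Besicovitch.ae_tendsto_measure_inter_div_of_measurableSet` on `ℝ`), and `h` holds at `θ₀`.
By `local_inv` (Lipschitz at the base point) every `y ∈ closedBall (z θ₀) r` is `v + e θ + e θ'`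
with `|θ - θ₀|, |θ' - θ₀ - π/3| ≤ K r`. If `y` satisfies `blockY v`, `θ ∈ M`, `θ' ∈ M'` then
`c y = m`. So the non-`m` area in the disc is at most the measure of
`{(θ, θ') in the box | θ ∉ M ∨ θ' ∉ M'}` (`img_le`), which is `o(r) · 2 K r`.
Finally `‖z θ - z (θ + α)‖ = 1` for `α = 2 arcsin (1/(2√3))`; take `θ` with both points good:
contradiction with `f_add_f_le`. -/
theorem MCol.sqrt3 (C : MCol) (v : ℂ) (m : Fin 5)
    (h : ∀ᵐ θ : ℝ, ∀ k, k ≠ m → k ∈ C.S v θ ∨ k ∈ C.S v (θ + π / 3)) : False := by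
  have hl := Sqrt3.ae_level (C.S v) (fun a => C.measurableSet_S v (fun s => s ≠ a))
  have hl' := (measurePreserving_add_right volume (π / 3)).quasiMeasurePreserving.ae hl
  have hgood : ∀ᵐ θ : ℝ, ∀ᶠ r in 𝓝[>] (0 : ℝ), 1 / 2 < C.f {m} (v + e θ + e (θ + π / 3)) r := by
    filter_upwards [h, hl, hl'] with θ h0 h1 h2
    refine Sqrt3.half_lt C v m θ (θ + π / 3) ?_ h0 h1 h2
    rw [show θ - (θ + π / 3) = -(π / 3) by ring, Real.sin_neg, Real.sin_pi_div_three]
    have : (0 : ℝ) < √3 := by positivity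
    linarith
  obtain ⟨α, hα⟩ := Sqrt3.exists_alpha
  have hgood' := (measurePreserving_add_right volume α).quasiMeasurePreserving.ae hgood
  obtain ⟨θ, h1, h2⟩ := (hgood.and hgood').exists
  obtain ⟨r, hr1, hr2⟩ := (h1.and h2).exists
  have := C.f_add_f_le m (v + e θ + e (θ + π / 3)) _ (hα θ) r
  rw [show v + e θ + e (θ + π / 3) + (e (θ + α) + e (θ + α + π / 3) - (e θ + e (θ + π / 3)))
    = v + e (θ + α) + e (θ + α + π / 3) by ring] at this
  linarith

end Crest.Agent.R40
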