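import Crest.Agent.R40.NotG
import Crest.Agent.R40.RigFin
import Crest.Agent.R40.Dcone
import Crest.Agent.R40.Sqrt3

/-!
# Row 40, task C7: no point sees all five colours
-/

set_option autoImplicit false

namespace Crest.Agent.R40
open MeasureTheory Set Filter Topology Metric
open scoped ENNReal Real

namespace Five

/-- the ten pairs -/
def pr : Fin 10 → Finset (Fin 5) :=
  ![{0, 1}, {0, 2}, {0, 3}, {0, 4}, {1, 2}, {1, 3}, {1, 4}, {2, 3}, {2, 4}, {3, 4}]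

/-- the index of the pair `{i, j}` -/
def ix : Fin 5 → Fin 5 → Fin 10 :=
  ![![0, 0, 1, 2, 3], ![0, 0, 4, 5, 6], ![1, 4, 0, 7, 8], ![2, 5, 7, 0, 9], ![3, 6, 8, 9, 0]]

/-- the three neighbours in the Petersen graph -/
def nb : Fin 10 → List (Fin 10) :=
  ![[7, 8, 9], [5, 6, 9], [4, 6, 8], [4, 5, 7], [2, 3, 9], [1, 3, 8], [1, 2, 7], [0, 3, 6],
    [0, 2, 5], [0, 1, 4]]

theorem pr_surj : ∀ s : Finset (Fin 5), s.card = 2 → ∃ a, pr a = s := by decide +kernel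

theorem pr_ix : ∀ i j : Fin 5, i ≠ j → pr (ix i j) = {i, j} := by decide +kernel

theorem mem_nb : ∀ a b : Fin 10, b ∈ nb a ↔ Disjoint (pr a) (pr b) := by
  simp only [Finset.disjoint_left]
  decide +kernel

theorem exists_notMem : ∀ d e : Fin 5, ∃ i : Fin 5, i ∉ ({d, e} : Finset (Fin 5)) := by
  decide +kernel

set_option synthInstance.maxSize 2000 in
set_option synthInstance.maxHeartbeats 200000 in
theorem core : ∀ a₀ : Fin 10, ∀ a₁ ∈ nb a₀, ∀ a₂ ∈ nb a₁, ∀ a₃ ∈ nb a₂, a₃ ∉ nb a₀ →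
    ∀ a₄ ∈ nb a₃, a₄ ∉ nb a₁ → ∀ a₅ ∈ nb a₄, a₅ ∉ nb a₂ → a₀ ∈ nb a₅ →
    ∃ d e : Fin 5, d ≠ e ∧ ∀ i, i ≠ d → i ≠ e → ∃ k : Fin 6,
      ![a₀, a₁, a₂, a₃, a₄, a₅] k = ix i d ∧ ![a₀, a₁, a₂, a₃, a₄, a₅] (k + 3) = ix i e := by
  decide +kernel

theorem ae_add {p : ℝ → Prop} (h : ∀ᵐ θ, p θ) (a : ℝ) : ∀ᵐ θ, p (θ + a) :=
  (measurePreserving_add_right volume a).quasiMeasurePreserving.ae h

theorem freq_of_add {p : ℝ → Prop} {a : ℝ} (h : ∃ᵐ θ, p (θ + a)) : ∃ᵐ θ, p θ :=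
  fun h' => h (ae_add h' a)

theorem freq_exists {ι : Type*} [Finite ι] {p : ι → ℝ → Prop} (h : ∃ᵐ θ, ∃ i, p i θ) :
    ∃ i, ∃ᵐ θ, p i θ := by
  by_contra h'
  simp only [not_exists, not_frequently] at h'
  exact h ((eventually_all.mpr h').mono fun θ hθ ⟨i, hi⟩ => hθ i hi)

theorem fifth {s s' : Finset (Fin 5)} (hs : s.card = 2) (hs' : s'.card = 2) (hd : Disjoint s s') :
    ∃ m, ∀ k, k ≠ m → k ∈ s ∨ k ∈ s' := by
  have h : (s ∪ s')ᶜ.card = 1 := by
    rw [Finset.card_compl, Finset.card_union_of_disjoint hd, hs, hs']; rfl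
  obtain ⟨m, hm⟩ := Finset.card_eq_one.mp h
  refine ⟨m, fun k hk => ?_⟩
  by_contra hc
  have : k ∈ (s ∪ s')ᶜ := by simpa [not_or] using hc
  rw [hm] at this
  exact hk (Finset.mem_singleton.mp this)

theorem fifth' {s s' : Finset (Fin 5)} (hs : s.card = 2) (hs' : s'.card = 2) (hd : Disjoint s s')
    {m : Fin 5} (hm : m ∉ s) (hm' : m ∉ s') : ∀ k, k ≠ m → k ∈ s ∨ k ∈ s' := by
  obtain ⟨m', h⟩ := fifth hs hs' hd
  obtain rfl : m = m' := by
    by_contra hc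
    exact (h m hc).elim hm hm'
  exact h

theorem S_mod (C : MCol) (v : ℂ) (θ : ℝ) (k j : Fin 6) :
    C.S v (θ + ((k + j : Fin 6) : ℕ) * (π / 3))
      = C.S v (θ + (k : ℕ) * (π / 3) + (j : ℕ) * (π / 3)) := by
  have hp : Function.Periodic (C.S v) (2 * π) := C.S_add_two_pi v
  rw [← hp.nat_mul (((k : ℕ) + j) / 6)]
  congr 1
  have h : (((k : ℕ) + j : ℕ) : ℝ) = ((k + j : Fin 6) : ℕ) + 6 * ((((k : ℕ) + j) / 6 : ℕ) : ℝ) := by
    rw [Fin.val_add]
    exact_mod_cast (Nat.mod_add_div _ _).symm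
  push_cast at h
  linear_combination (-(π / 3)) * h

end Five

open Five

/-- Closed 6-walks in the Petersen graph without adjacent antipodes are 6-cycles, i.e. complements
of closed neighbourhoods. (Finite check: e.g. encode the ten pairs by `Fin 10` and `decide` a
statement `∀ s₀ s₁, adj → ∀ s₂, adj → ...`.) -/
theorem petersen (S : Fin 6 → Finset (Fin 5)) (hc : ∀ k, (S k).card = 2)
    (hd : ∀ k, Disjoint (S k) (S (k + 1))) (ha : ∀ k, ¬ Disjoint (S k) (S (k + 3))) :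
    ∃ d e : Fin 5, d ≠ e ∧ ∀ i, i ≠ d → i ≠ e → ∃ k, S k = {i, d} ∧ S (k + 3) = {i, e} := by
  choose a ha' using fun k => pr_surj (S k) (hc k)
  simp only [← ha', ← mem_nb] at hd ha
  obtain ⟨d, e, hde, h⟩ := core (a 0) (a 1) (hd 0) (a 2) (hd 1) (a 3) (hd 2) (ha 0) (a 4) (hd 3)
    (ha 1) (a 5) (hd 4) (ha 2) (hd 5)
  have hv : ![a 0, a 1, a 2, a 3, a 4, a 5] = a := by
    funext k; fin_cases k <;> rfl
  rw [hv] at h
  refine ⟨d, e, hde, fun i hid hie => ?_⟩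
  obtain ⟨k, h1, h2⟩ := h i hid hie
  exact ⟨k, by rw [← ha', h1, pr_ix i d hid], by rw [← ha', h2, pr_ix i e hie]⟩

/-- Proof. Suppose `v ∈ F i` for all `i`. Then `|S v θ| = 2` a.e. (`S_nonempty`, `single`,
`card_S_le`), and `S v θ`, `S v (θ + π/3)` are disjoint (`s2`). (A.e. statements are invariant under
translation of `θ`.)
Case A: `∃ᵐ θ, Disjoint (S v θ) (S v (θ + π))`. Pigeonhole gives disjoint pairs `s, s'` with
`∃ᵐ θ, S v θ = s ∧ S v (θ + π) = s'`; `m` the fifth colour; `dcone` and `S_sub_F` give `m ∉ S v η`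
a.e., so `S v θ ∪ S v (θ + π/3)` contains all `k ≠ m`; `sqrt3`.
Case B: for a.e. `θ`, `petersen` applies to `k ↦ S v (θ + k π/3)` (`S_add_two_pi`); pigeonhole on
`(d, e)` and, for each `i`, on `k`, gives the hypothesis of `cone` with `L = {d, e}`. -/
theorem MCol.P_ne_five (C : MCol) (v : ℂ) : ∃ m, v ∉ C.F m := by
  by_contra hall
  simp only [not_exists, not_not] at hall
  have h2 : ∀ᵐ θ, (C.S v θ).card = 2 := by
    filter_upwards [C.card_S_le v, eventually_all.mpr fun i => C.single v i (hall i)] with θ h1 h2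
    by_contra hc
    obtain ⟨i, hi⟩ := Finset.card_le_one_iff_subset_singleton.mp
      (show (C.S v θ).card ≤ 1 by omega)
    exact h2 i hi
  by_cases hA : ∃ᵐ θ, Disjoint (C.S v θ) (C.S v (θ + π))
  · have h3 : ∃ᵐ θ, ∃ q : Finset (Fin 5) × Finset (Fin 5), (q.1.card = 2 ∧ q.2.card = 2 ∧
        Disjoint q.1 q.2) ∧ q.1 ⊆ C.S v θ ∧ q.2 ⊆ C.S v (θ + π) :=
      (hA.and_eventually (h2.and (ae_add h2 π))).mono fun θ hθ =>
        ⟨(C.S v θ, C.S v (θ + π)), ⟨hθ.2.1, hθ.2.2, hθ.1⟩, subset_rfl, subset_rfl⟩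
    obtain ⟨⟨s, s'⟩, hq⟩ := freq_exists h3
    obtain ⟨-, ⟨hs, hs', hd⟩, -⟩ := hq.exists
    obtain ⟨m, hm⟩ := fifth hs hs' hd
    have hc := C.dcone v m s s' hm (hq.mono fun θ hθ => hθ.2)
    have h4 : ∀ᵐ θ, m ∉ C.S v θ := (C.S_sub_F v).mono fun θ hθ hm => hc θ (hθ m hm)
    refine C.sqrt3 v m ?_
    filter_upwards [h2, ae_add h2 (π / 3), C.s2 v, h4, ae_add h4 (π / 3)] with θ a b c d e
    exact fifth' a b c d e
  · rw [not_frequently] at hA
    have h3 : ∀ᵐ θ, ∃ q : Fin 5 × Fin 5, q.1 ≠ q.2 ∧ ∀ i, i ≠ q.1 → i ≠ q.2 → ∃ k : Fin 6,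
        C.S v (θ + (k : ℕ) * (π / 3)) = {i, q.1} ∧
          C.S v (θ + (k : ℕ) * (π / 3) + π) = {i, q.2} := by
      filter_upwards [eventually_all.mpr fun k : Fin 6 => ae_add h2 ((k : ℕ) * (π / 3)),
        eventually_all.mpr fun k : Fin 6 => ae_add (C.s2 v) ((k : ℕ) * (π / 3)),
        eventually_all.mpr fun k : Fin 6 => ae_add hA ((k : ℕ) * (π / 3))] with θ a b c
      have e3 : ∀ k : Fin 6, C.S v (θ + ((k + 3 : Fin 6) : ℕ) * (π / 3))
          = C.S v (θ + (k : ℕ) * (π / 3) + π) := fun k => by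
        rw [S_mod]; congr 2; norm_num; ring
      obtain ⟨d, e, hde, h⟩ := petersen (fun k => C.S v (θ + (k : ℕ) * (π / 3))) a
        (fun k => by simpa only [S_mod, Fin.val_one, Nat.cast_one, one_mul] using b k)
        (fun k => by simpa only [e3] using c k)
      exact ⟨(d, e), hde, by simpa only [e3] using h⟩
    obtain ⟨⟨d, e⟩, hq⟩ := freq_exists h3.frequently
    obtain ⟨-, hde, -⟩ := hq.exists
    obtain ⟨i, hi⟩ := exists_notMem d e
    refine C.cone v {d, e} (fun i hi => ?_) d i (by simp) hi (hall d) (hall i)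
    simp only [Finset.mem_insert, Finset.mem_singleton, not_or] at hi
    obtain ⟨k, hk⟩ := freq_exists (hq.mono fun θ hθ => hθ.2 i hi.1 hi.2)
    refine (freq_of_add (p := fun α => C.S v α = {i, d} ∧ C.S v (α + π) = {i, e}) hk).mono ?_
    rintro α ⟨h1, h2⟩ j hj
    rcases Finset.mem_insert.mp hj with rfl | hj
    · exact Or.inl h1.subset
    · obtain rfl := Finset.mem_singleton.mp hj
      exact Or.inr h2.subset

end Crest.Agent.R40
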