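import Crest.Agent.R40.Defs

/-!
# Row 40, task F1: discrete Stokes on the grid
-/

set_option autoImplicit false

namespace Crest.Agent.R40
open Set Relation

namespace Grid

lemma tele (φ : ℤ → ℤ) (N : ℕ) : ∑ a ∈ Finset.Ico (0 : ℤ) N, (φ (a + 1) - φ a) = φ N - φ 0 := by
  induction N with
  | zero => simp
  | succ n ih =>
    have h : Finset.Ico (0 : ℤ) ((n + 1 : ℕ) : ℤ) = insert (n : ℤ) (Finset.Ico (0 : ℤ) n) := by
      ext x
      simp only [Finset.mem_Ico, Finset.mem_insert]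
      omega
    rw [h, Finset.sum_insert (by simp), ih]
    push_cast
    ring

lemma tele' (φ : ℤ → ℤ) (N : ℕ) : ∑ a ∈ Finset.Ico (0 : ℤ) N, (φ a - φ (a + 1)) = φ 0 - φ N := by
  have := tele (fun a => -φ a) N
  simp only [neg_sub_neg] at this
  exact this

/-- discrete Stokes on the board -/
lemma stokes (w : ℤ × ℤ → ℤ × ℤ → ℤ) (N : ℕ) :
    ∑ T ∈ board N, curl w T =
      ∑ a ∈ Finset.Ico (0 : ℤ) N, (w (a, 0) (a + 1, 0) - w (a, N) (a + 1, N)) +
        ∑ b ∈ Finset.Ico (0 : ℤ) N, (w (N, b) (N, b + 1) - w (0, b) (0, b + 1)) := by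
  have h1 : ∀ T : ℤ × ℤ, curl w T =
      (w (T.1, T.2) (T.1 + 1, T.2) - w (T.1, T.2 + 1) (T.1 + 1, T.2 + 1)) +
        (w (T.1 + 1, T.2) (T.1 + 1, T.2 + 1) - w (T.1, T.2) (T.1, T.2 + 1)) := by
    intro T; simp only [curl]; ring
  simp only [h1, Finset.sum_add_distrib, board]
  congr 1
  · rw [Finset.sum_product]
    exact Finset.sum_congr rfl fun a _ => tele' (fun b => w (a, b) (a + 1, b)) N
  · rw [Finset.sum_product_right]
    exact Finset.sum_congr rfl fun b _ => tele (fun a => w (a, b) (a, b + 1)) N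

lemma c1 (T : ℤ × ℤ) : T ∈ corners T := by simp [corners]
lemma c2 (T : ℤ × ℤ) : (T.1 + 1, T.2) ∈ corners T := by simp [corners]
lemma c3 (T : ℤ × ℤ) : (T.1, T.2 + 1) ∈ corners T := by simp [corners]
lemma c4 (T : ℤ × ℤ) : (T.1 + 1, T.2 + 1) ∈ corners T := by simp [corners]

variable (l : ℤ × ℤ → Fin 5)

lemma om_tri (i j : Fin 5) {x y z : ℤ × ℤ} (h : l x = l y ∨ l y = l z ∨ l x = l z) :
    om l i j x y + om l i j y z - om l i j x z = 0 := by
  simp only [om]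
  rcases h with h | h | h
  · rw [h]; simp only [and_comm (a := l y = j) (b := l y = i)]; ring
  · rw [h]; simp only [and_comm (a := l z = j) (b := l z = i)]; ring
  · rw [h]
    simp only [and_comm (a := l z = j) (b := l z = i), and_comm (a := l y = j) (b := l z = i),
      and_comm (a := l y = i) (b := l z = j)]
    ring

lemma curl_two (i j : Fin 5) {T : ℤ × ℤ} (h : Two l T) : curl (om l i j) T = 0 := by
  have h1 := om_tri l i j (h _ (c1 T) _ (c2 T) _ (c4 T))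
  have h2 := om_tri l i j (h _ (c1 T) _ (c3 T) _ (c4 T))
  simp only [curl]
  linarith

lemma om_sum (F G : Fin 5 → ℤ) (x y : ℤ × ℤ) :
    ∑ i, ∑ j, F i * G j * om l i j x y = F (l x) * G (l y) - F (l y) * G (l x) := by
  have h1 : ∀ a b : Fin 5, ∑ i, ∑ j, F i * G j * (if a = i ∧ b = j then 1 else 0) = F a * G b := by
    intro a b
    rw [Finset.sum_eq_single a, Finset.sum_eq_single b]
    · simp
    · intro j _ hj; simp [hj.symm]
    · simp
    · intro i _ hi; simp [hi.symm]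
    · simp
  have h2 : ∀ i j : Fin 5, om l i j x y = (if l x = i ∧ l y = j then 1 else 0) -
      (if l y = i ∧ l x = j then 1 else 0) := fun i j => by
    simp only [om, and_comm (a := l x = j) (b := l y = i)]
  simp only [h2, mul_sub, Finset.sum_sub_distrib, h1]

/-- a product cochain which only depends on the labels has no flux -/
lemma sum_curl_eq_zero (f g : ℤ × ℤ → ℤ) (R : Finset (ℤ × ℤ))
    (hfg : ∀ T ∈ R, ∀ T' ∈ R, ∀ x ∈ corners T, ∀ y ∈ corners T', l x = l y → f x = f y ∧ g x = g y)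
    (hflux : ∀ i j, flux l i j R = 0) :
    ∑ T ∈ R, curl (fun x y => f x * g y - f y * g x) T = 0 := by
  classical
  have hex : ∀ i : Fin 5, ∃ p : ℤ × ℤ, ∀ T ∈ R, ∀ x ∈ corners T, l x = i →
      f x = p.1 ∧ g x = p.2 := by
    intro i
    by_cases h : ∃ T' ∈ R, ∃ y ∈ corners T', l y = i
    · obtain ⟨T', hT', y, hy, hi⟩ := h
      exact ⟨(f y, g y), fun T hT x hx hx' => hfg T hT T' hT' x hx y hy (hx'.trans hi.symm)⟩
    · exact ⟨0, fun T hT x hx hx' => absurd ⟨T, hT, x, hx, hx'⟩ h⟩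
  choose p hp using hex
  have h1 : ∀ T ∈ R, curl (fun x y => f x * g y - f y * g x) T =
      ∑ i, ∑ j, (p i).1 * (p j).2 * curl (om l i j) T := by
    intro T hT
    have e := fun x hx => hp (l x) T hT x hx rfl
    simp only [curl, mul_sub, mul_add, Finset.sum_sub_distrib, Finset.sum_add_distrib,
      om_sum l (fun i => (p i).1) (fun j => (p j).2), (e _ (c1 T)).1, (e _ (c1 T)).2,
      (e _ (c2 T)).1, (e _ (c2 T)).2, (e _ (c3 T)).1, (e _ (c3 T)).2, (e _ (c4 T)).1,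
      (e _ (c4 T)).2]
  rw [Finset.sum_congr rfl h1, Finset.sum_comm]
  refine Finset.sum_eq_zero fun i _ => ?_
  rw [Finset.sum_comm]
  refine Finset.sum_eq_zero fun j _ => ?_
  rw [← Finset.mul_sum]
  have := hflux i j
  rw [flux] at this
  rw [this, mul_zero]

lemma om_swap (i j : Fin 5) (x y : ℤ × ℤ) : om l j i x y = -om l i j x y := by
  simp only [om]; ring

lemma flux_swap (i j : Fin 5) (R : Finset (ℤ × ℤ)) : flux l j i R = -flux l i j R := by
  simp only [flux, curl, om_swap l i j, ← Finset.sum_neg_distrib]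
  exact Finset.sum_congr rfl fun T _ => by ring

lemma om_row (i : Fin 5) (x y : ℤ × ℤ) :
    ∑ j, om l i j x y = (if l x = i then 1 else 0) - (if l y = i then 1 else 0) := by
  simp only [om, Finset.sum_sub_distrib]
  congr 1
  · by_cases h : l x = i <;> simp [h]
  · by_cases h : l y = i <;> simp [h]

lemma flux_row (i : Fin 5) (R : Finset (ℤ × ℤ)) : ∑ j, flux l i j R = 0 := by
  simp only [flux]
  rw [Finset.sum_comm]
  refine Finset.sum_eq_zero fun T _ => ?_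
  simp only [curl, Finset.sum_sub_distrib, Finset.sum_add_distrib, om_row]
  ring

lemma five {m a b c d : Fin 5} (h1 : m ≠ a) (h2 : m ≠ b) (h3 : m ≠ c) (h4 : m ≠ d) (h5 : a ≠ b)
    (h6 : a ≠ c) (h7 : a ≠ d) (h8 : b ≠ c) (h9 : b ≠ d) (h10 : c ≠ d) (e : Fin 5) :
    e = m ∨ e = a ∨ e = b ∨ e = c ∨ e = d := by
  have h : ({m, a, b, c, d} : Finset (Fin 5)) = Finset.univ := by
    apply Finset.eq_univ_of_card
    rw [Finset.card_insert_of_notMem (by simp [*]), Finset.card_insert_of_notMem (by simp [*]),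
      Finset.card_insert_of_notMem (by simp [*]), Finset.card_insert_of_notMem (by simp [*])]
    simp
  have := Finset.mem_univ e
  rw [← h] at this
  simpa using this

lemma sum_shift (S : Finset (ℤ × ℤ)) (φ : ℤ × ℤ → ℤ) (v : ℤ × ℤ)
    (h : ∀ x, φ (x + v) ≠ 0 → (x ∈ S ↔ x + v ∈ S)) : ∑ T ∈ S, φ (T + v) = ∑ T ∈ S, φ T := by
  refine Finset.sum_bij_ne_zero (fun T _ _ => T + v) (fun T hT h0 => (h T h0).1 hT)
    (fun T _ _ T' _ _ e => add_right_cancel e) (fun T hT h0 => ?_) (fun _ _ _ => rfl)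
  have h1 : φ (T - v + v) ≠ 0 := by rwa [sub_add_cancel]
  exact ⟨T - v, (h _ h1).2 (by rwa [sub_add_cancel]), h1, sub_add_cancel _ _⟩

lemma om_ne_zero {i j : Fin 5} {x y : ℤ × ℤ} (h : om l i j x y ≠ 0) {T : ℤ × ℤ}
    (hx : x ∈ corners T) (hy : y ∈ corners T) :
    (∃ x ∈ corners T, l x = i) ∧ ∃ y ∈ corners T, l y = j := by
  by_cases h1 : l x = i ∧ l y = j
  · exact ⟨⟨x, hx, h1.1⟩, y, hy, h1.2⟩
  · by_cases h2 : l x = j ∧ l y = i
    · exact ⟨⟨y, hy, h2.2⟩, x, hx, h2.1⟩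
    · exact absurd (by simp only [om, if_neg h1, if_neg h2]; ring) h

lemma rule_core (G : Fin 5 → Fin 5 → Prop) (P : Finset (Fin 5)) {m : Fin 5} (hm : m ∉ P)
    (hsymm : ∀ i j, G i j → G j i) (hirr : ∀ i, ¬ G i i) (hsupp : ∀ i j, G i j → i ∈ P)
    {a b c d : Fin 5} (hab : G a b) (hcd : G c d) (h6 : a ≠ c) (h7 : a ≠ d) (h8 : b ≠ c)
    (h9 : b ≠ d) (nac : ¬ G a c) (nad : ¬ G a d) (nbd : ¬ G b d) :
    ∃ a b c, b ∈ P ∧ c ∈ P ∧ (∀ i j, G i j → i ≠ a → j ≠ a → i = c ∨ j = c) ∧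
      (∀ j, G a j → a = b ∨ j = b) ∧ (b ≠ c → ∀ j, G a j → j = b) := by
  have hne : ∀ i j, G i j → m ≠ i := fun i j h e => hm (e ▸ hsupp i j h)
  have h5 : a ≠ b := fun e => hirr b (e ▸ hab)
  have h10 : c ≠ d := fun e => hirr d (e ▸ hcd)
  have hall : ∀ i j, G i j → i = a ∨ i = b ∨ i = c ∨ i = d := fun i j h =>
    (five (hne _ _ hab) (hne _ _ (hsymm _ _ hab)) (hne _ _ hcd) (hne _ _ (hsymm _ _ hcd))
      h5 h6 h7 h8 h9 h10 i).resolve_left (hne i j h).symm
  have ha : ∀ j, G a j → j = b := by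
    intro j h
    rcases hall j a (hsymm _ _ h) with rfl | rfl | rfl | rfl
    · exact absurd h (hirr _)
    · rfl
    · exact absurd h nac
    · exact absurd h nad
  refine ⟨a, b, c, hsupp _ _ (hsymm _ _ hab), hsupp _ _ hcd, fun i j h hi hj => ?_,
    fun j h => Or.inr (ha j h), fun _ => ha⟩
  rcases hall i j h with rfl | rfl | rfl | rfl
  · exact absurd rfl hi
  · rcases hall j i (hsymm _ _ h) with rfl | rfl | rfl | rfl
    · exact absurd rfl hj
    · exact absurd h (hirr _)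
    · exact Or.inr rfl
    · exact absurd h nbd
  · exact Or.inl rfl
  · rcases hall j i (hsymm _ _ h) with rfl | rfl | rfl | rfl
    · exact absurd rfl hj
    · exact absurd (hsymm _ _ h) nbd
    · exact Or.inr rfl
    · exact absurd h (hirr _)

end Grid

/-- Either a monochromatic chain crosses the board, or some bad set has nonzero flux.

Proof. Suppose neither. `f x = 1` if `x` is reachable by a `MonoStep (l x₀)` chain from a board
vertex `x₀` with `x₀.1 = 0`, else `0`; `g` the same from `x₀.2 = 0`. Then `f = 1` on the left side,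
`0` on the right, `g = 1` on the bottom, `0` on the top. `w x y = f x * g y - f y * g x`. Stokes
(telescoping): `Σ_{T ∈ board N} curl w T` = bottom + right - top - left `= 1 + 0 - 0 - (-1) = 2`.
If corners of equal colour of the squares in a set `R` have equal `(f, g)`, say `(F i, G i)`, then
`w = Σ_{i,j} F i * G j * om l i j` on their edges, so `Σ_{T ∈ R} curl w T = Σ F i G j flux l i j R`.
This applies to `R = bad q` (flux `0` by assumption) and to `R = {T}` for the other squares, where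
`Two l T` gives `curl (om l i j) T = 0`. So the sum is `0`. -/
theorem grid_alt {ι : Type} (l : ℤ × ℤ → Fin 5) (N : ℕ) (hN : 0 < N) (Q0 : Finset ι)
    (bad : ι → Finset (ℤ × ℤ)) (hsub : ∀ q ∈ Q0, bad q ⊆ board N)
    (hdisj : ∀ q ∈ Q0, ∀ q' ∈ Q0, q ≠ q' → Disjoint (bad q) (bad q'))
    (htwo : ∀ T ∈ board N, (∀ q ∈ Q0, T ∉ bad q) → Two l T) :
    (∃ i x y, ReflTransGen (MonoStep l N Q0 bad i) x y ∧ (∃ T ∈ board N, x ∈ corners T) ∧
      ((x.1 = 0 ∧ y.1 = N) ∨ (x.2 = 0 ∧ y.2 = N))) ∨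
    ∃ q ∈ Q0, ∃ i j, flux l i j (bad q) ≠ 0 := by
  classical
  by_contra hcon
  rw [not_or] at hcon
  obtain ⟨hA, hB⟩ := hcon
  have hflux : ∀ q ∈ Q0, ∀ i j, flux l i j (bad q) = 0 := fun q hq i j => by
    by_contra h
    exact hB ⟨q, hq, i, j, h⟩
  let Rch : (ℤ × ℤ → ℤ) → ℤ × ℤ → Prop := fun pr x =>
    ∃ x₀, (∃ T ∈ board N, x₀ ∈ corners T) ∧ pr x₀ = 0 ∧
      ReflTransGen (MonoStep l N Q0 bad (l x)) x₀ x
  have hstep : ∀ pr i x y, MonoStep l N Q0 bad i x y → Rch pr x → Rch pr y := by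
    rintro pr i x y h ⟨x₀, h0, h1, h2⟩
    refine ⟨x₀, h0, h1, ?_⟩
    rw [h.1] at h2
    rw [h.2.1]
    exact h2.tail h
  let ind : (ℤ × ℤ → ℤ) → ℤ × ℤ → ℤ := fun pr x => if Rch pr x then 1 else 0
  have hind : ∀ pr x y, MonoStep l N Q0 bad (l x) x y → MonoStep l N Q0 bad (l x) y x →
      ind pr x = ind pr y := fun pr x y h h' =>
    if_congr ⟨hstep pr _ x y h, hstep pr _ y x h'⟩ rfl rfl
  have hbv : ∀ a b : ℤ, 0 ≤ a → a ≤ N → 0 ≤ b → b ≤ N → ∃ T ∈ board N, (a, b) ∈ corners T := by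
    intro a b ha ha' hb hb'
    refine ⟨(if a = N then a - 1 else a, if b = N then b - 1 else b), ?_, ?_⟩
    · simp only [board, Finset.mem_product, Finset.mem_Ico]
      split_ifs <;> omega
    · simp only [corners, Finset.mem_insert, Finset.mem_singleton, Prod.mk.injEq]
      split_ifs <;> omega
  have f1 : ∀ b : ℤ, 0 ≤ b → b ≤ N → ind Prod.fst (0, b) = 1 := fun b hb hb' =>
    if_pos ⟨(0, b), hbv 0 b le_rfl (by omega) hb hb', rfl, ReflTransGen.refl⟩
  have g1 : ∀ a : ℤ, 0 ≤ a → a ≤ N → ind Prod.snd (a, 0) = 1 := fun a ha ha' =>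
    if_pos ⟨(a, 0), hbv a 0 ha ha' le_rfl (by omega), rfl, ReflTransGen.refl⟩
  have f0 : ∀ b : ℤ, ind Prod.fst ((N : ℤ), b) = 0 := fun b =>
    if_neg fun ⟨x₀, h0, h1, h2⟩ => hA ⟨_, x₀, _, h2, h0, Or.inl ⟨h1, rfl⟩⟩
  have g0 : ∀ a : ℤ, ind Prod.snd (a, (N : ℤ)) = 0 := fun a =>
    if_neg fun ⟨x₀, h0, h1, h2⟩ => hA ⟨_, x₀, _, h2, h0, Or.inr ⟨h1, rfl⟩⟩
  set f := ind Prod.fst
  set g := ind Prod.snd
  have h2 : ∑ T ∈ board N, curl (fun x y => f x * g y - f y * g x) T = 2 := by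
    rw [Grid.stokes]
    have e1 : ∑ a ∈ Finset.Ico (0 : ℤ) N, ((f (a, 0) * g (a + 1, 0) - f (a + 1, 0) * g (a, 0)) -
        (f (a, N) * g (a + 1, N) - f (a + 1, N) * g (a, N))) = 1 := by
      rw [Finset.sum_congr rfl (g := fun a => f (a, 0) - f (a + 1, 0)),
        Grid.tele' (fun a => f (a, 0)) N, f1 0 le_rfl (by omega), f0]
      · ring
      · intro a ha
        rw [Finset.mem_Ico] at ha
        rw [g0, g0, g1 a ha.1 (by omega), g1 (a + 1) (by omega) (by omega)]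
        ring
    have e2 : ∑ b ∈ Finset.Ico (0 : ℤ) N, ((f (N, b) * g (N, b + 1) - f (N, b + 1) * g (N, b)) -
        (f (0, b) * g (0, b + 1) - f (0, b + 1) * g (0, b))) = 1 := by
      rw [Finset.sum_congr rfl (g := fun b => g (0, b) - g (0, b + 1)),
        Grid.tele' (fun b => g (0, b)) N, g1 0 le_rfl (by omega), g0]
      · ring
      · intro b hb
        rw [Finset.mem_Ico] at hb
        rw [f0, f0, f1 b hb.1 (by omega), f1 (b + 1) (by omega) (by omega)]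
        ring
    rw [e1, e2]
    norm_num
  have h0 : ∑ T ∈ board N, curl (fun x y => f x * g y - f y * g x) T = 0 := by
    have hU : Q0.biUnion bad ⊆ board N := Finset.biUnion_subset.2 hsub
    rw [← Finset.sum_sdiff hU, Finset.sum_biUnion (fun q hq q' hq' hne => hdisj q hq q' hq' hne),
      Finset.sum_eq_zero, Finset.sum_eq_zero, add_zero]
    · intro q hq
      refine Grid.sum_curl_eq_zero l f g (bad q) (fun T hT T' hT' x hx y hy e => ?_) (hflux q hq)
      have s1 : MonoStep l N Q0 bad (l x) x y :=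
        ⟨rfl, e.symm, Or.inr ⟨q, hq, T, hT, T', hT', hx, hy⟩⟩
      have s2 : MonoStep l N Q0 bad (l x) y x :=
        ⟨e.symm, rfl, Or.inr ⟨q, hq, T', hT', T, hT, hy, hx⟩⟩
      exact ⟨hind _ x y s1 s2, hind _ x y s1 s2⟩
    · intro T hT
      rw [Finset.mem_sdiff, Finset.mem_biUnion] at hT
      have hT2 : Two l T := htwo T hT.1 fun q hq h => hT.2 ⟨q, hq, h⟩
      have := Grid.sum_curl_eq_zero l f g {T} (fun T₁ hT₁ T₂ hT₂ x hx y hy e => by
        rw [Finset.mem_singleton] at hT₁ hT₂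
        subst hT₁ hT₂
        have s1 : MonoStep l N Q0 bad (l x) x y := ⟨rfl, e.symm, Or.inl ⟨_, hT.1, hx, hy⟩⟩
        have s2 : MonoStep l N Q0 bad (l x) y x := ⟨e.symm, rfl, Or.inl ⟨_, hT.1, hy, hx⟩⟩
        exact ⟨hind _ x y s1 s2, hind _ x y s1 s2⟩)
        (fun i j => by rw [flux, Finset.sum_singleton, Grid.curl_two l i j hT2])
      rwa [Finset.sum_singleton] at this
  omega

/-- Proof. `w i j = flux l i j R` is antisymmetric with zero row sums (`Σ_j om l i j x y` is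
`1[l x = i] - 1[l y = i]`, whose curl is `0`). So a vertex of the support graph has degree `0` or
`≥ 2`. If some colour is isolated, the graph lives on four vertices and has a triangle or 4-cycle. -/
theorem flux_cycle (l : ℤ × ℤ → Fin 5) (R : Finset (ℤ × ℤ)) (h : ∃ i j, flux l i j R ≠ 0) :
    (∃ a b c, a ≠ b ∧ b ≠ c ∧ c ≠ a ∧ flux l a b R ≠ 0 ∧ flux l b c R ≠ 0 ∧ flux l c a R ≠ 0) ∨
    (∃ a b c d, a ≠ b ∧ b ≠ c ∧ c ≠ d ∧ d ≠ a ∧ a ≠ c ∧ b ≠ d ∧ flux l a b R ≠ 0 ∧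
      flux l b c R ≠ 0 ∧ flux l c d R ≠ 0 ∧ flux l d a R ≠ 0) ∨
    ∀ i, ∃ j, flux l i j R ≠ 0 := by
  by_cases hall : ∀ i, ∃ j, flux l i j R ≠ 0
  · exact Or.inr (Or.inr hall)
  push Not at hall
  obtain ⟨m, hm⟩ := hall
  have hsymm : ∀ i j, flux l i j R ≠ 0 → flux l j i R ≠ 0 := fun i j h => by
    rw [Grid.flux_swap]; exact neg_ne_zero.2 h
  have hirr : ∀ i j, flux l i j R ≠ 0 → i ≠ j := by
    rintro i j h rfl
    have := Grid.flux_swap l i i R
    omega
  have hne : ∀ i j, flux l i j R ≠ 0 → m ≠ i := by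
    rintro i j h rfl
    exact h (hm j)
  have hnext : ∀ i j, flux l i j R ≠ 0 → ∃ k, k ≠ i ∧ flux l j k R ≠ 0 := by
    intro i j h
    by_contra hc
    push Not at hc
    have h1 := Grid.flux_row l j R
    rw [Finset.sum_eq_single i (fun k _ hk => hc k hk) (by simp)] at h1
    exact hsymm _ _ h h1
  obtain ⟨a, b, hab⟩ := h
  obtain ⟨c, hca, hbc⟩ := hnext a b hab
  obtain ⟨d, hdb, hcd⟩ := hnext b c hbc
  by_cases hda : d = a
  · subst hda
    exact Or.inl ⟨d, b, c, hirr _ _ hab, hirr _ _ hbc, hca, hab, hbc, hcd⟩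
  obtain ⟨e, hec, hde⟩ := hnext c d hcd
  rcases Grid.five (hne _ _ hab) (hne _ _ hbc) (hne _ _ hcd) (hne _ _ hde) (hirr _ _ hab)
    hca.symm (Ne.symm hda) (hirr _ _ hbc) hdb.symm (hirr _ _ hcd) e with
    rfl | rfl | rfl | rfl | rfl
  · exact absurd rfl (hne _ _ (hsymm _ _ hde))
  · exact Or.inr (Or.inl ⟨e, b, c, d, hirr _ _ hab, hirr _ _ hbc, hirr _ _ hcd, hda, hca.symm,
      hdb.symm, hab, hbc, hcd, hde⟩)
  · exact Or.inl ⟨e, c, d, hirr _ _ hbc, hirr _ _ hcd, hdb, hbc, hcd, hde⟩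
  · exact absurd rfl hec
  · exact absurd rfl (hirr _ _ hde)

/-- Proof. Let `R'` be the set of squares reachable from `R` by `IntStep` chains and suppose
`R' ⊆ B` (so it is finite). `flux l i j R' = flux l i j R` as `Two l T` gives
`curl (om l i j) T = 0`. But `flux l i j R' = 0`: an edge with `om ≠ 0` has endpoints labelled
`i, j`, so its two adjacent squares are both in `R'` or both not, and it cancels in the sum. -/
theorem interface (l : ℤ × ℤ → Fin 5) (i j : Fin 5) (R B : Finset (ℤ × ℤ)) (hRB : R ⊆ B)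
    (hflux : flux l i j R ≠ 0) (htwo : ∀ T ∈ B, T ∉ R → Two l T) :
    ∃ T ∈ R, ∃ T', T' ∉ B ∧ ReflTransGen (IntStep l i j B) T T' := by
  classical
  by_contra hcon
  push Not at hcon
  have hB : ∀ T ∈ R, ∀ T', ReflTransGen (IntStep l i j B) T T' → T' ∈ B := fun T hT T' h => by
    by_contra h'
    exact hcon T hT T' h' h
  let R' := B.filter fun T' => ∃ T ∈ R, ReflTransGen (IntStep l i j B) T T'
  have hRR : R ⊆ R' := fun T hT => Finset.mem_filter.2 ⟨hRB hT, T, hT, ReflTransGen.refl⟩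
  have hstep : ∀ T T' : ℤ × ℤ, |T.1 - T'.1| + |T.2 - T'.2| = 1 →
      ((∃ x ∈ corners T, l x = i) ∧ ∃ y ∈ corners T, l y = j) → T ∈ R' → T' ∈ R' := by
    intro T T' h1 h2 h3
    obtain ⟨h4, T₀, h5, h6⟩ := Finset.mem_filter.1 h3
    have h7 := h6.tail (c := T') ⟨h4, h1, h2⟩
    exact Finset.mem_filter.2 ⟨hB _ h5 _ h7, T₀, h5, h7⟩
  have e1 : flux l i j R' = flux l i j R := by
    rw [flux, flux, ← Finset.sum_sdiff hRR, Finset.sum_eq_zero, zero_add]
    intro T hT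
    rw [Finset.mem_sdiff] at hT
    exact Grid.curl_two l i j (htwo T (Finset.mem_filter.1 hT.1).1 hT.2)
  have e2 := Grid.sum_shift R' (fun x => om l i j x (x.1 + 1, x.2)) (0, 1) (fun x hx =>
    ⟨hstep _ _ (by simp) (Grid.om_ne_zero l hx (by simp [corners, Prod.ext_iff])
        (by simp [corners])),
      hstep _ _ (by simp) (Grid.om_ne_zero l hx (Grid.c1 _) (Grid.c2 _))⟩)
  have e3 := Grid.sum_shift R' (fun x => om l i j x (x.1, x.2 + 1)) (1, 0) (fun x hx =>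
    ⟨hstep _ _ (by simp) (Grid.om_ne_zero l hx (by simp [corners, Prod.ext_iff])
        (by simp [corners])),
      hstep _ _ (by simp) (Grid.om_ne_zero l hx (Grid.c1 _) (Grid.c3 _))⟩)
  have a1 : ∀ T : ℤ × ℤ, T + (0, 1) = (T.1, T.2 + 1) := fun T => by simp [Prod.ext_iff]
  have a2 : ∀ T : ℤ × ℤ, T + (1, 0) = (T.1 + 1, T.2) := fun T => by simp [Prod.ext_iff]
  simp only [a1] at e2
  simp only [a2] at e3
  apply hflux
  rw [← e1]
  simp only [flux, curl, Finset.sum_sub_distrib, Finset.sum_add_distrib]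
  linarith

/-- The relabelling rule of a forest on at most four vertices.

Proof. If all edges pass through one vertex `c ∈ P` (or there is no edge) take `a = b = c`.
Otherwise the graph is a path `a b c d` or two disjoint edges `a b`, `c d`. (Finite check.) -/
theorem rule_exists (G : Fin 5 → Fin 5 → Prop) (P : Finset (Fin 5)) (hP : P.Nonempty)
    (hP4 : ∃ m, m ∉ P) (hsymm : ∀ i j, G i j → G j i) (hirr : ∀ i, ¬ G i i)
    (hsupp : ∀ i j, G i j → i ∈ P) (h3 : ¬ ∃ a b c, G a b ∧ G b c ∧ G c a)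
    (h4 : ¬ ∃ a b c d, a ≠ c ∧ b ≠ d ∧ G a b ∧ G b c ∧ G c d ∧ G d a) :
    ∃ a b c, b ∈ P ∧ c ∈ P ∧ (∀ i j, G i j → i ≠ a → j ≠ a → i = c ∨ j = c) ∧
      (∀ j, G a j → a = b ∨ j = b) ∧ (b ≠ c → ∀ j, G a j → j = b) := by
  obtain ⟨m, hm⟩ := hP4
  by_cases hc : ∃ c ∈ P, ∀ i j, G i j → i = c ∨ j = c
  · obtain ⟨c, hcP, hc⟩ := hc
    exact ⟨c, c, c, hcP, hcP, fun i j h _ _ => hc i j h, fun _ _ => Or.inl rfl,
      fun h => absurd rfl h⟩
  push Not at hc
  have hne : ∀ i j, G i j → i ≠ j := fun i j h e => hirr j (e ▸ h)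
  have hdis : ∃ a b c d, G a b ∧ G c d ∧ a ≠ c ∧ a ≠ d ∧ b ≠ c ∧ b ≠ d := by
    obtain ⟨p, hp⟩ := hP
    obtain ⟨x, y, hxy, -, -⟩ := hc p hp
    have key : ∀ x y, G x y → (∃ a b c d, G a b ∧ G c d ∧ a ≠ c ∧ a ≠ d ∧ b ≠ c ∧ b ≠ d) ∨
        ∃ v, G y v ∧ v ≠ x := by
      intro x y hxy
      obtain ⟨u, v, huv, hu, hv⟩ := hc x (hsupp _ _ hxy)
      by_cases h1 : u = y
      · exact Or.inr ⟨v, h1 ▸ huv, hv⟩
      by_cases h2 : v = y
      · exact Or.inr ⟨u, h2 ▸ hsymm _ _ huv, hu⟩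
      exact Or.inl ⟨x, y, u, v, hxy, huv, hu.symm, hv.symm, Ne.symm h1, Ne.symm h2⟩
    rcases key x y hxy with h | ⟨v, hyv, hv⟩
    · exact h
    rcases key y x (hsymm _ _ hxy) with h | ⟨t, hxt, ht⟩
    · exact h
    by_cases htv : t = v
    · subst htv
      exact absurd ⟨x, y, t, hxy, hyv, hsymm _ _ hxt⟩ h3
    exact ⟨x, t, y, v, hxt, hyv, hne _ _ hxy, hv.symm, ht, htv⟩
  obtain ⟨a, b, c, d, hab, hcd, h6, h7, h8, h9⟩ := hdis
  have hba := hsymm _ _ hab
  have hdc := hsymm _ _ hcd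
  by_cases hac : G a c
  · refine Grid.rule_core G P hm hsymm hirr hsupp hba hcd h8 h9 h6 h7 (fun h => ?_) (fun h => ?_)
      (fun h => ?_)
    · exact h3 ⟨a, b, c, hab, h, hsymm _ _ hac⟩
    · exact h4 ⟨a, b, d, c, h7, h8, hab, h, hdc, hsymm _ _ hac⟩
    · exact h3 ⟨a, c, d, hac, hcd, hsymm _ _ h⟩
  by_cases had : G a d
  · refine Grid.rule_core G P hm hsymm hirr hsupp hba hdc h9 h8 h7 h6 (fun h => ?_) (fun h => ?_)
      hac
    · exact h3 ⟨a, b, d, hab, h, hsymm _ _ had⟩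
    · exact h4 ⟨a, b, c, d, h6, h9, hab, h, hcd, hsymm _ _ had⟩
  by_cases hbd : G b d
  · refine Grid.rule_core G P hm hsymm hirr hsupp hab hdc h7 h6 h9 h8 had hac (fun h => ?_)
    exact h3 ⟨b, c, d, h, hcd, hsymm _ _ hbd⟩
  exact Grid.rule_core G P hm hsymm hirr hsupp hab hcd h6 h7 h8 h9 hac had hbd

end Crest.Agent.R40
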