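import Crest.Agent.R40.Mean

/-!
# Row 40, task A3: an invariant probability measure on colourings
-/

set_option autoImplicit false

namespace Crest.Agent.R40
open MeasureTheory Set Filter Topology Metric
open scoped ENNReal Real

namespace InvProb

theorem mean_const {X : Type*} (M : Mean X) (B : ℝ) : M.m (fun _ => B) = B := by
  have h : (fun _ : X => B) = B • (fun _ : X => (1 : ℝ)) := by
    funext x; simp
  rw [h, map_smul, M.one, smul_eq_mul, mul_one]

theorem mean_le {X : Type*} (M : Mean X) {f : X → ℝ} {B : ℝ} (h : ∀ x, |f x| ≤ B) :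
    M.m f ≤ B := by
  have h1 := M.nonneg ((fun _ => B) - f) ⟨|B| + B, fun x => by
    have := h x
    have h2 := abs_sub (B : ℝ) (f x)
    simp only [Pi.sub_apply]
    linarith⟩ (fun x => by
    have := (abs_le.1 (h x)).2
    simp only [Pi.sub_apply]
    linarith)
  rw [map_sub, mean_const] at h1
  linarith

theorem mean_abs_le {X : Type*} (M : Mean X) {f : X → ℝ} {B : ℝ} (h : ∀ x, |f x| ≤ B) :
    |M.m f| ≤ B := by
  refine abs_le.2 ⟨?_, mean_le M h⟩
  have := mean_le M (f := -f) (B := B) fun x => by simpa using h x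
  rw [map_neg] at this
  linarith

open CompactlySupported in
/-- Riesz-Markov-Kakutani for a mean on a compact space -/
theorem exists_meas {X : Type} [TopologicalSpace X] [CompactSpace X] [T2Space X]
    [MeasurableSpace X] [BorelSpace X] (M : Mean X) :
    ∃ ν : Measure X, IsFiniteMeasure ν ∧
      ∀ s, IsClopen s → ν.real s = M.m (s.indicator fun _ => 1) := by
  let Λ₀ : C_c(X, ℝ) →ₗ[ℝ] ℝ :=
    { toFun := fun g => M.m g
      map_add' := fun f g => by
        rw [← map_add]; rfl
      map_smul' := fun a f => by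
        rw [RingHom.id_apply, ← map_smul]; rfl }
  let Λ : C_c(X, ℝ) →ₚ[ℝ] ℝ := PositiveLinearMap.mk₀ Λ₀ fun g hg => by
    refine M.nonneg g ?_ fun x => hg x
    obtain ⟨B, hB⟩ := (isCompact_univ.image g.continuous).isBounded.exists_norm_le
    exact ⟨B, fun x => hB _ ⟨x, mem_univ _, rfl⟩⟩
  refine ⟨RealRMK.rieszMeasure Λ, inferInstance, fun s hs => ?_⟩
  let g : C_c(X, ℝ) := ⟨⟨s.indicator fun _ => 1, hs.continuous_indicator continuous_const⟩,
    HasCompactSupport.of_compactSpace _⟩
  have h1 := RealRMK.integral_rieszMeasure Λ g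
  have h2 : ∫ x, g x ∂(RealRMK.rieszMeasure Λ) = (RealRMK.rieszMeasure Λ).real s := by
    have : ∫ x, g x ∂(RealRMK.rieszMeasure Λ) =
        ∫ x, s.indicator (fun _ => (1 : ℝ)) x ∂(RealRMK.rieszMeasure Λ) := rfl
    rw [this, integral_indicator hs.isOpen.measurableSet]
    simp
  rw [← h2, h1]
  rfl

theorem exists_meas_pi (M : Mean (ℂ → Fin 5)) :
    ∃ μ : Measure (ℂ → Fin 5), IsProbabilityMeasure μ ∧
      ∀ s, MeasurableSet s → IsClopen s → μ.real s = M.m (s.indicator fun _ => 1) := by
  obtain ⟨ν, hν, h⟩ := @exists_meas (ℂ → Fin 5) _ _ _ (borel _) (@BorelSpace.mk _ _ (borel _) rfl) M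
  have hle : (MeasurableSpace.pi : MeasurableSpace (ℂ → Fin 5)) ≤ borel (ℂ → Fin 5) :=
    pi_le_borel_pi
  have key : ∀ s, MeasurableSet s → IsClopen s →
      (ν.trim hle).real s = M.m (s.indicator fun _ => 1) := by
    intro s hs hc
    rw [← h s hc, Measure.real, Measure.real, trim_measurableSet_eq hle hs]
  refine ⟨ν.trim hle, ?_, key⟩
  have h1 := key univ MeasurableSet.univ isClopen_univ
  rw [indicator_univ, M.one] at h1
  exact isProbabilityMeasure_iff_real.2 h1

theorem clopen_cyl {s : Set (ℂ → Fin 5)} (hs : s ∈ measurableCylinders fun _ : ℂ => Fin 5) :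
    IsClopen s := by
  obtain ⟨I, S, -, rfl⟩ := (mem_measurableCylinders s).1 hs
  exact (isClopen_discrete S).preimage (Finset.continuous_restrict I)

theorem preserving {M : Mean (ℂ → Fin 5)} {μ : Measure (ℂ → Fin 5)} [IsProbabilityMeasure μ]
    (h : ∀ s, MeasurableSet s → IsClopen s → μ.real s = M.m (s.indicator fun _ => 1))
    (g : ℂ → ℂ)
    (hg : ∀ F : (ℂ → Fin 5) → ℝ, (∀ ω, |F ω| ≤ 1) → M.m (fun ω => F fun y => ω (g y)) = M.m F) :
    MeasurePreserving (fun (ω : ℂ → Fin 5) (y : ℂ) => ω (g y)) μ μ := by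
  have hm : Measurable (fun (ω : ℂ → Fin 5) (y : ℂ) => ω (g y)) :=
    measurable_pi_lambda _ fun y => measurable_pi_apply _
  have hcont : Continuous (fun (ω : ℂ → Fin 5) (y : ℂ) => ω (g y)) :=
    continuous_pi fun y => continuous_apply _
  refine ⟨hm, ?_⟩
  have hp : IsProbabilityMeasure (μ.map fun (ω : ℂ → Fin 5) (y : ℂ) => ω (g y)) :=
    Measure.isProbabilityMeasure_map hm.aemeasurable
  refine ext_of_generate_finite (measurableCylinders fun _ : ℂ => Fin 5)
    generateFrom_measurableCylinders.symm isPiSystem_measurableCylinders ?_ (by simp)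
  intro s hs
  have hsm : MeasurableSet s := MeasurableSet.of_mem_measurableCylinders hs
  have hsc := clopen_cyl hs
  rw [Measure.map_apply hm hsm]
  refine (ENNReal.toReal_eq_toReal_iff' (measure_ne_top _ _) (measure_ne_top _ _)).1 ?_
  have h1 := h _ (hm hsm) (hsc.preimage hcont)
  have h2 := h s hsm hsc
  rw [Measure.real] at h1 h2
  rw [h1, h2, ← hg (s.indicator fun _ => 1) fun ω => by
    by_cases hω : ω ∈ s <;> simp [hω]]
  rfl

/-- the iterated mean -/
noncomputable def iter (M₁ : Mean ℝ) (M₂ : Mean ℂ) (c : ℂ → Fin 5) : Mean (ℂ → Fin 5) where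
  m :=
    { toFun := fun F => M₁.m fun θ => M₂.m fun z => F fun y => c (e θ * y + z)
      map_add' := fun F G => by
        rw [← map_add]
        congr 1
        funext θ
        rw [Pi.add_apply, ← map_add]
        rfl
      map_smul' := fun a F => by
        rw [RingHom.id_apply, ← map_smul]
        congr 1
        funext θ
        rw [Pi.smul_apply, ← map_smul]
        rfl }
  nonneg := by
    rintro F ⟨B, hB⟩ hF
    refine M₁.nonneg _ ⟨B, fun θ => mean_abs_le M₂ fun z => hB _⟩ fun θ => ?_
    exact M₂.nonneg _ ⟨B, fun z => hB _⟩ fun z => hF _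
  one := by
    change M₁.m (fun _ => M₂.m fun _ => 1) = 1
    rw [M₂.one, M₁.one]

theorem iter_apply (M₁ : Mean ℝ) (M₂ : Mean ℂ) (c : ℂ → Fin 5) (F : (ℂ → Fin 5) → ℝ) :
    (iter M₁ M₂ c).m F = M₁.m fun θ => M₂.m fun z => F fun y => c (e θ * y + z) := rfl

end InvProb

open InvProb in
/-- From a proper colouring, a random proper colouring invariant under all rigid motions (product
σ-algebra on `ℂ → Fin 5`).

Proof. `M₁`, `M₂` invariant means on `ℝ` and `ℂ` (`exists_inv_mean`),
`c θ z = fun y => c (e θ * y + z)`, `Λ F = M₁ (θ ↦ M₂ (z ↦ F (c θ z)))` for bounded `F`. `Λ` is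
positive, `Λ 1 = 1`, invariant under `ω ↦ ω (· + x)` (shift `z` by `e θ * x`) and under
`ω ↦ ω (e φ * ·)` (shift `θ` by `φ`), and `Λ 1_{ω x = ω (x + u)} = 0`.
Turn `Λ` into a measure, e.g. Riesz-Markov-Kakutani (`RealRMK.rieszMeasure`) on the compact space
`ℂ → Fin 5` (product of discrete spaces) with the Borel σ-algebra (use a type synonym or `borel _`
explicitly), then `Measure.trim` / `Measure.map id` to the smaller product σ-algebra; cylinders
are clopen, so `μ s = Λ 1_s` on cylinders, and invariance follows from the π-system of cylinders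
(`generateFrom_measurableCylinders`, `ext_of_generate_finite`). Alternatively use the
`AddContent` on `measurableCylinders` (σ-additive by compactness of cylinders) and Carathéodory. -/
theorem exists_inv_prob (c : ℂ → Fin 5) (hc : ∀ x u : ℂ, ‖u‖ = 1 → c x ≠ c (x + u)) :
    ∃ μ : Measure (ℂ → Fin 5), IsProbabilityMeasure μ ∧
      (∀ x : ℂ, MeasurePreserving (fun (ω : ℂ → Fin 5) (y : ℂ) => ω (y + x)) μ μ) ∧
      (∀ θ : ℝ, MeasurePreserving (fun (ω : ℂ → Fin 5) (y : ℂ) => ω (e θ * y)) μ μ) ∧
      ∀ x u : ℂ, ‖u‖ = 1 → μ {ω | ω x = ω (x + u)} = 0 := by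
  obtain ⟨M₁, h₁⟩ := exists_inv_mean ℝ
  obtain ⟨M₂, h₂⟩ := exists_inv_mean ℂ
  obtain ⟨μ, hμ, h⟩ := exists_meas_pi (iter M₁ M₂ c)
  refine ⟨μ, hμ, fun x => ?_, fun φ => ?_, fun x u hu => ?_⟩
  · refine preserving h (fun y => y + x) fun F hF => ?_
    rw [iter_apply, iter_apply]
    congr 1
    funext θ
    rw [← h₂ (e θ * x) (fun z => F fun y => c (e θ * y + z)) ⟨1, fun z => hF _⟩]
    congr 1
    funext z
    congr 1
    funext y
    have : e θ * (y + x) + z = e θ * y + (z + e θ * x) := by ring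
    simp only [this]
  · refine preserving h (fun y => e φ * y) fun F hF => ?_
    rw [iter_apply, iter_apply, ← h₁ φ (fun θ => M₂.m fun z => F fun y => c (e θ * y + z))
      ⟨1, fun θ => mean_abs_le M₂ fun z => hF _⟩]
    congr 1
    funext θ
    congr 1
    funext z
    congr 1
    funext y
    rw [e_add, mul_assoc]
  · have hm : MeasurableSet {ω : ℂ → Fin 5 | ω x = ω (x + u)} :=
      measurableSet_eq_fun (measurable_pi_apply _) (measurable_pi_apply _)
    have hcl : IsClopen {ω : ℂ → Fin 5 | ω x = ω (x + u)} := by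
      have hcont : Continuous fun ω : ℂ → Fin 5 => (ω x, ω (x + u)) :=
        (continuous_apply x).prodMk (continuous_apply (x + u))
      exact (isClopen_discrete {p : Fin 5 × Fin 5 | p.1 = p.2}).preimage hcont
    have h1 := h _ hm hcl
    rw [iter_apply] at h1
    have h2 : ∀ (θ : ℝ) (z : ℂ), {ω : ℂ → Fin 5 | ω x = ω (x + u)}.indicator (fun _ => (1 : ℝ))
        (fun y => c (e θ * y + z)) = 0 := by
      intro θ z
      refine indicator_of_notMem ?_ _
      have h3 := hc (e θ * x + z) (e θ * u) (by rw [norm_mul, norm_e, hu, one_mul])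
      have h4 : e θ * x + z + e θ * u = e θ * (x + u) + z := by ring
      rw [h4] at h3
      exact h3
    simp only [h2, mean_const] at h1
    exact (measureReal_eq_zero_iff (measure_ne_top _ _)).1 h1

end Crest.Agent.R40
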