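import Crest.Agent.R40.Defs

/-!
# Row 40, task A2a: orthogonality to the vectors that are continuous along a line
-/

set_option autoImplicit false

namespace Crest.Agent.R40
open MeasureTheory Set Filter Topology Metric
open scoped ENNReal Real RealInnerProductSpace

namespace Line

variable {H : Type*} [NormedAddCommGroup H] [InnerProductSpace ℝ H]

/-- the vectors that are continuous along the line spanned by `u` -/
def Hs (T : ℂ → H →ₗᵢ[ℝ] H) (u : ℂ) : Submodule ℝ H where
  carrier := {w | Tendsto (fun t : ℝ => T (t * u) w) (𝓝 0) (𝓝 w)}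
  add_mem' := by
    intro a b ha hb
    simpa only [mem_ofPred_eq, map_add] using Tendsto.add ha hb
  zero_mem' := by
    simpa only [mem_ofPred_eq, map_zero] using tendsto_const_nhds
  smul_mem' := by
    intro c a ha
    simpa only [mem_ofPred_eq, map_smul] using Tendsto.const_smul ha c

lemma mem_Hs {T : ℂ → H →ₗᵢ[ℝ] H} {u : ℂ} {w : H} :
    w ∈ Hs T u ↔ Tendsto (fun t : ℝ => T (t * u) w) (𝓝 0) (𝓝 w) := Iff.rfl

lemma isClosed_Hs (T : ℂ → H →ₗᵢ[ℝ] H) (u : ℂ) : IsClosed (Hs T u : Set H) := by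
  refine isClosed_of_closure_subset fun w hw => ?_
  rw [SetLike.mem_coe, mem_Hs, Metric.tendsto_nhds]
  intro ε hε
  obtain ⟨w', hw', hd⟩ := Metric.mem_closure_iff.1 hw (ε / 3) (by positivity)
  filter_upwards [Metric.tendsto_nhds.1 (mem_Hs.1 hw') (ε / 3) (by positivity)] with t ht
  have h1 := dist_triangle4 (T (t * u) w) (T (t * u) w') w' w
  rw [LinearIsometry.dist_map, dist_comm w' w] at h1
  linarith

instance (T : ℂ → H →ₗᵢ[ℝ] H) (u : ℂ) [CompleteSpace H] : (Hs T u).HasOrthogonalProjection := by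
  have : CompleteSpace (Hs T u) := (isClosed_Hs T u).completeSpace_coe
  infer_instance

section action

variable {T : ℂ → H →ₗᵢ[ℝ] H} (T0 : ∀ w, T 0 w = w) (Tadd : ∀ x y w, T (x + y) w = T x (T y w))
include Tadd

lemma map_mem_Hs {u : ℂ} {w : H} (hw : w ∈ Hs T u) (x : ℂ) : T x w ∈ Hs T u := by
  rw [mem_Hs] at hw ⊢
  refine (((T x).continuous.tendsto w).comp hw).congr fun t => ?_
  simp only [Function.comp, ← Tadd, add_comm]

include T0

lemma inner_T (x : ℂ) (a b : H) : ⟪T x a, b⟫ = ⟪a, T (-x) b⟫ := by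
  conv_lhs => rw [← T0 b, ← add_neg_cancel x, Tadd, LinearIsometry.inner_map_map]

lemma proj_comm [CompleteSpace H] (u x : ℂ) (v : H) :
    (Hs T u).starProjection (T x v) = T x ((Hs T u).starProjection v) := by
  refine Submodule.eq_starProjection_of_mem_of_inner_eq_zero
    (map_mem_Hs Tadd (Submodule.starProjection_apply_mem _ _) x) fun w hw => ?_
  rw [← map_sub, inner_T T0 Tadd]
  exact Submodule.starProjection_inner_eq_zero _ _ (map_mem_Hs Tadd hw _)

lemma proj_mem [CompleteSpace H] (u : ℂ) {u' : ℂ} {v : H} (hv : v ∈ Hs T u') :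
    (Hs T u).starProjection v ∈ Hs T u' := by
  rw [mem_Hs] at hv ⊢
  refine (((Hs T u).starProjection.continuous.tendsto v).comp hv).congr fun t => ?_
  simp only [Function.comp, proj_comm T0 Tadd]

omit T0 in
lemma cont_of_two {u u' : ℂ} (hD : u.re * u'.im - u.im * u'.re ≠ 0) {w : H} (hw : w ∈ Hs T u)
    (hw' : w ∈ Hs T u') : Tendsto (fun x => T x w) (𝓝 0) (𝓝 w) := by
  set D := u.re * u'.im - u.im * u'.re with hDdef
  let s : ℂ → ℝ := fun x => (x.re * u'.im - x.im * u'.re) / D
  let t : ℂ → ℝ := fun x => (u.re * x.im - u.im * x.re) / D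
  have hs : Tendsto s (𝓝 0) (𝓝 0) := by
    have : Continuous s := by fun_prop
    simpa [s] using this.tendsto 0
  have ht : Tendsto t (𝓝 0) (𝓝 0) := by
    have : Continuous t := by fun_prop
    simpa [t] using this.tendsto 0
  have hx : ∀ x : ℂ, x = s x * u + t x * u' := by
    intro x
    apply Complex.ext
    · simp only [Complex.add_re, Complex.mul_re, Complex.ofReal_re, Complex.ofReal_im, s, t]
      field_simp
      rw [hDdef]; ring
    · simp only [Complex.add_im, Complex.mul_im, Complex.ofReal_re, Complex.ofReal_im, s, t]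
      field_simp
      rw [hDdef]; ring
  rw [Metric.tendsto_nhds]
  intro ε hε
  filter_upwards [Metric.tendsto_nhds.1 ((mem_Hs.1 hw).comp hs) (ε / 2) (by positivity),
    Metric.tendsto_nhds.1 ((mem_Hs.1 hw').comp ht) (ε / 2) (by positivity)] with x h1 h2
  have h3 := dist_triangle (T (s x * u) (T (t x * u') w)) (T (s x * u) w) w
  rw [LinearIsometry.dist_map, ← Tadd, ← hx] at h3
  simp only [Function.comp] at h1 h2
  linarith

end action

end Line

open Line in
/-- Let `T` be an isometric action of the (discrete) group `ℂ`, `R` an action of the rotations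
compatible with it, and `h` a rotation invariant vector orthogonal to all vectors on which `T` is
continuous. Then `h` is orthogonal to all vectors that are continuous along the real line.

Proof. For an angle `θ` let `H θ = {w | T (t * e θ) w → w as t → 0 (t real)}`, a closed subspace,
invariant under every `T x`; `T x` is onto (`T x (T (-x) w) = w`), `⟪T x a, b⟫ = ⟪a, T (-x) b⟫`, so
the orthogonal complement is invariant too and the projection `P θ` commutes with `T x`.
Let `k = P 0 h`, `k θ = R θ k ∈ H θ`; `h - k θ = R θ (h - k) ⟂ H θ` (for `w ∈ H θ`,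
`R (-θ) w ∈ H 0` and `R θ (R (-θ) w) = w`). So `⟪h, k θ⟫ = ‖k‖²`. If `sin (θ - θ') ≠ 0` then
`H θ ∩ H θ'` consists of continuous vectors (write `x = s e θ + t e θ'`, `s, t → 0`), and
`P θ (k θ') ∈ H θ ∩ H θ'`, so `⟪k θ, k θ'⟫ = ⟪h, P θ (k θ')⟫ = 0`. With `N` angles `j/N`,
`0 ≤ ‖h - Σ k θ_j‖² = ‖h‖² - N ‖k‖²` for all `N`; so `k = 0`. -/
theorem orth_line {H : Type*} [NormedAddCommGroup H] [InnerProductSpace ℝ H] [CompleteSpace H]
    (T : ℂ → H →ₗᵢ[ℝ] H) (T0 : ∀ w, T 0 w = w) (Tadd : ∀ x y w, T (x + y) w = T x (T y w))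
    (R : ℝ → H →ₗᵢ[ℝ] H) (R0 : ∀ w, R 0 w = w) (Radd : ∀ a b w, R (a + b) w = R a (R b w))
    (RT : ∀ θ x w, R θ (T x w) = T (e θ * x) (R θ w))
    (h : H) (Rh : ∀ θ, R θ h = h)
    (horth : ∀ w, Tendsto (fun x => T x w) (𝓝 0) (𝓝 w) → ⟪h, w⟫ = 0)
    (w : H) (hw : Tendsto (fun t : ℝ => T (t : ℂ) w) (𝓝 0) (𝓝 w)) : ⟪h, w⟫ = 0 := by
  set k := (Hs T (e 0)).starProjection h with hk
  have Rmem : ∀ θ θ' v, v ∈ Hs T (e θ') → R θ v ∈ Hs T (e (θ + θ')) := by
    intro θ θ' v hv
    rw [mem_Hs] at hv ⊢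
    refine (((R θ).continuous.tendsto v).comp hv).congr fun t => ?_
    simp only [Function.comp, RT, e_add]
    congr 2; ring
  have kmem : ∀ θ, R θ k ∈ Hs T (e θ) := fun θ => by
    simpa only [add_zero] using Rmem θ 0 k (Submodule.starProjection_apply_mem _ _)
  have kperp : ∀ θ, ∀ v ∈ Hs T (e θ), ⟪h - R θ k, v⟫ = 0 := by
    intro θ v hv
    have h1 := Rmem (-θ) θ v hv
    rw [neg_add_cancel] at h1
    have h2 : v = R θ (R (-θ) v) := by rw [← Radd, add_neg_cancel, R0]
    rw [h2, ← Rh θ, ← map_sub, LinearIsometry.inner_map_map]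
    exact Submodule.starProjection_inner_eq_zero _ _ h1
  have hk1 : ∀ θ, ⟪h, R θ k⟫ = ‖k‖ ^ 2 := by
    intro θ
    have h1 := kperp θ _ (kmem θ)
    rw [inner_sub_left, real_inner_self_eq_norm_sq, LinearIsometry.norm_map] at h1
    linarith
  have hk2 : ∀ θ θ', Real.sin (θ' - θ) ≠ 0 → ⟪R θ k, R θ' k⟫ = 0 := by
    intro θ θ' hs
    have h1 : (Hs T (e θ)).starProjection (R θ' k) ∈ Hs T (e θ) :=
      Submodule.starProjection_apply_mem _ _
    have h2 := horth _ (cont_of_two Tadd (by
      rw [e_re, e_im, e_re, e_im]; rw [Real.sin_sub] at hs; intro h0; apply hs; linarith) h1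
      (proj_mem T0 Tadd (e θ) (kmem θ')))
    have h3 := kperp θ _ h1
    have h4 := Submodule.starProjection_inner_eq_zero (R θ' k) _ (kmem θ)
    rw [inner_sub_left] at h3 h4
    rw [real_inner_comm] at h3 ⊢
    rw [real_inner_comm] at h2
    have h5 := real_inner_comm (R θ k) ((Hs T (e θ)).starProjection (R θ' k))
    have h6 := real_inner_comm h ((Hs T (e θ)).starProjection (R θ' k))
    linarith
  have hN : ∀ N : ℕ, (N : ℝ) * ‖k‖ ^ 2 ≤ ‖h‖ ^ 2 := by
    intro N
    have h1 : ⟪h, ∑ j ∈ Finset.range N, R (j / N) k⟫ = N * ‖k‖ ^ 2 := by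
      simp [inner_sum, hk1]
    have h2 : ‖∑ j ∈ Finset.range N, R (j / N) k‖ ^ 2 = N * ‖k‖ ^ 2 := by
      rw [← real_inner_self_eq_norm_sq, sum_inner]
      have h3 : ∀ i ∈ Finset.range N,
          ⟪R (i / N) k, ∑ j ∈ Finset.range N, R (j / N) k⟫ = ‖k‖ ^ 2 := by
        intro i hi
        rw [inner_sum, Finset.sum_eq_single_of_mem i hi, real_inner_self_eq_norm_sq,
          LinearIsometry.norm_map]
        intro j hj hji
        apply hk2
        have hi' : (i : ℝ) < N := by exact_mod_cast Finset.mem_range.1 hi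
        have hj' : (j : ℝ) < N := by exact_mod_cast Finset.mem_range.1 hj
        have hi0 : (0 : ℝ) ≤ i := by positivity
        have hj0 : (0 : ℝ) ≤ j := by positivity
        have hN0 : (0 : ℝ) < N := by linarith
        have hpi := Real.pi_gt_three
        have ha : (j : ℝ) / N < 1 := (div_lt_one hN0).2 hj'
        have hb : (i : ℝ) / N < 1 := (div_lt_one hN0).2 hi'
        have hc : (0 : ℝ) ≤ j / N := by positivity
        have hd : (0 : ℝ) ≤ i / N := by positivity
        rw [Ne, Real.sin_eq_zero_iff_of_lt_of_lt (by linarith) (by linarith), sub_eq_zero,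
          div_left_inj' hN0.ne']
        exact_mod_cast hji
      rw [Finset.sum_congr rfl h3]
      simp
    have h3 := norm_sub_sq_real h (∑ j ∈ Finset.range N, R (j / N) k)
    have h4 := sq_nonneg ‖h - ∑ j ∈ Finset.range N, R (j / N) k‖
    linarith
  have hk0 : k = 0 := by
    by_contra h0
    have h1 : 0 < ‖k‖ ^ 2 := by positivity
    obtain ⟨N, hN'⟩ := exists_nat_gt (‖h‖ ^ 2 / ‖k‖ ^ 2)
    rw [div_lt_iff₀ h1] at hN'
    linarith [hN N]
  have h1 := kperp 0 w (by simpa only [mem_Hs, e_zero, mul_one] using hw)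
  rwa [hk0, map_zero, sub_zero] at h1

end Crest.Agent.R40
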