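import Crest.Agent.R40.Defs

/-!
# Row 40, task A2b: van der Corput for a local mean
-/

set_option autoImplicit false

namespace Crest.Agent.R40
open MeasureTheory Set Filter Topology Metric
open scoped ENNReal Real RealInnerProductSpace

namespace Vdc

lemma m_const {X : Type*} (m : Mean X) (c : ℝ) : m.m (fun _ => c) = c := by
  have : (fun _ : X => c) = c • fun _ : X => (1 : ℝ) := by funext x; simp
  rw [this, map_smul, m.one, smul_eq_mul, mul_one]

lemma m_mono {X : Type*} (m : Mean X) {f g : X → ℝ} {B C : ℝ} (hf : ∀ x, |f x| ≤ B)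
    (hg : ∀ x, |g x| ≤ C) (h : ∀ x, f x ≤ g x) : m.m f ≤ m.m g := by
  have := m.nonneg (g - f) ⟨C + B, fun x => (abs_sub _ _).trans (add_le_add (hg x) (hf x))⟩
    fun x => sub_nonneg.2 (h x)
  rw [map_sub] at this
  linarith

lemma m_abs_le {X : Type*} (m : Mean X) {f : X → ℝ} {B : ℝ} (hf : ∀ x, |f x| ≤ B) :
    |m.m f| ≤ B := by
  have h1 := m_mono m hf (g := fun _ => B) (fun _ => le_rfl) fun x => (abs_le.1 (hf x)).2
  have h2 := m_mono m (f := fun _ => -B) (fun _ => le_rfl) hf fun x => (abs_le.1 (hf x)).1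
  rw [m_const] at h1 h2
  exact abs_le.2 ⟨h2, h1⟩

variable {H : Type*} [NormedAddCommGroup H] [InnerProductSpace ℝ H]

lemma abs_inner_le {a z : H} {B : ℝ} (ha : ‖a‖ ≤ B) : |⟪a, z⟫| ≤ B * ‖z‖ :=
  (abs_real_inner_le_norm a z).trans (mul_le_mul_of_nonneg_right ha (norm_nonneg z))

lemma exists_avg [CompleteSpace H] {X : Type*} (m : Mean X) (F : X → H) {B : ℝ}
    (hF : ∀ x, ‖F x‖ ≤ B) : ∃ V : H, ∀ z, ⟪V, z⟫ = m.m fun t => ⟪F t, z⟫ := by
  let L : H →ₗ[ℝ] ℝ :=
    { toFun := fun z => m.m fun t => ⟪F t, z⟫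
      map_add' := fun z w => by
        rw [← map_add]; congr 1; funext t; simp [inner_add_right]
      map_smul' := fun c z => by
        rw [RingHom.id_apply, ← map_smul]; congr 1; funext t; simp [inner_smul_right] }
  refine ⟨(InnerProductSpace.toDual ℝ H).symm (L.mkContinuous B fun z => ?_), fun z => ?_⟩
  · exact m_abs_le m fun t => abs_inner_le (hF t)
  · rw [InnerProductSpace.toDual_symm_apply]; rfl

lemma taylor_sub_degree {P : Polynomial ℝ} (hP : 2 ≤ P.natDegree) {a b : ℝ} (hab : a ≠ b) :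
    0 < (Polynomial.taylor a P - Polynomial.taylor b P).natDegree ∧
      (Polynomial.taylor a P - Polynomial.taylor b P).natDegree < P.natDegree := by
  have h0 : P ≠ 0 := by rintro rfl; simp at hP
  have h1 : (Polynomial.hasseDeriv (P.natDegree - 1) P).natDegree = 1 := by
    rw [Polynomial.natDegree_hasseDeriv]; omega
  have h2 : (Polynomial.taylor a P - Polynomial.taylor b P).coeff (P.natDegree - 1) ≠ 0 := by
    rw [Polynomial.coeff_sub, Polynomial.taylor_coeff, Polynomial.taylor_coeff]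
    generalize Polynomial.hasseDeriv (P.natDegree - 1) P = Q at h1
    obtain ⟨α, hα, β, rfl⟩ := Polynomial.natDegree_eq_one.1 h1
    simp [sub_eq_zero, hα, hab]
  refine ⟨lt_of_lt_of_le (by omega) (Polynomial.le_natDegree_of_ne_zero h2), ?_⟩
  have h3 : Polynomial.taylor a P - Polynomial.taylor b P ≠ 0 := fun h => by simp [h] at h2
  rw [← Polynomial.natDegree_taylor P a]
  refine Polynomial.natDegree_lt_natDegree h3 (Polynomial.degree_sub_lt_left ?_ ?_ ?_)
  · simp
  · simpa using h0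
  · simp

end Vdc

open Vdc

/-- If `h` is orthogonal to the continuous vectors of a one parameter isometric group `U` (no
continuity assumed), the local mean of `U (P t) h` vanishes weakly for nonconstant polynomials.

Proof. `|m f| ≤ B` if `|f| ≤ B` (positivity). By Riesz (`InnerProductSpace.toDual`) there is
`V P ∈ H` with `⟪V P, z⟫ = m_t ⟪U (P t) h, z⟫`. With `P_a = P.comp (X + C a)` (or `taylor a P`),
`m.shift` gives `‖V P_a - V P‖ ≤ 2‖h‖/N` for `0 ≤ a ≤ 1/N`. Also `⟪U x a, b⟫ = ⟪a, U (-x) b⟫`.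
Induction on the degree.
* degree 1, `P = α X + β`, `α ≠ 0`: `U (α a) (V P) = V P_a`, so `U s (V P) → V P` as `s → 0`
  (from one side, hence from both: `‖U (-s) V - V‖ = ‖V - U s V‖`). Every `U x (V P)` is then a
  continuous vector, so `‖V P‖² = m_t ⟪h, U (-P t) (V P)⟫ = m 0 = 0`.
* degree `d ≥ 2`: take `K` distinct `a_k ∈ [0, 1/N]`, `W = (1/K) Σ V P_{a_k}`,
  `X_t = (1/K) Σ U (P (t + a_k)) h`. `‖W‖² = m_t ⟪X_t, W⟫ ≤ m_t (‖X_t‖²/2 + ‖W‖²/2)` so
  `‖W‖² ≤ m_t ‖X_t‖² = (1/K²) Σ_{k,l} m_t ⟪U (P_{a_k} t - P_{a_l} t) h, h⟫ = ‖h‖²/K`, as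
  `P_{a_k} - P_{a_l}` has degree `d - 1 ≥ 1` for `k ≠ l`. So `‖V P‖ ≤ 2‖h‖/N + ‖h‖/√K`. -/
theorem vdc {H : Type*} [NormedAddCommGroup H] [InnerProductSpace ℝ H] [CompleteSpace H]
    (m : LocMean) (U : ℝ → H →ₗᵢ[ℝ] H) (U0 : ∀ w, U 0 w = w)
    (Uadd : ∀ s t w, U (s + t) w = U s (U t w)) (h : H)
    (horth : ∀ w, Tendsto (fun t => U t w) (𝓝 0) (𝓝 w) → ⟪h, w⟫ = 0)
    (P : Polynomial ℝ) (hP : 0 < P.natDegree) (z : H) :
    m.m (fun t => ⟪U (P.eval t) h, z⟫) = 0 := by
  have adj : ∀ x a b, ⟪U x a, b⟫ = ⟪a, U (-x) b⟫ := fun x a b => by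
    rw [← (U x).inner_map_map a (U (-x) b), ← Uadd, add_neg_cancel, U0]
  induction hd : P.natDegree using Nat.strong_induction_on generalizing P z with
  | _ d ih =>
  have hF : ∀ t, ‖U (P.eval t) h‖ ≤ ‖h‖ := fun t => ((U _).norm_map h).le
  obtain ⟨V, hV⟩ := exists_avg m.toMean (fun t => U (P.eval t) h) hF
  have hsh : ∀ (N : ℕ), 0 < N → ∀ a : ℝ, 0 ≤ a → a ≤ 1 / N → ∀ w,
      |m.m (fun t => ⟪U (P.eval (t + a)) h, w⟫) - ⟪V, w⟫| ≤ 2 * (‖h‖ * ‖w‖) / N := by
    intro N hN a ha ha' w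
    rw [hV]
    exact m.shift (fun t => ⟪U (P.eval t) h, w⟫) _ (fun t => abs_inner_le (hF t)) N hN a ha ha'
  suffices hV0 : V = 0 by rw [← hV, hV0, inner_zero_left]
  rcases (show P.natDegree = 1 ∨ 2 ≤ P.natDegree by omega) with h1 | h2
  · obtain ⟨α, hα, β, rfl⟩ := Polynomial.natDegree_eq_one.1 h1
    have e1 : ∀ (N : ℕ), 0 < N → ∀ a : ℝ, 0 ≤ a → a ≤ 1 / N →
        ‖U (α * a) V - V‖ ≤ 2 * ‖h‖ / N := by
      intro N hN a ha ha'
      have e2 := hsh N hN a ha ha' (U (α * a) V - V)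
      have e3 : ∀ w, m.m (fun t => ⟪U ((Polynomial.C α * Polynomial.X + Polynomial.C β).eval
          (t + a)) h, w⟫) = ⟪U (α * a) V, w⟫ := fun w => by
        rw [adj (α * a) V, hV]
        congr 1
        funext t
        rw [← adj, ← Uadd]
        congr 3
        simp only [Polynomial.eval_add, Polynomial.eval_mul, Polynomial.eval_C, Polynomial.eval_X]
        ring
      rw [e3, ← inner_sub_left, real_inner_self_eq_norm_sq, abs_of_nonneg (sq_nonneg _)] at e2
      rcases (norm_nonneg (U (α * a) V - V)).eq_or_lt with h0 | h0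
      · rw [← h0]; positivity
      · refine le_of_mul_le_mul_right ?_ h0
        calc _ = ‖U (α * a) V - V‖ ^ 2 := by ring
          _ ≤ _ := e2
          _ = _ := by ring
    have e4 : ∀ s, ‖U (-s) V - V‖ = ‖U s V - V‖ := fun s => by
      rw [← (U s).norm_map, map_sub, ← Uadd, add_neg_cancel, U0, norm_sub_rev]
    have e5 : Tendsto (fun s => U s V) (𝓝 0) (𝓝 V) := by
      rw [Metric.tendsto_nhds_nhds]
      intro ε hε
      obtain ⟨N, hN⟩ := exists_nat_gt (2 * ‖h‖ / ε)
      have hN0 : (0 : ℝ) < N := lt_of_le_of_lt (by positivity) hN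
      have hα' : 0 < |α| := abs_pos.2 hα
      refine ⟨|α| / N, by positivity, fun s hs => ?_⟩
      rw [dist_zero_right, Real.norm_eq_abs] at hs
      have e6 := e1 N (by exact_mod_cast hN0) |s / α| (abs_nonneg _) (by
        rw [abs_div, div_le_div_iff₀ hα' hN0]
        rw [lt_div_iff₀ hN0] at hs
        linarith)
      have e7 : ‖U (α * |s / α|) V - V‖ = ‖U s V - V‖ := by
        rcases abs_choice (s / α) with h | h
        · rw [h, mul_div_cancel₀ _ hα]
        · rw [h, mul_neg, mul_div_cancel₀ _ hα, e4]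
      rw [dist_eq_norm, ← e7]
      refine e6.trans_lt ?_
      rw [div_lt_iff₀ hN0]
      rw [div_lt_iff₀ hε] at hN
      linarith
    have e8 : ∀ x, ⟪U x h, V⟫ = 0 := fun x => by
      rw [adj]
      refine horth _ ?_
      have := ((U (-x)).continuous.tendsto V).comp e5
      refine this.congr fun s => ?_
      simp only [Function.comp]
      rw [← Uadd, ← Uadd, add_comm]
    rw [← inner_self_eq_zero (𝕜 := ℝ), hV]
    simp only [e8]
    exact m_const _ 0
  · have key : ∀ K : ℕ, 0 < K → K * ‖V‖ ^ 2 ≤ ‖h‖ ^ 2 + 4 * (‖h‖ * ‖V‖) := by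
      intro K hK
      have hK' : (0 : ℝ) < K := by exact_mod_cast hK
      let a : Fin K → ℝ := fun k => (k : ℝ) / (K * K)
      have ha0 : ∀ k, 0 ≤ a k := fun k => by positivity
      have ha1 : ∀ k, a k ≤ 1 / K := fun k => by
        have : (k : ℝ) ≤ K := by exact_mod_cast k.is_lt.le
        rw [div_le_div_iff₀ (by positivity) hK']
        nlinarith
      have hai : ∀ k l, k ≠ l → a k ≠ a l := fun k l hkl h => hkl (by
        rw [div_left_inj' (by positivity)] at h
        exact Fin.ext (by exact_mod_cast h))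
      let S : ℝ → H := fun t => ∑ k, U (P.eval (t + a k)) h
      have hS : ∀ t, ‖S t‖ ≤ K * ‖h‖ := fun t =>
        (norm_sum_le _ _).trans (by simp)
      have s1 : m.m (fun t => ⟪S t, V⟫) = ∑ k, m.m fun t => ⟪U (P.eval (t + a k)) h, V⟫ := by
        rw [← map_sum]; congr 1; funext t; simp [S, sum_inner]
      have s2 : K * ‖V‖ ^ 2 - 2 * (‖h‖ * ‖V‖) ≤ m.m (fun t => ⟪S t, V⟫) := by
        rw [s1]
        have : ∀ k ∈ (Finset.univ : Finset (Fin K)), ‖V‖ ^ 2 - 2 * (‖h‖ * ‖V‖) / K ≤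
            m.m fun t => ⟪U (P.eval (t + a k)) h, V⟫ := fun k _ => by
          have := (abs_le.1 (hsh K hK (a k) (ha0 k) (ha1 k) V)).1
          rw [real_inner_self_eq_norm_sq] at this
          linarith
        refine le_trans (le_of_eq ?_) (Finset.sum_le_sum this)
        simp only [Finset.sum_const, Finset.card_univ, Fintype.card_fin, nsmul_eq_mul]
        field_simp
      have s3 : m.m (fun t => ‖S t‖ ^ 2) = K * ‖h‖ ^ 2 := by
        have e1 : (fun t => ‖S t‖ ^ 2) = ∑ k, ∑ l, fun t =>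
            ⟪U (P.eval (t + a k)) h, U (P.eval (t + a l)) h⟫ := by
          funext t
          rw [← real_inner_self_eq_norm_sq]
          simp only [S, sum_inner, inner_sum, Finset.sum_apply]
          exact Finset.sum_comm
        have e2 : ∀ k l, m.m (fun t => ⟪U (P.eval (t + a k)) h, U (P.eval (t + a l)) h⟫) =
            if k = l then ‖h‖ ^ 2 else 0 := fun k l => by
          split_ifs with hkl
          · subst hkl
            simp only [LinearIsometry.inner_map_map, real_inner_self_eq_norm_sq]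
            exact m_const _ _
          · obtain ⟨d1, d2⟩ := taylor_sub_degree h2 (hai k l hkl)
            rw [← ih _ (hd ▸ d2) _ d1 h rfl]
            congr 1
            funext t
            rw [real_inner_comm, adj, ← Uadd, real_inner_comm]
            congr 3
            simp only [Polynomial.eval_sub, Polynomial.taylor_eval]
            ring
        rw [e1, map_sum]
        simp only [map_sum, e2, Finset.sum_ite_eq, Finset.mem_univ, if_true, Finset.sum_const,
          Finset.card_univ, Fintype.card_fin, nsmul_eq_mul]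
      have s4 : m.m (fun t => ⟪S t, V⟫) ≤
          m.m ((1 / (2 * K) : ℝ) • (fun t => ‖S t‖ ^ 2) + fun _ => K * ‖V‖ ^ 2 / 2) := by
        refine m_mono m.toMean (fun t => abs_inner_le (hS t))
          (C := 1 / (2 * K) * (K * ‖h‖) ^ 2 + K * ‖V‖ ^ 2 / 2) (fun t => ?_) fun t => ?_
        · simp only [Pi.add_apply, Pi.smul_apply, smul_eq_mul]
          rw [abs_of_nonneg (by positivity)]
          have := hS t
          gcongr
        · simp only [Pi.add_apply, Pi.smul_apply, smul_eq_mul]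
          refine (real_inner_le_norm _ _).trans ?_
          have : 1 / (2 * K) * ‖S t‖ ^ 2 + K * ‖V‖ ^ 2 / 2 - ‖S t‖ * ‖V‖ =
              (‖S t‖ - K * ‖V‖) ^ 2 / (2 * K) := by field_simp; ring
          have h3 : 0 ≤ (‖S t‖ - K * ‖V‖) ^ 2 / (2 * K) := by positivity
          linarith
      rw [map_add, map_smul, s3, m_const, smul_eq_mul] at s4
      have : 1 / (2 * K) * (K * ‖h‖ ^ 2) = ‖h‖ ^ 2 / 2 := by field_simp
      linarith
    by_contra hV0
    have hpos : 0 < ‖V‖ ^ 2 := by have := norm_pos_iff.2 hV0; positivity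
    obtain ⟨K, hK⟩ := exists_nat_gt ((‖h‖ ^ 2 + 4 * (‖h‖ * ‖V‖)) / ‖V‖ ^ 2)
    have hK0 : (0 : ℝ) < K := lt_of_le_of_lt (by positivity) hK
    have := key K (by exact_mod_cast hK0)
    rw [div_lt_iff₀ hpos] at hK
    linarith

end Crest.Agent.R40
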