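import Crest.Agent.R40.Mean
import Crest.Agent.R40.Line
import Crest.Agent.R40.Vdc

/-!
# Row 40, task A2c: the discontinuous part of a radial positive definite function vanishes at 1
-/

set_option autoImplicit false

namespace Crest.Agent.R40
open MeasureTheory Set Filter Topology Metric
open scoped ENNReal Real RealInnerProductSpace

namespace Key

theorem mean_mono {X : Type*} (m : Mean X) {f g : X → ℝ} (B : ℝ) (hb : ∀ x, |g x - f x| ≤ B)
    (h : ∀ x, f x ≤ g x) : m.m f ≤ m.m g := by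
  have := m.nonneg (g - f) ⟨B, hb⟩ fun x => sub_nonneg.2 (h x)
  rw [map_sub] at this
  linarith

theorem mean_const {X : Type*} (m : Mean X) (c : ℝ) : m.m (fun _ => c) = c := by
  have : (fun _ : X => c) = c • fun _ : X => (1 : ℝ) := by funext; simp
  rw [this, map_smul, m.one, smul_eq_mul, mul_one]

theorem mean_le_of_sq {X : Type*} (m : Mean X) {f : X → ℝ} {B : ℝ} (hb : ∀ x, |f x| ≤ B)
    (h : m.m (fun x => f x ^ 2) ≤ 0) : m.m f ≤ 0 := by
  refine le_of_forall_pos_le_add fun ε hε => ?_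
  have h1 := mean_mono m (f := ε • f) (g := (fun _ => ε ^ 2) + fun x => f x ^ 2)
    (ε ^ 2 + B ^ 2 + ε * B) (fun x => by
      have a1 := abs_le.1 (hb x)
      have a2 : f x ^ 2 ≤ B ^ 2 := sq_le_sq' a1.1 a1.2
      simp only [Pi.add_apply, Pi.smul_apply, smul_eq_mul]
      rw [abs_le]
      constructor <;> nlinarith [sq_nonneg (f x), sq_nonneg ε, sq_nonneg B]) (fun x => by
      simp only [Pi.add_apply, Pi.smul_apply, smul_eq_mul]
      nlinarith [sq_nonneg (ε - f x), sq_nonneg (f x), sq_nonneg ε])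
  rw [map_smul, map_add, mean_const, smul_eq_mul] at h1
  nlinarith

theorem mean_eq_zero_of_sq {X : Type*} (m : Mean X) {f : X → ℝ} {B : ℝ} (hb : ∀ x, |f x| ≤ B)
    (h : m.m (fun x => f x ^ 2) ≤ 0) : m.m f = 0 := by
  have h1 := mean_le_of_sq m hb h
  have h2 := mean_le_of_sq m (f := -f) (B := B) (fun x => by simpa using hb x) (by simpa using h)
  rw [map_neg] at h2
  linarith

theorem norm_e_sub (a b : ℝ) : ‖e a - e b‖ = |2 * Real.sin ((a - b) / 2)| := by
  have : e a - e b = e b * (e (a - b) - 1) := by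
    rw [mul_sub, ← e_add, mul_one]; congr 2; ring
  rw [this, norm_mul, norm_e, one_mul, e, mul_comm, Complex.norm_exp_I_mul_ofReal_sub_one,
    Real.norm_eq_abs]

/-- the averaging step -/
theorem step {X : Type*} (m : Mean X) (φ : ℝ → ℝ) (c : ℝ) (hc : 0 ≤ c) (hb : ∀ s, |φ s| ≤ c)
    (h0 : φ 0 = c)
    (circ : ∀ (ρ α : ℝ) (M : ℕ), (M * φ ρ) ^ 2 ≤ c * ∑ j ∈ Finset.range M, ∑ k ∈ Finset.range M,
      φ (2 * ρ * Real.sin ((((j : ℤ) - k : ℤ) : ℝ) * α)))
    (ρ α : X → ℝ)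
    (hz : ∀ n : ℤ, n ≠ 0 → m.m (fun t => φ (2 * ρ t * Real.sin (n * α t))) = 0) :
    m.m (fun t => φ (ρ t)) = 0 := by
  refine mean_eq_zero_of_sq m (B := c) (fun t => hb _) ?_
  have key : ∀ M : ℕ, (M : ℝ) ^ 2 * m.m (fun t => φ (ρ t) ^ 2) ≤ c * (M * c) := by
    intro M
    have h1 := mean_mono m (f := (M : ℝ) ^ 2 • fun t => φ (ρ t) ^ 2)
      (g := c • ∑ j ∈ Finset.range M, ∑ k ∈ Finset.range M,
        fun t => φ (2 * ρ t * Real.sin ((((j : ℤ) - k : ℤ) : ℝ) * α t)))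
      (c * (M * (M * c)) + M ^ 2 * c ^ 2) (fun t => by
        simp only [Pi.smul_apply, Finset.sum_apply, smul_eq_mul]
        refine (abs_sub _ _).trans (add_le_add ?_ ?_)
        · rw [abs_mul, abs_of_nonneg hc]
          refine mul_le_mul_of_nonneg_left ((Finset.abs_sum_le_sum_abs _ _).trans ?_) hc
          refine (Finset.sum_le_card_nsmul _ _ (M * c) fun j _ => ?_).trans (by simp)
          refine (Finset.abs_sum_le_sum_abs _ _).trans ?_
          exact (Finset.sum_le_card_nsmul _ _ c fun k _ => hb _).trans (by simp)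
        · rw [abs_mul, abs_of_nonneg (sq_nonneg _), abs_of_nonneg (sq_nonneg _)]
          have a1 := abs_le.1 (hb (ρ t))
          exact mul_le_mul_of_nonneg_left (sq_le_sq' a1.1 a1.2) (sq_nonneg _)) (fun t => by
        simp only [Pi.smul_apply, Finset.sum_apply, smul_eq_mul]
        rw [← mul_pow]
        exact circ _ _ _)
    rw [map_smul, map_smul, map_sum, smul_eq_mul, smul_eq_mul] at h1
    refine h1.trans (le_of_eq ?_)
    congr 1
    rw [Finset.sum_congr rfl (g := fun _ => c)]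
    · simp
    · intro j hj
      rw [map_sum, Finset.sum_eq_single j]
      · simp [h0, mean_const]
      · intro k _ hk
        exact hz _ (by omega)
      · intro h; exact absurd hj h
  by_contra hpos
  push Not at hpos
  obtain ⟨M, hM⟩ := exists_nat_gt (c * c / m.m (fun t => φ (ρ t) ^ 2))
  have hM0 : (0 : ℝ) < M := lt_of_le_of_lt (by positivity) hM
  rw [div_lt_iff₀ hpos] at hM
  have := key M
  nlinarith

theorem sin_mul_arccos (n : ℤ) {t : ℝ} (ht : t ∈ Ico (0 : ℝ) 1) :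
    Real.sin (n * Real.arccos t) = (Polynomial.Chebyshev.U ℝ (n - 1)).eval t * √(1 - t ^ 2) := by
  have := Polynomial.Chebyshev.U_real_cos (Real.arccos t) (n - 1)
  rw [Real.cos_arccos (by linarith [ht.1]) ht.2.le, Real.sin_arccos] at this
  rw [this]
  push_cast
  ring_nf

theorem U_ne (n : ℤ) (hn : n ≠ 0) : Polynomial.Chebyshev.U ℝ (n - 1) ≠ 0 := by
  intro h
  have := Polynomial.Chebyshev.U_eval_one (R := ℝ) (n - 1)
  rw [h] at this
  simp at this
  exact hn (by exact_mod_cast this.symm)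

end Key

open Key in
/-- Proof. `φ s = ⟪T s h, h⟫` for real `s`. `⟪T (e θ * x) h, h⟫ = ⟪R θ (T x h), R θ h⟫ = ⟪T x h, h⟫`,
so `⟪T x h, h⟫ = φ ‖x‖` and `φ (-s) = φ s`, i.e. `⟪T x h, h⟫ = φ s` whenever `‖x‖ = |s|`.
Circle inequality: for real `ρ, α` and `M : ℕ`, Cauchy-Schwarz for `⟪Σ_j T (ρ e (2 j α)) h, h⟫`
gives `(M φ ρ)² ≤ ‖h‖² Σ_{j,k<M} φ (2 ρ sin ((j - k) α))`, diagonal terms `φ 0 = ‖h‖²`.
For `t ∈ [0,1)`, `α = arccos t`: `sin (n α) = √(1-t²) U_{n-1}(t)` (`Polynomial.Chebyshev.U_real_cos`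
or similar; `U_{n-1} ≠ 0` for `n ≥ 1`).
Let `m` be a local mean (`exists_locMean`); `orth_line` and `vdc` (with `U s = T s`) give
`m_t φ (P t) = 0` for nonconstant `P`.
Level 1: for a polynomial `Q ≠ 0` take `ρ = √(1-t²) Q(t)`; the chords are
`2 (1-t²) Q(t) U_{n-1}(t)`, of degree `≥ 2`; so `M² m_t φ(ρ t)² ≤ M ‖h‖⁴` for all `M`, so
`m_t φ(ρ t)² = 0` and `m_t φ(ρ t) = 0` (`|x| ≤ ε/2 + x²/(2ε)`). Use `m.congr` to work on `[0,1)`.
Level 2: `ρ = 1`: the chords are `√(1-t²) · 2 U_{n-1}(t)`, so `M² φ(1)² ≤ M ‖h‖⁴`. -/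
theorem hilbert_key {H : Type*} [NormedAddCommGroup H] [InnerProductSpace ℝ H] [CompleteSpace H]
    (T : ℂ → H →ₗᵢ[ℝ] H) (T0 : ∀ w, T 0 w = w) (Tadd : ∀ x y w, T (x + y) w = T x (T y w))
    (R : ℝ → H →ₗᵢ[ℝ] H) (R0 : ∀ w, R 0 w = w) (Radd : ∀ a b w, R (a + b) w = R a (R b w))
    (RT : ∀ θ x w, R θ (T x w) = T (e θ * x) (R θ w))
    (h : H) (Rh : ∀ θ, R θ h = h)
    (horth : ∀ w, Tendsto (fun x => T x w) (𝓝 0) (𝓝 w) → ⟪h, w⟫ = 0)
    (u : ℂ) (hu : ‖u‖ = 1) : ⟪T u h, h⟫ = 0 := by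
  obtain ⟨m⟩ := exists_locMean
  set φ : ℝ → ℝ := fun s => ⟪T (s : ℂ) h, h⟫ with hφ
  have rad0 : ∀ x : ℂ, ⟪T x h, h⟫ = φ ‖x‖ := by
    intro x
    have h1 : x = e (Complex.arg x) * (‖x‖ : ℂ) := by
      rw [mul_comm, e, Complex.norm_mul_exp_arg_mul_I]
    have h2 := RT (Complex.arg x) (‖x‖ : ℂ) h
    rw [← h1, Rh] at h2
    have h3 := (R (Complex.arg x)).inner_map_map (T (‖x‖ : ℂ) h) h
    rw [h2, Rh] at h3
    exact h3
  have rad : ∀ (x : ℂ) (s : ℝ), ‖x‖ = |s| → ⟪T x h, h⟫ = φ s := by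
    intro x s hs
    rw [rad0 x, hs]
    have := rad0 (s : ℂ)
    rw [Complex.norm_real, Real.norm_eq_abs] at this
    exact this.symm
  have adj : ∀ x y : ℂ, ⟪T x h, T y h⟫ = ⟪T (x - y) h, h⟫ := by
    intro x y
    rw [← (T y).inner_map_map (T (x - y) h) h, ← Tadd, add_sub_cancel]
  have hb : ∀ s, |φ s| ≤ ‖h‖ ^ 2 := by
    intro s
    refine (abs_real_inner_le_norm _ _).trans (le_of_eq ?_)
    rw [LinearIsometry.norm_map, sq]
  have h0 : φ 0 = ‖h‖ ^ 2 := by
    simp only [hφ, Complex.ofReal_zero, T0, real_inner_self_eq_norm_sq]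
  have circ : ∀ (ρ α : ℝ) (M : ℕ), (M * φ ρ) ^ 2 ≤ ‖h‖ ^ 2 *
      ∑ j ∈ Finset.range M, ∑ k ∈ Finset.range M,
        φ (2 * ρ * Real.sin ((((j : ℤ) - k : ℤ) : ℝ) * α)) := by
    intro ρ α M
    set w : H := ∑ j ∈ Finset.range M, T ((ρ : ℂ) * e (2 * j * α)) h with hw
    have h1 : ⟪w, h⟫ = M * φ ρ := by
      rw [hw, sum_inner, Finset.sum_congr rfl (g := fun _ => φ ρ)]
      · simp
      · intro j _
        exact rad _ _ (by rw [norm_mul, norm_e, mul_one, Complex.norm_real, Real.norm_eq_abs])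
    have h2 : ‖w‖ ^ 2 = ∑ j ∈ Finset.range M, ∑ k ∈ Finset.range M,
        φ (2 * ρ * Real.sin ((((j : ℤ) - k : ℤ) : ℝ) * α)) := by
      rw [← real_inner_self_eq_norm_sq, hw, sum_inner]
      refine Finset.sum_congr rfl fun j _ => ?_
      rw [inner_sum]
      refine Finset.sum_congr rfl fun k _ => ?_
      rw [adj]
      refine rad _ _ ?_
      rw [← mul_sub, norm_mul, norm_e_sub, Complex.norm_real, Real.norm_eq_abs, ← abs_mul]
      congr 1
      push_cast
      rw [show (2 * (j : ℝ) * α - 2 * k * α) / 2 = (j - k) * α by ring]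
      ring
    rw [← h1, ← h2, ← mul_pow, mul_comm, ← sq_abs]
    exact pow_le_pow_left₀ (abs_nonneg _) (abs_real_inner_le_norm _ _) 2
  have poly : ∀ P : Polynomial ℝ, 0 < P.natDegree → m.m (fun t => φ (P.eval t)) = 0 :=
    fun P hP => vdc m (fun s => T (s : ℂ)) (fun w => by simp [T0])
      (fun s t w => by rw [Complex.ofReal_add, Tadd]) h
      (fun w hw => orth_line T T0 Tadd R R0 Radd RT h Rh horth w hw) P hP h
  have lev1 : ∀ Q : Polynomial ℝ, Q ≠ 0 →
      m.m (fun t => φ (√(1 - t ^ 2) * Q.eval t)) = 0 := by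
    intro Q hQ
    refine step m.toMean φ _ (sq_nonneg _) hb h0 circ _ Real.arccos fun n hn => ?_
    have hX : (1 - Polynomial.X ^ 2 : Polynomial ℝ).natDegree = 2 := by compute_degree!
    have hX0 : (1 - Polynomial.X ^ 2 : Polynomial ℝ) ≠ 0 := by
      intro h; rw [h] at hX; simp at hX
    have h2 : (Polynomial.C 2 * Q * Polynomial.Chebyshev.U ℝ (n - 1)) ≠ 0 :=
      mul_ne_zero (mul_ne_zero (by simp) hQ) (U_ne n hn)
    rw [← poly ((1 - Polynomial.X ^ 2) * (Polynomial.C 2 * Q * Polynomial.Chebyshev.U ℝ (n - 1)))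
      (by rw [Polynomial.natDegree_mul hX0 h2, hX]; omega)]
    refine m.congr _ _ fun t ht => ?_
    have h3 : √(1 - t ^ 2) * √(1 - t ^ 2) = 1 - t ^ 2 :=
      Real.mul_self_sqrt (by nlinarith [ht.1, ht.2])
    congr 1
    rw [sin_mul_arccos n ht]
    simp only [Polynomial.eval_mul, Polynomial.eval_sub, Polynomial.eval_one, Polynomial.eval_pow,
      Polynomial.eval_X, Polynomial.eval_C]
    linear_combination (2 * Q.eval t * (Polynomial.Chebyshev.U ℝ (n - 1)).eval t) * h3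
  have lev2 := step m.toMean φ _ (sq_nonneg _) hb h0 circ (fun _ => 1) Real.arccos fun n hn => by
    rw [← lev1 (Polynomial.C 2 * Polynomial.Chebyshev.U ℝ (n - 1))
      (mul_ne_zero (by simp) (U_ne n hn))]
    refine m.congr _ _ fun t ht => ?_
    congr 1
    rw [sin_mul_arccos n ht]
    simp only [Polynomial.eval_mul, Polynomial.eval_C]
    ring
  rw [mean_const] at lev2
  rw [rad u 1 (by rw [hu, abs_one]), lev2]

end Crest.Agent.R40
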