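import Crest.Agent.R40.Tiny
import Crest.Agent.R40.Grid

/-!
# Row 40, task F3: labelling the grid
-/

set_option autoImplicit false

namespace Crest.Agent.R40
open MeasureTheory Set Filter Topology Metric Relation
open scoped ENNReal Real

namespace Label

theorem EE_mono (C : MCol) {i j : Fin 5} {x : ℂ} {r δ δ' : ℝ} (h : C.EE i j x r δ)
    (hδ : δ ≤ δ') : C.EE i j x r δ' :=
  ⟨h.1, h.2.1, fun k hi hj => (h.2.2 k hi hj).trans_le hδ⟩

theorem local_ev (C : MCol) (w : ℂ) : ∃ δ > 0, ∀ᶠ p : ℂ × ℝ in 𝓝 w ×ˢ 𝓝[>] 0,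
    (∀ i, i ∉ C.P w → C.f {i} p.1 (3 * p.2) = 0) ∧
      ∀ i j, i ≠ j → C.EE i j p.1 p.2 δ → C.G w i j := by
  have h1 : ∀ᶠ p : ℂ × ℝ in 𝓝 w ×ˢ 𝓝[>] 0, ∀ i, i ∉ C.P w → C.f {i} p.1 (3 * p.2) = 0 := by
    rw [eventually_all]
    intro i
    by_cases hi : i ∈ C.P w
    · exact Eventually.of_forall fun p hp => absurd hi hp
    · obtain ⟨η, hη, h⟩ := C.f_eq_zero_of_notMem_F w i (fun h => hi ((C.mem_P w i).2 h))
      have e1 : ∀ᶠ x in 𝓝 w, ‖x - w‖ < η := by
        filter_upwards [Metric.ball_mem_nhds w hη] with x hx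
        rwa [mem_ball_iff_norm] at hx
      have e2 : ∀ᶠ r in 𝓝[>] (0 : ℝ), r < η / 3 :=
        mem_nhdsWithin_of_mem_nhds (Iio_mem_nhds (by positivity))
      filter_upwards [e1.prod_mk e2] with p hp _
      exact h p.1 (3 * p.2) hp.1 (by linarith [hp.2])
  have h2 : ∀ᶠ δ in 𝓝[>] (0 : ℝ), ∀ i j : Fin 5, ∀ᶠ p : ℂ × ℝ in 𝓝 w ×ˢ 𝓝[>] 0,
      i ≠ j → C.EE i j p.1 p.2 δ → C.G w i j := by
    rw [eventually_all]
    intro i
    rw [eventually_all]
    intro j
    by_cases hG : C.G w i j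
    · exact Eventually.of_forall fun δ => Eventually.of_forall fun p _ _ => hG
    by_cases hij : i = j
    · exact Eventually.of_forall fun δ => Eventually.of_forall fun p h => absurd hij h
    have h0 : ¬ ∀ δ > 0, ∃ᶠ p : ℂ × ℝ in 𝓝 w ×ˢ 𝓝[>] 0, C.EE i j p.1 p.2 δ :=
      fun h => hG ⟨hij, h⟩
    obtain ⟨δ0, h0⟩ := not_forall.1 h0
    obtain ⟨hδ0, h0⟩ := Classical.not_imp.1 h0
    rw [not_frequently] at h0
    have e2 : ∀ᶠ δ in 𝓝[>] (0 : ℝ), δ < δ0 :=
      mem_nhdsWithin_of_mem_nhds (Iio_mem_nhds hδ0)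
    filter_upwards [e2] with δ hδ
    filter_upwards [h0] with p hp _ hE
    exact absurd (EE_mono C hE hδ.le) hp
  obtain ⟨δ, hδ, hδ0⟩ := (h2.and self_mem_nhdsWithin).exists
  refine ⟨δ, hδ0, h1.and ?_⟩
  rw [eventually_all]
  intro i
  rw [eventually_all]
  exact hδ i

end Label

/-- local structure at `w`: colours outside the palette are absent, non-edges give no edge events
(`f_eq_zero_of_notMem_F`; negation of `G`; `EE` is monotone in `δ`) -/
theorem MCol.local_struct (C : MCol) (w : ℂ) : ∃ η > 0, ∃ δ > 0, ∀ (x : ℂ) (r : ℝ), ‖x - w‖ < η →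
    0 < r → r < η → (∀ i, i ∉ C.P w → C.f {i} x (3 * r) = 0) ∧
      ∀ i j, i ≠ j → C.EE i j x r δ → C.G w i j := by
  obtain ⟨δ, hδ, h⟩ := Label.local_ev C w
  rw [eventually_prod_iff] at h
  obtain ⟨pa, ha, pb, hb, h⟩ := h
  obtain ⟨η1, hη1, ha⟩ := Metric.eventually_nhds_iff.1 ha
  obtain ⟨η2, hη2, hb⟩ := Metric.mem_nhdsWithin_iff.1 hb
  refine ⟨min η1 η2, lt_min hη1 hη2, δ, hδ, fun x r hx hr hr' => ?_⟩
  have h1 : pa x := ha (by rw [dist_eq_norm]; exact hx.trans_le (min_le_left _ _))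
  have h2 : pb r := hb ⟨by
    rw [mem_ball, Real.dist_eq, sub_zero, abs_of_pos hr]
    exact hr'.trans_le (min_le_right _ _), hr⟩
  exact h (x := x) h1 (y := r) h2

namespace Label

theorem two_of_center {V : Type*} (S : Finset V) (l : V → Fin 5) (u : Fin 5)
    (h : ∀ y ∈ S, ∀ y' ∈ S, l y ≠ u → l y' ≠ u → l y = l y') :
    ∀ x ∈ S, ∀ y ∈ S, ∀ z ∈ S, l x = l y ∨ l y = l z ∨ l x = l z := by
  intro x hx y hy z hz
  by_cases h1 : l x = u
  · by_cases h2 : l y = u
    · left; rw [h1, h2]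
    · by_cases h3 : l z = u
      · right; right; rw [h1, h3]
      · right; left; exact h y hy z hz h2 h3
  · by_cases h2 : l y = u
    · by_cases h3 : l z = u
      · right; left; rw [h2, h3]
      · right; right; exact h x hx z hz h1 h3
    · left; exact h x hx y hy h1 h2

/-- the combinatorial core of the relabelling -/
theorem comb {V : Type*} (S : Finset V) (nb : V → V → Prop) (t : V → Prop) (lam l : V → Fin 5)
    (G : Fin 5 → Fin 5 → Prop) (a b c : Fin 5)
    (hnb : ∀ x ∈ S, ∀ y ∈ S, nb x y)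
    (hl1 : ∀ x ∈ S, ¬ t x → l x = lam x)
    (hl2 : ∀ x ∈ S, t x → (∃ y, nb x y ∧ ¬ t y ∧ lam y = a) → l x = b)
    (hl3 : ∀ x ∈ S, t x → (¬ ∃ y, nb x y ∧ ¬ t y ∧ lam y = a) → l x = c)
    (h3 : ∀ z ∈ S, ¬ t z → ∀ y ∈ S, ∀ y' ∈ S, lam z = lam y ∨ lam y = lam y' ∨ lam z = lam y')
    (h4 : ∀ z ∈ S, ¬ t z → ∀ x ∈ S, ∀ y, nb x y → lam y ≠ lam z → G (lam y) (lam z))
    (r1 : ∀ i j, G i j → i ≠ a → j ≠ a → i = c ∨ j = c)
    (r2 : ∀ j, G a j → a = b ∨ j = b) (r3 : b ≠ c → ∀ j, G a j → j = b) :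
    ∀ x ∈ S, ∀ y ∈ S, ∀ z ∈ S, l x = l y ∨ l y = l z ∨ l x = l z := by
  by_cases hA : ∃ z ∈ S, ¬ t z ∧ lam z = a
  · obtain ⟨z, hz, htz, hza⟩ := hA
    have hT : ∀ x ∈ S, t x → l x = b := fun x hx htx =>
      hl2 x hx htx ⟨z, hnb x hx z hz, htz, hza⟩
    apply two_of_center S l a
    by_cases hab : a = b
    · intro y hy y' hy' h1 h2
      have n1 : ¬ t y := fun h => h1 ((hT y hy h).trans hab.symm)
      have n2 : ¬ t y' := fun h => h2 ((hT y' hy' h).trans hab.symm)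
      rw [hl1 y hy n1] at h1 ⊢
      rw [hl1 y' hy' n2] at h2 ⊢
      rcases h3 z hz htz y hy y' hy' with h | h | h
      · exact absurd (h.symm.trans hza) h1
      · exact h
      · exact absurd (h.symm.trans hza) h2
    · have key : ∀ y ∈ S, l y ≠ a → l y = b := by
        intro y hy h1
        by_cases ht : t y
        · exact hT y hy ht
        · rw [hl1 y hy ht] at h1 ⊢
          have := h4 y hy ht z hz z (hnb z hz z hz) (by rw [hza]; exact h1.symm)
          rw [hza] at this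
          exact (r2 _ this).resolve_left hab
      intro y hy y' hy' h1 h2
      rw [key y hy h1, key y' hy' h2]
  · have hA' : ∀ z ∈ S, ¬ t z → lam z ≠ a := fun z hz htz h => hA ⟨z, hz, htz, h⟩
    apply two_of_center S l c
    by_cases hB : ∀ x ∈ S, t x → l x = c
    · intro y hy y' hy' h1 h2
      have n1 : ¬ t y := fun h => h1 (hB y hy h)
      have n2 : ¬ t y' := fun h => h2 (hB y' hy' h)
      rw [hl1 y hy n1] at h1 ⊢
      rw [hl1 y' hy' n2] at h2 ⊢
      by_contra hne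
      have := h4 y' hy' n2 y hy y (hnb y hy y hy) hne
      rcases r1 _ _ this (hA' y hy n1) (hA' y' hy' n2) with h | h
      · exact h1 h
      · exact h2 h
    · obtain ⟨x, hB⟩ := not_forall.1 hB
      obtain ⟨hx, hB⟩ := Classical.not_imp.1 hB
      obtain ⟨htx, hB⟩ := Classical.not_imp.1 hB
      have hex : ∃ y, nb x y ∧ ¬ t y ∧ lam y = a := by
        by_contra h
        exact hB (hl3 x hx htx h)
      have hbc : b ≠ c := fun h => hB ((hl2 x hx htx hex).trans h)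
      obtain ⟨y0, hy0, -, hy0a⟩ := hex
      have key : ∀ y ∈ S, l y ≠ c → l y = b := by
        intro y hy h1
        by_cases ht : t y
        · by_cases h : ∃ y', nb y y' ∧ ¬ t y' ∧ lam y' = a
          · exact hl2 y hy ht h
          · exact absurd (hl3 y hy ht h) h1
        · rw [hl1 y hy ht]
          have := h4 y hy ht x hx y0 hy0 (by rw [hy0a]; exact (hA' y hy ht).symm)
          rw [hy0a] at this
          exact r3 hbc _ this
      intro y hy y' hy' h1 h2
      rw [key y hy h1, key y' hy' h2]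

/-- a representative of each class of a symmetric relation -/
theorem exists_rep {V : Type*} (R : V → V → Prop) (hR : ∀ x y, R x y → R y x) :
    ∃ rep : V → V, (∀ x, ReflTransGen R x (rep x)) ∧ ∀ x y, R x y → rep x = rep y := by
  refine ⟨fun x => haveI : Nonempty V := ⟨x⟩; Classical.epsilon (fun y => ReflTransGen R x y),
    fun x => ?_, fun x y hxy => ?_⟩
  · exact Classical.epsilon_spec (p := fun y => ReflTransGen R x y) ⟨x, ReflTransGen.refl⟩
  · have : (fun z => ReflTransGen R x z) = fun z => ReflTransGen R y z := by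
      funext z
      exact propext ⟨fun h => ReflTransGen.head (hR x y hxy) h, fun h => ReflTransGen.head hxy h⟩
    simp only [this]

theorem isCompact_square (o : ℂ) : IsCompact (square o) := by
  have : square o = Icc o.re (o.re + 10) ×ℂ Icc o.im (o.im + 10) := by
    ext z
    simp [square, Complex.mem_reProdIm, and_assoc]
  rw [this]
  exact isCompact_Icc.reProdIm isCompact_Icc

theorem mem_corners {T x : ℤ × ℤ} (h : x ∈ corners T) :
    T.1 ≤ x.1 ∧ x.1 ≤ T.1 + 1 ∧ T.2 ≤ x.2 ∧ x.2 ≤ T.2 + 1 := by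
  simp only [corners, Finset.mem_insert, Finset.mem_singleton] at h
  rcases h with rfl | rfl | rfl | rfl <;> simp

theorem self_mem_corners (T : ℤ × ℤ) : T ∈ corners T := by simp [corners]

theorem pos_re (o : ℂ) (N : ℕ) (x : ℤ × ℤ) : (pos o N x).re = o.re + 10 / N * x.1 := by
  simp only [pos, Complex.add_re, Complex.re_ofReal_mul]
  simp

theorem pos_im (o : ℂ) (N : ℕ) (x : ℤ × ℤ) : (pos o N x).im = o.im + 10 / N * x.2 := by
  simp only [pos, Complex.add_im, Complex.im_ofReal_mul]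
  simp

theorem pos_mem (o : ℂ) {N : ℕ} {T x : ℤ × ℤ} (hT : T ∈ board N) (hx : x ∈ corners T) :
    pos o N x ∈ square o := by
  obtain ⟨h1, h2, h3, h4⟩ := mem_corners hx
  simp only [board, Finset.mem_product, Finset.mem_Ico] at hT
  obtain ⟨⟨a1, a2⟩, a3, a4⟩ := hT
  have hN : (0 : ℝ) < N := by
    have : (0 : ℤ) < N := by omega
    exact_mod_cast this
  have b1 : (0 : ℝ) ≤ x.1 := by exact_mod_cast (by omega : (0 : ℤ) ≤ x.1)
  have b2 : (x.1 : ℝ) ≤ N := by exact_mod_cast (by omega : x.1 ≤ (N : ℤ))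
  have b3 : (0 : ℝ) ≤ x.2 := by exact_mod_cast (by omega : (0 : ℤ) ≤ x.2)
  have b4 : (x.2 : ℝ) ≤ N := by exact_mod_cast (by omega : x.2 ≤ (N : ℤ))
  have hh : (0 : ℝ) ≤ 10 / N := by positivity
  have e : (10 : ℝ) / N * N = 10 := by field_simp
  refine ⟨?_, ?_, ?_, ?_⟩
  · rw [pos_re]; nlinarith [mul_nonneg hh b1]
  · rw [pos_re]; nlinarith [mul_le_mul_of_nonneg_left b2 hh]
  · rw [pos_im]; nlinarith [mul_nonneg hh b3]
  · rw [pos_im]; nlinarith [mul_le_mul_of_nonneg_left b4 hh]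

theorem pos_dist (o : ℂ) (N : ℕ) {T x y : ℤ × ℤ} (hx : x ∈ corners T) (hy : y ∈ corners T) :
    ‖pos o N x - pos o N y‖ ≤ 20 / N := by
  obtain ⟨h1, h2, h3, h4⟩ := mem_corners hx
  obtain ⟨g1, g2, g3, g4⟩ := mem_corners hy
  have hh : (0 : ℝ) ≤ 10 / N := by positivity
  have b1 : |(x.1 : ℝ) - y.1| ≤ 1 := by
    have : |x.1 - y.1| ≤ 1 := abs_le.2 ⟨by omega, by omega⟩
    exact_mod_cast this
  have b2 : |(x.2 : ℝ) - y.2| ≤ 1 := by
    have : |x.2 - y.2| ≤ 1 := abs_le.2 ⟨by omega, by omega⟩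
    exact_mod_cast this
  refine (Complex.norm_le_abs_re_add_abs_im _).trans ?_
  rw [Complex.sub_re, Complex.sub_im, pos_re, pos_re, pos_im, pos_im]
  have e1 : o.re + 10 / N * (x.1 : ℝ) - (o.re + 10 / N * y.1) = 10 / N * ((x.1 : ℝ) - y.1) := by
    ring
  have e2 : o.im + 10 / N * (x.2 : ℝ) - (o.im + 10 / N * y.2) = 10 / N * ((x.2 : ℝ) - y.2) := by
    ring
  rw [e1, e2, abs_mul, abs_mul, abs_of_nonneg hh]
  have e3 : (20 : ℝ) / N = 10 / N * 1 + 10 / N * 1 := by ring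
  rw [e3]
  gcongr

theorem exists_big (C : MCol) (x : ℂ) (r : ℝ) (hr : 0 < r) : ∃ i, 1 / 5 ≤ C.f {i} x r := by
  by_contra h
  have h' : ∀ i, C.f {i} x r < 1 / 5 := fun i => lt_of_not_ge fun hi => h ⟨i, hi⟩
  have := C.sum_f x r hr
  rw [Fin.sum_univ_five] at this
  linarith [h' 0, h' 1, h' 2, h' 3, h' 4]

theorem move (C : MCol) {i : Fin 5} {y z : ℂ} {r : ℝ} (hr : 0 < r) (h : 1 / 5 ≤ C.f {i} y r)
    (hyz : ‖y - z‖ ≤ r / 60) : 1 / 6 ≤ C.f {i} z r := by
  have h1 := dens_lip (C.A {i}) y z r hr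
  have h2 : 2 * ‖y - z‖ / r ≤ 1 / 30 := by
    rw [div_le_iff₀ hr]; linarith
  have h3 := (abs_le.1 (h1.trans h2)).2
  unfold MCol.f at h ⊢
  linarith

theorem scale3 (C : MCol) {i : Fin 5} {z : ℂ} {r s : ℝ} (hr : 0 < r) (h : s ≤ C.f {i} z r) :
    s / 9 ≤ C.f {i} z (3 * r) := by
  have h1 := dens_scale (C.A {i}) (x := z) (x' := z) (r := r) (r' := 3 * r) hr
    (by rw [sub_self, norm_zero]; linarith)
  unfold MCol.f at h ⊢
  have h2 : 0 < r ^ 2 := by positivity
  have h3 : s * r ^ 2 ≤ (9 * dens (C.A {i}) z (3 * r)) * r ^ 2 := by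
    nlinarith [mul_le_mul_of_nonneg_right h h2.le]
  have := le_of_mul_le_mul_right h3 h2
  linarith

theorem three (C : MCol) {i j k : Fin 5} {z : ℂ} {r δ : ℝ} (hr : 0 < r) (hδ : δ ≤ 1 / 54)
    (ht : ¬ C.Tri δ (3 * r) z) (hi : 1 / 6 ≤ C.f {i} z r) (hj : 1 / 6 ≤ C.f {j} z r)
    (hk : 1 / 6 ≤ C.f {k} z r) : i = j ∨ j = k ∨ i = k := by
  by_contra h
  simp only [not_or] at h
  exact ht ⟨i, j, k, h.1, h.2.1, h.2.2, by linarith [scale3 C hr hi],
    by linarith [scale3 C hr hj], by linarith [scale3 C hr hk]⟩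

theorem EE_of (C : MCol) {i j : Fin 5} {z : ℂ} {r δ : ℝ} (hr : 0 < r) (hδ : δ ≤ 1 / 54)
    (ht : ¬ C.Tri δ (3 * r) z) (hij : i ≠ j) (hi : 1 / 6 ≤ C.f {i} z r)
    (hj : 1 / 6 ≤ C.f {j} z r) : C.EE i j z r δ := by
  refine ⟨hi, hj, fun k hki hkj => ?_⟩
  by_contra h
  exact ht ⟨i, j, k, hij, hkj.symm, hki.symm, by linarith [scale3 C hr hi],
    by linarith [scale3 C hr hj], not_lt.1 h⟩

/-- uniform version of `local_struct` on the compact square -/
theorem unif (C : MCol) (o : ℂ) (ε : ℝ) (hε : 0 < ε) :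
    ∃ η > 0, ∃ δ > 0, δ ≤ 1 / 54 ∧ η ≤ ε / 2 ∧ ∃ w : ℂ → ℂ, ∀ p ∈ square o, w p ∈ square o ∧
      ‖p - w p‖ ≤ ε / 2 ∧ ∀ (x : ℂ) (r : ℝ), ‖x - p‖ < η → 0 < r → r < η →
        (∀ i, i ∉ C.P (w p) → C.f {i} x (3 * r) = 0) ∧
          ∀ i j, i ≠ j → C.EE i j x r δ → C.G (w p) i j := by
  choose ηf hηf δf hδf hloc using C.local_struct
  obtain ⟨W, hW, hcov⟩ := (isCompact_square o).elim_nhds_subcover
    (fun w => ball w (min (ηf w) ε / 2))
    (fun w _ => ball_mem_nhds w (by have := hηf w; have := lt_min (hηf w) hε; positivity))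
  have e1 : ∀ᶠ η in 𝓝[>] (0 : ℝ), (∀ w ∈ W, η < ηf w / 2) ∧ η < ε / 2 := by
    refine Eventually.and ?_ (mem_nhdsWithin_of_mem_nhds (Iio_mem_nhds (by positivity)))
    rw [eventually_all_finset]
    intro w _
    exact mem_nhdsWithin_of_mem_nhds (Iio_mem_nhds (by have := hηf w; positivity))
  have e2 : ∀ᶠ δ in 𝓝[>] (0 : ℝ), (∀ w ∈ W, δ < δf w) ∧ δ < 1 / 54 := by
    refine Eventually.and ?_ (mem_nhdsWithin_of_mem_nhds (Iio_mem_nhds (by positivity)))
    rw [eventually_all_finset]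
    intro w _
    exact mem_nhdsWithin_of_mem_nhds (Iio_mem_nhds (hδf w))
  obtain ⟨η, ⟨h1, h2⟩, hη⟩ := (e1.and self_mem_nhdsWithin).exists
  obtain ⟨δ, ⟨h3, h4⟩, hδ⟩ := (e2.and self_mem_nhdsWithin).exists
  refine ⟨η, hη, δ, hδ, h4.le, h2.le, ?_⟩
  have hex : ∀ p ∈ square o, ∃ w ∈ W, ‖p - w‖ < min (ηf w) ε / 2 := by
    intro p hp
    obtain ⟨w, hw, hp⟩ := mem_iUnion₂.1 (hcov hp)
    exact ⟨w, hw, mem_ball_iff_norm.1 hp⟩
  choose! w hw1 hw2 using hex
  refine ⟨w, fun p hp => ⟨hW _ (hw1 p hp), ?_, fun x r hx hr hr' => ?_⟩⟩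
  · linarith [hw2 p hp, min_le_right (ηf (w p)) ε]
  · have a1 := h1 _ (hw1 p hp)
    have a2 : ‖x - w p‖ < ηf (w p) := by
      have := norm_sub_le_norm_sub_add_norm_sub x p (w p)
      linarith [hw2 p hp, min_le_left (ηf (w p)) ε]
    have a3 := hloc (w p) x r a2 hr (by linarith [hηf (w p)])
    exact ⟨a3.1, fun i j hij hE => a3.2 i j hij (EE_mono C hE (h3 _ (hw1 p hp)).le)⟩

theorem rule (C : MCol) : ∃ a b c : ℂ → Fin 5, ∀ w, w ∉ C.Q → b w ∈ C.P w ∧ c w ∈ C.P w ∧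
    (∀ i j, C.G w i j → i ≠ a w → j ≠ a w → i = c w ∨ j = c w) ∧
      (∀ j, C.G w (a w) j → a w = b w ∨ j = b w) ∧ (b w ≠ c w → ∀ j, C.G w (a w) j → j = b w) := by
  have : ∀ w, w ∉ C.Q → ∃ a b c : Fin 5, b ∈ C.P w ∧ c ∈ C.P w ∧
      (∀ i j, C.G w i j → i ≠ a → j ≠ a → i = c ∨ j = c) ∧
      (∀ j, C.G w a j → a = b ∨ j = b) ∧ (b ≠ c → ∀ j, C.G w a j → j = b) := by
    intro w hw
    refine rule_exists (C.G w) (C.P w) ?_ ?_ (fun i j h => C.G_symm h) (fun i h => h.1 rfl)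
      (fun i j h => (C.mem_P w i).2 (C.mem_F_of_G h)) (fun h => hw (Or.inl h))
      (fun h => hw (Or.inr h))
    · obtain ⟨i, hi⟩ := C.exists_mem_F w
      exact ⟨i, (C.mem_P w i).2 hi⟩
    · obtain ⟨m, hm⟩ := C.P_ne_five w
      exact ⟨m, fun h => hm ((C.mem_P w m).1 h)⟩
  choose! a b c h using this
  exact ⟨a, b, c, h⟩

/-- a palette of at most three colours is exhausted by the three colours of `Tri` -/
theorem tri_exhaust (C : MCol) {w x : ℂ} {δ R : ℝ} (hδ : 0 < δ) (ht : C.Tri δ R x)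
    (h0 : ∀ i, i ∉ C.P w → C.f {i} x R = 0) (hw : w ∉ C.Sig) {k : Fin 5} (hk : k ∈ C.P w) :
    δ ≤ C.f {k} x R := by
  obtain ⟨a, b, c, hab, hbc, hac, ha, hb, hc⟩ := ht
  have hm : ∀ i, δ ≤ C.f {i} x R → i ∈ C.P w := fun i hi => by
    by_contra h
    rw [h0 i h] at hi
    linarith
  by_contra hlt
  have hka : k ≠ a := fun h => hlt (h ▸ ha)
  have hkb : k ≠ b := fun h => hlt (h ▸ hb)
  have hkc : k ≠ c := fun h => hlt (h ▸ hc)
  apply hw
  have hsub : ({k, a, b, c} : Finset (Fin 5)) ⊆ C.P w := by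
    intro i hi
    simp only [Finset.mem_insert, Finset.mem_singleton] at hi
    rcases hi with rfl | rfl | rfl | rfl
    · exact hk
    · exact hm _ ha
    · exact hm _ hb
    · exact hm _ hc
  have hcard : ({k, a, b, c} : Finset (Fin 5)).card = 4 := by
    rw [Finset.card_insert_of_notMem (by simp [hka, hkb, hkc]),
      Finset.card_insert_of_notMem (by simp [hab, hac]), Finset.card_pair hbc]
  exact hcard.ge.trans (Finset.card_le_card hsub)

end Label

/-- Proof. For `w ∈ square o` take `η w ≤ ε`, `δ w` from `local_struct`; finitely many balls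
`ball w (η w / 2)`, `w ∈ W ⊆ square o`, cover the compact square; `η = min η w / 2`,
`δ = min (min δ w) (1/54)`. Let `r < η` be as in `tiny δ (η/2)` for `R = 3r`, and `N` so large that
`h = 10/N` has `√2 h ≤ δ R/4`, `√2 h ≤ η/2`, `4 √2 h / r ≤ 1/30`. Base label `λ x` = a colour with
`f {λ x} (pos x) r ≥ 1/5` (`sum_f`). Board vertex: corner of a board square (its `pos` is in the
square); neighbours: corners of a common board square (distance `≤ √2 h`). `x` is *Tri* if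
`Tri δ (3r) (pos x)`. `K x` = set of vertices joined to `x` through neighbouring Tri vertices (for
Tri `x`; an equivalence relation); by `tiny`, there is `w ∈ W` with all points of `K x` within
`η w / 2 + η/2` of `w`; choose `w` as a function of the *set* `K x` (`Classical.epsilon`/`choose`).
Label: non-Tri `x`, or `w ∈ Q`: `λ x`. Otherwise take `a b c` from `rule_exists` for `G w`, `P w`
(`P_ne_five`, `exists_mem_F`, `mem_F_of_G`, `G_symm`; a function of `w`): label `b` if `x` has a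
non-Tri neighbour `y` with `λ y = a`, else `c`.
Key fact: if `z` is non-Tri within `η w` of `w`, and `y` is a vertex with `‖pos y - pos z‖ ≤ 2√2 h`,
`λ y ≠ λ z`, then both have density `≥ 1/6` in `(z, r)` (`dens_lip`), `≥ 1/54 ≥ δ` in `(z, 3r)`
(`dens_scale`), so `EE` holds and `G w (λ y) (λ z)`; and three different `λ` cannot occur around `z`.
First claim: `λ x` has density `≥ 1/45` at `3r`; a relabelled `x` has label in `P w`; if
`|P w| ≥ 4`, `w ∈ Sig` is within `ε`; else the three colours of `Tri` at `x` exhaust `P w`.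
Second claim, for a board square `T` far from `Q0`: without Tri corner use the key fact. With a Tri
corner, all Tri corners have the same `K`, `w`, and `w ∉ Q` (else `w ∈ Q0` is within `ε`). Let `Λ` be
the labels of the non-Tri corners (`|Λ| ≤ 2`, an edge of `G w` if two). If `a ∈ Λ` all Tri corners
get `b`, and `Λ ⊆ {a, b}` or (`a = b`) `b ∈ Λ`. If `a ∉ Λ`: if all Tri corners get the colour `c`,
an edge `Λ` contains `c`; otherwise `b ≠ c`, some Tri corner has a non-Tri neighbour labelled `a`,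
so every `j ∈ Λ` has `G w a j`, `j = b`, and all labels are in `{b, c}`. -/
theorem MCol.labelling (C : MCol) (o : ℂ) (Q0 : Finset ℂ)
    (hQ : ∀ q ∈ C.Q, q ∈ square o → q ∈ Q0) (ε : ℝ) (hε : 0 < ε) :
    ∃ δ > 0, δ ≤ 1 ∧ ∀ᶠ r in 𝓝[>] (0 : ℝ), ∀ᶠ N : ℕ in atTop, ∃ l : ℤ × ℤ → Fin 5,
      (∀ T ∈ board N, ∀ x ∈ corners T,
        (∃ z ∈ C.Sig, ‖pos o N x - z‖ ≤ ε) ∨ δ ≤ C.f {l x} (pos o N x) (3 * r)) ∧
      ∀ T ∈ board N, (∀ q ∈ Q0, ε < ‖pos o N T - q‖) → Two l T := by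
  classical
  obtain ⟨η, hη, δ, hδ, hδ54, hηε, wf, hwf⟩ := Label.unif C o ε hε
  obtain ⟨a, b, c, hrule⟩ := Label.rule C
  obtain ⟨B, hB⟩ := (Label.isCompact_square o).isBounded.exists_norm_le
  refine ⟨δ, hδ, by linarith, ?_⟩
  have t3 : Tendsto (fun r : ℝ => 3 * r) (𝓝[>] 0) (𝓝[>] 0) := by
    refine tendsto_nhdsWithin_iff.2 ⟨?_, ?_⟩
    · have : Tendsto (fun r : ℝ => 3 * r) (𝓝 0) (𝓝 (3 * 0)) :=
        (continuous_const.mul continuous_id).tendsto 0
      rw [mul_zero] at this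
      exact this.mono_left nhdsWithin_le_nhds
    · filter_upwards [self_mem_nhdsWithin] with r hr
      exact mul_pos (show (0 : ℝ) < 3 by norm_num) hr
  have e1 := t3.eventually (C.tiny δ hδ (by linarith) (η / 2) (by positivity) B)
  have e2 : ∀ᶠ r in 𝓝[>] (0 : ℝ), r < η := mem_nhdsWithin_of_mem_nhds (Iio_mem_nhds hη)
  filter_upwards [e1, e2, self_mem_nhdsWithin] with r htiny hrη hr
  replace hr : 0 < r := hr
  have tN : Tendsto (fun N : ℕ => (20 : ℝ) / N) atTop (𝓝 0) :=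
    tendsto_const_div_atTop_nhds_zero_nat 20
  filter_upwards [tN.eventually (gt_mem_nhds (show 0 < δ * (3 * r) / 4 by positivity)),
    tN.eventually (gt_mem_nhds (show 0 < η / 2 by positivity)),
    tN.eventually (gt_mem_nhds (show 0 < r / 120 by positivity))] with N hN1 hN2 hN3
  -- base labels
  choose lam hlam using fun x : ℤ × ℤ => Label.exists_big C (pos o N x) r hr
  set nb : ℤ × ℤ → ℤ × ℤ → Prop := fun x y => ∃ T ∈ board N, x ∈ corners T ∧ y ∈ corners T
    with hnb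
  set t : ℤ × ℤ → Prop := fun x => C.Tri δ (3 * r) (pos o N x) with ht
  have nb_dist : ∀ x y, nb x y → ‖pos o N x - pos o N y‖ ≤ 20 / N := by
    rintro x y ⟨T, -, hx, hy⟩
    exact Label.pos_dist o N hx hy
  obtain ⟨rep, hrep1, hrep2⟩ := Label.exists_rep (fun x y => t x ∧ t y ∧ nb x y) (by
    rintro x y ⟨h1, h2, T, hT, hx, hy⟩
    exact ⟨h2, h1, T, hT, hy, hx⟩)
  have rep_mem : ∀ T ∈ board N, ∀ x ∈ corners T, pos o N (rep x) ∈ square o := by
    intro T hT x hx
    rcases (hrep1 x).cases_tail with h | ⟨y, -, -, -, T', hT', -, hy⟩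
    · rw [h]; exact Label.pos_mem o hT hx
    · exact Label.pos_mem o hT' hy
  have rep_dist : ∀ T ∈ board N, ∀ x ∈ corners T, ‖pos o N x - pos o N (rep x)‖ < η / 2 := by
    intro T hT x hx
    rw [norm_sub_rev]
    refine htiny _ _ (hB _ (Label.pos_mem o hT hx)) ?_
    have : ∀ y, ReflTransGen (fun x y => t x ∧ t y ∧ nb x y) x y →
        ReflTransGen (fun p q => C.Tri δ (3 * r) p ∧ ‖p - q‖ ≤ δ * (3 * r) / 4)
          (pos o N x) (pos o N y) := by
      intro y hy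
      induction hy with
      | refl => exact ReflTransGen.refl
      | tail _ h ih => exact ih.tail ⟨h.1, (nb_dist _ _ h.2.2).trans hN1.le⟩
    exact this _ (hrep1 x)
  set w : ℤ × ℤ → ℂ := fun x => wf (pos o N (rep x)) with hw
  -- the structure of `w x` governs all corners of a square containing `x`
  have hws : ∀ T ∈ board N, ∀ x ∈ corners T, w x ∈ square o ∧ ∀ z ∈ corners T,
      ‖pos o N z - w x‖ ≤ ε ∧ (∀ i, i ∉ C.P (w x) → C.f {i} (pos o N z) (3 * r) = 0) ∧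
        ∀ i j, i ≠ j → C.EE i j (pos o N z) r δ → C.G (w x) i j := by
    intro T hT x hx
    obtain ⟨h1, h2, h3⟩ := hwf _ (rep_mem T hT x hx)
    refine ⟨h1, fun z hz => ?_⟩
    have h4 : ‖pos o N z - pos o N (rep x)‖ < η := by
      have := norm_sub_le_norm_sub_add_norm_sub (pos o N z) (pos o N x) (pos o N (rep x))
      linarith [rep_dist T hT x hx, Label.pos_dist o N hz hx]
    refine ⟨?_, h3 _ r h4 hr hrη⟩
    have := norm_sub_le_norm_sub_add_norm_sub (pos o N z) (pos o N (rep x)) (w x)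
    linarith
  set l : ℤ × ℤ → Fin 5 := fun x => if t x ∧ w x ∉ C.Q then
    (if ∃ y, nb x y ∧ ¬ t y ∧ lam y = a (w x) then b (w x) else c (w x)) else lam x with hl
  refine ⟨l, fun T hT x hx => ?_, fun T hT hfar => ?_⟩
  · by_cases h : t x ∧ w x ∉ C.Q
    · obtain ⟨-, hw2⟩ := hws T hT x hx
      obtain ⟨g1, g2, -⟩ := hw2 x hx
      by_cases hS : w x ∈ C.Sig
      · exact Or.inl ⟨w x, hS, g1⟩
      · refine Or.inr (Label.tri_exhaust C hδ h.1 g2 hS ?_)
        obtain ⟨r1, r2, -⟩ := hrule _ h.2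
        simp only [hl, if_pos h]
        split_ifs
        · exact r1
        · exact r2
    · right
      simp only [hl, if_neg h]
      linarith [Label.scale3 C hr (hlam x)]
  · have hnbT : ∀ x ∈ corners T, ∀ y ∈ corners T, nb x y := fun x hx y hy => ⟨T, hT, hx, hy⟩
    have hmove : ∀ z ∈ corners T, ∀ x ∈ corners T, ∀ y, nb x y →
        1 / 6 ≤ C.f {lam y} (pos o N z) r := by
      intro z hz x hx y hy
      refine Label.move C hr (hlam y) ?_
      have := norm_sub_le_norm_sub_add_norm_sub (pos o N y) (pos o N x) (pos o N z)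
      have h1 := nb_dist x y hy
      rw [norm_sub_rev] at h1
      linarith [Label.pos_dist o N hx hz]
    have h3 : ∀ z ∈ corners T, ¬ t z → ∀ y ∈ corners T, ∀ y' ∈ corners T,
        lam z = lam y ∨ lam y = lam y' ∨ lam z = lam y' := by
      intro z hz htz y hy y' hy'
      exact Label.three C hr hδ54 htz (hmove z hz z hz z (hnbT z hz z hz))
        (hmove z hz z hz y (hnbT z hz y hy)) (hmove z hz z hz y' (hnbT z hz y' hy'))
    by_cases hex : ∃ x ∈ corners T, t x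
    · obtain ⟨x0, hx0, htx0⟩ := hex
      obtain ⟨hw1, hw2⟩ := hws T hT x0 hx0
      have hnQ : w x0 ∉ C.Q := fun h => by
        have := hfar _ (hQ _ h hw1)
        linarith [(hw2 T (Label.self_mem_corners T)).1]
      have hweq : ∀ x ∈ corners T, t x → w x = w x0 := fun x hx htx => by
        simp only [hw]
        rw [hrep2 x x0 ⟨htx, htx0, hnbT x hx x0 hx0⟩]
      obtain ⟨-, -, r1, r2, r3⟩ := hrule _ hnQ
      refine Label.comb (corners T) nb t lam l (C.G (w x0)) (a (w x0)) (b (w x0)) (c (w x0))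
        hnbT ?_ ?_ ?_ h3 ?_ r1 r2 r3
      · intro x _ htx
        simp only [hl]
        rw [if_neg (fun h => htx h.1)]
      · intro x hx htx h
        simp only [hl]
        rw [hweq x hx htx, if_pos ⟨htx, hnQ⟩, if_pos h]
      · intro x hx htx h
        simp only [hl]
        rw [hweq x hx htx, if_pos ⟨htx, hnQ⟩, if_neg h]
      · intro z hz htz x hx y hy hne
        exact (hw2 z hz).2.2 _ _ hne (Label.EE_of C hr hδ54 htz hne (hmove z hz x hx y hy)
          (hmove z hz z hz z (hnbT z hz z hz)))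
    · have hn : ∀ x ∈ corners T, ¬ t x := fun x hx h => hex ⟨x, hx, h⟩
      have hll : ∀ x ∈ corners T, l x = lam x := fun x hx => by
        simp only [hl]
        rw [if_neg (fun h => hn x hx h.1)]
      intro x hx y hy z hz
      rw [hll x hx, hll y hy, hll z hz]
      exact h3 x hx (hn x hx) y hy z hz

end Crest.Agent.R40
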