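import Crest.Agent.R40.Key

/-!
# Row 40, task A4: projection on the translation-continuous vectors
-/

set_option autoImplicit false

namespace Crest.Agent.R40
open MeasureTheory Set Filter Topology Metric
open scoped ENNReal Real RealInnerProductSpace

namespace Proj

section abstract
variable {H : Type*} [NormedAddCommGroup H] [InnerProductSpace ℝ H]

/-- the vectors on which `T` is continuous -/
def Hc (T : ℂ → H →ₗᵢ[ℝ] H) : Submodule ℝ H where
  carrier := {w | Tendsto (fun x => T x w) (𝓝 0) (𝓝 w)}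
  add_mem' := fun {a b} ha hb => by
    simp only [mem_ofPred_eq, map_add] at *
    exact ha.add hb
  zero_mem' := by simp
  smul_mem' := fun c a ha => by
    simp only [mem_ofPred_eq, map_smul] at *
    exact ha.const_smul c

theorem mem_Hc {T : ℂ → H →ₗᵢ[ℝ] H} {w : H} :
    w ∈ Hc T ↔ Tendsto (fun x => T x w) (𝓝 0) (𝓝 w) := Iff.rfl

theorem isClosed_Hc (T : ℂ → H →ₗᵢ[ℝ] H) : IsClosed (Hc T : Set H) := by
  refine isClosed_of_closure_subset fun w hw => ?_
  rw [SetLike.mem_coe, mem_Hc, Metric.tendsto_nhds]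
  intro ε hε
  obtain ⟨v, hv, hd⟩ := Metric.mem_closure_iff.1 hw (ε / 3) (by positivity)
  filter_upwards [Metric.tendsto_nhds.1 (mem_Hc.1 hv) (ε / 3) (by positivity)] with x hx
  have h1 : dist (T x w) (T x v) = dist w v := (T x).isometry.dist_eq _ _
  have h2 := dist_triangle4 (T x w) (T x v) v w
  rw [dist_comm v w] at h2
  linarith

instance [CompleteSpace H] (T : ℂ → H →ₗᵢ[ℝ] H) : (Hc T).HasOrthogonalProjection := by
  have : CompleteSpace (Hc T) := (isClosed_Hc T).completeSpace_coe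
  infer_instance

theorem T_mem {T : ℂ → H →ₗᵢ[ℝ] H} (Tadd : ∀ x y w, T (x + y) w = T x (T y w)) {w : H}
    (hw : w ∈ Hc T) (y : ℂ) : T y w ∈ Hc T := by
  rw [mem_Hc] at *
  have h1 : (fun x => T x (T y w)) = fun x => T y (T x w) := by
    funext x
    rw [← Tadd, add_comm, Tadd]
  rw [h1]
  exact ((T y).continuous.tendsto w).comp hw

theorem R_mem {T : ℂ → H →ₗᵢ[ℝ] H} {R : ℝ → H →ₗᵢ[ℝ] H}
    (RT : ∀ θ x w, R θ (T x w) = T (e θ * x) (R θ w)) {w : H}
    (hw : w ∈ Hc T) (θ : ℝ) : R θ w ∈ Hc T := by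
  rw [mem_Hc] at *
  have h1 : (fun x => T x (R θ w)) = fun x => R θ (T (e (-θ) * x) w) := by
    funext x
    rw [RT, ← mul_assoc, ← e_add, add_neg_cancel, e_zero, one_mul]
  rw [h1]
  refine ((R θ).continuous.tendsto w).comp (hw.comp ?_)
  have : Continuous fun x : ℂ => e (-θ) * x := by fun_prop
  simpa using this.tendsto 0

theorem nearest {K : Submodule ℝ H} [K.HasOrthogonalProjection] {f v : H} (hv : v ∈ K)
    (h : ‖f - v‖ ≤ ‖f - K.starProjection f‖) : v = K.starProjection f := by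
  have h1 : ⟪f - K.starProjection f, K.starProjection f - v⟫ = 0 :=
    K.starProjection_inner_eq_zero f _ (K.sub_mem (K.starProjection_apply_mem f) hv)
  have h2 := norm_add_sq_real (f - K.starProjection f) (K.starProjection f - v)
  rw [h1, sub_add_sub_cancel] at h2
  have h3 : ‖f - v‖ ^ 2 ≤ ‖f - K.starProjection f‖ ^ 2 := by gcongr
  have h4 : ‖K.starProjection f - v‖ ^ 2 = 0 :=
    le_antisymm (by linarith) (sq_nonneg _)
  exact (sub_eq_zero.1 (norm_eq_zero.1 (pow_eq_zero_iff two_ne_zero |>.1 h4))).symm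

theorem proj_orth [CompleteSpace H]
    (T : ℂ → H →ₗᵢ[ℝ] H) (T0 : ∀ w, T 0 w = w) (Tadd : ∀ x y w, T (x + y) w = T x (T y w))
    (R : ℝ → H →ₗᵢ[ℝ] H) (R0 : ∀ w, R 0 w = w) (Radd : ∀ a b w, R (a + b) w = R a (R b w))
    (RT : ∀ θ x w, R θ (T x w) = T (e θ * x) (R θ w))
    (f : H) (Rf : ∀ θ, R θ f = f) (u : ℂ) (hu : ‖u‖ = 1) (hf : ⟪T u f, f⟫ = 0) :
    ⟪T u ((Hc T).starProjection f), (Hc T).starProjection f⟫ = 0 := by
  set G := (Hc T).starProjection f with hG
  have hGm : G ∈ Hc T := (Hc T).starProjection_apply_mem f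
  have horth : ∀ w ∈ Hc T, ⟪f - G, w⟫ = 0 := fun w hw =>
    (Hc T).starProjection_inner_eq_zero f w hw
  have RG : ∀ θ, R θ G = G := fun θ => by
    refine nearest (R_mem RT hGm θ) (le_of_eq ?_)
    conv_lhs => rw [← Rf θ, ← map_sub, (R θ).norm_map]
  have hk := hilbert_key T T0 Tadd R R0 Radd RT (f - G) (fun θ => by rw [map_sub, Rf, RG])
    (fun w hw => horth w hw) u hu
  have h1 : ⟪T u G, f - G⟫ = 0 := by
    rw [real_inner_comm]; exact horth _ (T_mem Tadd hGm u)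
  have h2 : ⟪T u (f - G), G⟫ = 0 := by
    have : G = T u (T (-u) G) := by rw [← Tadd, add_neg_cancel, T0]
    have h3 : ⟪T u (f - G), T u (T (-u) G)⟫ = 0 := by
      rw [(T u).inner_map_map]; exact horth _ (T_mem Tadd hGm _)
    rwa [← this] at h3
  have h3 : ⟪T u f, f⟫ = ⟪T u G + T u (f - G), G + (f - G)⟫ := by
    rw [← map_add, add_sub_cancel]
  rw [h3, inner_add_left, inner_add_right, inner_add_right, h1, h2, hk] at hf
  linarith

theorem unif {T : ℂ → H →ₗᵢ[ℝ] H} (Tadd : ∀ x y w, T (x + y) w = T x (T y w)) {w : H}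
    (hw : w ∈ Hc T) : UniformContinuous fun x => T x w := by
  rw [Metric.uniformContinuous_iff]
  intro ε hε
  obtain ⟨δ, hδ, h⟩ := Metric.tendsto_nhds_nhds.1 (mem_Hc.1 hw) ε hε
  refine ⟨δ, hδ, fun {a b} hab => ?_⟩
  have h1 : T a w = T b (T (a - b) w) := by rw [← Tadd, add_sub_cancel]
  rw [h1, (T b).isometry.dist_eq]
  exact h (by rwa [dist_zero_right, ← dist_eq_norm])

end abstract

section concrete
variable {Ω : Type*} [MeasurableSpace Ω] {μ : Measure Ω}

/-- composition operator -/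
noncomputable def cp (f : Ω → Ω) (hf : MeasurePreserving f μ μ) : Lp ℝ 2 μ →ₗᵢ[ℝ] Lp ℝ 2 μ :=
  Lp.compMeasurePreservingₗᵢ ℝ f hf

theorem cp_coe {f : Ω → Ω} (hf : MeasurePreserving f μ μ) (w : Lp ℝ 2 μ) :
    cp f hf w =ᵐ[μ] fun ω => w (f ω) := Lp.coeFn_compMeasurePreserving w hf

theorem cp_comp {f g : Ω → Ω} (hf : MeasurePreserving f μ μ) (hg : MeasurePreserving g μ μ)
    (w : Lp ℝ 2 μ) : cp g hg (cp f hf w) = cp (f ∘ g) (hf.comp hg) w :=
  (Lp.compMeasurePreserving_comp_apply w hf hg).symm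

theorem cp_congr {f g : Ω → Ω} (hf : MeasurePreserving f μ μ) (hg : MeasurePreserving g μ μ)
    (h : f = g) (w : Lp ℝ 2 μ) : cp f hf w = cp g hg w := by
  subst h; rfl

theorem cp_id (w : Lp ℝ 2 μ) : cp id (MeasurePreserving.id μ) w = w :=
  Lp.compMeasurePreserving_id_apply w

theorem cp_posPart {f : Ω → Ω} (hf : MeasurePreserving f μ μ) (w : Lp ℝ 2 μ) :
    cp f hf (Lp.posPart w) = Lp.posPart (cp f hf w) := by
  ext
  filter_upwards [cp_coe hf (Lp.posPart w), Lp.coeFn_posPart (cp f hf w), cp_coe hf w,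
    hf.quasiMeasurePreserving.ae (Lp.coeFn_posPart w)] with ω h1 h2 h3 h4
  rw [h1, h2, h3, h4]

theorem norm_posPart_le {f G : Lp ℝ 2 μ} (hf : ∀ᵐ ω ∂μ, 0 ≤ f ω) :
    ‖f - Lp.posPart G‖ ≤ ‖f - G‖ := by
  refine Lp.norm_le_norm_of_ae_le ?_
  filter_upwards [hf, Lp.coeFn_sub f (Lp.posPart G), Lp.coeFn_sub f G, Lp.coeFn_posPart G]
    with ω h1 h2 h3 h4
  rw [h2, h3, Pi.sub_apply, Pi.sub_apply, h4, Real.norm_eq_abs, Real.norm_eq_abs]
  rcases le_total (G ω) 0 with h | h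
  · rw [max_eq_right h, abs_of_nonneg (by linarith), abs_of_nonneg (by linarith)]
    linarith
  · rw [max_eq_left h]

theorem coe_sum {ι : Type*} (s : Finset ι) (w : ι → Lp ℝ 2 μ) :
    ∀ᵐ ω ∂μ, (∑ i ∈ s, w i : Lp ℝ 2 μ) ω = ∑ i ∈ s, w i ω := by
  filter_upwards [Lp.coeFn_finsetSum s w] with ω h
  rw [h, Finset.sum_apply]

end concrete

end Proj

open Proj in
/-- Proof. `H = Lp ℝ 2 μ`, `T x = Lp.compMeasurePreservingₗᵢ ℝ (ω ↦ ω (· + x))`,
`R θ = Lp.compMeasurePreservingₗᵢ ℝ (ω ↦ ω (e θ * ·))`; they satisfy the hypotheses of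
`hilbert_key` (`R θ (T x w) = T (e θ * x) (R θ w)`). `f i = indicatorConstLp {ω | ω 0 = i} 1`;
`R θ (f i) = f i`. `Hc = {w | T x w → w as x → 0}` is a closed subspace, invariant under `T x`,
`R θ` and `w ↦ w⁺` (`T x` commutes with `Lp.posPart`, which is 1-Lipschitz / continuous).
`G i` = orthogonal projection of `f i` on `Hc`, `h i = f i - G i ⟂ Hc`, `R θ (h i) = h i`.
`0 = μ{ω u = i, ω 0 = i} = ⟪T u (f i), f i⟫ = ⟪T u (G i), G i⟫ + ⟪T u (h i), h i⟫` (cross terms
vanish) and the last term is `0` by `hilbert_key`. `G i ≥ 0`: `‖f - G⁺‖ ≤ ‖f - G‖` since `f ≥ 0`,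
and the nearest point is unique. `Σ f i = 1 ∈ Hc` so `Σ G i = 1`. Put `g i x = T x (G i)`;
`‖g i x - g i y‖ = ‖T (x - y) (G i) - G i‖`. -/
theorem exists_g (μ : Measure (ℂ → Fin 5)) [IsProbabilityMeasure μ]
    (hT : ∀ x : ℂ, MeasurePreserving (fun (ω : ℂ → Fin 5) (y : ℂ) => ω (y + x)) μ μ)
    (hR : ∀ θ : ℝ, MeasurePreserving (fun (ω : ℂ → Fin 5) (y : ℂ) => ω (e θ * y)) μ μ)
    (hc : ∀ x u : ℂ, ‖u‖ = 1 → μ {ω | ω x = ω (x + u)} = 0) :
    ∃ g : Fin 5 → ℂ → Lp ℝ 2 μ, (∀ i, UniformContinuous (g i)) ∧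
      (∀ i x, ∀ᵐ ω ∂μ, 0 ≤ g i x ω) ∧ (∀ x, ∀ᵐ ω ∂μ, ∑ i, g i x ω = 1) ∧
      ∀ (i : Fin 5) (x u : ℂ), ‖u‖ = 1 → ⟪g i x, g i (x + u)⟫ = 0 := by
  let T : ℂ → Lp ℝ 2 μ →ₗᵢ[ℝ] Lp ℝ 2 μ := fun x => cp _ (hT x)
  let R : ℝ → Lp ℝ 2 μ →ₗᵢ[ℝ] Lp ℝ 2 μ := fun θ => cp _ (hR θ)
  have T0 : ∀ w, T 0 w = w := fun w =>
    (cp_congr _ (MeasurePreserving.id μ) (by funext ω y; simp) w).trans (cp_id w)
  have R0 : ∀ w, R 0 w = w := fun w =>
    (cp_congr _ (MeasurePreserving.id μ) (by funext ω y; simp [e_zero]) w).trans (cp_id w)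
  have Tadd : ∀ x y w, T (x + y) w = T x (T y w) := fun x y w => by
    simp only [T]
    rw [cp_comp]
    refine cp_congr _ _ ?_ w
    funext ω z
    simp only [Function.comp]
    congr 1
    ring
  have Radd : ∀ a b w, R (a + b) w = R a (R b w) := fun a b w => by
    simp only [R]
    rw [cp_comp]
    refine cp_congr _ _ ?_ w
    funext ω z
    simp only [Function.comp]
    rw [e_add, mul_assoc]
  have RT : ∀ θ x w, R θ (T x w) = T (e θ * x) (R θ w) := fun θ x w => by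
    simp only [R, T]
    rw [cp_comp, cp_comp]
    refine cp_congr _ _ ?_ w
    funext ω z
    simp only [Function.comp]
    rw [mul_add]
  have hm : ∀ (i : Fin 5) (x : ℂ), MeasurableSet {ω : ℂ → Fin 5 | ω x = i} := fun i x =>
    measurableSet_eq_fun (measurable_pi_apply _) measurable_const
  let F : Fin 5 → ℂ → Lp ℝ 2 μ := fun i x => indicatorConstLp 2 (hm i x) (measure_ne_top _ _) 1
  have hF : ∀ i x, ∀ᵐ ω ∂μ, F i x ω = if ω x = i then 1 else 0 := fun i x => by
    filter_upwards [indicatorConstLp_coeFn (p := 2) (hs := hm i x) (hμs := measure_ne_top μ _)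
      (c := (1 : ℝ))] with ω h
    rw [h, indicator_apply]
    rfl
  have TF : ∀ i x, T x (F i 0) = F i x := fun i x => by
    ext
    filter_upwards [cp_coe (hT x) (F i 0), (hT x).quasiMeasurePreserving.ae (hF i 0), hF i x]
      with ω h1 h2 h3
    rw [h3]
    refine h1.trans (h2.trans ?_)
    simp
  have RF : ∀ i θ, R θ (F i 0) = F i 0 := fun i θ => by
    ext
    filter_upwards [cp_coe (hR θ) (F i 0), (hR θ).quasiMeasurePreserving.ae (hF i 0), hF i 0]
      with ω h1 h2 h3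
    rw [h3]
    refine h1.trans (h2.trans ?_)
    simp
  have hone : ∀ x, ∀ᵐ ω ∂μ, (∑ i, F i x : Lp ℝ 2 μ) ω = 1 := fun x => by
    filter_upwards [coe_sum Finset.univ fun i => F i x, ae_all_iff.2 fun i => hF i x]
      with ω h1 h2
    rw [h1]
    simp [h2]
  have Tone : ∀ x, T x (∑ i, F i 0) = ∑ i, F i 0 := fun x => by
    rw [map_sum]
    simp only [TF]
    ext
    filter_upwards [hone x, hone 0] with ω h1 h2
    rw [h1, h2]
  have hone_mem : (∑ i, F i 0) ∈ Hc T := by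
    rw [mem_Hc]
    simp only [Tone]
    exact tendsto_const_nhds
  let G : Fin 5 → Lp ℝ 2 μ := fun i => (Hc T).starProjection (F i 0)
  have hGm : ∀ i, G i ∈ Hc T := fun i => (Hc T).starProjection_apply_mem _
  refine ⟨fun i x => T x (G i), fun i => unif Tadd (hGm i), fun i x => ?_, fun x => ?_,
    fun i x u hu => ?_⟩
  · have h1 : Lp.posPart (G i) ∈ Hc T := by
      rw [mem_Hc]
      have h2 : (fun x => T x (Lp.posPart (G i))) = fun x => Lp.posPart (T x (G i)) := by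
        funext x; exact cp_posPart _ _
      rw [h2]
      exact (Lp.continuous_posPart.tendsto (G i)).comp (mem_Hc.1 (hGm i))
    have h2 : Lp.posPart (G i) = G i := by
      refine nearest h1 (norm_posPart_le ?_)
      filter_upwards [hF i 0] with ω h
      rw [h]
      split_ifs <;> norm_num
    have h3 : T x (G i) = Lp.posPart (T x (G i)) := by
      conv_lhs => rw [← h2]
      exact cp_posPart _ _
    filter_upwards [Lp.coeFn_posPart (T x (G i))] with ω h
    rw [← h3] at h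
    rw [h]
    exact le_max_right _ _
  · have h1 : ∑ i, T x (G i) = ∑ i, F i 0 := by
      rw [← map_sum, ← map_sum, Submodule.starProjection_eq_self_iff.2 hone_mem, Tone]
    filter_upwards [coe_sum Finset.univ fun i => T x (G i), hone 0] with ω h2 h3
    rw [← h2, h1, h3]
  · change ⟪T x (G i), T (x + u) (G i)⟫ = 0
    rw [Tadd, (T x).inner_map_map, real_inner_comm]
    refine proj_orth T T0 Tadd R R0 Radd RT (F i 0) (RF i) u hu ?_
    rw [TF, L2.real_inner_indicatorConstLp_one_indicatorConstLp_one,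
      measureReal_eq_zero_iff (measure_ne_top _ _)]
    refine measure_mono_null ?_ (hc 0 u hu)
    rintro ω ⟨h1, h2⟩
    simp only [mem_ofPred_eq, zero_add] at *
    rw [h1, h2]

end Crest.Agent.R40
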