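import Crest.Agent.R40.Arc

/-!
# Row 40, task E4: four interfaces forming a 4-cycle cannot meet
-/

set_option autoImplicit false

namespace Crest.Agent.R40
open MeasureTheory Set Filter Topology Metric
open scoped ENNReal Real

namespace Quad

lemma fifth (a b c d : Fin 5) (hab : a ≠ b) (hbc : b ≠ c) (hcd : c ≠ d)
    (hda : d ≠ a) (hac : a ≠ c) (hbd : b ≠ d) :
    ∃ m : Fin 5, m ≠ a ∧ m ≠ b ∧ m ≠ c ∧ m ≠ d ∧ ∀ k, k ≠ m → k = a ∨ k = b ∨ k = c ∨ k = d := by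
  revert a b c d
  decide

lemma cos_add_pi_sub (θ φ : ℝ) : Real.cos (θ + π - φ) = -Real.cos (θ - φ) := by
  rw [show θ + π - φ = (θ - φ) + π by ring, Real.cos_add_pi]

lemma cos_add_two_pi_sub (θ φ : ℝ) : Real.cos (θ + 2 * π - φ) = Real.cos (θ - φ) := by
  rw [show θ + 2 * π - φ = (θ - φ) + 2 * π by ring, Real.cos_add_two_pi]

lemma cos_interp (a b θ φ : ℝ) : Real.sin (b - a) * Real.cos (θ - φ) =
    Real.sin (b - θ) * Real.cos (a - φ) + Real.sin (θ - a) * Real.cos (b - φ) := by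
  have h1 : Real.sin (b - a) = Real.sin ((b - θ) + (θ - a)) := by congr 1; ring
  have h2 : Real.cos (a - φ) = Real.cos ((θ - φ) - (θ - a)) := by congr 1; ring
  have h3 : Real.cos (b - φ) = Real.cos ((θ - φ) + (b - θ)) := by congr 1; ring
  rw [h1, h2, h3, Real.sin_add, Real.cos_sub (θ - φ), Real.cos_add (θ - φ)]
  ring

lemma cos_pos_Icc {a b θ φ : ℝ} (ha : 0 < Real.cos (a - φ)) (hb : 0 < Real.cos (b - φ))
    (hab : b - a < π) (hθ : θ ∈ Icc a b) : 0 < Real.cos (θ - φ) := by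
  rcases eq_or_lt_of_le hθ.1 with h | h
  · rw [← h]; exact ha
  · have s1 : 0 < Real.sin (θ - a) :=
      Real.sin_pos_of_pos_of_lt_pi (by linarith) (by linarith [hθ.2])
    have s2 : 0 ≤ Real.sin (b - θ) :=
      Real.sin_nonneg_of_nonneg_of_le_pi (by linarith [hθ.2]) (by linarith)
    have s3 : 0 < Real.sin (b - a) :=
      Real.sin_pos_of_pos_of_lt_pi (by linarith [hθ.2]) hab
    have key := cos_interp a b θ φ
    have : 0 < Real.sin (b - a) * Real.cos (θ - φ) := by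
      rw [key]
      have := mul_nonneg s2 ha.le
      have := mul_pos s1 hb
      linarith
    exact (mul_pos_iff_of_pos_left s3).1 this

lemma cos_neg_Icc {a b θ φ : ℝ} (ha : Real.cos (a - φ) < 0) (hb : Real.cos (b - φ) < 0)
    (hab : b - a < π) (hθ : θ ∈ Icc a b) : Real.cos (θ - φ) < 0 := by
  have h : ∀ x : ℝ, Real.cos (x - (φ - π)) = -Real.cos (x - φ) := fun x => by
    rw [show x - (φ - π) = x + π - φ by ring, cos_add_pi_sub]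
  have := cos_pos_Icc (φ := φ - π) (by rw [h]; linarith) (by rw [h]; linarith) hab hθ
  rw [h] at this
  linarith

/-- the cone where the first two cosines are positive and the last two negative -/
def cone (φ₁ φ₂ φ₃ φ₄ : ℝ) : Set ℝ :=
  {θ | 0 < Real.cos (θ - φ₁) ∧ 0 < Real.cos (θ - φ₂) ∧ Real.cos (θ - φ₃) < 0 ∧
    Real.cos (θ - φ₄) < 0}

lemma mem_cone (φ₁ φ₂ φ₃ φ₄ θ : ℝ) : θ ∈ cone φ₁ φ₂ φ₃ φ₄ ↔
    0 < Real.cos (θ - φ₁) ∧ 0 < Real.cos (θ - φ₂) ∧ Real.cos (θ - φ₃) < 0 ∧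
    Real.cos (θ - φ₄) < 0 := Iff.rfl

lemma add_pi_mem_cone (φ₁ φ₂ φ₃ φ₄ θ : ℝ) : θ + π ∈ cone φ₁ φ₂ φ₃ φ₄ ↔
    Real.cos (θ - φ₁) < 0 ∧ Real.cos (θ - φ₂) < 0 ∧ 0 < Real.cos (θ - φ₃) ∧
    0 < Real.cos (θ - φ₄) := by
  simp only [mem_cone, cos_add_pi_sub, neg_pos, neg_lt_zero]

lemma isCone_cone (φ₁ φ₂ φ₃ φ₄ : ℝ) : IsCone (cone φ₁ φ₂ φ₃ φ₄) where
  per θ := by simp only [mem_cone, cos_add_two_pi_sub]
  conv a b ha hb hab θ hθ :=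
    ⟨cos_pos_Icc ha.1 hb.1 hab hθ, cos_pos_Icc ha.2.1 hb.2.1 hab hθ,
      cos_neg_Icc ha.2.2.1 hb.2.2.1 hab hθ, cos_neg_Icc ha.2.2.2 hb.2.2.2 hab hθ⟩
  anti θ h h' := by
    rw [add_pi_mem_cone] at h'
    exact lt_asymm h.1 h'.1

lemma countable_zero (φ : ℝ) : {θ : ℝ | Real.cos (θ - φ) = 0}.Countable := by
  refine (Set.countable_range (fun n : ℤ => (2 * (n : ℝ) + 1) * π / 2 + φ)).mono ?_
  intro θ hθ
  obtain ⟨n, hn⟩ := Real.cos_eq_zero_iff.1 hθ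
  exact ⟨n, by simp only; linarith⟩

/-- product of the first two cosines is positive on `Y` -/
lemma prodY {φ₁ φ₂ φ₃ φ₄ θ : ℝ} (h : θ ∈ cone φ₁ φ₂ φ₃ φ₄ ∨ θ + π ∈ cone φ₁ φ₂ φ₃ φ₄) :
    0 < Real.cos (θ - φ₁) * Real.cos (θ - φ₂) := by
  rcases h with h | h
  · exact mul_pos h.1 h.2.1
  · rw [add_pi_mem_cone] at h
    exact mul_pos_of_neg_of_neg h.1 h.2.1

/-- product of the last and first cosines is negative on `Y` -/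
lemma prodZ {φ₁ φ₂ φ₃ φ₄ θ : ℝ} (h : θ ∈ cone φ₁ φ₂ φ₃ φ₄ ∨ θ + π ∈ cone φ₁ φ₂ φ₃ φ₄) :
    Real.cos (θ - φ₄) * Real.cos (θ - φ₁) < 0 := by
  rcases h with h | h
  · exact mul_neg_of_neg_of_pos h.2.2.2 h.1
  · rw [add_pi_mem_cone] at h
    exact mul_neg_of_pos_of_neg h.2.2.2 h.1

variable (X : Top) (v : ℂ)

/-- two solid sides of one colour cannot be at angle `π/3` -/
lemma not_solid_solid (θ σ σ' : ℝ) (hσ : σ = 1 ∨ σ = -1) (hσ' : σ' = 1 ∨ σ' = -1) (i : Fin 5)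
    (h : X.Solid v θ σ i) (h' : X.Solid v (θ + π / 3) σ' i) : False := by
  have hav : X.Av v θ σ i :=
    X.av_of_solid v θ σ σ' 1 hσ hσ' (Or.inl rfl) i (by rwa [one_mul])
  refine X.not_all_av v θ σ (fun j => ?_)
  by_cases hj : j = i
  · rw [hj]; exact hav
  · exact h j hj

lemma pair_step (θ σ σ' : ℝ) (hσ : σ = 1 ∨ σ = -1) (hσ' : σ' = 1 ∨ σ' = -1) (i m : Fin 5)
    (him : i ≠ m) (h : ∀ k, k ≠ i → k ≠ m → X.Av v θ σ k)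
    (h' : ∀ k, k ≠ i → k ≠ m → X.Av v (θ + π / 3) σ' k) :
    (∃ σ : ℝ, (σ = 1 ∨ σ = -1) ∧ X.Solid v θ σ m) ∨
      ∃ σ : ℝ, (σ = 1 ∨ σ = -1) ∧ X.Solid v (θ + π / 3) σ m := by
  have p1 := X.solid_of_pair v θ σ σ' 1 hσ hσ' (Or.inl rfl) i m him h (by rwa [one_mul])
  have p2 := X.solid_of_pair v (θ + π / 3) σ' σ (-1) hσ' hσ (Or.inr rfl) i m him h'
    (by rwa [show θ + π / 3 + -1 * (π / 3) = θ by ring])
  rcases p1 with p1 | p1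
  · rcases p2 with p2 | p2
    · exact (not_solid_solid X v θ σ σ' hσ hσ' i p1 p2).elim
    · exact Or.inr ⟨σ', hσ', p2⟩
  · exact Or.inl ⟨σ, hσ, p1⟩

/-- at a point of `Y` one side carries only `{d, m}` and the other only `{b, m}` -/
lemma sides (a b c d m : Fin 5) (hall : ∀ k, k ≠ m → k = a ∨ k = b ∨ k = c ∨ k = d)
    (φ₁ φ₂ φ₃ φ₄ : ℝ) (D₁ : X.Dir v {a, b} φ₁)
    (D₂ : X.Dir v {b, c} φ₂) (D₃ : X.Dir v {c, d} φ₃) (D₄ : X.Dir v {d, a} φ₄) (θ : ℝ)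
    (h : θ ∈ cone φ₁ φ₂ φ₃ φ₄ ∨ θ + π ∈ cone φ₁ φ₂ φ₃ φ₄) :
    (∃ σ : ℝ, (σ = 1 ∨ σ = -1) ∧ ∀ k, k ≠ d → k ≠ m → X.Av v θ σ k) ∧
      ∃ σ : ℝ, (σ = 1 ∨ σ = -1) ∧ ∀ k, k ≠ b → k ≠ m → X.Av v θ σ k := by
  rcases h with h | h
  · obtain ⟨h1, h2, h3, h4⟩ := h
    refine ⟨⟨1, Or.inl rfl, fun k hk hkm => ?_⟩, ⟨-1, Or.inr rfl, fun k hk hkm => ?_⟩⟩
    · rcases hall k hkm with rfl | rfl | rfl | rfl
      · exact (D₁ θ).1 h1 _ (by simp)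
      · exact (D₁ θ).1 h1 _ (by simp)
      · exact (D₂ θ).1 h2 _ (by simp)
      · exact (hk rfl).elim
    · rcases hall k hkm with rfl | rfl | rfl | rfl
      · exact (D₄ θ).2 h4 _ (by simp)
      · exact (hk rfl).elim
      · exact (D₃ θ).2 h3 _ (by simp)
      · exact (D₃ θ).2 h3 _ (by simp)
  · rw [add_pi_mem_cone] at h
    obtain ⟨h1, h2, h3, h4⟩ := h
    refine ⟨⟨-1, Or.inr rfl, fun k hk hkm => ?_⟩, ⟨1, Or.inl rfl, fun k hk hkm => ?_⟩⟩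
    · rcases hall k hkm with rfl | rfl | rfl | rfl
      · exact (D₁ θ).2 h1 _ (by simp)
      · exact (D₁ θ).2 h1 _ (by simp)
      · exact (D₂ θ).2 h2 _ (by simp)
      · exact (hk rfl).elim
    · rcases hall k hkm with rfl | rfl | rfl | rfl
      · exact (D₄ θ).1 h4 _ (by simp)
      · exact (hk rfl).elim
      · exact (D₃ θ).1 h3 _ (by simp)
      · exact (D₃ θ).1 h3 _ (by simp)

/-- an arc of length `π/3` in `Y` on which `d` and `b` are solid -/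
lemma arc (a b c d m : Fin 5) (hma : m ≠ a) (hmd : m ≠ d)
    (hall : ∀ k, k ≠ m → k = a ∨ k = b ∨ k = c ∨ k = d)
    (φ₁ φ₂ φ₃ φ₄ : ℝ) (D₁ : X.Dir v {a, b} φ₁)
    (D₂ : X.Dir v {b, c} φ₂) (D₃ : X.Dir v {c, d} φ₃) (D₄ : X.Dir v {d, a} φ₄) :
    ∃ (α : ℝ) (T' : Set ℝ), T'.Countable ∧ ∀ θ ∈ Ioo α (α + π / 3), θ ∉ T' →
      (θ ∈ cone φ₁ φ₂ φ₃ φ₄ ∨ θ + π ∈ cone φ₁ φ₂ φ₃ φ₄) ∧
        (∃ σ : ℝ, (σ = 1 ∨ σ = -1) ∧ X.Solid v θ σ d) ∧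
          ∃ σ : ℝ, (σ = 1 ∨ σ = -1) ∧ X.Solid v θ σ b := by
  have hall' : ∀ k, k ≠ m → k = b ∨ k = c ∨ k = d ∨ k = a := fun k hk => by
    rcases hall k hk with h | h | h | h <;> simp [h]
  refine arc60 (cone φ₁ φ₂ φ₃ φ₄) (cone φ₂ φ₃ φ₄ φ₁)
    {θ | ∃ σ : ℝ, (σ = 1 ∨ σ = -1) ∧ X.Solid v θ σ m}
    {θ | (∃ σ : ℝ, (σ = 1 ∨ σ = -1) ∧ X.Solid v θ σ d) ∧
      ∃ σ : ℝ, (σ = 1 ∨ σ = -1) ∧ X.Solid v θ σ b}
    ({θ : ℝ | Real.cos (θ - φ₁) = 0} ∪ {θ : ℝ | Real.cos (θ - φ₂) = 0} ∪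
      {θ : ℝ | Real.cos (θ - φ₃) = 0} ∪ {θ : ℝ | Real.cos (θ - φ₄) = 0})
    (isCone_cone _ _ _ _) (isCone_cone _ _ _ _) ?_ ?_ ?_ ?_ ?_ ?_ ?_ ?_ ?_
  · intro θ hY hZ
    exact lt_asymm (prodY hY) (prodZ hZ)
  · have : {θ | ∃ σ : ℝ, (σ = 1 ∨ σ = -1) ∧ X.Solid v θ σ m} =
        {θ | X.Solid v θ 1 m} ∪ {θ | X.Solid v θ (-1) m} := by
      ext θ
      simp only [mem_ofPred_eq, mem_union]
      constructor
      · rintro ⟨σ, rfl | rfl, h⟩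
        · exact Or.inl h
        · exact Or.inr h
      · rintro (h | h)
        · exact ⟨1, Or.inl rfl, h⟩
        · exact ⟨-1, Or.inr rfl, h⟩
    rw [this]
    exact (X.isOpen_solid v 1 m).union (X.isOpen_solid v (-1) m)
  · intro θ
    simp only [mem_ofPred_eq, X.solid_add_two_pi v]
  · exact (((countable_zero _).union (countable_zero _)).union (countable_zero _)).union
      (countable_zero _)
  · rintro θ ⟨σ, hσ, h⟩ ⟨σ', hσ', h'⟩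
    exact not_solid_solid X v θ σ σ' hσ hσ' m h h'
  · intro θ hY hE
    have hm : ∀ σ : ℝ, (σ = 1 ∨ σ = -1) → X.Av v θ σ m := by
      intro σ hσ
      rcases hE with ⟨σ', hσ', h⟩ | ⟨σ', hσ', h⟩
      · exact X.av_of_solid v θ σ σ' 1 hσ hσ' (Or.inl rfl) m (by rwa [one_mul])
      · exact X.av_of_solid v θ σ σ' (-1) hσ hσ' (Or.inr rfl) m
          (by rwa [show θ + -1 * (π / 3) = θ - π / 3 by ring])
    obtain ⟨⟨σ, hσ, h⟩, ⟨σ', hσ', h'⟩⟩ := sides X v a b c d m hall φ₁ φ₂ φ₃ φ₄ D₁ D₂ D₃ D₄ θ hY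
    refine ⟨⟨σ, hσ, fun k hk => ?_⟩, ⟨σ', hσ', fun k hk => ?_⟩⟩
    · by_cases hkm : k = m
      · rw [hkm]; exact hm σ hσ
      · exact h k hk hkm
    · by_cases hkm : k = m
      · rw [hkm]; exact hm σ' hσ'
      · exact h' k hk hkm
  · intro θ hY hY'
    obtain ⟨⟨σ, hσ, h⟩, -⟩ := sides X v a b c d m hall φ₁ φ₂ φ₃ φ₄ D₁ D₂ D₃ D₄ θ hY
    obtain ⟨⟨σ', hσ', h'⟩, -⟩ := sides X v a b c d m hall φ₁ φ₂ φ₃ φ₄ D₁ D₂ D₃ D₄ _ hY'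
    exact pair_step X v θ σ σ' hσ hσ' d m hmd.symm h h'
  · intro θ hZ hZ'
    obtain ⟨⟨σ, hσ, h⟩, -⟩ := sides X v b c d a m hall' φ₂ φ₃ φ₄ φ₁ D₂ D₃ D₄ D₁ θ hZ
    obtain ⟨⟨σ', hσ', h'⟩, -⟩ := sides X v b c d a m hall' φ₂ φ₃ φ₄ φ₁ D₂ D₃ D₄ D₁ _ hZ'
    exact pair_step X v θ σ σ' hσ hσ' a m hma.symm h h'
  · intro θ hθ
    simp only [mem_union, mem_ofPred_eq, not_or] at hθ
    obtain ⟨⟨⟨z1, z2⟩, z3⟩, z4⟩ := hθ
    simp only [add_pi_mem_cone]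
    simp only [mem_cone, mem_ofPred_eq]
    rcases lt_or_gt_of_ne z1 with h1 | h1 <;> rcases lt_or_gt_of_ne z3 with h3 | h3
    · refine Or.inr (Or.inr ⟨-1, Or.inr rfl, fun k hk => ?_⟩)
      rcases hall k hk with rfl | rfl | rfl | rfl
      · exact (D₁ θ).2 h1 _ (by simp)
      · exact (D₁ θ).2 h1 _ (by simp)
      · exact (D₃ θ).2 h3 _ (by simp)
      · exact (D₃ θ).2 h3 _ (by simp)
    · rcases lt_or_gt_of_ne z2 with h2 | h2 <;> rcases lt_or_gt_of_ne z4 with h4 | h4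
      · refine Or.inr (Or.inr ⟨-1, Or.inr rfl, fun k hk => ?_⟩)
        rcases hall k hk with rfl | rfl | rfl | rfl
        · exact (D₄ θ).2 h4 _ (by simp)
        · exact (D₂ θ).2 h2 _ (by simp)
        · exact (D₂ θ).2 h2 _ (by simp)
        · exact (D₄ θ).2 h4 _ (by simp)
      · exact Or.inl (Or.inr ⟨h1, h2, h3, h4⟩)
      · exact Or.inr (Or.inl (Or.inl ⟨h2, h3, h4, h1⟩))
      · refine Or.inr (Or.inr ⟨1, Or.inl rfl, fun k hk => ?_⟩)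
        rcases hall k hk with rfl | rfl | rfl | rfl
        · exact (D₄ θ).1 h4 _ (by simp)
        · exact (D₂ θ).1 h2 _ (by simp)
        · exact (D₂ θ).1 h2 _ (by simp)
        · exact (D₄ θ).1 h4 _ (by simp)
    · rcases lt_or_gt_of_ne z2 with h2 | h2 <;> rcases lt_or_gt_of_ne z4 with h4 | h4
      · refine Or.inr (Or.inr ⟨-1, Or.inr rfl, fun k hk => ?_⟩)
        rcases hall k hk with rfl | rfl | rfl | rfl
        · exact (D₄ θ).2 h4 _ (by simp)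
        · exact (D₂ θ).2 h2 _ (by simp)
        · exact (D₂ θ).2 h2 _ (by simp)
        · exact (D₄ θ).2 h4 _ (by simp)
      · exact Or.inr (Or.inl (Or.inr ⟨h2, h3, h4, h1⟩))
      · exact Or.inl (Or.inl ⟨h1, h2, h3, h4⟩)
      · refine Or.inr (Or.inr ⟨1, Or.inl rfl, fun k hk => ?_⟩)
        rcases hall k hk with rfl | rfl | rfl | rfl
        · exact (D₄ θ).1 h4 _ (by simp)
        · exact (D₂ θ).1 h2 _ (by simp)
        · exact (D₂ θ).1 h2 _ (by simp)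
        · exact (D₄ θ).1 h4 _ (by simp)
    · refine Or.inr (Or.inr ⟨1, Or.inl rfl, fun k hk => ?_⟩)
      rcases hall k hk with rfl | rfl | rfl | rfl
      · exact (D₁ θ).1 h1 _ (by simp)
      · exact (D₁ θ).1 h1 _ (by simp)
      · exact (D₃ θ).1 h3 _ (by simp)
      · exact (D₃ θ).1 h3 _ (by simp)

lemma sin_ne {φ₁ φ₂ φ₃ φ₄ θ₁ θ₂ : ℝ}
    (h₁ : θ₁ ∈ cone φ₁ φ₂ φ₃ φ₄ ∨ θ₁ + π ∈ cone φ₁ φ₂ φ₃ φ₄)
    (h₂ : θ₂ ∈ cone φ₂ φ₃ φ₄ φ₁ ∨ θ₂ + π ∈ cone φ₂ φ₃ φ₄ φ₁) : Real.sin (θ₁ - θ₂) ≠ 0 := by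
  intro hs
  have p1 := prodY h₁
  have p2 := prodZ h₂
  have key : ∀ φ : ℝ, Real.cos (θ₁ - φ) = Real.cos (θ₁ - θ₂) * Real.cos (θ₂ - φ) := fun φ => by
    rw [show θ₁ - φ = (θ₁ - θ₂) + (θ₂ - φ) by ring, Real.cos_add, hs]
    ring
  rw [key φ₁, key φ₂] at p1
  nlinarith [sq_nonneg (Real.cos (θ₁ - θ₂))]

end Quad

/-- Proof. Let `m` be the fifth colour, `s_k θ = cos (θ - φ_k)`; `T = {θ | some s_k θ = 0}` is
countable. `Yp = {s₁, s₂ > 0, s₃, s₄ < 0}`, `Zp = {s₂, s₃ > 0, s₄, s₁ < 0}` are cones (convexity: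
`sin (b - a) cos (θ - φ) = sin (b - θ) cos (a - φ) + sin (θ - a) cos (b - φ)`). At `θ ∈ Y` one side
carries only `{d, m}` and the other only `{b, m}`; at `θ ∈ Z` the sides carry `{a, m}` and `{c, m}`.
`E = {θ | ∃ σ = ±1, Solid v θ σ m}`; if `θ ∉ T` and `s₁, s₃` (or `s₂, s₄`) have the same sign then
`θ ∈ E`, else `θ ∈ Y ∪ Z`. `h1`: `av_of_solid`, `not_all_av`. `h2` with
`S = {θ | (∃ σ = ±1, Solid v θ σ d) ∧ ∃ σ = ±1, Solid v θ σ b}`: `av_of_solid`. `h3`: the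
`{d, m}` sides at `θ` and `θ + π/3` are solid (`solid_of_pair`), not both `d` (`av_of_solid`).
`arc60` twice (second time with the roles of `Y`, `Z` exchanged and `S'` for `a, c`) gives arcs of
length `π/3`. For `θ₁ ∈ Y ∩ S`, `θ₂ ∈ Z ∩ S'`: `sin (θ₁ - θ₂) ≠ 0` (`Y` is `π`-periodic and
disjoint from `Z`), so `v + e θ₁ + e θ₂ ∉ F k` for `k ≠ m` (`notF_of_solid`). `two_arcs` gives two
such points at distance 1, against `X.c2` and `X.cover`. -/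
theorem Top.quad (X : Top) (v : ℂ) (a b c d : Fin 5) (hab : a ≠ b) (hbc : b ≠ c) (hcd : c ≠ d)
    (hda : d ≠ a) (hac : a ≠ c) (hbd : b ≠ d) (φ₁ φ₂ φ₃ φ₄ : ℝ) (D₁ : X.Dir v {a, b} φ₁)
    (D₂ : X.Dir v {b, c} φ₂) (D₃ : X.Dir v {c, d} φ₃) (D₄ : X.Dir v {d, a} φ₄) : False := by
  obtain ⟨m, hma, hmb, hmc, hmd, hall⟩ := Quad.fifth a b c d hab hbc hcd hda hac hbd
  have hall' : ∀ k, k ≠ m → k = b ∨ k = c ∨ k = d ∨ k = a := fun k hk => by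
    rcases hall k hk with h | h | h | h <;> simp [h]
  obtain ⟨α, T₁, hT₁, H₁⟩ := Quad.arc X v a b c d m hma hmd hall φ₁ φ₂ φ₃ φ₄ D₁ D₂ D₃ D₄
  obtain ⟨β, T₂, hT₂, H₂⟩ := Quad.arc X v b c d a m hmb hma hall' φ₂ φ₃ φ₄ φ₁ D₂ D₃ D₄ D₁
  have only : ∀ θ₁ ∈ Ioo α (α + π / 3) \ T₁, ∀ θ₂ ∈ Ioo β (β + π / 3) \ T₂,
      ∀ k, k ≠ m → v + e θ₁ + e θ₂ ∉ X.F k := by
    intro θ₁ h₁ θ₂ h₂ k hk
    obtain ⟨y₁, ⟨σd, hσd, sd⟩, ⟨σb, hσb, sb⟩⟩ := H₁ θ₁ h₁.1 h₁.2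
    obtain ⟨y₂, ⟨σa, hσa, sa⟩, ⟨σc, hσc, sc⟩⟩ := H₂ θ₂ h₂.1 h₂.2
    have hs := Quad.sin_ne y₁ y₂
    have hs' : Real.sin (θ₂ - θ₁) ≠ 0 := by
      rw [← neg_sub, Real.sin_neg]
      exact neg_ne_zero.2 hs
    rcases hall k hk with rfl | rfl | rfl | rfl
    · rw [add_right_comm]
      exact X.notF_of_solid v θ₂ θ₁ σa hs' hσa _ sa
    · exact X.notF_of_solid v θ₁ θ₂ σb hs hσb _ sb
    · rw [add_right_comm]
      exact X.notF_of_solid v θ₂ θ₁ σc hs' hσc _ sc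
    · exact X.notF_of_solid v θ₁ θ₂ σd hs hσd _ sd
  obtain ⟨x, x', y, y', hx, hx', hy, hy', hn⟩ := two_arcs α β T₁ T₂ hT₁ hT₂
  have hq := X.c2 m (v + e x + e y) (v + e x' + e y')
    (by rw [← hn]; congr 1; ring) (only x hx y hy)
  obtain ⟨i, hi⟩ := X.cover (v + e x' + e y')
  by_cases him : i = m
  · rw [him] at hi
    exact hq hi
  · exact only x' hx' y' hy' i him hi

end Crest.Agent.R40
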