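import Crest.Agent.R40.Defs

/-!
# Row 40, task A5: a measurable colouring from the continuous densities
-/

set_option autoImplicit false

namespace Crest.Agent.R40
open MeasureTheory Set Filter Topology Metric
open scoped ENNReal Real RealInnerProductSpace

/-- A uniformly continuous `L²`-valued function has a jointly measurable version.

Proof. Choose meshes `δ n > 0` with `‖g x - g y‖ ≤ 2⁻ⁿ` for `‖x - y‖ ≤ 2 δ n`; let `grid n x` be
the rounding of `x` to the lattice `δ n (ℤ + ℤ i)` (measurable, countable range);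
`G n (ω, x) = g (grid n x) ω` is measurable (`Lp.stronglyMeasurable`, `measurable_from_prod_countable`
style), `G = limsup` (or `limUnder`) of `G n`. For each `x`, `Σ ‖g (grid n x) - g x‖ < ∞`, so
`G n (·, x) → g x` a.e. (e.g. `Lp.ae_tendsto_of_cauchy_eLpNorm'`, or `∫ Σ |..| < ∞`). -/
theorem exists_version {Ω : Type*} [MeasurableSpace Ω] (μ : Measure Ω) [IsProbabilityMeasure μ]
    (g : ℂ → Lp ℝ 2 μ) (hg : UniformContinuous g) :
    ∃ G : Ω × ℂ → ℝ, Measurable G ∧ ∀ x, (fun ω => G (ω, x)) =ᵐ[μ] g x := by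
  classical
  have hc := hg.continuous
  let d : ℕ → ℂ := TopologicalSpace.denseSeq ℂ
  have hex : ∀ (n : ℕ) (x : ℂ), ∃ k, dist (g (d k)) (g x) < (1 / 2 : ℝ) ^ n := by
    intro n x
    have ho : IsOpen {y | dist (g y) (g x) < (1 / 2 : ℝ) ^ n} :=
      isOpen_lt (hc.dist continuous_const) continuous_const
    exact (TopologicalSpace.denseRange_denseSeq ℂ).exists_mem_open ho ⟨x, by simp⟩
  let N : ℕ → ℂ → ℕ := fun n x => Nat.find (hex n x)
  have hN : ∀ n, Measurable (N n) := fun n => measurable_find (hex n) fun k =>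
    (isOpen_lt (continuous_const.dist hc) continuous_const).measurableSet
  have hNs : ∀ n x, dist (g (d (N n x))) (g x) < (1 / 2 : ℝ) ^ n := fun n x =>
    Nat.find_spec (hex n x)
  have hF : Measurable fun p : Ω × ℕ => g (d p.2) p.1 :=
    measurable_from_prod_countable_left fun k => (Lp.stronglyMeasurable (g (d k))).measurable
  let G : ℕ → Ω × ℂ → ℝ := fun n p => g (d (N n p.2)) p.1
  have hG : ∀ n, Measurable (G n) := fun n =>
    hF.comp (measurable_fst.prodMk ((hN n).comp measurable_snd))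
  refine ⟨fun p => limUnder atTop (G · p),
    (StronglyMeasurable.limUnder fun n => (hG n).stronglyMeasurable).measurable, fun x => ?_⟩
  have h1 : Tendsto (fun n => g (d (N n x))) atTop (𝓝 (g x)) := by
    rw [tendsto_iff_dist_tendsto_zero]
    exact squeeze_zero (fun _ => dist_nonneg) (fun n => (hNs n x).le)
      (tendsto_pow_atTop_nhds_zero_of_lt_one (by norm_num) (by norm_num))
  obtain ⟨ns, hns, h2⟩ := (tendstoInMeasure_of_tendsto_Lp h1).exists_seq_tendsto_ae
  have h3 : ∀ᵐ ω ∂μ, ∃ l, Tendsto (fun n => g (d (N n x)) ω) atTop (𝓝 l) := by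
    refine Lp.ae_tendsto_of_cauchy_eLpNorm (p := 2) (fun n => Lp.aestronglyMeasurable _)
      (by norm_num) (B := fun n => ENNReal.ofReal (2 * (1 / 2 : ℝ) ^ n)) ?_ ?_
    · rw [← ENNReal.ofReal_tsum_of_nonneg (fun n => by positivity)
        (summable_geometric_two.mul_left 2)]
      exact ENNReal.ofReal_ne_top
    · intro M n m hn hm
      rw [← Lp.edist_def, edist_dist, ENNReal.ofReal_lt_ofReal_iff (by positivity)]
      have a1 := hNs n x
      have a2 := hNs m x
      have b1 : (1 / 2 : ℝ) ^ n ≤ (1 / 2) ^ M := pow_le_pow_of_le_one (by norm_num) (by norm_num) hn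
      have b2 : (1 / 2 : ℝ) ^ m ≤ (1 / 2) ^ M := pow_le_pow_of_le_one (by norm_num) (by norm_num) hm
      have := dist_triangle_right (g (d (N n x))) (g (d (N m x))) (g x)
      linarith
  filter_upwards [h2, h3] with ω h2 ⟨l, h3⟩
  have e : l = g x ω := tendsto_nhds_unique (h3.comp hns.tendsto_atTop) h2
  exact (e ▸ h3).limUnder_eq

/-- From almost every direction to every direction.

Proof. For a colour `i` and `n : ℕ`, `u ↦ volume ({x | c x = i ∧ c (x + u) = i} ∩ ball 0 n)` is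
continuous in `u` (`tendsto_measure_symmDiff_preimage_nhds_zero` for translations, applied to the
set `{c = i} ∩ ball 0 (n + 2)` of finite measure), and vanishes for `u = e θ`, `θ` in a conull,
hence dense, set. -/
theorem proper_of_ae (c : ℂ → Fin 5) (hc : Measurable c)
    (h : ∀ᵐ θ : ℝ, ∀ᵐ x : ℂ, c x ≠ c (x + e θ)) (u : ℂ) (hu : ‖u‖ = 1) :
    ∀ᵐ x : ℂ, c x ≠ c (x + u) := by
  obtain ⟨θ₀, rfl⟩ : ∃ θ₀, e θ₀ = u := ⟨Complex.arg u, by
    have := Complex.norm_mul_exp_arg_mul_I u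
    rwa [hu, Complex.ofReal_one, one_mul] at this⟩
  let T : C(ℝ × ℂ, ℂ) := ⟨fun p => p.2 + e p.1, by have := continuous_e; fun_prop⟩
  have hT : ∀ θ, MeasurePreserving (T.curry θ) volume volume := fun θ =>
    measurePreserving_add_right volume (e θ)
  have key : ∀ (i : Fin 5) (n : ℕ),
      volume (c ⁻¹' {i} ∩ T.curry θ₀ ⁻¹' (c ⁻¹' {i} ∩ ball 0 n)) = 0 := by
    intro i n
    have hs : MeasurableSet (c ⁻¹' {i} ∩ ball (0 : ℂ) n) :=
      (hc (measurableSet_singleton i)).inter measurableSet_ball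
    have h1 := tendsto_measure_symmDiff_preimage_nhds_zero (μ := volume) (ν := volume)
      (T.curry.continuous.tendsto θ₀) (.of_forall hT) (hT θ₀) hs.nullMeasurableSet
      ((measure_mono inter_subset_right).trans_lt measure_ball_lt_top).ne
    have h2 : ∃ᶠ θ in 𝓝 θ₀, ∀ᵐ x : ℂ, c x ≠ c (x + e θ) :=
      mem_closure_iff_frequently.1 (Measure.dense_of_ae h θ₀)
    refine nonpos_iff_eq_zero.1 (isClosed_Ici.mem_of_frequently_of_tendsto (h2.mono ?_) h1)
    intro θ hθ
    refine measure_mono_ae ?_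
    filter_upwards [hθ] with x hx
    rintro ⟨hx1, hx2⟩
    refine Or.inr ⟨hx2, fun hx3 => hx ?_⟩
    exact (show c x = i from hx1).trans (show c (x + e θ) = i from hx3.1).symm
  have key2 : ∀ᵐ x : ℂ, ∀ (i : Fin 5) (n : ℕ),
      x ∉ c ⁻¹' {i} ∩ T.curry θ₀ ⁻¹' (c ⁻¹' {i} ∩ ball 0 n) :=
    ae_all_iff.2 fun i => ae_all_iff.2 fun n => measure_eq_zero_iff_ae_notMem.1 (key i n)
  filter_upwards [key2] with x hx hxe
  obtain ⟨n, hn⟩ := exists_nat_gt ‖x + e θ₀‖
  exact hx (c x) n ⟨rfl, hxe.symm, mem_ball_zero_iff.2 hn⟩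

/-- Proof. `G i` versions of `g i`. By Tonelli (`Measure.ae_ae_comm` with measurable sets) for
a.e. `ω`: for a.e. `x`, `Σ G i (ω, x) = 1`; and for a.e. `θ`, a.e. `x`, all `i`,
`G i (ω, x) * G i (ω, x + e θ) = 0` (for fixed `x, θ` the product of two nonnegative functions with
integral `⟪g i x, g i (x + e θ)⟫ = 0` vanishes a.e.). Fix such an `ω`, let `c x` be the least `i`
with `G i (ω, x) ≠ 0` (`0` if there is none), and use `proper_of_ae`. -/
theorem exists_mcol_of_g {Ω : Type*} [MeasurableSpace Ω] (μ : Measure Ω) [IsProbabilityMeasure μ]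
    (g : Fin 5 → ℂ → Lp ℝ 2 μ) (hg : ∀ i, UniformContinuous (g i))
    (h0 : ∀ i x, ∀ᵐ ω ∂μ, 0 ≤ g i x ω) (h1 : ∀ x, ∀ᵐ ω ∂μ, ∑ i, g i x ω = 1)
    (h2 : ∀ (i : Fin 5) (x u : ℂ), ‖u‖ = 1 → ⟪g i x, g i (x + u)⟫ = 0) : Nonempty MCol := by
  classical
  choose G hG hGg using fun i => exists_version μ (g i) (hg i)
  have a1 : ∀ᵐ ω ∂μ, ∀ᵐ x : ℂ, ∑ i, G i (ω, x) = 1 := by
    refine (Measure.ae_ae_comm (p := fun ω x => ∑ i, G i (ω, x) = 1)
      (measurableSet_eq_fun (Finset.measurable_sum _ fun i _ => hG i) measurable_const)).2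
      (.of_forall fun x => ?_)
    filter_upwards [h1 x, ae_all_iff.2 fun i => hGg i x] with ω h h'
    rw [← h]
    exact Finset.sum_congr rfl fun i _ => h' i
  have hm : ∀ i, MeasurableSet
      {p : Ω × ℝ × ℂ | G i (p.1, p.2.2) * G i (p.1, p.2.2 + e p.2.1) = 0} := fun i => by
    have := measurable_e
    exact measurableSet_eq_fun (((hG i).comp (by fun_prop)).mul ((hG i).comp (by fun_prop)))
      measurable_const
  have a2 : ∀ i, ∀ᵐ ω ∂μ, ∀ᵐ p ∂(volume.prod volume : Measure (ℝ × ℂ)),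
      G i (ω, p.2) * G i (ω, p.2 + e p.1) = 0 := fun i => by
    refine (Measure.ae_ae_comm (p := fun ω (p : ℝ × ℂ) => G i (ω, p.2) * G i (ω, p.2 + e p.1) = 0)
      (hm i)).2 (.of_forall fun p => ?_)
    have hi := h2 i p.2 (e p.1) (norm_e _)
    rw [L2.inner_def, integral_eq_zero_iff_of_nonneg_ae _ (L2.integrable_inner _ _)] at hi
    · filter_upwards [hi, hGg i p.2, hGg i (p.2 + e p.1)] with ω h h' h''
      rw [h', h'', mul_comm]
      simpa using h
    · filter_upwards [h0 i p.2, h0 i (p.2 + e p.1)] with ω h h'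
      simpa using mul_nonneg h' h
  obtain ⟨ω, b1, b2⟩ := (a1.and (ae_all_iff.2 a2)).exists
  have hex : ∀ x : ℂ, ∃ k : ℕ, (∃ i : Fin 5, (i : ℕ) = k ∧ G i (ω, x) ≠ 0) ∨ k = 4 :=
    fun x => ⟨4, Or.inr rfl⟩
  have hlt : ∀ x, Nat.find (hex x) < 5 := fun x =>
    Nat.lt_succ_of_le (Nat.find_min' (hex x) (Or.inr rfl))
  let c : ℂ → Fin 5 := fun x => ⟨Nat.find (hex x), hlt x⟩
  have hGx : ∀ i, Measurable fun x => G i (ω, x) := fun i => (hG i).comp measurable_prodMk_left
  have hfind : Measurable fun x => Nat.find (hex x) := by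
    refine measurable_find hex fun k => ?_
    have : {x | (∃ i : Fin 5, (i : ℕ) = k ∧ G i (ω, x) ≠ 0) ∨ k = 4} =
        (⋃ i : Fin 5, {_x | (i : ℕ) = k} ∩ {x | G i (ω, x) = 0}ᶜ) ∪ {_x | k = 4} := by
      ext x; simp
    rw [this]
    exact (MeasurableSet.iUnion fun i => (MeasurableSet.const _).inter
      (measurableSet_eq_fun (hGx i) measurable_const).compl).union (MeasurableSet.const _)
  have hc : Measurable c := by
    refine measurable_to_countable' fun i => ?_
    have : c ⁻¹' {i} = (fun x => Nat.find (hex x)) ⁻¹' {(i : ℕ)} := by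
      ext x; simp [c, Fin.ext_iff]
    rw [this]
    exact hfind (measurableSet_singleton _)
  have hcG : ∀ x, ∑ i, G i (ω, x) = 1 → G (c x) (ω, x) ≠ 0 := by
    intro x hx
    rcases Nat.find_spec (hex x) with ⟨i, hi, h⟩ | h
    · rwa [show c x = i from Fin.ext hi.symm]
    · intro h0
      have : ∀ i, G i (ω, x) = 0 := fun i => by
        by_contra hne
        have h5 := Nat.find_min' (hex x) (Or.inl ⟨i, rfl, hne⟩)
        have h6 : c x = i := Fin.ext (by have := i.is_lt; simp only [c]; omega)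
        exact hne (h6 ▸ h0)
      simp [this] at hx
  refine ⟨⟨c, hc, proper_of_ae c hc ?_⟩⟩
  filter_upwards [ae_all_iff.2 fun i => Measure.ae_ae_of_ae_prod (b2 i)] with θ hθ
  filter_upwards [ae_all_iff.2 hθ, b1,
    (measurePreserving_add_right volume (e θ)).quasiMeasurePreserving.ae b1] with x hx h3 h4 h5
  rcases mul_eq_zero.1 (hx (c x)) with h | h
  · exact hcG x h3 h
  · exact hcG _ h4 (h5 ▸ h)

end Crest.Agent.R40
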