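import Crest.Agent.R40.Stage
import Crest.Agent.R40.Quad
import Crest.Agent.R40.Proj
import Crest.Agent.R40.InvProb
import Crest.Agent.R40.Version

/-!
# Row 40: the final assembly
-/

set_option autoImplicit false

namespace Crest.Agent.R40
open MeasureTheory Set Filter Topology Metric Relation
open scoped ENNReal Real

namespace Main

lemma exists_avoid (s : Set ℝ) (hs : s.Countable) : ∃ a : ℝ, a ∉ s ∧ a + 10 ∉ s := by
  have h2 : ((fun a : ℝ => a + 10) ⁻¹' s).Countable :=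
    hs.preimage_of_injOn (add_left_injective (10 : ℝ)).injOn
  have h3 := (hs.union h2).dense_compl ℝ
  obtain ⟨a, ha⟩ := h3.nonempty
  simp only [mem_compl_iff, mem_union, mem_preimage, not_or] at ha
  exact ⟨a, ha⟩

lemma exists_dist_avoid (Z : Set ℂ) (hZ : Z.Countable) (a : ℂ) (s t : ℝ) (hst : s < t) :
    ∃ u, s < u ∧ u < t ∧ ∀ z ∈ Z, ‖z - a‖ ≠ u := by
  have h := (hZ.image (fun z => ‖z - a‖)).dense_compl ℝ
  obtain ⟨u, hu, hu'⟩ := h.exists_between hst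
  exact ⟨u, hu'.1, hu'.2, fun z hz h => hu ⟨z, hz, h⟩⟩

lemma isCompact_square (o : ℂ) : IsCompact (square o) := by
  have hb : square o ⊆ closedBall 0 (‖o‖ + 20) := by
    rintro z ⟨h1, h2, h3, h4⟩
    rw [mem_closedBall_zero_iff]
    have a1 : ‖z - o‖ ≤ 20 := by
      refine (Complex.norm_le_abs_re_add_abs_im _).trans ?_
      rw [Complex.sub_re, Complex.sub_im, abs_of_nonneg (by linarith), abs_of_nonneg (by linarith)]
      linarith
    have := norm_sub_norm_le z o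
    linarith
  refine (isCompact_closedBall 0 (‖o‖ + 20)).of_isClosed_subset ?_ hb
  unfold square
  refine IsClosed.inter (isClosed_le continuous_const Complex.continuous_re) ?_
  refine IsClosed.inter (isClosed_le Complex.continuous_re continuous_const) ?_
  exact IsClosed.inter (isClosed_le continuous_const Complex.continuous_im)
    (isClosed_le Complex.continuous_im continuous_const)

lemma exists_pos_le_finset {α : Type*} (s : Finset α) (f : α → ℝ) (hf : ∀ a ∈ s, 0 < f a) :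
    ∃ ρ > 0, ∀ a ∈ s, ρ ≤ f a := by
  classical
  induction s using Finset.induction_on with
  | empty => exact ⟨1, one_pos, by simp⟩
  | insert a s _ ih =>
    obtain ⟨ρ, hρ, h⟩ := ih fun b hb => hf b (Finset.mem_insert_of_mem hb)
    refine ⟨min ρ (f a), lt_min hρ (hf a (Finset.mem_insert_self _ _)), fun b hb => ?_⟩
    rcases Finset.mem_insert.1 hb with rfl | hb
    · exact min_le_right _ _
    · exact (min_le_left _ _).trans (h b hb)

/-- the position of the board -/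
lemma exists_board (C : MCol) : ∃ (o : ℂ) (Q0 : Finset ℂ) (ρ : ℝ), 0 < ρ ∧
    (∀ q ∈ C.Q, q ∈ square o → q ∈ Q0) ∧
    (∀ q ∈ Q0, o.re + 2 * ρ ≤ q.re ∧ q.re + 2 * ρ ≤ o.re + 10 ∧ o.im + 2 * ρ ≤ q.im ∧
      q.im + 2 * ρ ≤ o.im + 10) ∧
    ∀ q ∈ Q0, ∀ q' ∈ Q0, q ≠ q' → 4 * ρ ≤ ‖q - q'‖ := by
  classical
  have hQc : C.Q.Countable := by
    have : C.Q = ⋃ n : ℕ, C.Q ∩ closedBall 0 n := by
      rw [← inter_iUnion, iUnion_closedBall_nat, inter_univ]
    rw [this]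
    exact countable_iUnion fun n => (C.Q_finite n).countable
  obtain ⟨a, ha1, ha2⟩ := exists_avoid _ (hQc.image Complex.re)
  obtain ⟨b, hb1, hb2⟩ := exists_avoid _ (hQc.image Complex.im)
  set o : ℂ := ⟨a, b⟩ with ho
  have hfin : (C.Q ∩ square o).Finite := by
    obtain ⟨R, hR⟩ := (isCompact_square o).isBounded.subset_closedBall 0
    exact (C.Q_finite R).subset (inter_subset_inter_right _ hR)
  set Q0 := hfin.toFinset with hQ0
  have hmem : ∀ q, q ∈ Q0 ↔ q ∈ C.Q ∧ q ∈ square o := fun q => by simp [hQ0]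
  obtain ⟨ρ₁, hρ₁, h₁⟩ := exists_pos_le_finset Q0
    (fun q => min (min (q.re - a) (a + 10 - q.re)) (min (q.im - b) (b + 10 - q.im))) (by
      intro q hq
      obtain ⟨hq, h1, h2, h3, h4⟩ := (hmem q).1 hq
      have n1 : q.re ≠ a := fun h => ha1 ⟨q, hq, h⟩
      have n2 : q.re ≠ a + 10 := fun h => ha2 ⟨q, hq, h⟩
      have n3 : q.im ≠ b := fun h => hb1 ⟨q, hq, h⟩
      have n4 : q.im ≠ b + 10 := fun h => hb2 ⟨q, hq, h⟩
      simp only [ho] at h1 h2 h3 h4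
      have m1 := lt_of_le_of_ne h1 n1.symm
      have m2 := lt_of_le_of_ne h2 n2
      have m3 := lt_of_le_of_ne h3 n3.symm
      have m4 := lt_of_le_of_ne h4 n4
      simp only [lt_min_iff]
      exact ⟨⟨by linarith, by linarith⟩, by linarith, by linarith⟩)
  obtain ⟨ρ₂, hρ₂, h₂⟩ := exists_pos_le_finset (Q0.offDiag) (fun p => ‖p.1 - p.2‖) (by
      intro p hp
      exact norm_pos_iff.2 (sub_ne_zero.2 (Finset.mem_offDiag.1 hp).2.2))
  refine ⟨o, Q0, min ρ₁ ρ₂ / 4, by positivity, fun q hq hq' => (hmem q).2 ⟨hq, hq'⟩, ?_, ?_⟩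
  · intro q hq
    have := h₁ q hq
    simp only [le_min_iff] at this
    have m := min_le_left ρ₁ ρ₂
    have m' : 0 < min ρ₁ ρ₂ := lt_min hρ₁ hρ₂
    simp only [ho]
    obtain ⟨⟨a1, a2⟩, a3, a4⟩ := this
    exact ⟨by linarith, by linarith, by linarith, by linarith⟩
  · intro q hq q' hq' hne
    have := h₂ (q, q') (Finset.mem_offDiag.2 ⟨hq, hq', hne⟩)
    have m := min_le_right ρ₁ ρ₂
    simp only at this
    linarith

lemma cyc_ultra (𝒰 : Ultrafilter ℕ) (P : ℕ → Fin 5 → Fin 5 → Prop)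
    (h : ∀ᶠ k in (𝒰 : Filter ℕ), Cyc (P k)) : Cyc (fun i j => ∀ᶠ k in (𝒰 : Filter ℕ), P k i j) := by
  unfold Cyc at h
  rcases Ultrafilter.eventually_or.1 h with h | h
  · left
    obtain ⟨a, h⟩ := Ultrafilter.eventually_exists_iff.1 h
    obtain ⟨b, h⟩ := Ultrafilter.eventually_exists_iff.1 h
    obtain ⟨c, h⟩ := Ultrafilter.eventually_exists_iff.1 h
    obtain ⟨k, hk⟩ := h.exists
    exact ⟨a, b, c, hk.1, hk.2.1, hk.2.2.1, h.mono fun k hk => hk.2.2.2.1,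
      h.mono fun k hk => hk.2.2.2.2.1, h.mono fun k hk => hk.2.2.2.2.2⟩
  rcases Ultrafilter.eventually_or.1 h with h | h
  · right; left
    obtain ⟨a, h⟩ := Ultrafilter.eventually_exists_iff.1 h
    obtain ⟨b, h⟩ := Ultrafilter.eventually_exists_iff.1 h
    obtain ⟨c, h⟩ := Ultrafilter.eventually_exists_iff.1 h
    obtain ⟨d, h⟩ := Ultrafilter.eventually_exists_iff.1 h
    obtain ⟨k, hk⟩ := h.exists
    exact ⟨a, b, c, d, hk.1, hk.2.1, hk.2.2.1, hk.2.2.2.1, hk.2.2.2.2.1, hk.2.2.2.2.2.1,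
      h.mono fun k hk => hk.2.2.2.2.2.2.1, h.mono fun k hk => hk.2.2.2.2.2.2.2.1,
      h.mono fun k hk => hk.2.2.2.2.2.2.2.2.1, h.mono fun k hk => hk.2.2.2.2.2.2.2.2.2⟩
  · right; right
    intro i
    exact Ultrafilter.eventually_exists_iff.1 (h.mono fun k hk => hk i)

end Main

open Main in
/-- There is no measurable colouring with five colours. -/
theorem MCol.false (C : MCol) : False := by
  classical
  obtain ⟨o, Q0, ρ, hρ, hQ, hin, hsep⟩ := exists_board C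
  obtain ⟨X, hX⟩ := C.exists_top
  set Z : Set ℂ := C.Sig ∪ Q0 with hZ
  have hZc : IsClosed Z := C.isClosed_Sig.union Q0.finite_toSet.isClosed
  have hZ' : Z.Countable := C.sig_countable.union Q0.finite_toSet.countable
  -- the parameters of stage `k`
  have hstage : ∀ k : ℕ, ∃ ε δ R : ℝ, (0 < ε ∧ ε ≤ 1 / ((k : ℝ) + 1)) ∧ (0 < δ ∧ δ ≤ 1) ∧
      (0 < R ∧ R ≤ 1 / ((k : ℝ) + 1)) ∧
      volume {y : ℂ | ‖y‖ ≤ k ∧ C.f {C.c y} y R ≤ 1 - δ / 2} ≤ ENNReal.ofReal (1 / ((k : ℝ) + 1)) ∧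
      ((∃ i a b, a ∈ square o ∧ 10 ≤ ‖b - a‖ ∧ ReflTransGen (C.Step Z {i} ε δ R) a b) ∨
        ∃ q ∈ Q0, Cyc (fun i j => C.Arm Z {i, j} ε δ R (ρ / 2) q)) := by
    intro k
    have hk : (0 : ℝ) < 1 / ((k : ℝ) + 1) := by positivity
    obtain ⟨δ, hδ, hδ1, h⟩ := C.stage o Q0 hQ ρ hin hsep (min ρ (1 / ((k : ℝ) + 1)))
      (lt_min hρ hk) (min_le_left _ _)
    have h2 := (C.good_small (δ / 2) (by linarith) k).eventually
      (ge_mem_nhds (ENNReal.ofReal_pos.2 hk))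
    have h3 : ∀ᶠ R in 𝓝[>] (0 : ℝ), R ≤ 1 / ((k : ℝ) + 1) :=
      mem_nhdsWithin_of_mem_nhds (ge_mem_nhds hk)
    obtain ⟨R, a1, a2, a3, a4⟩ := (h.and (h2.and (h3.and self_mem_nhdsWithin))).exists
    exact ⟨_, δ, R, ⟨lt_min hρ hk, min_le_right _ _⟩, ⟨hδ, hδ1⟩, ⟨a4, a3⟩, a2, a1⟩
  choose ε δ R hε hδ hR hgood halt using hstage
  set 𝒰 : Ultrafilter ℕ := Ultrafilter.of atTop with h𝒰
  have hle : (𝒰 : Filter ℕ) ≤ atTop := Ultrafilter.of_le _
  have h0 : Tendsto (fun k : ℕ => 1 / ((k : ℝ) + 1)) atTop (𝓝 0) :=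
    tendsto_one_div_add_atTop_nhds_zero_nat
  have hε0 : Tendsto ε 𝒰 (𝓝 0) :=
    (squeeze_zero (fun k => (hε k).1.le) (fun k => (hε k).2) h0).mono_left hle
  have hR0 : Tendsto R 𝒰 (𝓝 0) :=
    (squeeze_zero (fun k => (hR k).1.le) (fun k => (hR k).2) h0).mono_left hle
  have hg : ∀ B : ℝ, Tendsto
      (fun k => volume {y : ℂ | ‖y‖ ≤ B ∧ C.f {C.c y} y (R k) ≤ 1 - δ k / 2}) 𝒰 (𝓝 0) := by
    intro B
    refine Tendsto.mono_left ?_ hle
    have h1 : Tendsto (fun k : ℕ => ENNReal.ofReal (1 / ((k : ℝ) + 1))) atTop (𝓝 0) := by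
      simpa using ENNReal.tendsto_ofReal h0
    refine tendsto_of_tendsto_of_tendsto_of_le_of_le' tendsto_const_nhds h1
      (Eventually.of_forall fun k => zero_le) ?_
    filter_upwards [tendsto_natCast_atTop_atTop.eventually_ge_atTop B] with k hk
    refine le_trans (measure_mono ?_) (hgood k)
    exact fun y hy => ⟨hy.1.trans hk, hy.2⟩
  have arms := fun (L : Finset (Fin 5)) => C.limit_arms Z hZc hZ' L 𝒰 ε δ R hε0 hδ
    (fun k => (hR k).1) hR0 hg
  rcases Ultrafilter.eventually_or.1 (Eventually.of_forall halt : ∀ᶠ k in (𝒰 : Filter ℕ), _)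
    with h | h
  · -- a monochromatic crossing
    obtain ⟨i, h⟩ := Ultrafilter.eventually_exists_iff.1 h
    obtain ⟨a, h⟩ := h.choice
    obtain ⟨b, h⟩ := h.choice
    obtain ⟨a₀, -, ha₀⟩ := (isCompact_square o).ultrafilter_le_nhds (𝒰.map a)
      (by
        rw [le_principal_iff]
        exact h.mono fun k hk => hk.1)
    obtain ⟨s, hs1, hs2, hs⟩ := exists_dist_avoid Z hZ' a₀ 1 2 (by norm_num)
    obtain ⟨p, hp, hB, hF⟩ := arms {i} a b a₀ ha₀ 10 (h.mono fun k hk => ⟨hk.2.2, hk.2.1⟩) s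
      (by linarith) (by linarith)
    have hpZ : p ∉ Z := fun hz => hs p hz hp
    refine hB p ?_ i (Finset.mem_singleton_self i) (hF hpZ i (Finset.mem_singleton_self i))
    rw [hp, sub_self, norm_zero]
    linarith
  · -- interfaces meeting at a point
    have h' : ∀ᶠ k in (𝒰 : Filter ℕ), ∃ q : Q0,
        Cyc (fun i j => C.Arm Z {i, j} (ε k) (δ k) (R k) (ρ / 2) q) :=
      h.mono fun k ⟨q, hq, hc⟩ => ⟨⟨q, hq⟩, hc⟩
    obtain ⟨⟨q, hq⟩, h⟩ := Ultrafilter.eventually_exists_iff.1 h'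
    have arm : ∀ L : Finset (Fin 5),
        (∀ᶠ k in (𝒰 : Filter ℕ), C.Arm Z L (ε k) (δ k) (R k) (ρ / 2) q) →
        ∀ s, 0 < s → s < ρ / 2 →
          ∃ p, ‖p - q‖ = s ∧ Block C.F L q p ∧ (p ∉ Z → ∀ i ∈ L, p ∈ C.F i) := by
      intro L h s hs0 hs1
      obtain ⟨a, h⟩ := h.choice
      obtain ⟨b, h⟩ := h.choice
      refine arms L a b q ?_ (ρ / 2) (h.mono fun k hk => ⟨hk.2.2, hk.2.1⟩) s hs0 hs1
      rw [tendsto_iff_norm_sub_tendsto_zero]
      exact squeeze_zero' (Eventually.of_forall fun k => norm_nonneg _)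
        (h.mono fun k hk => hk.1) hε0
    have dir : ∀ L : Finset (Fin 5),
        (∀ᶠ k in (𝒰 : Filter ℕ), C.Arm Z L (ε k) (δ k) (R k) (ρ / 2) q) → ∃ φ, X.Dir q L φ := by
      intro L h
      refine X.dir_of_arms q L (ρ / 2) (by linarith) fun s hs0 hs1 => ?_
      obtain ⟨p, hp, hB, -⟩ := arm L h s hs0 hs1
      exact ⟨p, hp, hX ▸ hB⟩
    rcases cyc_ultra 𝒰 _ h with ⟨a, b, c, hab, hbc, hca, p1, p2, p3⟩ |
      ⟨a, b, c, d, hab, hbc, hcd, hda, hac, hbd, p1, p2, p3, p4⟩ | hall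
    · set s := min (ρ / 4) (1 / 2) with hs
      have s0 : 0 < s := lt_min (by linarith) (by norm_num)
      have s1 : s < ρ / 2 := (min_le_left _ _).trans_lt (by linarith)
      have s2 : s < 1 := (min_le_right _ _).trans_lt (by norm_num)
      obtain ⟨y1, e1, B1, -⟩ := arm _ p1 s s0 s1
      obtain ⟨y2, e2, B2, -⟩ := arm _ p2 s s0 s1
      obtain ⟨y3, e3, B3, -⟩ := arm _ p3 s s0 s1
      exact X.tri q a b c hab hbc hca y1 y2 y3 (e1 ▸ ⟨s0, s2⟩) (e2 ▸ ⟨s0, s2⟩) (e3 ▸ ⟨s0, s2⟩)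
        (hX ▸ B1) (hX ▸ B2) (hX ▸ B3)
    · obtain ⟨φ₁, D₁⟩ := dir _ p1
      obtain ⟨φ₂, D₂⟩ := dir _ p2
      obtain ⟨φ₃, D₃⟩ := dir _ p3
      obtain ⟨φ₄, D₄⟩ := dir _ p4
      exact X.quad q a b c d hab hbc hcd hda hac hbd φ₁ φ₂ φ₃ φ₄ D₁ D₂ D₃ D₄
    · obtain ⟨m, hm⟩ := C.P_ne_five q
      apply hm
      obtain ⟨j, hj⟩ := hall m
      rw [← (C.isClosed_F m).closure_eq, Metric.mem_closure_iff]
      intro η hη
      obtain ⟨s, hs0, hs1, hs⟩ := exists_dist_avoid Z hZ' q 0 (min η (ρ / 2))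
        (lt_min hη (by linarith))
      obtain ⟨p, hp, -, hF⟩ := arm _ hj s hs0 (hs1.trans_le (min_le_right _ _))
      refine ⟨p, hF (fun hz => hs p hz hp) m (by simp), ?_⟩
      rw [dist_comm, dist_eq_norm, hp]
      exact hs1.trans_le (min_le_left _ _)

/-- The complex plane has no proper colouring with five colours. -/
theorem no_colouring (c : ℂ → Fin 5) : ∃ x u : ℂ, ‖u‖ = 1 ∧ c x = c (x + u) := by
  by_contra hc
  push Not at hc
  obtain ⟨μ, hμ, hT, hR, h0⟩ := exists_inv_prob c hc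
  obtain ⟨g, g1, g2, g3, g4⟩ := exists_g μ hT hR h0
  obtain ⟨C⟩ := exists_mcol_of_g μ g g1 g2 g3 g4
  exact C.false

end Crest.Agent.R40
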