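import Crest.Agent.R40.Defs

/-!
# Row 40, task A1: invariant means
-/

set_option autoImplicit false

namespace Crest.Agent.R40
open MeasureTheory Set Filter Topology Metric
open scoped ENNReal Real

namespace Mean

variable {X : Type*}

lemma monoA1 (M : Mean X) {f g : X → ℝ} (hb : ∃ B, ∀ x, |g x - f x| ≤ B) (h : ∀ x, f x ≤ g x) :
    M.m f ≤ M.m g := by
  have h1 := M.nonneg (g - f) hb (fun x => sub_nonneg.2 (h x))
  rw [map_sub] at h1
  linarith

/-- the bounded functions -/
def Bdd (A : Type) : Submodule ℝ (A → ℝ) where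
  carrier := {f | ∃ B, ∀ x, |f x| ≤ B}
  add_mem' := by
    rintro f g ⟨B, hB⟩ ⟨C, hC⟩
    exact ⟨B + C, fun x => (abs_add_le _ _).trans (add_le_add (hB x) (hC x))⟩
  zero_mem' := ⟨0, fun x => by simp⟩
  smul_mem' := by
    rintro c f ⟨B, hB⟩
    refine ⟨|c| * B, fun x => ?_⟩
    simp only [Pi.smul_apply, smul_eq_mul, abs_mul]
    exact mul_le_mul_of_nonneg_left (hB x) (abs_nonneg c)

variable {A : Type} [AddCommGroup A]

/-- upper bounds of averages of translates -/
def U (f : A → ℝ) : Set ℝ :=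
  {c | ∃ (ι : Type) (_ : Fintype ι) (_ : Nonempty ι) (a : ι → A),
    ∀ x, ∑ i, f (x + a i) ≤ c * Fintype.card ι}

lemma mem_U_of_le {f : A → ℝ} {c : ℝ} (h : ∀ x, f x ≤ c) : c ∈ U f :=
  ⟨Unit, inferInstance, inferInstance, fun _ => 0, fun x => by simpa using h x⟩

lemma U_nonempty (f : Bdd A) : (U (f : A → ℝ)).Nonempty := by
  obtain ⟨B, hB⟩ := f.2
  exact ⟨B, mem_U_of_le fun x => (le_abs_self _).trans (hB x)⟩

lemma U_bdd (f : Bdd A) : BddBelow (U (f : A → ℝ)) := by
  obtain ⟨B, hB⟩ := f.2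
  refine ⟨-B, ?_⟩
  rintro c ⟨ι, _, _, a, ha⟩
  have h1 := ha 0
  have h2 : ∑ _i : ι, (-B) ≤ ∑ i, (f : A → ℝ) (0 + a i) :=
    Finset.sum_le_sum fun i _ => (neg_le_neg (hB _)).trans (neg_abs_le _)
  have hpos : (0 : ℝ) < Fintype.card ι := by exact_mod_cast Fintype.card_pos
  simp only [Finset.sum_const, Finset.card_univ, nsmul_eq_mul] at h2
  have : -B * Fintype.card ι ≤ c * Fintype.card ι := by linarith
  exact le_of_mul_le_mul_right this hpos

lemma add_mem_U {f g : A → ℝ} {c d : ℝ} (hc : c ∈ U f) (hd : d ∈ U g) : c + d ∈ U (f + g) := by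
  obtain ⟨ι, _, _, a, ha⟩ := hc
  obtain ⟨κ, _, _, b, hb⟩ := hd
  refine ⟨ι × κ, inferInstance, inferInstance, fun p => a p.1 + b p.2, fun x => ?_⟩
  simp only [Pi.add_apply, Finset.sum_add_distrib, Fintype.card_prod, Nat.cast_mul]
  have h1 : ∑ p : ι × κ, f (x + (a p.1 + b p.2)) ≤ c * (Fintype.card ι * Fintype.card κ) := by
    rw [Fintype.sum_prod_type_right]
    calc ∑ j : κ, ∑ i : ι, f (x + (a i + b j)) ≤ ∑ _j : κ, c * Fintype.card ι := by
          refine Finset.sum_le_sum fun j _ => ?_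
          have := ha (x + b j)
          refine le_of_eq_of_le (Finset.sum_congr rfl fun i _ => ?_) this
          congr 1; abel
      _ = _ := by simp only [Finset.sum_const, Finset.card_univ, nsmul_eq_mul]; ring
  have h2 : ∑ p : ι × κ, g (x + (a p.1 + b p.2)) ≤ d * (Fintype.card ι * Fintype.card κ) := by
    rw [Fintype.sum_prod_type]
    calc ∑ i : ι, ∑ j : κ, g (x + (a i + b j)) ≤ ∑ _i : ι, d * Fintype.card κ := by
          refine Finset.sum_le_sum fun i _ => ?_
          have := hb (x + a i)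
          refine le_of_eq_of_le (Finset.sum_congr rfl fun j _ => ?_) this
          congr 1; abel
      _ = _ := by simp only [Finset.sum_const, Finset.card_univ, nsmul_eq_mul]; ring
  linarith

lemma smul_mem_U {f : A → ℝ} {c t : ℝ} (ht : 0 ≤ t) (hc : c ∈ U f) : t * c ∈ U (t • f) := by
  obtain ⟨ι, _, _, a, ha⟩ := hc
  refine ⟨ι, inferInstance, inferInstance, a, fun x => ?_⟩
  simp only [Pi.smul_apply, smul_eq_mul, ← Finset.mul_sum, mul_assoc]
  exact mul_le_mul_of_nonneg_left (ha x) ht

/-- the sublinear functional -/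
noncomputable def p (f : Bdd A) : ℝ := sInf (U (f : A → ℝ))

lemma p_le {f : Bdd A} {c : ℝ} (h : c ∈ U (f : A → ℝ)) : p f ≤ c := csInf_le (U_bdd f) h

lemma le_p {f : Bdd A} {c : ℝ} (h : ∀ d ∈ U (f : A → ℝ), c ≤ d) : c ≤ p f :=
  le_csInf (U_nonempty f) h

lemma p_add (f g : Bdd A) : p (f + g) ≤ p f + p g := by
  have h1 : ∀ d ∈ U (g : A → ℝ), p (f + g) - d ≤ p f := fun d hd =>
    le_p fun c hc => by
      have := p_le (f := f + g) (add_mem_U hc hd)
      linarith
  have h2 : p (f + g) - p f ≤ p g := le_p fun d hd => by linarith [h1 d hd]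
  linarith

lemma p_smul_le {t : ℝ} (ht : 0 < t) (f : Bdd A) : p (t • f) ≤ t * p f := by
  have : p (t • f) / t ≤ p f := le_p fun c hc => by
    have := p_le (f := t • f) (smul_mem_U ht.le hc)
    rw [div_le_iff₀ ht]; linarith
  rw [div_le_iff₀ ht] at this; linarith

lemma p_smul (t : ℝ) (ht : 0 < t) (f : Bdd A) : p (t • f) = t * p f := by
  refine le_antisymm (p_smul_le ht f) ?_
  have h := p_smul_le (inv_pos.2 ht) (t • f)
  rw [smul_smul, inv_mul_cancel₀ ht.ne', one_smul] at h
  have := mul_le_mul_of_nonneg_left h ht.le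
  rwa [← mul_assoc, mul_inv_cancel₀ ht.ne', one_mul] at this

lemma p_zero : 0 ≤ p (0 : Bdd A) := by
  have := p_add (0 : Bdd A) 0
  rw [add_zero] at this
  linarith

/-- coboundaries have nonpositive `p` -/
lemma p_cob (a : A) (f : A → ℝ) (B : ℝ) (hB : ∀ x, |f x| ≤ B) (g : Bdd A)
    (hg : ∀ x, (g : A → ℝ) x = f (x + a) - f x) : p g ≤ 0 := by
  refine le_of_forall_pos_le_add fun ε hε => ?_
  obtain ⟨n, hn⟩ := exists_nat_gt (2 * B / ε)
  have hB0 : 0 ≤ B := (abs_nonneg _).trans (hB 0)
  have hn0 : 0 < n := by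
    have : (0 : ℝ) ≤ 2 * B / ε := by positivity
    exact_mod_cast this.trans_lt hn
  rw [zero_add]
  refine p_le ⟨Fin n, inferInstance, ⟨⟨0, hn0⟩⟩, fun i => (i : ℕ) • a, fun x => ?_⟩
  rw [Fin.sum_univ_eq_sum_range (fun i => (g : A → ℝ) (x + i • a)) n]
  have h1 : ∑ i ∈ Finset.range n, (g : A → ℝ) (x + i • a) = f (x + n • a) - f (x + 0 • a) := by
    rw [← Finset.sum_range_sub (fun i => f (x + i • a)) n]
    refine Finset.sum_congr rfl fun i _ => ?_
    rw [hg, succ_nsmul, add_assoc]
  rw [h1, Fintype.card_fin]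
  rw [div_lt_iff₀ hε] at hn
  have h2 := abs_le.1 (hB (x + n • a))
  have h3 := abs_le.1 (hB (x + 0 • a))
  nlinarith [h2.2, h3.1]

end Mean

/-- Every abelian group carries a translation invariant mean.

Proof. On the submodule `V` of bounded functions put
`p f = inf` over nonempty finite lists `a_1..a_n` of `sup_x (1/n) Σ_i f (x + a_i)`.
`p` is sublinear (`p (f+g) ≤ p f + p g`: use the list `a_i + b_j`), so Hahn-Banach
(`exists_extension_of_le_sublinear` from the zero subspace) gives a linear `m ≤ p` on `V`.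
`m f ≤ p f ≤ sup f` gives `m 1 = 1` and positivity; telescoping with `a_i = i • a` gives
`p (± (f (· + a) - f)) ≤ 2 B / n`, so invariance. Extend `m` linearly to all functions
(`LinearMap.exists_extend`). (Any other proof is welcome, e.g. an ultrafilter limit of averages
over boxes.) -/
theorem exists_inv_mean (A : Type) [AddCommGroup A] :
    ∃ M : Mean A, ∀ (a : A) (f : A → ℝ), (∃ B, ∀ x, |f x| ≤ B) →
      M.m (fun x => f (x + a)) = M.m f := by
  obtain ⟨g, -, hg⟩ := exists_extension_of_le_sublinear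
    ((0 : Mean.Bdd A →ₗ[ℝ] ℝ).toPMap ⊥) (Mean.p (A := A)) Mean.p_smul Mean.p_add (by
      rintro ⟨x, hx⟩
      have hx0 : x = 0 := by simpa using hx
      subst hx0
      simpa using Mean.p_zero (A := A))
  obtain ⟨m, hm⟩ := g.exists_extend
  have hm' : ∀ f : Mean.Bdd A, m f = g f := fun f => by
    rw [← hm]; rfl
  have hle : ∀ (f : A → ℝ) (_ : ∃ B, ∀ x, |f x| ≤ B) (c : ℝ), (∀ x, f x ≤ c) → m f ≤ c :=
    fun f hf c hc => by
      have h1 := hm' ⟨f, hf⟩
      have h2 := hg ⟨f, hf⟩
      have h3 := Mean.p_le (f := ⟨f, hf⟩) (Mean.mem_U_of_le hc)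
      simp only at h1
      linarith
  have hcob : ∀ (a : A) (f : A → ℝ), (∃ B, ∀ x, |f x| ≤ B) → m (fun x => f (x + a)) ≤ m f := by
    rintro a f ⟨B, hB⟩
    have hb : (fun x => f (x + a)) - f ∈ Mean.Bdd A :=
      (Mean.Bdd A).sub_mem ⟨B, fun x => hB _⟩ ⟨B, hB⟩
    have h1 := hm' ⟨_, hb⟩
    have h2 := hg ⟨_, hb⟩
    have h3 := Mean.p_cob a f B hB ⟨_, hb⟩ (fun x => rfl)
    simp only [map_sub] at h1
    linarith
  refine ⟨⟨m, ?_, ?_⟩, ?_⟩
  · rintro f ⟨B, hB⟩ hf
    have := hle (-f) ⟨B, fun x => by simpa using hB x⟩ 0 (fun x => by simpa using hf x)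
    rw [map_neg] at this
    linarith
  · refine le_antisymm (hle _ ⟨1, fun x => by simp⟩ 1 fun _ => le_rfl) ?_
    have := hle (-fun _ => 1) ⟨1, fun x => by simp⟩ (-1) (fun x => by simp)
    rw [map_neg] at this
    linarith
  · rintro a f ⟨B, hB⟩
    refine le_antisymm (hcob a f ⟨B, hB⟩) ?_
    have := hcob (-a) (fun x => f (x + a)) ⟨B, fun x => hB _⟩
    simpa using this

/-- A local mean on `[0,1)`.

Proof. `M` invariant on `ℝ`; `m f = M (f ∘ Int.fract)`. For `0 ≤ a ≤ 1/N` the functions
`t ↦ f (fract t + a)` and `t ↦ f (fract (t + a))` differ only on `J = {fract t ≥ 1 - 1/N}`, and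
`M 1_J = 1/N` because the `N` translates of `J` by `k/N` partition `ℝ`. -/
theorem exists_locMean : Nonempty LocMean := by
  classical
  obtain ⟨M, hM⟩ := exists_inv_mean ℝ
  let m : (ℝ → ℝ) →ₗ[ℝ] ℝ := M.m ∘ₗ LinearMap.funLeft ℝ ℝ (Int.fract : ℝ → ℝ)
  have hm : ∀ f, m f = M.m (fun t => f (Int.fract t)) := fun f => rfl
  refine ⟨⟨⟨m, ?_, ?_⟩, ?_, ?_⟩⟩
  · rintro f ⟨B, hB⟩ hf
    rw [hm]
    exact M.nonneg _ ⟨B, fun x => hB _⟩ fun x => hf _
  · rw [hm]; exact M.one
  · intro f g h
    show m f = m g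
    rw [hm, hm]
    congr 1
    funext t
    exact h _ ⟨Int.fract_nonneg t, Int.fract_lt_one t⟩
  · intro f B hB N hN a ha0 ha1
    show |m (fun t => f (t + a)) - m f| ≤ 2 * B / N
    have hB0 : 0 ≤ B := (abs_nonneg _).trans (hB 0)
    have hNpos : (0 : ℝ) < N := by exact_mod_cast hN
    let J : ℝ → ℝ := fun t => if 1 - 1 / (N : ℝ) ≤ Int.fract t then 1 else 0
    have hJ0 : ∀ t, 0 ≤ J t := fun t => by
      simp only [J]; split_ifs <;> norm_num
    have hJ1 : ∀ t, J t ≤ 1 := fun t => by
      simp only [J]; split_ifs <;> norm_num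
    have hJb : ∃ C, ∀ t, |J t| ≤ C := ⟨1, fun t => by rw [abs_of_nonneg (hJ0 t)]; exact hJ1 t⟩
    have hsum : ∀ t, ∑ k ∈ Finset.range N, J (t + k / N) ≤ 1 := by
      intro t
      simp only [J]
      rw [Finset.sum_ite, Finset.sum_const_zero, add_zero, Finset.sum_const, nsmul_eq_mul, mul_one]
      have : (Finset.filter (fun k : ℕ => 1 - 1 / (N : ℝ) ≤ Int.fract (t + k / N))
          (Finset.range N)).card ≤ 1 := by
        rw [Finset.card_le_one]
        intro k hk l hl
        rw [Finset.mem_filter, Finset.mem_range] at hk hl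
        have h1 := Int.fract_lt_one (t + k / N)
        have h2 := Int.fract_lt_one (t + l / N)
        have h3 := hk.2
        have h4 := hl.2
        unfold Int.fract at h1 h2 h3 h4
        set n : ℤ := ⌊t + (k : ℝ) / N⌋ - ⌊t + (l : ℝ) / N⌋ with hn
        have hn' : (n : ℝ) = ⌊t + (k : ℝ) / N⌋ - ⌊t + (l : ℝ) / N⌋ := by rw [hn]; push_cast; ring
        have h5 : (k : ℝ) / N - l / N - n < 1 / N := by linarith
        have h6 : -(1 / N) < (k : ℝ) / N - l / N - n := by linarith
        have h7 : (k : ℝ) - l - n * N < 1 := by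
          have := mul_lt_mul_of_pos_right h5 hNpos
          field_simp at this
          linarith
        have h8 : -1 < (k : ℝ) - l - n * N := by
          have := mul_lt_mul_of_pos_right h6 hNpos
          field_simp at this
          linarith
        have h9 : (k : ℤ) - l - n * N < 1 := by exact_mod_cast h7
        have h10 : -1 < (k : ℤ) - l - n * N := by exact_mod_cast h8
        have h11 : (k : ℤ) - l = n * N := by omega
        have hk' : (k : ℤ) < N := by exact_mod_cast hk.1
        have hl' : (l : ℤ) < N := by exact_mod_cast hl.1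
        have hn0 : n = 0 := by
          rcases lt_trichotomy n 0 with h | h | h
          · nlinarith [Int.natCast_nonneg k]
          · exact h
          · nlinarith [Int.natCast_nonneg l]
        rw [hn0] at h11
        omega
      exact_mod_cast this
    have hMJ : M.m J ≤ 1 / N := by
      have h1 : M.m (∑ k ∈ Finset.range N, fun t => J (t + k / N)) ≤ M.m (fun _ => 1) := by
        refine M.monoA1 ⟨1, fun t => ?_⟩ fun t => ?_
        · have h2 := hsum t
          have h3 : 0 ≤ ∑ k ∈ Finset.range N, J (t + k / N) :=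
            Finset.sum_nonneg fun k _ => hJ0 _
          rw [Finset.sum_apply, abs_le]
          constructor <;> linarith
        · rw [Finset.sum_apply]; exact hsum t
      rw [map_sum, M.one, Finset.sum_congr rfl (fun k _ => hM _ J hJb), Finset.sum_const,
        Finset.card_range, nsmul_eq_mul] at h1
      rw [le_div_iff₀ hNpos]; linarith
    have hinv : m f = M.m (fun t => f (Int.fract (t + a))) := by
      rw [hm, hM a (fun t => f (Int.fract t)) ⟨B, fun x => hB _⟩]
    have hdiff : ∀ t, |f (Int.fract t + a) - f (Int.fract (t + a))| ≤ 2 * B * J t := by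
      intro t
      simp only [J]
      split_ifs with h
      · have h1 := abs_le.1 (hB (Int.fract t + a))
        have h2 := abs_le.1 (hB (Int.fract (t + a)))
        rw [abs_le]; constructor <;> linarith [h1.1, h1.2, h2.1, h2.2]
      · have h1 : Int.fract (t + a) = Int.fract t + a := by
          rw [Int.fract_eq_iff]
          refine ⟨add_nonneg (Int.fract_nonneg t) ha0, by linarith [not_le.1 h], ⌊t⌋, ?_⟩
          unfold Int.fract; ring
        rw [h1]; simp
    let h : ℝ → ℝ := fun t => f (Int.fract t + a) - f (Int.fract (t + a))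
    have hh : m (fun t => f (t + a)) - m f = M.m h := by
      rw [hinv, hm, ← map_sub]; rfl
    have hJ2 : M.m (fun t => 2 * B * J t) ≤ 2 * B / N := by
      have : (fun t => 2 * B * J t) = (2 * B) • J := by funext t; simp
      rw [this, map_smul, smul_eq_mul, div_eq_mul_one_div]
      exact mul_le_mul_of_nonneg_left hMJ (by linarith)
    have hbJ : ∀ t, 2 * B * J t ≤ 2 * B := fun t => by nlinarith [hJ1 t]
    have hbJ0 : ∀ t, 0 ≤ 2 * B * J t := fun t => by nlinarith [hJ0 t]
    rw [hh, abs_le]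
    constructor
    · have h1 : M.m (-h) ≤ M.m (fun t => 2 * B * J t) := by
        refine M.monoA1 ⟨4 * B, fun t => ?_⟩ fun t => ?_
        · have := abs_le.1 (hdiff t)
          simp only [Pi.neg_apply, h]
          rw [abs_le]; constructor <;> linarith [this.1, this.2, hbJ t, hbJ0 t]
        · have := abs_le.1 (hdiff t)
          simp only [Pi.neg_apply, h]
          linarith [this.1]
      rw [map_neg] at h1
      linarith
    · have h1 : M.m h ≤ M.m (fun t => 2 * B * J t) := by
        refine M.monoA1 ⟨4 * B, fun t => ?_⟩ fun t => ?_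
        · have := abs_le.1 (hdiff t)
          simp only [h]
          rw [abs_le]; constructor <;> linarith [this.1, this.2, hbJ t, hbJ0 t]
        · have := abs_le.1 (hdiff t)
          simp only [h]
          linarith [this.2]
      linarith

end Crest.Agent.R40
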