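import Crest.Agent.R40.Ql

/-!
# Row 40, task C2: consequences of `ql`
-/

set_option autoImplicit false

namespace Crest.Agent.R40
open MeasureTheory Set Filter Topology Metric
open scoped ENNReal Real

namespace NotG

theorem eta_of_eventually {v : ℂ} {Q : ℂ × ℝ → Prop} (h : ∀ᶠ p in 𝓝 v ×ˢ 𝓝[>] (0 : ℝ), Q p) :
    ∃ η > 0, ∀ y ρ, ‖y - v‖ < η → 0 < ρ → ρ < η → Q (y, ρ) := by
  obtain ⟨pa, ha, pb, hb, hQ⟩ := eventually_prod_iff.1 h
  obtain ⟨η₁, h1, ha⟩ := Metric.eventually_nhds_iff.1 ha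
  obtain ⟨η₂, h2, hb⟩ := Metric.eventually_nhds_iff.1 (eventually_nhdsWithin_iff.1 hb)
  refine ⟨min η₁ η₂, lt_min h1 h2, fun y ρ hy h0 hρ => hQ (ha ?_) (hb ?_ h0)⟩
  · rw [dist_eq_norm]; exact hy.trans_le (min_le_left _ _)
  · rw [Real.dist_eq, sub_zero, abs_of_pos h0]; exact hρ.trans_le (min_le_right _ _)

theorem eventually_eta (v : ℂ) {η : ℝ} (hη : 0 < η) :
    ∀ᶠ p : ℂ × ℝ in 𝓝 v ×ˢ 𝓝[>] (0 : ℝ), ‖p.1 - v‖ < η ∧ 0 < p.2 ∧ p.2 < η := by
  have h1 : ∀ᶠ y in 𝓝 v, ‖y - v‖ < η := by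
    filter_upwards [Metric.ball_mem_nhds v hη] with y hy
    rwa [mem_ball, dist_eq_norm] at hy
  have h2 : ∀ᶠ ρ in 𝓝[>] (0 : ℝ), 0 < ρ ∧ ρ < η := Ioo_mem_nhdsGT hη
  exact h1.prod_mk h2

theorem ivt {s : Set ℂ} {y : ℂ} (hy : Tendsto (dens s y) (𝓝[>] 0) (𝓝 1)) {R t : ℝ} (hR : 0 < R)
    (h1 : dens s y R ≤ t) (h2 : t < 1) : ∃ ρ, 0 < ρ ∧ ρ ≤ R ∧ dens s y ρ = t := by
  obtain ⟨ρ₀, h3, h4, h5⟩ :=
    ((hy.eventually (lt_mem_nhds h2)).and (Ioo_mem_nhdsGT hR)).exists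
  obtain ⟨ρ, hρ, h6⟩ := intermediate_value_Icc' h5.le
    ((dens_continuousOn s y).mono fun z hz => h4.trans_le hz.1) ⟨h1, h3.le⟩
  exact ⟨ρ, h4.trans_le hρ.1, hρ.2, h6⟩

theorem f_add_compl (C : MCol) (L : Finset (Fin 5)) (x : ℂ) {r : ℝ} (hr : 0 < r) :
    C.f L x r + C.f Lᶜ x r = 1 := by
  rw [C.f_eq_sum L, C.f_eq_sum Lᶜ, Finset.sum_add_sum_compl, C.sum_f x r hr]

/-- the Vitali covering argument -/
theorem vitali {D O : Set ℂ} (hO : MeasurableSet O) {x : ℂ} {R R' ε : ℝ} (hε : 0 < ε)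
    (ρ : ℂ → ℝ) (h0 : ∀ y ∈ D, 0 < ρ y) (hR : ∀ y ∈ D, ρ y ≤ R)
    (hsub : ∀ y ∈ D, closedBall y (ρ y) ⊆ closedBall x R') (hd : ∀ y ∈ D, dens O y (ρ y) = ε) :
    volume D ≤ ENNReal.ofReal (25 / ε) * volume (O ∩ closedBall x R') := by
  obtain ⟨u, hu, hdisj, hcov⟩ :=
    Vitali.exists_disjoint_subfamily_covering_enlargement_closedBall D id ρ R hR 5 (by norm_num)
  simp only [id] at hdisj hcov
  have hcount : u.Countable := hdisj.countable_of_nonempty_interior fun b hb =>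
    ⟨b, interior_maximal ball_subset_closedBall isOpen_ball (mem_ball_self (h0 b (hu hb)))⟩
  have h1 : D ⊆ ⋃ b ∈ u, closedBall b (5 * ρ b) := fun y hy => by
    obtain ⟨b, hb, h⟩ := hcov y hy
    exact mem_biUnion hb (h (mem_closedBall_self (h0 y hy).le))
  have h2 : ∀ b ∈ u, volume (closedBall b (5 * ρ b)) =
      ENNReal.ofReal (25 / ε) * volume (O ∩ closedBall b (ρ b)) := by
    intro b hb
    have hb0 := h0 b (hu hb)
    have := volume_inter_closedBall univ b (5 * ρ b) (by positivity)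
    rw [univ_inter, dens_univ _ _ (by positivity)] at this
    rw [this, volume_inter_closedBall O b _ hb0, hd b (hu hb),
      ← ENNReal.ofReal_mul (by positivity)]
    congr 1
    field_simp
    ring
  have h3 : u.PairwiseDisjoint fun b => O ∩ closedBall b (ρ b) :=
    fun a ha b hb hab => (hdisj ha hb hab).mono inter_subset_right inter_subset_right
  calc volume D ≤ ∑' b : u, volume (closedBall (b : ℂ) (5 * ρ b)) :=
        (measure_mono h1).trans (measure_biUnion_le _ hcount _)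
    _ = ENNReal.ofReal (25 / ε) * ∑' b : u, volume (O ∩ closedBall (b : ℂ) (ρ b)) := by
        rw [← ENNReal.tsum_mul_left]
        exact tsum_congr fun b => h2 b b.2
    _ = ENNReal.ofReal (25 / ε) * volume (⋃ b ∈ u, O ∩ closedBall b (ρ b)) := by
        rw [measure_biUnion hcount h3 fun b _ => hO.inter measurableSet_closedBall]
    _ ≤ _ := by
        gcongr
        exact iUnion₂_subset fun b hb => inter_subset_inter_right _ (hsub b (hu hb))

end NotG

open NotG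

namespace MCol
variable (C : MCol)

/-- Proof. `ql` with `L = {j}` gives `ε` (wlog `≤ 1/48`) and `η` (valid for `‖y - v‖ < η`,
`0 < ρ < η`). Take `δ = ε/5000` and `(x, r)` with `EE i j x r δ`, `‖x - v‖ < η/2`, `3 r < η/2`.
`D` = density points of `A {j}` in `closedBall x r` has area `≥ π r²/6` (`ae_dens`). For `y ∈ D`,
`f {j} y (2r) ≤ 1 - f {i} y (2r) ≤ 1 - 1/24` (`dens_scale`), so by the intermediate value theorem
(`dens_continuousOn`) `f {j} y ρ_y = 1 - ε` for some `ρ_y ∈ (0, 2r]`; then `f {i} y ρ_y = 0` and the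
other colours `O` have density `ε` in `(y, ρ_y) ⊆ (x, 3r)`. Vitali
(`Vitali.exists_disjoint_subfamily_covering_enlargement_closedBall`): disjoint discs whose 5-fold
enlargements cover `D`, so `π r²/6 ≤ (25/ε) volume (O ∩ closedBall x (3r)) ≤ (25/ε) 3δ 9π r²`. -/
theorem not_G_of_pair (v : ℂ) (i j : Fin 5) (h : ∃ᵐ α : ℝ, C.S v α ⊆ {i, j}) : ¬ C.G v i j := by
  rintro ⟨hij, hG⟩
  obtain ⟨ε₀, hε₀, hq⟩ := C.ql v i {j} (h.mono fun α hα k hk => by
    rw [Finset.mem_singleton.1 hk]; exact Or.inl hα)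
  obtain ⟨η, hη, hq⟩ := eta_of_eventually hq
  set ε := min ε₀ (1 / 48) with hε
  have hε0 : 0 < ε := lt_min hε₀ (by norm_num)
  have hε1 : ε ≤ ε₀ := min_le_left _ _
  have hε2 : ε ≤ 1 / 48 := min_le_right _ _
  obtain ⟨⟨x, r⟩, ⟨hi, hj, ho⟩, hx, hr, hrη⟩ :=
    ((hG (ε / 10000) (by positivity)).and_eventually
      (eventually_eta v (show 0 < η / 6 by positivity))).exists
  simp only at hi hj ho hx hr hrη
  set D : Set ℂ := {y | y ∈ closedBall x r ∧ Tendsto (dens (C.A {j}) y) (𝓝[>] 0) (𝓝 1)} with hD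
  have hpair : ∀ y ρ, C.f {i, j} y ρ = C.f {i} y ρ + C.f {j} y ρ := fun y ρ => by
    rw [C.f_eq_sum, Finset.sum_pair hij]
  have hrad : ∀ y ∈ D, ∃ ρ, 0 < ρ ∧ ρ ≤ 2 * r ∧ dens (C.A {i, j}ᶜ) y ρ = ε := by
    rintro y ⟨hy, hyd⟩
    rw [mem_closedBall, dist_eq_norm] at hy
    have h1 : C.f {i} x r * r ^ 2 ≤ C.f {i} y (2 * r) * (2 * r) ^ 2 :=
      dens_scale _ hr (by rw [norm_sub_rev]; linarith)
    have h2 : 1 / 24 ≤ C.f {i} y (2 * r) := by
      by_contra hlt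
      push Not at hlt
      have : 0 < r ^ 2 := by positivity
      nlinarith
    have h3 : C.f {i, j} y (2 * r) ≤ 1 := dens_le_one _ _ _
    rw [hpair] at h3
    obtain ⟨ρ, h4, h5, h6⟩ := ivt hyd (R := 2 * r) (t := 1 - ε) (by positivity)
      (by change C.f {j} y (2 * r) ≤ _; linarith) (by linarith)
    have h6' : C.f {j} y ρ = 1 - ε := h6
    have hyv : ‖y - v‖ < η := by
      have := norm_sub_le_norm_sub_add_norm_sub y x v
      linarith
    have h7 : C.f {i} y ρ = 0 := hq y ρ hyv h4 (by linarith) (by change _ ≤ C.f {j} y ρ; linarith)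
    have h8 := f_add_compl C {i, j} y h4
    rw [hpair] at h8
    exact ⟨ρ, h4, h5, by change C.f {i, j}ᶜ y ρ = ε; linarith⟩
  choose! ρ h0 hR hd using hrad
  have hV := vitali (x := x) (R' := 3 * r) (C.measurableSet_A {i, j}ᶜ) hε0 ρ h0 hR
    (fun y hy => closedBall_subset_closedBall' (by
      have := mem_closedBall.1 hy.1
      have := hR y hy
      linarith)) hd
  have hlow : volume (C.A {j} ∩ closedBall x r) ≤ volume D := by
    refine measure_mono_ae ?_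
    filter_upwards [ae_dens (C.A {j})] with y hy hy'
    exact ⟨hy'.2, hy hy'.1⟩
  have hO : C.f {i, j}ᶜ x (3 * r) ≤ 5 * (ε / 10000) := by
    rw [C.f_eq_sum]
    refine (Finset.sum_le_card_nsmul _ _ (ε / 10000) fun k hk => ?_).trans ?_
    · simp only [Finset.mem_compl, Finset.mem_insert, Finset.mem_singleton, not_or] at hk
      exact (ho k hk.1 hk.2).le
    · have : (({i, j}ᶜ : Finset (Fin 5)).card : ℝ) ≤ 5 := by
        exact_mod_cast (Finset.card_le_univ _).trans_eq (Fintype.card_fin 5)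
      rw [nsmul_eq_mul]
      gcongr
  have hfin := hlow.trans hV
  rw [volume_inter_closedBall _ _ _ hr, volume_inter_closedBall _ _ _ (by positivity),
    ← ENNReal.ofReal_mul (by positivity), ENNReal.ofReal_le_ofReal_iff
      (mul_nonneg (by positivity) (mul_nonneg (dens_nonneg _ _ _) (by positivity)))] at hfin
  have hp : 0 < π * r ^ 2 := by positivity
  have e1 : 1 / 6 * (π * r ^ 2) ≤ dens (C.A {j}) x r * (π * r ^ 2) :=
    mul_le_mul_of_nonneg_right hj hp.le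
  have e2 : 25 / ε * (dens (C.A {i, j}ᶜ) x (3 * r) * (π * (3 * r) ^ 2)) ≤
      25 / ε * (5 * (ε / 10000) * (π * (3 * r) ^ 2)) := by
    gcongr
    exact hO
  have e3 : 25 / ε * (5 * (ε / 10000) * (π * (3 * r) ^ 2)) = 9 / 80 * (π * r ^ 2) := by
    field_simp
    ring
  linarith

/-- Proof. By `ql` for each colour outside `L` there are `ε, η > 0` such that for `‖y - v‖ < η`,
`0 < ρ < η`: `f L y ρ ≥ 1 - ε` implies `f L y ρ = 1` (`sum_f`, `f_eq_sum`). Let `y` be a density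
point of `d` with `‖y - v‖ < η/4`; at `ρ = η/2` the disc contains `ball v (η/4)`, so
`f {i} y ρ > 0` and `f L y ρ < 1`, hence `< 1 - ε`; for small `ρ`, `f L y ρ > 1 - ε/2`. The
intermediate value `1 - ε/2` is impossible. -/
theorem cone (v : ℂ) (L : Finset (Fin 5))
    (h : ∀ i, i ∉ L → ∃ᵐ α : ℝ, ∀ j ∈ L, C.S v α ⊆ {i, j} ∨ C.S v (α + π) ⊆ {i, j})
    (d i : Fin 5) (hd : d ∈ L) (hi : i ∉ L) (hvd : v ∈ C.F d) (hvi : v ∈ C.F i) : False := by
  have h1 : ∀ k, ∀ᶠ ε in 𝓝[>] (0 : ℝ), k ∉ L →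
      ∀ᶠ p : ℂ × ℝ in 𝓝 v ×ˢ 𝓝[>] 0, 1 - ε ≤ C.f L p.1 p.2 → C.f {k} p.1 p.2 = 0 := by
    intro k
    by_cases hk : k ∈ L
    · exact Eventually.of_forall fun _ h' => absurd hk h'
    · obtain ⟨ε₀, hε₀, hq⟩ := C.ql v k L (h k hk)
      filter_upwards [Ioo_mem_nhdsGT hε₀] with ε hε _
      filter_upwards [hq] with p hp hle
      exact hp (by linarith [hε.2])
  obtain ⟨ε, hq, hε⟩ := ((eventually_all.2 h1).and self_mem_nhdsWithin).exists
  have hε0 : 0 < ε := hε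
  have h2 : ∀ᶠ p : ℂ × ℝ in 𝓝 v ×ˢ 𝓝[>] 0, ∀ k, k ∉ L →
      1 - ε ≤ C.f L p.1 p.2 → C.f {k} p.1 p.2 = 0 := by
    refine eventually_all.2 fun k => ?_
    by_cases hk : k ∈ L
    · exact Eventually.of_forall fun _ h' => absurd hk h'
    · exact (hq k hk).mono fun p hp _ => hp
  obtain ⟨η, hη, hq⟩ := eta_of_eventually h2
  obtain ⟨y, hy, hyd⟩ := C.exists_dens_point v d hvd (η / 4) (by positivity)
  have hyL : Tendsto (dens (C.A L) y) (𝓝[>] 0) (𝓝 1) := by
    refine tendsto_of_tendsto_of_tendsto_of_le_of_le hyd tendsto_const_nhds (fun ρ => ?_)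
      fun ρ => dens_le_one _ _ _
    refine dens_mono (fun z hz => ?_) _ _
    have : C.c z = d := Finset.mem_singleton.1 hz
    show C.c z ∈ L
    rwa [this]
  have h3 : C.f {i} y (η / 2) ≠ 0 := by
    intro h0
    refine hvi (η / 4) (by positivity) (measure_mono_null (inter_subset_inter_right _ ?_)
      ((dens_eq_zero_iff _ _ _ (by positivity)).1 h0))
    refine ball_subset_closedBall.trans (closedBall_subset_closedBall' ?_)
    rw [dist_comm, dist_eq_norm]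
    linarith
  have h4 : C.f L y (η / 2) < 1 - ε := by
    by_contra hle
    exact h3 (hq y (η / 2) (by linarith) (by positivity) (by linarith) i hi (not_lt.1 hle))
  obtain ⟨ρ, h5, h6, h7⟩ := ivt hyL (R := η / 2) (t := 1 - ε) (by positivity) h4.le (by linarith)
  have h7' : C.f L y ρ = 1 - ε := h7
  have h8 := f_add_compl C L y h5
  rw [C.f_eq_sum Lᶜ, Finset.sum_eq_zero fun k hk =>
    hq y ρ (by linarith) h5 (by linarith) k (Finset.mem_compl.1 hk) h7'.ge] at h8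
  linarith

end MCol

end Crest.Agent.R40
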