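import Crest.Agent.R40.Dens

/-!
# Row 40, task C1a: a lower bound for areas by polar coordinates
-/

set_option autoImplicit false

namespace Crest.Agent.R40
open MeasureTheory Set Filter Topology Metric
open scoped ENNReal Real

namespace Polar

lemma e_eq (θ : ℝ) : e θ = (Real.cos θ : ℂ) + (Real.sin θ : ℂ) * Complex.I := by
  rw [e, Complex.exp_mul_I]; push_cast; ring

/-- the rigid motion `z ↦ p + e a * z` preserves area -/
lemma volume_preimage (p : ℂ) (a : ℝ) (S : Set ℂ) (hS : MeasurableSet S) :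
    volume ((fun z : ℂ => p + e a * z) ⁻¹' S) = volume S := by
  have h1 : MeasurePreserving (fun z : ℂ => e a * z) volume volume := by
    have h0 : MeasurePreserving (rotation (Circle.exp a)) (volume : Measure ℂ) volume :=
      (rotation (Circle.exp a)).measurePreserving
    have h3 : (fun z : ℂ => e a * z) = rotation (Circle.exp a) := by
      funext z
      simp [rotation_apply, e, Circle.coe_exp]
    rw [h3]; exact h0
  have h2 : MeasurePreserving (fun z : ℂ => p + z) volume volume := measurePreserving_add_left _ p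
  exact (h2.comp h1).measure_preimage hS.nullMeasurableSet

/-- area lower bound from angular lower bounds on the circles of radius `t ∈ (s, 2 s)` -/
lemma area_lower (S : Set ℂ) (hS : MeasurableSet S) (p : ℂ) (a s : ℝ) (hs : 0 < s) (c : ℝ≥0∞)
    (h : ∀ᵐ t : ℝ, s < t → t < 2 * s →
      c ≤ volume {θ : ℝ | θ ∈ Ioo (-π) π ∧ p + (t : ℂ) * e (a + θ) ∈ S}) :
    ENNReal.ofReal s * (c * ENNReal.ofReal s) ≤ volume S := by
  set S' : Set ℂ := (fun z : ℂ => p + e a * z) ⁻¹' S with hS'
  have hS'm : MeasurableSet S' := hS.preimage (by fun_prop)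
  set U : Set (ℝ × ℝ) :=
    {q | q.1 ∈ Ioo s (2 * s) ∧ q.2 ∈ Ioo (-π) π ∧ p + (q.1 : ℂ) * e (a + q.2) ∈ S} with hU
  have hUm : MeasurableSet U := by
    refine (measurableSet_Ioo.preimage measurable_fst).inter
      ((measurableSet_Ioo.preimage measurable_snd).inter ?_)
    refine hS.preimage (f := fun q : ℝ × ℝ => p + (q.1 : ℂ) * e (a + q.2)) ?_
    have := continuous_e
    fun_prop
  have hvolU : c * ENNReal.ofReal s ≤ volume U := by
    rw [Measure.volume_eq_prod, Measure.prod_apply hUm]
    calc c * ENNReal.ofReal s = ∫⁻ _t in Ioo s (2 * s), c := by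
          rw [setLIntegral_const, Real.volume_Ioo]; congr 2; ring
      _ ≤ ∫⁻ t in Ioo s (2 * s), volume (Prod.mk t ⁻¹' U) := by
          refine setLIntegral_mono_ae' measurableSet_Ioo ?_
          filter_upwards [h] with t ht htI
          refine (ht htI.1 htI.2).trans (measure_mono ?_)
          intro θ hθ
          exact ⟨htI, hθ.1, hθ.2⟩
      _ ≤ ∫⁻ t, volume (Prod.mk t ⁻¹' U) := setLIntegral_le_lintegral _ _
  rw [← volume_preimage p a S hS, ← hS', ← lintegral_indicator_one hS'm,
    ← Complex.lintegral_comp_polarCoord_symm]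
  have hT : MeasurableSet (polarCoord.target) := polarCoord.open_target.measurableSet
  have hsub : U ⊆ polarCoord.target := by
    intro q hq
    rw [polarCoord_target]
    exact ⟨hs.trans hq.1.1, hq.2.1⟩
  calc ENNReal.ofReal s * (c * ENNReal.ofReal s) ≤ ENNReal.ofReal s * volume U := by gcongr
    _ = ∫⁻ _q in U, ENNReal.ofReal s := by rw [setLIntegral_const]
    _ ≤ ∫⁻ q in U, ENNReal.ofReal q.1 • S'.indicator 1 (Complex.polarCoord.symm q) := by
        refine setLIntegral_mono' hUm ?_
        intro q hq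
        have hmem : Complex.polarCoord.symm q ∈ S' := by
          have h3 := hq.2.2
          rw [Complex.polarCoord_symm_apply, ← e_eq]
          simp only [hS', mem_preimage]
          rw [e_add] at h3
          convert h3 using 2
          ring
        rw [indicator_of_mem hmem]
        simp only [Pi.one_apply, smul_eq_mul, mul_one]
        exact ENNReal.ofReal_le_ofReal hq.1.1.le
    _ ≤ _ := lintegral_mono_set hsub

/-- angles at which the sine is small -/
lemma small_sin (κ γ y : ℝ) (h1 : -(3 * π / 2) ≤ y - γ) (h2 : y - γ ≤ 3 * π / 2)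
    (h : |Real.sin (y - γ)| < κ) :
    y ∈ ball γ (κ * π / 2) ∪ ball (γ + π) (κ * π / 2) ∪ ball (γ - π) (κ * π / 2) := by
  have hpi := Real.pi_pos
  have key : ∀ z : ℝ, |z| ≤ π / 2 → |Real.sin z| < κ → |z| < κ * π / 2 := by
    intro z hz hs
    have h3 := (Real.mul_abs_le_abs_sin hz).trans_lt hs
    rw [div_mul_eq_mul_div, div_lt_iff₀ hpi] at h3
    linarith
  simp only [mem_union, mem_ball, Real.dist_eq]
  rcases le_total (y - γ) (-(π / 2)) with h3 | h3
  · right
    have : y - (γ - π) = (y - γ) + π := by ring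
    rw [this]
    refine key _ (abs_le.2 ⟨by linarith, by linarith⟩) ?_
    rwa [Real.sin_add_pi, abs_neg]
  · rcases le_total (y - γ) (π / 2) with h4 | h4
    · left; left
      exact key _ (abs_le.2 ⟨by linarith, by linarith⟩) h
    · left; right
      have : y - (γ + π) = (y - γ) - π := by ring
      rw [this]
      refine key _ (abs_le.2 ⟨by linarith, by linarith⟩) ?_
      rwa [Real.sin_sub_pi, abs_neg]

lemma volume_small_sin (κ γ b : ℝ) (hκ : 0 ≤ κ) (h1 : b - π / 2 ≤ γ) (h2 : γ ≤ b + 3 * π / 2) :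
    volume {β : ℝ | β ∈ Ico b (b + π) ∧ |Real.sin (β - γ)| < κ} ≤ ENNReal.ofReal (3 * (κ * π)) := by
  have hpi := Real.pi_pos
  calc volume {β : ℝ | β ∈ Ico b (b + π) ∧ |Real.sin (β - γ)| < κ}
      ≤ volume (ball γ (κ * π / 2) ∪ ball (γ + π) (κ * π / 2) ∪ ball (γ - π) (κ * π / 2)) := by
        refine measure_mono ?_
        intro β hβ
        exact small_sin κ γ β (by linarith [hβ.1.1]) (by linarith [hβ.1.2]) hβ.2
    _ ≤ volume (ball γ (κ * π / 2)) + volume (ball (γ + π) (κ * π / 2)) +
          volume (ball (γ - π) (κ * π / 2)) :=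
        (measure_union_le _ _).trans (by gcongr; exact measure_union_le _ _)
    _ = ENNReal.ofReal (3 * (κ * π)) := by
        have h0 : 0 ≤ 2 * (κ * π / 2) := by positivity
        simp only [Real.volume_ball]
        rw [← ENNReal.ofReal_add h0 h0, ← ENNReal.ofReal_add (by positivity) h0]
        congr 1; ring

/-- the point on the good side of the cone lies in the disc -/
lemma mem_disc (x p : ℂ) (r d γ β t σ κ : ℝ) (hx : x - p = (d : ℂ) * e γ) (hd0 : 0 ≤ d)
    (hdr : d ≤ r) (hσ : σ ^ 2 = 1) (hκ1 : κ ≤ 1) (hs : κ ≤ σ * Real.sin (β - γ))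
    (ht0 : 0 < t) (ht : t < κ * r / 2) :
    p + ((σ * t : ℝ) : ℂ) * e (β - π / 2) ∈ closedBall x r := by
  have hr : 0 ≤ r := hd0.trans hdr
  have hκ0 : 0 < κ := by
    by_contra hneg
    push Not at hneg
    nlinarith [mul_nonneg hr (neg_nonneg.2 hneg)]
  rw [mem_closedBall, dist_eq_norm]
  have e1 : p + ((σ * t : ℝ) : ℂ) * e (β - π / 2) - x
      = ((σ * t : ℝ) : ℂ) * e (β - π / 2) - (d : ℂ) * e γ := by rw [← hx]; ring
  rw [e1]
  refine abs_le_of_sq_le_sq' ?_ hr |>.2
  rw [Complex.sq_norm, Complex.normSq_apply]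
  simp only [Complex.sub_re, Complex.sub_im, Complex.re_ofReal_mul, Complex.im_ofReal_mul, e_re,
    e_im, Real.cos_sub_pi_div_two, Real.sin_sub_pi_div_two]
  have hβ := Real.sin_sq_add_cos_sq β
  have hγ := Real.sin_sq_add_cos_sq γ
  rw [Real.sin_sub] at hs
  have e2 : (σ * t * Real.sin β - d * Real.cos γ) * (σ * t * Real.sin β - d * Real.cos γ) +
      (σ * t * -Real.cos β - d * Real.sin γ) * (σ * t * -Real.cos β - d * Real.sin γ)
      = t ^ 2 + d ^ 2 - 2 * t * d *
        (σ * (Real.sin β * Real.cos γ - Real.cos β * Real.sin γ)) := by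
    linear_combination (σ ^ 2 * t ^ 2) * hβ + d ^ 2 * hγ + t ^ 2 * hσ
  rw [e2]
  have h5 : 2 * t * d * κ ≤ 2 * t * d *
      (σ * (Real.sin β * Real.cos γ - Real.cos β * Real.sin γ)) := by gcongr
  have h6 : κ * r ≤ r := by nlinarith
  rcases le_total d (r / 2) with h7 | h7
  · have : 0 ≤ 2 * t * d * κ := by positivity
    nlinarith
  · have h8 : t * (κ * r) ≤ 2 * t * d * κ := by nlinarith [mul_pos ht0 hκ0]
    nlinarith

end Polar

open Polar in
/-- If most points on a double cone through a point `p` of a disc belong to `N`, then `N` has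
density bounded below in the disc.

Proof. Let `m = volume M ∈ (0, π]` and `κ ∈ (0, 1]` with
`volume {β ∈ [b, b + π) | |sin (β - γ)| < κ} ≤ m/4` for all `γ` (`|sin y| ≥ 2|y|/π` on
`[-π/2, π/2]`). Write `x - p = d e γ`, `0 ≤ d ≤ r`. If `|sin (β - γ)| ≥ κ` and `0 < t < κ r / 2`,
the point `p + σ t e (β - π/2)`, `σ = sign (sin (β - γ))`, is in the disc: its squared distance to `x`
is `t² - 2 t d |sin (β - γ)| + d² ≤ r²` (cases `d ≤ r/2`, `d ≥ r/2`). So for a.e. `t ∈ (0, κ r/2)`
the set of `β' ∈ [b - π/2, b + 3π/2)` with `p + t e β' ∈ N ∩ closedBall x r` has measure `≥ m/2`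
(split into the two halves `β' = β - π/2`, `β' = β + π/2`). Polar coordinates about `p`
(`Complex.lintegral_comp_polarCoord_symm` after a translation and a rotation) give area
`≥ ∫_0^{κ r/2} t m/2 dt = m κ² r²/16`. -/
theorem polar_lower (b : ℝ) (M : Set ℝ) (hM : MeasurableSet M) (hMb : M ⊆ Ico b (b + π))
    (hM0 : volume M ≠ 0) : ∃ ε > 0, ∀ N : Set ℂ, MeasurableSet N → ∀ (x p : ℂ) (r : ℝ), 0 < r →
      p ∈ closedBall x r →
      (∀ᵐ t : ℝ, 0 < t → t < r → volume {β ∈ M | p + (t : ℂ) * e (β - π / 2) ∉ N ∨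
        p - (t : ℂ) * e (β - π / 2) ∉ N} ≤ volume M / 4) → ε ≤ dens N x r := by
  have hpi := Real.pi_pos
  have hMle : volume M ≤ ENNReal.ofReal π := by
    refine (measure_mono hMb).trans ?_
    rw [Real.volume_Ico]; simp
  have hMtop : volume M ≠ ⊤ := ne_top_of_le_ne_top ENNReal.ofReal_ne_top hMle
  obtain ⟨m, hm0, hm⟩ : ∃ m : ℝ, 0 < m ∧ volume M = ENNReal.ofReal m :=
    ⟨(volume M).toReal, ENNReal.toReal_pos hM0 hMtop, (ENNReal.ofReal_toReal hMtop).symm⟩
  have hmpi : m ≤ π := by
    rw [hm] at hMle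
    exact (ENNReal.ofReal_le_ofReal_iff hpi.le).1 hMle
  set κ : ℝ := m / (12 * π) with hκ
  have hκ0 : 0 < κ := by positivity
  have hκ1 : κ ≤ 1 := by
    rw [hκ, div_le_one (by positivity)]; linarith
  have hκm : 3 * (κ * π) = m / 4 := by rw [hκ]; field_simp; ring
  refine ⟨κ ^ 2 * m / (64 * π), by positivity, ?_⟩
  intro N hN x p r hr hp h
  set S : Set ℂ := N ∩ closedBall x r with hS
  have hSm : MeasurableSet S := hN.inter measurableSet_closedBall
  set a : ℝ := b + π / 2 with ha
  set d : ℝ := ‖x - p‖ with hd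
  have hdr : d ≤ r := by
    rw [mem_closedBall, dist_comm, dist_eq_norm] at hp; exact hp
  set w : ℂ := (x - p) * e (-a) with hw
  set γ : ℝ := a + Complex.arg w with hγ
  have hx : x - p = (d : ℂ) * e γ := by
    have h1 : ‖w‖ = d := by rw [hw, norm_mul, norm_e, mul_one]
    have h2 : (‖w‖ : ℂ) * e (Complex.arg w) = w := Complex.norm_mul_exp_arg_mul_I w
    have h3 : e (-a) * e a = 1 := by rw [← e_add, neg_add_cancel, e_zero]
    rw [hγ, e_add, ← h1, mul_left_comm, h2, hw]
    linear_combination (-(x - p)) * h3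
  have hγ1 : b - π / 2 ≤ γ := by linarith [Complex.neg_pi_lt_arg w]
  have hγ2 : γ ≤ b + 3 * π / 2 := by linarith [Complex.arg_le_pi w]
  have hbad := volume_small_sin κ γ b hκ0.le hγ1 hγ2
  rw [hκm] at hbad
  set s : ℝ := κ * r / 4 with hs
  have hs0 : 0 < s := by positivity
  have hmain : ENNReal.ofReal s * (ENNReal.ofReal (m / 4) * ENNReal.ofReal s) ≤ volume S := by
    refine area_lower S hSm p a s hs0 _ ?_
    filter_upwards [h] with t ht hst hts
    have ht0 : 0 < t := hs0.trans hst
    have htκ : t < κ * r / 2 := by linarith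
    have htr : t < r := by nlinarith
    have hB := ht ht0 htr
    set T : Set ℝ := {θ : ℝ | θ ∈ Ioo (-π) π ∧ p + (t : ℂ) * e (a + θ) ∈ S} with hT
    set B : Set ℝ := {β ∈ M | p + (t : ℂ) * e (β - π / 2) ∉ N ∨
        p - (t : ℂ) * e (β - π / 2) ∉ N} with hBdef
    set Z : Set ℝ := {β : ℝ | β ∈ Ico b (b + π) ∧ |Real.sin (β - γ)| < κ} with hZ
    have hcover : M ⊆ {b} ∪ B ∪ Z ∪ ((fun β => β + -(b + π)) ⁻¹' T ∪ (fun β => β + -b) ⁻¹' T) := by
      intro β hβ
      by_cases h1 : β = b
      · left; left; left; exact h1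
      by_cases h2 : β ∈ B
      · left; left; right; exact h2
      by_cases h3 : β ∈ Z
      · left; right; exact h3
      right
      have hβI := hMb hβ
      have hbβ : b < β := lt_of_le_of_ne hβI.1 (Ne.symm h1)
      have hN2 : p + (t : ℂ) * e (β - π / 2) ∈ N ∧ p - (t : ℂ) * e (β - π / 2) ∈ N := by
        by_contra hc
        exact h2 ⟨hβ, not_and_or.1 hc⟩
      have hsin : κ ≤ |Real.sin (β - γ)| := by
        by_contra hc
        exact h3 ⟨hβI, not_le.1 hc⟩
      rcases le_abs.1 hsin with h4 | h4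
      · left
        refine ⟨⟨by linarith, by linarith [hβI.2]⟩, ?_⟩
        have e1 : a + (β + -(b + π)) = β - π / 2 := by rw [ha]; ring
        rw [e1]
        refine ⟨hN2.1, ?_⟩
        have := mem_disc x p r d γ β t 1 κ hx (norm_nonneg _) hdr (by norm_num) hκ1
          (by linarith) ht0 htκ
        simpa using this
      · right
        refine ⟨⟨by linarith, by linarith [hβI.2]⟩, ?_⟩
        have e1 : a + (β + -b) = (β - π / 2) + π := by rw [ha]; ring
        rw [e1, e_add_pi, mul_neg, ← sub_eq_add_neg]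
        refine ⟨hN2.2, ?_⟩
        have := mem_disc x p r d γ β t (-1) κ hx (norm_nonneg _) hdr (by norm_num) hκ1
          (by linarith) ht0 htκ
        simpa [sub_eq_add_neg] using this
    have hB' : volume B ≤ ENNReal.ofReal (m / 4) := by
      rw [hm] at hB
      refine hB.trans (le_of_eq ?_)
      rw [ENNReal.ofReal_div_of_pos (by norm_num)]; simp
    have hle : ENNReal.ofReal m ≤ ENNReal.ofReal (m / 4) + ENNReal.ofReal (m / 4) +
        (volume T + volume T) := by
      rw [← hm]
      refine (measure_mono hcover).trans ((measure_union_le _ _).trans ?_)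
      gcongr
      · refine (measure_union_le _ _).trans ?_
        gcongr
        refine (measure_union_le _ _).trans ?_
        simpa using hB'
      · refine (measure_union_le _ _).trans ?_
        rw [measure_preimage_add_right, measure_preimage_add_right]
    by_contra hc
    push Not at hc
    have h9 : ENNReal.ofReal (m / 4) + ENNReal.ofReal (m / 4) + (volume T + volume T)
        < ENNReal.ofReal (m / 4) + ENNReal.ofReal (m / 4) +
          (ENNReal.ofReal (m / 4) + ENNReal.ofReal (m / 4)) := by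
      refine ENNReal.add_lt_add_left (by simp) (ENNReal.add_lt_add hc hc)
    have h0 : 0 ≤ m / 4 := by positivity
    rw [← ENNReal.ofReal_add h0 h0, ← ENNReal.ofReal_add (by positivity) (by positivity)] at h9
    rw [← ENNReal.ofReal_add h0 h0] at hle
    have h10 := hle.trans_lt h9
    have e3 : m / 4 + m / 4 + (m / 4 + m / 4) = m := by ring
    rw [e3] at h10
    exact lt_irrefl _ h10
  have hStop : volume S ≠ ⊤ :=
    ne_top_of_le_ne_top measure_closedBall_lt_top.ne (measure_mono inter_subset_right)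
  rw [← ENNReal.ofReal_mul (by positivity), ← ENNReal.ofReal_mul hs0.le,
    ENNReal.ofReal_le_iff_le_toReal hStop] at hmain
  unfold dens
  rw [le_div_iff₀ (by positivity), measureReal_def]
  refine le_trans (le_of_eq ?_) hmain
  rw [hs]; field_simp; ring

end Crest.Agent.R40
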