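import Crest.Agent.R40.Polar
import Crest.Agent.R40.Blocks

/-!
# Row 40, task C1b: a point of colour `i` sees a double cone free of `L`
-/

set_option autoImplicit false

namespace Crest.Agent.R40
open MeasureTheory Set Filter Topology Metric
open scoped ENNReal Real

namespace Ql

/-- two measurably chosen points at unit distance have different colours, for a.e. base point -/
lemma ae_pair (C : MCol) (u w : ℝ × ℝ → ℂ) (hu : Measurable u) (hw : Measurable w) :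
    ∀ᵐ p : ℂ, ∀ᵐ s : ℝ, ∀ᵐ β : ℝ, ‖w (s, β) - u (s, β)‖ = 1 →
      C.c (p + u (s, β)) ≠ C.c (p + w (s, β)) := by
  have hm : MeasurableSet {z : (ℝ × ℝ) × ℂ | ‖w z.1 - u z.1‖ = 1 →
      C.c (z.2 + u z.1) ≠ C.c (z.2 + w z.1)} := by
    have h1 : MeasurableSet {z : (ℝ × ℝ) × ℂ | ‖w z.1 - u z.1‖ = 1} :=
      measurableSet_eq_fun (by fun_prop) measurable_const
    have h2 : MeasurableSet {z : (ℝ × ℝ) × ℂ | C.c (z.2 + u z.1) = C.c (z.2 + w z.1)} :=
      measurableSet_eq_fun (C.meas.comp (by fun_prop)) (C.meas.comp (by fun_prop))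
    have : {z : (ℝ × ℝ) × ℂ | ‖w z.1 - u z.1‖ = 1 → C.c (z.2 + u z.1) ≠ C.c (z.2 + w z.1)}
        = {z : (ℝ × ℝ) × ℂ | ‖w z.1 - u z.1‖ = 1}ᶜ ∪
          {z : (ℝ × ℝ) × ℂ | C.c (z.2 + u z.1) = C.c (z.2 + w z.1)}ᶜ := by
      ext z
      simp only [mem_ofPred_eq, mem_union, mem_compl_iff]
      tauto
    rw [this]
    exact h1.compl.union h2.compl
  have h1 : ∀ᵐ q : ℝ × ℝ, ∀ᵐ p : ℂ, ‖w q - u q‖ = 1 → C.c (p + u q) ≠ C.c (p + w q) := by
    refine ae_of_all _ fun q => ?_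
    by_cases hq : ‖w q - u q‖ = 1
    · have h2 := C.proper _ hq
      have h3 := (measurePreserving_add_right (volume : Measure ℂ) (u q)).quasiMeasurePreserving.ae h2
      filter_upwards [h3] with p hp _
      have : p + u q + (w q - u q) = p + w q := by ring
      rwa [this] at hp
    · exact ae_of_all _ fun p h => absurd h hq
  have h2 := (Measure.ae_ae_comm (μ := (volume : Measure (ℝ × ℝ))) (ν := (volume : Measure ℂ))
    (p := fun q p => ‖w q - u q‖ = 1 → C.c (p + u q) ≠ C.c (p + w q)) hm).1 h1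
  filter_upwards [h2] with p hp
  rw [Measure.volume_eq_prod] at hp
  exact Measure.ae_ae_of_ae_prod hp

lemma norm_sub_e (s γ : ℝ) (h : Real.cos γ = s / 2) (α : ℝ) :
    ‖(s : ℂ) * e (α + γ) - e α‖ = 1 := by
  have h1 : (s : ℂ) * e (α + γ) - e α = e α * ((s : ℂ) * e γ - 1) := by rw [e_add]; ring
  rw [h1, norm_mul, norm_e, one_mul]
  have h2 : ‖(s : ℂ) * e γ - 1‖ ^ 2 = 1 := by
    rw [Complex.sq_norm, Complex.normSq_apply]
    simp only [Complex.sub_re, Complex.mul_re, Complex.ofReal_re, Complex.ofReal_im, e_re, e_im,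
      Complex.sub_im, Complex.mul_im, Complex.one_re, Complex.one_im, h]
    have := Real.sin_sq_add_cos_sq γ
    rw [h] at this
    linear_combination s ^ 2 * this
  have h3 := norm_nonneg ((s : ℂ) * e γ - 1)
  nlinarith

/-- the shift of the angle -/
noncomputable def sh (s : ℝ) : ℝ := Real.arcsin (s / 2)

lemma continuous_sh : Continuous sh := by unfold sh; fun_prop

lemma abs_sh_le (s : ℝ) : |sh s| ≤ π / 2 :=
  abs_le.2 ⟨Real.neg_pi_div_two_le_arcsin _, Real.arcsin_le_pi_div_two _⟩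

lemma unit₁ (s β : ℝ) (hs : |s| ≤ 2) : ‖(s : ℂ) * e (β - π / 2) - e (β - sh s)‖ = 1 := by
  have h := norm_sub_e s (sh s - π / 2) (by
    rw [Real.cos_sub_pi_div_two, sh, Real.sin_arcsin] <;> linarith [abs_le.1 hs]) (β - sh s)
  rwa [show β - sh s + (sh s - π / 2) = β - π / 2 by ring] at h

lemma unit₂ (s β : ℝ) (hs : |s| ≤ 2) : ‖(s : ℂ) * e (β - π / 2) - e (β + π + sh s)‖ = 1 := by
  have h := norm_sub_e s (-(sh s + π / 2) - π) (by
    rw [Real.cos_sub_pi, Real.cos_neg, Real.cos_add_pi_div_two, neg_neg, sh, Real.sin_arcsin] <;>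
      linarith [abs_le.1 hs]) (β + π + sh s)
  rwa [show β + π + sh s + (-(sh s + π / 2) - π) = β - π / 2 by ring] at h

/-- the unit-distance constraints used for the base point `p` and the parameter `s` -/
def Good (C : MCol) (p : ℂ) (s : ℝ) : Prop :=
  ∀ᵐ β : ℝ, C.c (p + e (β - sh s)) ≠ C.c (p + (s : ℂ) * e (β - π / 2)) ∧
    C.c (p + e (β + π + sh s)) ≠ C.c (p + (s : ℂ) * e (β - π / 2)) ∧
    C.c p ≠ C.c (p + e (β - sh s)) ∧ C.c p ≠ C.c (p + e (β + π + sh s))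

lemma ae_good (C : MCol) : ∀ᵐ p : ℂ, ∀ᵐ s : ℝ, |s| ≤ 2 → Good C p s ∧ Good C p (-s) := by
  have he := continuous_e
  have hs := continuous_sh
  have h1 := ae_pair C (fun q => e (q.2 - sh q.1)) (fun q => (q.1 : ℂ) * e (q.2 - π / 2))
    (Continuous.measurable (by fun_prop)) (Continuous.measurable (by fun_prop))
  have h2 := ae_pair C (fun q => e (q.2 + π + sh q.1)) (fun q => (q.1 : ℂ) * e (q.2 - π / 2))
    (Continuous.measurable (by fun_prop)) (Continuous.measurable (by fun_prop))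
  have h3 := ae_pair C (fun _ => 0) (fun q => e (q.2 - sh q.1))
    measurable_const (Continuous.measurable (by fun_prop))
  have h4 := ae_pair C (fun _ => 0) (fun q => e (q.2 + π + sh q.1))
    measurable_const (Continuous.measurable (by fun_prop))
  filter_upwards [h1, h2, h3, h4] with p h1 h2 h3 h4
  have h5 : ∀ᵐ s : ℝ, |s| ≤ 2 → Good C p s := by
    filter_upwards [h1, h2, h3, h4] with s h1 h2 h3 h4 hs
    filter_upwards [h1, h2, h3, h4] with β h1 h2 h3 h4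
    refine ⟨h1 (unit₁ s β hs), h2 (unit₂ s β hs), ?_, ?_⟩
    · simpa using h3 (by simp [norm_e])
    · simpa using h4 (by simp [norm_e])
  have h6 := (Measure.measurePreserving_neg (volume : Measure ℝ)).quasiMeasurePreserving.ae h5
  filter_upwards [h5, h6] with s h5 h6 hs
  exact ⟨h5 hs, h6 (by simpa using hs)⟩

/-- continuity of `S v` under small shifts of the angle -/
lemma shift_small (C : MCol) (v : ℂ) (K : ℝ) :
    Tendsto (fun a : ℝ => volume {θ ∈ Icc (-K) K | C.S v (θ + a) ≠ C.S v θ}) (𝓝 0) (𝓝 0) := by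
  have h1 : ∀ i : Fin 5, Tendsto (fun a : ℝ => volume {θ ∈ Icc (-K) K |
      ¬ (θ + a ∈ C.Th v i ↔ θ ∈ C.Th v i)}) (𝓝 0) (𝓝 0) := by
    intro i
    refine cc (𝓝 (0 : ℝ)) (Icc (-K) K) measurableSet_Icc (by simp) (fun a θ => θ + a) (fun θ => θ)
      1 zero_le_one (Eventually.of_forall fun a => ⟨by fun_prop, fun s _ t _ => by simp⟩)
      (by fun_prop) (fun s _ => ?_) _ (C.measurableSet_Th v i)
    have : Tendsto (fun a : ℝ => s + a) (𝓝 0) (𝓝 (s + 0)) := tendsto_const_nhds.add tendsto_id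
    simpa using this
  have h2 := tendsto_finsetSum Finset.univ (fun i _ => h1 i)
  simp only [Finset.sum_const_zero] at h2
  refine tendsto_of_tendsto_of_tendsto_of_le_of_le tendsto_const_nhds h2 (fun a => zero_le)
    (fun a => ?_)
  refine le_trans (measure_mono ?_) (measure_biUnion_finset_le _ _)
  intro θ hθ
  simp only [mem_iUnion, mem_ofPred_eq]
  by_contra hcon
  push Not at hcon
  refine hθ.2 (Finset.ext fun i => ?_)
  rw [C.mem_S, C.mem_S]
  exact hcon i (Finset.mem_univ i) hθ.1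

/-- the main estimate -/
lemma main_est (C : MCol) (v : ℂ) (i : Fin 5) (L : Finset (Fin 5)) (b : ℝ) (M : Set ℝ)
    (hMb : M ⊆ Ico b (b + π))
    (hM : ∀ α ∈ M, ∀ j ∈ L, C.S v α ⊆ {i, j} ∨ C.S v (α + π) ⊆ {i, j})
    (p : ℂ) (hp : C.c p = i) (s : ℝ) (hg : Good C p s) (η : ℝ≥0∞)
    (hX : volume {θ : ℝ | |θ| ≤ |b| + 3 * π ∧ C.c (p + e θ) ∉ C.S v θ} ≤ η)
    (hD₁ : volume {θ ∈ Icc (-(|b| + 3 * π)) (|b| + 3 * π) | C.S v (θ + -sh s) ≠ C.S v θ} ≤ η)
    (hD₂ : volume {θ ∈ Icc (-(|b| + 3 * π)) (|b| + 3 * π) | C.S v (θ + sh s) ≠ C.S v θ} ≤ η) :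
    volume {β ∈ M | C.c (p + (s : ℂ) * e (β - π / 2)) ∈ L} ≤ 4 * η := by
  set X := {θ : ℝ | |θ| ≤ |b| + 3 * π ∧ C.c (p + e θ) ∉ C.S v θ} with hXdef
  set D₁ := {θ ∈ Icc (-(|b| + 3 * π)) (|b| + 3 * π) | C.S v (θ + -sh s) ≠ C.S v θ} with hD₁def
  set D₂ := {θ ∈ Icc (-(|b| + 3 * π)) (|b| + 3 * π) | C.S v (θ + sh s) ≠ C.S v θ} with hD₂def
  have hsub : {β ∈ M | C.c (p + (s : ℂ) * e (β - π / 2)) ∈ L} ≤ᵐ[volume]
      (((fun β => β + -sh s) ⁻¹' X ∪ (fun β => β + (π + sh s)) ⁻¹' X) ∪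
        (D₁ ∪ (fun β => β + π) ⁻¹' D₂) : Set ℝ) := by
    filter_upwards [hg] with β hβ hmem
    obtain ⟨h1, h2, h3, h4⟩ := hβ
    obtain ⟨hβM, hβL⟩ := hmem
    have hb := hMb hβM
    have hpi := Real.pi_pos
    have hsh := abs_le.1 (abs_sh_le s)
    have hb1 := le_abs_self b
    have hb2 := neg_abs_le b
    obtain ⟨hb3, hb4⟩ := hb
    by_contra hcon
    change ¬ (β ∈ ((fun β => β + -sh s) ⁻¹' X ∪ (fun β => β + (π + sh s)) ⁻¹' X) ∪
        (D₁ ∪ (fun β => β + π) ⁻¹' D₂)) at hcon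
    simp only [mem_union, mem_preimage, not_or, hXdef, hD₁def, hD₂def, mem_ofPred_eq, not_and,
      not_not] at hcon
    obtain ⟨⟨c1, c2⟩, c3, c4⟩ := hcon
    have c1 := c1 (abs_le.2 ⟨by linarith, by linarith⟩)
    have c2 := c2 (abs_le.2 ⟨by linarith, by linarith⟩)
    have c3 := c3 ⟨by linarith, by linarith⟩
    have c4 := c4 ⟨by linarith, by linarith⟩
    rw [← sub_eq_add_neg] at c1 c3
    rw [← add_assoc] at c2
    rcases hM β hβM _ hβL with hS | hS
    · rw [c3] at c1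
      have := hS c1
      simp only [Finset.mem_insert, Finset.mem_singleton] at this
      rcases this with h | h
      · exact h3 (hp.trans h.symm)
      · exact h1 h
    · rw [c4] at c2
      have := hS c2
      simp only [Finset.mem_insert, Finset.mem_singleton] at this
      rcases this with h | h
      · exact h4 (hp.trans h.symm)
      · exact h2 h
  calc _ ≤ _ := measure_mono_ae hsub
    _ ≤ (volume ((fun β => β + -sh s) ⁻¹' X) + volume ((fun β => β + (π + sh s)) ⁻¹' X)) +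
        (volume D₁ + volume ((fun β => β + π) ⁻¹' D₂)) :=
      (measure_union_le _ _).trans (add_le_add (measure_union_le _ _) (measure_union_le _ _))
    _ ≤ (η + η) + (η + η) := by
      rw [measure_preimage_add_right, measure_preimage_add_right, measure_preimage_add_right]
      gcongr
    _ = 4 * η := by ring

lemma exists_window (P : Set ℝ) (hP : volume P ≠ 0) :
    ∃ b : ℝ, volume (P ∩ Ico b (b + π)) ≠ 0 := by
  by_contra hcon
  push Not at hcon
  apply hP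
  have h1 : P = ⋃ n : ℤ, P ∩ Ico (0 + n • π) (0 + (n + 1) • π) := by
    rw [← inter_iUnion, iUnion_Ico_add_zsmul Real.pi_pos, inter_univ]
  rw [h1]
  refine measure_iUnion_null fun n => ?_
  have := hcon (0 + n • π)
  rwa [add_zsmul, one_zsmul, ← add_assoc]

end Ql

/-- Proof. `Mp j = {α | S v α ⊆ {i, j}}`, `Mm j = {α | S v (α + π) ⊆ {i, j}}` (measurable). Choose
`b` with `M = [b, b + π) ∩ ⋂_{j ∈ L} (Mp j ∪ Mm j)` of positive measure `m`; `ε₀` from
`polar_lower`, `ε = ε₀/2`. Call `p` typical if (a) `X p = {|α| ≤ K | c (p + e α) ∉ S v α}` has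
measure `≤ η` (`exc_small`), (b) `c (p + e α) ≠ c p` for a.e. `α` (`ae_proper`), (c) for a.e. `s`,
a.e. `α`: `|s| < 1 → c (p + e α) ≠ c (p + s e (α + arcsin (s/2) - π/2))` (the two points are at
distance 1; for fixed `(s, α)` use `C.proper` and translation invariance, then Fubini). A.e. `p` near
`v` is typical. Let `p` be typical with `c p = i`, `s` as in (c) together with `-s`,
`a = arcsin (s/2)`, `p_s β = p + s e (β - π/2)`. If `β - a ∈ Mp j \ X p` then `c (p + e (β - a)) = j`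
so `c (p_s β) ≠ j` (a.e.); if `β + a ∈ Mm j`, `β + a + π ∉ X p`, the same with `α = β + a + π` and
`-s` in (c). Hence `volume {β ∈ M | c (p_s β) ∈ L}` is at most
`Σ_j (volume {β ∈ M | ¬(β - a ∈ Mp j ↔ β ∈ Mp j)} + volume {β ∈ M | ¬(β + a ∈ Mm j ↔ β ∈ Mm j)}) + 2η`
`≤ m/8` for small `|s|`, `η` (`cc` for translations). `polar_lower` with `N = (A L)ᶜ` gives
`1 - f L x r ≥ ε₀` if the disc `(x, r)` contains such a `p`; otherwise `f {i} x r = 0`. -/
theorem MCol.ql (C : MCol) (v : ℂ) (i : Fin 5) (L : Finset (Fin 5))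
    (h : ∃ᵐ α : ℝ, ∀ j ∈ L, C.S v α ⊆ {i, j} ∨ C.S v (α + π) ⊆ {i, j}) :
    ∃ ε > 0, ∀ᶠ p : ℂ × ℝ in 𝓝 v ×ˢ 𝓝[>] 0, 1 - ε ≤ C.f L p.1 p.2 → C.f {i} p.1 p.2 = 0 := by
  have hPm : MeasurableSet {α : ℝ | ∀ j ∈ L, C.S v α ⊆ {i, j} ∨ C.S v (α + π) ⊆ {i, j}} := by
    have : {α : ℝ | ∀ j ∈ L, C.S v α ⊆ {i, j} ∨ C.S v (α + π) ⊆ {i, j}} =
        ⋂ j ∈ L, ({α : ℝ | C.S v α ⊆ {i, j}} ∪
          (fun α => α + π) ⁻¹' {α : ℝ | C.S v α ⊆ {i, j}}) := by
      ext α
      simp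
    rw [this]
    refine Finset.measurableSet_biInter _ fun j _ => ?_
    have h1 := C.measurableSet_S v (fun T => T ⊆ {i, j})
    exact h1.union (h1.preimage (by fun_prop))
  obtain ⟨b, hb⟩ := Ql.exists_window _ (frequently_ae_iff.1 h)
  set M := {α : ℝ | ∀ j ∈ L, C.S v α ⊆ {i, j} ∨ C.S v (α + π) ⊆ {i, j}} ∩ Ico b (b + π)
    with hMdef
  have hMm : MeasurableSet M := hPm.inter measurableSet_Ico
  have hMb : M ⊆ Ico b (b + π) := inter_subset_right
  have hMP : ∀ α ∈ M, ∀ j ∈ L, C.S v α ⊆ {i, j} ∨ C.S v (α + π) ⊆ {i, j} := fun α hα => hα.1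
  obtain ⟨ε₀, hε₀, hpol⟩ := polar_lower b M hMm hMb hb
  refine ⟨ε₀ / 2, by positivity, ?_⟩
  set η : ℝ≥0∞ := volume M / 4 / 8 with hη
  have hη0 : 0 < η := ENNReal.div_pos (ENNReal.div_pos hb (by simp)).ne' (by simp)
  set K := |b| + 3 * π with hK
  have hX := (C.exc_small v K).eventually (Iic_mem_nhds hη0)
  have htyp := hX.and ((Ql.ae_good C).filter_mono (inf_le_right (a := 𝓝 v)))
  obtain ⟨U, hU, W, hW, hUW⟩ := eventually_inf.1 htyp
  obtain ⟨δ, hδ, hδU⟩ := Metric.mem_nhds_iff.1 hU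
  have hD := (Ql.shift_small C v K).eventually (Iic_mem_nhds hη0)
  have hsh0 : Tendsto Ql.sh (𝓝 0) (𝓝 0) := by
    have := Ql.continuous_sh.tendsto 0
    simpa [Ql.sh] using this
  have hsh1 : Tendsto (fun s => -Ql.sh s) (𝓝 0) (𝓝 0) := by simpa using hsh0.neg
  obtain ⟨δ', hδ', hδD⟩ := Metric.eventually_nhds_iff.1 ((hsh0.eventually hD).and (hsh1.eventually hD))
  have hx : ∀ᶠ x in 𝓝 v, dist x v < δ / 2 := ball_mem_nhds v (by positivity)
  have hr : ∀ᶠ r in 𝓝[>] (0 : ℝ), r ∈ Ioo 0 (min (δ / 2) (min δ' 2)) :=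
    Ioo_mem_nhdsGT (by positivity)
  filter_upwards [hx.prod_mk hr] with q hq hfL
  obtain ⟨x, r⟩ := q
  obtain ⟨hxv, hr0, hr1⟩ := hq
  simp only [lt_min_iff] at hr1 hxv hr0 hfL ⊢
  obtain ⟨hr1, hr2, hr3⟩ := hr1
  by_contra hne
  have hpos : volume (C.A {i} ∩ closedBall x r) ≠ 0 := fun h0 =>
    hne ((dens_eq_zero_iff _ x r hr0).2 h0)
  obtain ⟨p, ⟨hpi, hpx⟩, hpW⟩ : ∃ p ∈ C.A {i} ∩ closedBall x r, p ∈ W :=
    (frequently_ae_iff.2 hpos |>.and_eventually hW).exists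
  have hpU : p ∈ U := by
    apply hδU
    rw [mem_closedBall] at hpx
    rw [mem_ball]
    linarith [dist_triangle p x v]
  obtain ⟨hpX, hpG⟩ := hUW p ⟨hpU, hpW⟩
  have hcp : C.c p = i := by simpa [MCol.A] using hpi
  have hlow := hpol (C.A L)ᶜ (C.measurableSet_A L).compl x p r hr0 hpx (by
    filter_upwards [hpG] with t ht ht0 htr
    obtain ⟨g1, g2⟩ := ht (abs_le.2 ⟨by linarith, by linarith⟩)
    obtain ⟨d1, d2⟩ := @hδD t (by rw [Real.dist_eq, sub_zero, abs_of_pos ht0]; linarith)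
    obtain ⟨d3, d4⟩ := @hδD (-t) (by
      rw [Real.dist_eq, sub_zero, abs_neg, abs_of_pos ht0]; linarith)
    have e1 := Ql.main_est C v i L b M hMb hMP p hcp t g1 η hpX d2 d1
    have e2 := Ql.main_est C v i L b M hMb hMP p hcp (-t) g2 η hpX d4 d3
    calc _ ≤ volume ({β ∈ M | C.c (p + (t : ℂ) * e (β - π / 2)) ∈ L} ∪
          {β ∈ M | C.c (p + ((-t : ℝ) : ℂ) * e (β - π / 2)) ∈ L}) := by
          refine measure_mono fun β hβ => ?_
          obtain ⟨hβM, hβ⟩ := hβ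
          simp only [MCol.A, mem_compl_iff, mem_ofPred_eq, not_not] at hβ
          rcases hβ with hβ | hβ
          · exact Or.inl ⟨hβM, hβ⟩
          · refine Or.inr ⟨hβM, ?_⟩
            simpa [sub_eq_add_neg] using hβ
      _ ≤ 4 * η + 4 * η := (measure_union_le _ _).trans (add_le_add e1 e2)
      _ = 8 * η := by ring
      _ ≤ volume M / 4 := ENNReal.mul_div_le)
  have hc := dens_add_compl (C.A L) (C.measurableSet_A L) x r hr0
  unfold MCol.f at hfL
  linarith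

end Crest.Agent.R40
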