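import Crest.Agent.R40.Comp

/-!
# Row 40, task C3: the rigidity lemma
-/

set_option autoImplicit false

namespace Crest.Agent.R40
open MeasureTheory Set Filter Topology Metric
open scoped ENNReal Real

namespace Rigid

theorem ae_comp {g : ℝ → ℝ} (h : ∀ s t, |s - t| ≤ 2 * |g s - g t|) {p : ℝ → Prop}
    (hp : ∀ᵐ x, p x) : ∀ᵐ θ, p (g θ) := by
  have h1 := vol_preimage_le g univ 2 (by norm_num) (fun s _ t _ => h s t) {x | ¬ p x}
  rw [ae_iff] at hp ⊢
  rw [hp, mul_zero, univ_inter] at h1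
  exact le_antisymm h1 zero_le

theorem ii_of_bdd {f : ℝ → ℝ} (hf : Measurable f) (C : ℝ) (h : ∀ x, |f x| ≤ C) (s t : ℝ) :
    IntervalIntegrable f volume s t :=
  (intervalIntegrable_const (c := C)).mono_fun' hf.aestronglyMeasurable (ae_of_all _ h)

theorem deriv_near {a : ℝ → ℝ} (ha : Differentiable ℝ a) {δ : ℝ} (hδ : 0 ≤ δ)
    (h : ∀ s t, |(a s - s) - (a t - t)| ≤ δ * |s - t|) (x : ℝ) : |deriv a x - 1| ≤ δ := by
  have h1 : HasDerivAt (fun s => a s - s) (deriv a x - 1) x :=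
    (ha x).hasDerivAt.sub (hasDerivAt_id x)
  rw [← h1.deriv, ← Real.norm_eq_abs]
  exact norm_deriv_le_of_lip' (f := fun s => a s - s) (x₀ := x) hδ
    (Eventually.of_forall fun y => by simpa only [Real.norm_eq_abs] using h y x)

theorem lip_H {κ a b : ℝ → ℝ} (hκ : Measurable κ) (hκ1 : ∀ x, |κ x| ≤ 1)
    (ha : Differentiable ℝ a) (hb : Differentiable ℝ b) {δ : ℝ} (hδ : 0 ≤ δ) (hδ1 : δ ≤ 1)
    (ha' : ∀ s t, |(a s - s) - (a t - t)| ≤ δ * |s - t|)
    (hb' : ∀ s t, |(b s - s) - (b t - t)| ≤ δ * |s - t|)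
    (hab : ∀ᵐ u, κ (a u) = κ (b u)) (s t : ℝ) :
    |(∫ x in b s..b t, κ x) - ∫ x in a s..a t, κ x| ≤ 2 * δ * |t - s| := by
  have key : ∀ c : ℝ → ℝ, Differentiable ℝ c → (∀ x, |deriv c x - 1| ≤ δ) →
      (∫ x in c s..c t, κ x) = (∫ x in s..t, (κ ∘ c) x * deriv c x) ∧
        IntervalIntegrable (fun x => (κ ∘ c) x * deriv c x) volume s t := by
    intro c hc hc'
    refine ⟨(intervalIntegral.integral_comp_mul_deriv_of_deriv_nonneg hc.continuous.continuousOn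
      (fun x _ => (hc x).hasDerivAt) fun x _ => ?_).symm, ii_of_bdd
      ((hκ.comp hc.continuous.measurable).mul (measurable_deriv c)) 2 (fun x => ?_) s t⟩
    · linarith [(abs_le.mp (hc' x)).1]
    · rw [Pi.mul_apply, abs_mul]
      have h1 : |deriv c x| ≤ 2 := by
        have := abs_le.mp (hc' x)
        rw [abs_le]; constructor <;> linarith
      have h2 := hκ1 (c x)
      calc |(κ ∘ c) x| * |deriv c x| ≤ 1 * 2 :=
            mul_le_mul h2 h1 (abs_nonneg _) zero_le_one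
        _ = 2 := by norm_num
  obtain ⟨h1, h2⟩ := key a ha (deriv_near ha hδ ha')
  obtain ⟨h3, h4⟩ := key b hb (deriv_near hb hδ hb')
  rw [h1, h3, ← intervalIntegral.integral_sub h4 h2, ← Real.norm_eq_abs]
  refine intervalIntegral.norm_integral_le_of_norm_le_const_ae ?_
  filter_upwards [hab] with u hu _
  simp only [Function.comp, hu]
  rw [← mul_sub, Real.norm_eq_abs, abs_mul]
  have h5 := abs_le.mp (deriv_near ha hδ ha' u)
  have h6 := abs_le.mp (deriv_near hb hδ hb' u)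
  have h7 : |deriv b u - deriv a u| ≤ 2 * δ := by rw [abs_le]; constructor <;> linarith
  calc |κ (b u)| * |deriv b u - deriv a u| ≤ 1 * (2 * δ) :=
        mul_le_mul (hκ1 _) h7 (abs_nonneg _) zero_le_one
    _ = 2 * δ := one_mul _

/-- two nearby good points, one in `E` and one outside -/
theorem exists_close {G E : Set ℝ} (hG : ∀ᵐ x, x ∈ G) {x y : ℝ} (hxy : x ≤ y) (hx : x ∈ G)
    (hy : y ∈ G) (hne : ¬ (x ∈ E ↔ y ∈ E)) {η : ℝ} (hη : 0 < η) :
    ∃ u ∈ G, ∃ v ∈ G, u ∈ E ∧ v ∉ E ∧ ∃ z ∈ Icc x y, |u - z| < η ∧ |v - z| < η := by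
  have hd : Dense G := Measure.dense_of_ae hG
  have hcov : Icc x y ⊆ closure (G ∩ E) ∪ closure (G ∩ Eᶜ) := by
    intro z _
    rw [← closure_union, ← inter_union_distrib_left, union_compl_self, inter_univ]
    exact hd z
  have hne1 : (Icc x y ∩ closure (G ∩ E)).Nonempty := by
    by_cases hxE : x ∈ E
    · exact ⟨x, left_mem_Icc.mpr hxy, subset_closure ⟨hx, hxE⟩⟩
    · exact ⟨y, right_mem_Icc.mpr hxy, subset_closure ⟨hy, by tauto⟩⟩
  have hne2 : (Icc x y ∩ closure (G ∩ Eᶜ)).Nonempty := by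
    by_cases hxE : x ∈ E
    · exact ⟨y, right_mem_Icc.mpr hxy, subset_closure ⟨hy, fun h => by tauto⟩⟩
    · exact ⟨x, left_mem_Icc.mpr hxy, subset_closure ⟨hx, hxE⟩⟩
  obtain ⟨z, hz, hz1, hz2⟩ := isPreconnected_closed_iff.mp isPreconnected_Icc _ _
    isClosed_closure isClosed_closure hcov hne1 hne2
  obtain ⟨u, hu, hu'⟩ := Metric.mem_closure_iff.mp hz1 η hη
  obtain ⟨v, hv, hv'⟩ := Metric.mem_closure_iff.mp hz2 η hη
  rw [dist_comm, Real.dist_eq] at hu' hv'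
  exact ⟨u, hu.1, v, hv.1, hu.2, hv.2, z, hz, hu', hv'⟩

/-- first-order expansion along two sequences -/
theorem expand {P : ℝ → ℝ} {c x : ℝ} (hP : HasDerivAt P c x) {a b δ : ℕ → ℝ}
    (hδ : Tendsto δ atTop (𝓝 0)) (ha : ∀ᶠ j in atTop, |a j - x| ≤ δ j)
    (hb : ∀ᶠ j in atTop, |b j - x| ≤ δ j) {ε : ℝ} (hε : 0 < ε) :
    ∀ᶠ j in atTop, |P (b j) - P (a j) - c * (b j - a j)| ≤ 2 * ε * δ j := by
  have h1 := hP.isLittleO.bound hε
  have ht : ∀ d : ℕ → ℝ, (∀ᶠ j in atTop, |d j - x| ≤ δ j) → Tendsto d atTop (𝓝 x) := by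
    intro d hd
    rw [tendsto_iff_norm_sub_tendsto_zero]
    exact squeeze_zero' (Eventually.of_forall fun _ => norm_nonneg _) hd hδ
  filter_upwards [(ht a ha).eventually h1, (ht b hb).eventually h1, ha, hb] with j h2 h3 h4 h5
  simp only [Real.norm_eq_abs, smul_eq_mul] at h2 h3
  have h6 := mul_le_mul_of_nonneg_left h4 hε.le
  have h7 := mul_le_mul_of_nonneg_left h5 hε.le
  have h8 := abs_le.mp (h2.trans h6)
  have h9 := abs_le.mp (h3.trans h7)
  rw [abs_le]; constructor <;> nlinarith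

/-- a direction `γ` approached by a subsequence -/
theorem exists_dir (τ : ℕ → ℂ) : ∃ γ : ℝ, ∃ φ : ℕ → ℕ, StrictMono φ ∧
    ∀ᶠ j in atTop, ∀ θ, |θ - γ| ≤ π / 3 → ‖τ (φ j)‖ / 4 ≤ (τ (φ j) * e (-θ)).re := by
  obtain ⟨γ, -, φ, hφ, hl⟩ := (isCompact_Icc (a := -π) (b := π)).tendsto_subseq
    (x := fun j => Complex.arg (τ j)) fun j => ⟨(Complex.neg_pi_lt_arg _).le, Complex.arg_le_pi _⟩
  refine ⟨γ, φ, hφ, ?_⟩
  filter_upwards [Metric.tendsto_nhds.mp hl (1 / 4) (by norm_num)] with j hj θ hθ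
  simp only [Function.comp, Real.dist_eq] at hj
  have h1 : τ (φ j) * e (-θ) = (‖τ (φ j)‖ : ℂ) * e (Complex.arg (τ (φ j)) - θ) := by
    rw [sub_eq_add_neg, e_add, ← mul_assoc]
    congr 1
    exact (Complex.norm_mul_exp_arg_mul_I _).symm
  rw [h1, Complex.re_ofReal_mul, e_re]
  have h2 : 1 / 2 ≤ Real.cos (γ - θ) := by
    rw [← Real.cos_pi_div_three, ← Real.cos_abs (γ - θ)]
    refine Real.cos_le_cos_of_nonneg_of_le_pi (abs_nonneg _) (by linarith [Real.pi_pos]) ?_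
    rwa [abs_sub_comm]
  have h3 := Real.abs_cos_sub_cos_le (Complex.arg (τ (φ j)) - θ) (γ - θ)
  rw [sub_sub_sub_cancel_right] at h3
  have h4 := (abs_le.mp (h3.trans hj.le)).1
  nlinarith [norm_nonneg (τ (φ j))]

end Rigid

/-- Proof. `κ = 1_E - 1_{Eᶜ} = ±1`, `κ (θ + π/3) = -κ θ` a.e., so `κ (θ + 2π/3) = κ θ` a.e.
`P θ = ∫_0^θ κ`. Let `τ₀, K` be from `rho_spec`, `j` large, `a = rho (-1) (τ j)`,
`b = rho 1 (τ j) - 2π/3`: differentiable, strictly increasing (displacement `1/2`-Lipschitz), null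
sets pull back to null sets (`vol_preimage_le`), so `κ ∘ a = κ ∘ b` a.e. Change of variables
(`integral_image_eq_integral_abs_deriv_smul` or `intervalIntegral.integral_comp_mul_deriv`-like
lemmas for monotone maps): `P (b t) - P (b s) = ∫_s^t κ (b ·) b'`, the same for `a`; so
`H_j = P ∘ b - P ∘ a` satisfies `|H_j t - H_j s| ≤ 2 K ‖τ j‖ |t - s|` (`|b' - 1|, |a' - 1| ≤ K‖τ‖`).
For a.e. `θ`, `P` has derivative `κ (θ - π/3)` at `θ - π/3` (Lebesgue differentiation,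
`LocallyIntegrable.ae_hasDerivAt_integral` / `IntervalIntegrable.ae_hasDerivAt_integral`); as
`|a θ - (θ - π/3)|, |b θ - (θ - π/3)| ≤ K ‖τ j‖` (`rho_zero`), `H_j θ = κ (θ - π/3) (b θ - a θ) + o(‖τ j‖)`.
Take `γ` with `arg (τ j)` within `π/18` of `γ` for infinitely many `j` (compactness); for
`|θ - γ| ≤ π/3` then `Re (τ e (-θ)) ≥ ‖τ‖ cos (7π/18) ≥ ‖τ‖/4` (or use smaller margins), so
`b θ - a θ ≤ -‖τ‖/4`. In this window (longer than `π/3`) both signs of `κ (· - π/3)` occur on the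
conull set of good points, so there are good `θ, θ'` of opposite signs with
`|θ - θ'| < 1/(8 (K + 1))`. Then `|H_j θ - H_j θ'| ≥ ‖τ‖/2 - o(‖τ‖)`, but `≤ ‖τ‖/4`. -/
theorem rigid_core (E : Set ℝ) (hE : MeasurableSet E) (hflip : ∀ᵐ θ, θ ∈ E ↔ θ + π / 3 ∉ E)
    (τ : ℕ → ℂ) (hτ0 : ∀ j, τ j ≠ 0) (hτ : Tendsto τ atTop (𝓝 0))
    (hinv : ∀ j, ∀ᵐ θ, rho 1 (τ j) θ ∈ E ↔ rho (-1) (τ j) θ ∈ E) : False := by
  classical
  obtain ⟨τ₀, K, hτ₀, hK, hKτ, hσ, hgap⟩ := rho_spec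
  obtain ⟨γ, φ, hφ, hdir⟩ := Rigid.exists_dir τ
  have hpi := Real.pi_gt_three
  set κ : ℝ → ℝ := fun x => if x ∈ E then 1 else -1 with hκ
  have hκm : Measurable κ := Measurable.ite hE measurable_const measurable_const
  have hκ1 : ∀ x, |κ x| ≤ 1 := fun x => by
    simp only [hκ]; split_ifs <;> simp
  have hii := Rigid.ii_of_bdd hκm 1 hκ1
  set P : ℝ → ℝ := fun x => ∫ t in (0 : ℝ)..x, κ t with hP
  have hPsub : ∀ x y, P y - P x = ∫ t in x..y, κ t := fun x y =>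
    intervalIntegral.integral_interval_sub_left (hii _ _) (hii _ _)
  have hloc : LocallyIntegrable κ volume :=
    (locallyIntegrable_const (1 : ℝ)).mono hκm.aestronglyMeasurable
      (ae_of_all _ fun x => by simpa using hκ1 x)
  have hshift : ∀ {p : ℝ → Prop}, (∀ᵐ x, p x) → ∀ c : ℝ, ∀ᵐ x, p (x + c) := fun hp c =>
    (measurePreserving_add_right volume c).quasiMeasurePreserving.ae hp
  set G : Set ℝ := {x | HasDerivAt P (κ x) x} with hG
  have hGae : ∀ᵐ x, x ∈ G := by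
    filter_upwards [_root_.LocallyIntegrable.ae_hasDerivAt_integral hloc] with x hx using hx 0
  have h2 : ∀ᵐ x, (x + 2 * π / 3 ∈ E ↔ x ∈ E) := by
    filter_upwards [hflip, hshift hflip (π / 3)] with x h1 h2
    rw [show x + π / 3 + π / 3 = x + 2 * π / 3 by ring] at h2
    tauto
  -- a good pair
  obtain ⟨x, hxI, hx, hx', hxf⟩ : ∃ x ∈ Ioo (γ - π / 3 - π / 4) (γ - π / 3 - π / 6),
      x ∈ G ∧ x + π / 3 ∈ G ∧ (x ∈ E ↔ x + π / 3 ∉ E) := by
    have hd : Dense {x | x ∈ G ∧ x + π / 3 ∈ G ∧ (x ∈ E ↔ x + π / 3 ∉ E)} :=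
      Measure.dense_of_ae (hGae.and ((hshift hGae (π / 3)).and hflip))
    obtain ⟨x, h1, h2⟩ := hd.inter_open_nonempty _
      (isOpen_Ioo (a := γ - π / 3 - π / 4) (b := γ - π / 3 - π / 6))
      (nonempty_Ioo.mpr (by linarith))
    exact ⟨x, h1, h2⟩
  set η : ℝ := 1 / (16 * (K + 1)) with hη
  have hη0 : 0 < η := by positivity
  have hηK : K * η ≤ 1 / 16 := by
    rw [hη, mul_one_div, div_le_div_iff₀ (by positivity) (by norm_num)]; linarith
  have hη1 : η ≤ 1 / 16 := by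
    rw [hη]; exact one_div_le_one_div_of_le (by norm_num) (by linarith)
  obtain ⟨u, hu, v, hv, huE, hvE, z, hz, huz, hvz⟩ :=
    Rigid.exists_close (E := E) hGae (by linarith) hx hx' (by tauto) hη0
  have huz' := abs_lt.mp huz
  have hvz' := abs_lt.mp hvz
  have hwin : ∀ w, |w - z| < η → |w + π / 3 - γ| ≤ π / 3 := fun w hw => by
    have := abs_lt.mp hw
    rw [abs_le]; constructor <;> linarith [hz.1, hz.2, hxI.1, hxI.2]
  have hn : Tendsto (fun j => ‖τ (φ j)‖) atTop (𝓝 0) := by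
    simpa using (hτ.comp hφ.tendsto_atTop).norm
  have hsmall : ∀ᶠ j in atTop, ‖τ (φ j)‖ ≤ τ₀ := hn.eventually (ge_mem_nhds hτ₀)
  have hδ : Tendsto (fun j => K * ‖τ (φ j)‖) atTop (𝓝 0) := by simpa using hn.const_mul K
  have h0 : ‖(0 : ℂ)‖ ≤ τ₀ := by simpa using hτ₀.le
  have hexp : ∀ w ∈ G, ∀ᶠ j in atTop,
      |P (rho 1 (τ (φ j)) (w + π / 3) - 2 * π / 3) - P (rho (-1) (τ (φ j)) (w + π / 3))
        - κ w * (rho 1 (τ (φ j)) (w + π / 3) - 2 * π / 3 - rho (-1) (τ (φ j)) (w + π / 3))|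
        ≤ 2 * (η / 2) * (K * ‖τ (φ j)‖) := by
    intro w hw
    refine Rigid.expand hw hδ ?_ ?_ (half_pos hη0)
    · filter_upwards [hsmall] with j hj
      have := (hσ (-1) (Or.inr rfl) _ hj).2.2.2.2 0 h0 (w + π / 3)
      rw [rho_zero, sub_zero] at this
      convert this using 2; ring
    · filter_upwards [hsmall] with j hj
      have := (hσ 1 (Or.inl rfl) _ hj).2.2.2.2 0 h0 (w + π / 3)
      rw [rho_zero, sub_zero] at this
      convert this using 2; ring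
  obtain ⟨j, hj, hjd, hju, hjv⟩ :=
    (hsmall.and (hdir.and ((hexp u hu).and (hexp v hv)))).exists
  set t := τ (φ j) with ht
  have htpos : 0 < ‖t‖ := norm_pos_iff.mpr (hτ0 _)
  obtain ⟨-, hda, hla, hLa, -⟩ := hσ (-1) (Or.inr rfl) t hj
  obtain ⟨-, hdb, hlb, hLb, -⟩ := hσ 1 (Or.inl rfl) t hj
  have hKt : K * ‖t‖ ≤ 1 := by nlinarith [mul_le_mul_of_nonneg_left hj hK]
  have hlip := Rigid.lip_H (a := rho (-1) t) (b := fun θ => rho 1 t θ - 2 * π / 3) hκm hκ1 hda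
    (hdb.sub_const _) (by positivity) hKt hLa
    (fun s s' => by convert hLb s s' using 2; ring) (by
      have h3 := Rigid.ae_comp (g := fun θ => rho 1 t θ - 2 * π / 3)
        (fun s s' => by rw [sub_sub_sub_cancel_right]; exact hlb s s') h2
      filter_upwards [h3, hinv (φ j)] with θ h4 h5
      rw [sub_add_cancel] at h4
      simp only [hκ]
      exact if_congr (h5.symm.trans h4) rfl rfl) (u + π / 3) (v + π / 3)
  rw [← hPsub, ← hPsub] at hlip
  have hgu := hgap t hj _ (hjd _ (hwin u huz))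
  have hgv := hgap t hj _ (hjd _ (hwin v hvz))
  simp only [hκ, if_pos huE, if_neg hvE] at hju hjv
  have h5 : |v + π / 3 - (u + π / 3)| ≤ 2 * η := by rw [abs_le]; constructor <;> linarith
  have h6 : 2 * (K * ‖t‖) * |v + π / 3 - (u + π / 3)| ≤ ‖t‖ / 4 := by
    calc _ ≤ 2 * (K * ‖t‖) * (2 * η) := mul_le_mul_of_nonneg_left h5 (by positivity)
      _ = 4 * (K * η) * ‖t‖ := by ring
      _ ≤ 4 * (1 / 16) * ‖t‖ := by gcongr
      _ = _ := by ring
  have h7 : 2 * (η / 2) * (K * ‖t‖) ≤ ‖t‖ / 16 := by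
    calc _ = (K * η) * ‖t‖ := by ring
      _ ≤ (1 / 16) * ‖t‖ := by gcongr
      _ = _ := by ring
  have h8 := (abs_le.mp (hlip.trans h6)).2
  have h9 := (abs_le.mp (hju.trans h7)).2
  have h10 := (abs_le.mp (hjv.trans h7)).1
  linarith

end Crest.Agent.R40
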