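import Crest.Agent.R40.Five
import Crest.Agent.R40.Cross

/-!
# Row 40, task C8: the singular sets
-/

set_option autoImplicit false

namespace Crest.Agent.R40
open MeasureTheory Set Filter Topology Metric
open scoped ENNReal Real

namespace Sing

theorem tri_comb : ∀ a b c : Fin 5, a ≠ b → b ≠ c → c ≠ a → ∃ d e : Fin 5, ∀ s : Finset (Fin 5),
    s.card ≤ 2 → ¬ s ⊆ {a, b} → ¬ s ⊆ {b, c} → ¬ s ⊆ {c, a} → d ∈ s ∨ e ∈ s := by
  decide +kernel

set_option synthInstance.maxSize 1024 in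
set_option synthInstance.maxHeartbeats 200000 in
theorem quad_comb : ∀ a b c d : Fin 5, a ≠ b → b ≠ c → c ≠ d → d ≠ a → a ≠ c → b ≠ d →
    ∃ m : Fin 5, (∀ k, k ≠ m → k = a ∨ k = b ∨ k = c ∨ k = d) ∧ ∀ s : Finset (Fin 5),
    s.card ≤ 2 → ¬ s ⊆ {a, b} → ¬ s ⊆ {b, c} → ¬ s ⊆ {c, d} → ¬ s ⊆ {d, a} →
      m ∈ s ∨ s = {a, c} ∨ s = {b, d} := by
  decide +kernel

theorem pair_comb : ∀ (m : Fin 5) (s : Finset (Fin 5)), s.Nonempty → s.card ≤ 2 →
    (∀ k, k ≠ m → ¬ s ⊆ {k}) → m ∈ s ∨ (m ∉ s ∧ s.card = 2) := by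
  decide +kernel

theorem cover_comb : ∀ (m : Fin 5) (s t : Finset (Fin 5)), m ∉ s → s.card = 2 → m ∉ t →
    t.card = 2 → Disjoint s t → ∀ k, k ≠ m → k ∈ s ∨ k ∈ t := by
  decide +kernel

theorem four_comb : ∀ (m : Fin 5) (s : Finset (Fin 5)), m ∉ s → 4 ≤ s.card →
    ∀ k, k ≠ m → k ∈ s := by
  decide +kernel

/-- a periodic set of positive measure has positive measure in one period -/
theorem per_ne_zero (E : Set ℝ) (hE : ∀ θ, θ + 2 * π ∈ E ↔ θ ∈ E) (h : volume E ≠ 0) :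
    volume (E ∩ Icc 0 (2 * π)) ≠ 0 := by
  intro h0
  apply h
  have hper : Function.Periodic (fun θ => θ ∈ E) (2 * π) := fun θ => propext (hE θ)
  have hsub : E ⊆ ⋃ k : ℤ, (fun x => x + k * (2 * π)) ⁻¹' (E ∩ Icc 0 (2 * π)) := by
    intro x hx
    have h2 : (0 : ℝ) < 2 * π := by positivity
    refine mem_iUnion.2 ⟨-toIcoDiv h2 0 x, ?_, ?_⟩
    · have := hper.int_mul (-toIcoDiv h2 0 x) x
      exact this.symm ▸ hx
    · have h1 := toIcoMod_mem_Ico h2 0 x
      rw [zero_add] at h1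
      have h3 : x + ((-toIcoDiv h2 0 x : ℤ) : ℝ) * (2 * π) = toIcoMod h2 0 x := by
        rw [toIcoMod, zsmul_eq_mul]; push_cast; ring
      change x + ((-toIcoDiv h2 0 x : ℤ) : ℝ) * (2 * π) ∈ Icc 0 (2 * π)
      rw [h3]
      exact Ico_subset_Icc_self h1
  refine measure_mono_null hsub (measure_iUnion_null fun k => ?_)
  rw [measure_preimage_add_right]
  exact h0

/-- if `E` and `E - π/3` are disjoint and `E`, `X`, `Y` cover, one of `X`, `Y` is large -/
theorem large_of_flip (E X Y : Set ℝ) (h1 : ∀ᵐ θ, θ ∈ E → θ + π / 3 ∉ E)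
    (h2 : ∀ᵐ θ, θ ∈ E ∨ θ ∈ X ∨ θ ∈ Y) :
    (4 : ℝ≥0∞)⁻¹ ≤ volume (X ∩ Icc 0 (2 * π)) ∨ (4 : ℝ≥0∞)⁻¹ ≤ volume (Y ∩ Icc 0 (2 * π)) := by
  by_contra hcon
  push Not at hcon
  obtain ⟨hX, hY⟩ := hcon
  set W := Icc (0 : ℝ) (2 * π) \ E with hW
  have hpi := Real.pi_gt_three
  have hWle : volume W ≤ volume (X ∩ Icc 0 (2 * π)) + volume (Y ∩ Icc 0 (2 * π)) := by
    refine le_trans (measure_mono_ae ?_) (measure_union_le _ _)
    filter_upwards [h2] with θ hθ hθW
    rcases hθ with h | h | h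
    · exact absurd h hθW.2
    · exact Or.inl ⟨h, hθW.1⟩
    · exact Or.inr ⟨h, hθW.1⟩
  have hI : volume (Icc (0 : ℝ) 1) ≤ volume W + volume W := by
    have h3 : volume ((fun x => x + π / 3) ⁻¹' W) = volume W := measure_preimage_add_right _ _ _
    calc volume (Icc (0 : ℝ) 1) ≤ volume (W ∪ (fun x => x + π / 3) ⁻¹' W) := by
          refine measure_mono_ae ?_
          filter_upwards [h1] with θ hθ hθI
          have hθI' : θ ∈ Icc (0 : ℝ) 1 := hθI
          by_cases hE : θ ∈ E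
          · refine Or.inr ⟨⟨?_, ?_⟩, hθ hE⟩
            · linarith [hθI'.1]
            · linarith [hθI'.2]
          · exact Or.inl ⟨⟨hθI'.1, by linarith [hθI'.2]⟩, hE⟩
      _ ≤ volume W + volume W := by
          refine (measure_union_le _ _).trans ?_
          rw [h3]
  have hlt : volume W < 4⁻¹ + 4⁻¹ := hWle.trans_lt (ENNReal.add_lt_add hX hY)
  have h4 : volume W + volume W < (4⁻¹ + 4⁻¹) + (4⁻¹ + 4⁻¹) := ENNReal.add_lt_add hlt hlt
  have h5 : ((4 : ℝ≥0∞)⁻¹ + 4⁻¹) + (4⁻¹ + 4⁻¹) = 1 := by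
    have : ((4 : ℝ≥0∞)⁻¹ + 4⁻¹) + (4⁻¹ + 4⁻¹) = 4 * 4⁻¹ := by ring
    rw [this, ENNReal.mul_inv_cancel (by norm_num) (by norm_num)]
  rw [h5] at h4
  have h6 : volume (Icc (0 : ℝ) 1) = 1 := by simp
  rw [h6] at hI
  exact absurd (hI.trans_lt h4) (lt_irrefl _)

/-- the exceptional sets -/
def Ex (C : MCol) (m : Fin 5) (s s' : Finset (Fin 5)) (μ : ℝ≥0∞) : Set ℂ :=
  {v | (∀ k, k ≠ m → v ∈ C.F k) ∧ (∀ k, k ≠ m → k ∈ s ∨ k ∈ s') ∧ (∃ᵐ θ : ℝ, s ⊆ C.S v θ) ∧
    μ ≤ volume ({φ | s' ⊆ C.S v φ} ∩ Icc 0 (2 * π))}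

theorem Ex_finite (C : MCol) (m : Fin 5) (s s' : Finset (Fin 5)) (μ : ℝ≥0∞) (hμ : μ ≠ 0) (R : ℝ) :
    (Ex C m s s' μ ∩ closedBall 0 R).Finite := by
  by_contra hinf
  obtain ⟨v₀, -, hacc⟩ := Set.Infinite.exists_accPt_of_subset_isCompact hinf
    (isCompact_closedBall (0 : ℂ) R) inter_subset_right
  rw [accPt_iff_nhds] at hacc
  have hF : ∀ k, k ≠ m → v₀ ∈ C.F k := by
    intro k hk
    rw [← (C.isClosed_F k).closure_eq, mem_closure_iff_nhds]
    intro U hU
    obtain ⟨y, ⟨hyU, hy, -⟩, -⟩ := hacc U hU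
    exact ⟨y, hyU, hy.1 k hk⟩
  obtain ⟨m', hm'⟩ := C.P_ne_five v₀
  have hmm : m' = m := by
    by_contra h
    exact hm' (hF m' h)
  subst hmm
  obtain ⟨u, ⟨-, hu, -⟩, -⟩ := hacc univ univ_mem
  obtain ⟨η, hη, hcr⟩ := C.crossing v₀ m' hm' s s' hu.2.1 μ hμ
  obtain ⟨v, ⟨hvU, hv, -⟩, hvne⟩ := hacc (ball v₀ η) (ball_mem_nhds _ hη)
  have hpos : 0 < dist v v₀ := dist_pos.2 hvne
  obtain ⟨w, ⟨hwU, hw, -⟩, -⟩ := hacc (ball v₀ (dist v v₀)) (ball_mem_nhds _ hpos)
  rw [mem_ball] at hvU hwU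
  refine hcr v w (by rwa [← dist_eq_norm]) (by rw [← dist_eq_norm]; exact hwU.trans hvU) ?_
    hv.2.2.1 hw.2.2.2
  rintro rfl
  exact lt_irrefl _ hwU

theorem Ex_countable (C : MCol) (m : Fin 5) (s s' : Finset (Fin 5)) (μ : ℝ≥0∞) (hμ : μ ≠ 0) :
    (Ex C m s s' μ).Countable := by
  have : Ex C m s s' μ ⊆ ⋃ n : ℕ, Ex C m s s' μ ∩ closedBall 0 n := by
    intro v hv
    obtain ⟨n, hn⟩ := exists_nat_ge ‖v‖
    exact mem_iUnion.2 ⟨n, hv, by simpa using hn⟩
  exact (countable_iUnion fun n : ℕ => (Ex_finite C m s s' μ hμ n).countable).mono this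

theorem inter_mem (m : Fin 5) : Inter {s | m ∈ s} := fun _ hs _ ht hd =>
  Finset.disjoint_left.1 hd hs ht

theorem inter_single (s : Finset (Fin 5)) (hs : s.Nonempty) : Inter {s} := by
  rintro _ rfl _ rfl hd
  obtain ⟨k, hk⟩ := hs
  exact Finset.disjoint_left.1 hd hk hk

theorem per_S (C : MCol) (v : ℂ) (s : Finset (Fin 5)) (h : ∃ᵐ θ : ℝ, C.S v θ = s) :
    volume ({φ | s ⊆ C.S v φ} ∩ Icc 0 (2 * π)) ≠ 0 := by
  refine per_ne_zero _ (fun θ => by simp [C.S_add_two_pi]) ?_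
  rw [← frequently_ae_iff]
  exact h.mono fun θ hθ => hθ.symm.subset

end Sing

namespace MCol
variable (C : MCol)

/-- Proof. Let `v ∈ Sig`, `m` from `P_ne_five`; then `v ∈ F k` for all `k ≠ m`, so for a.e. `θ`,
`m ∈ S v θ` or `S v θ` is a pair avoiding `m` (`S_nonempty`, `single`, `card_S_le`). Let `𝒯` be the
set of pairs `s ∌ m` with `∃ᵐ θ, S v θ = s`. If `Inter 𝒯` then `v ∈ Rig` (`𝒮₁ = {s | m ∈ s}`),
countable. Otherwise `v` is in one of the countably many sets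
`Σ (m, s, s', n) = {v ∉ F m | (∃ᵐ θ, s ⊆ S v θ) ∧ 1/(n+1) ≤ volume ({s' ⊆ S v ·} ∩ [0, 2π])}` with
`s ∪ s' ∪ {m} = univ` (periodicity `S_add_two_pi`), each point of which is isolated in it
(`crossing` with `w = v₀`), so it is countable (`countable_of_isolated..`, e.g.
`TopologicalSpace.separableSpace`/`Set.countable_of_discreteTopology`-type lemmas). -/
theorem sig_countable : C.Sig.Countable := by
  have hsub : C.Sig ⊆ C.Rig ∪ ⋃ (m : Fin 5) (s : Finset (Fin 5)) (s' : Finset (Fin 5)) (n : ℕ),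
      Sing.Ex C m s s' (n : ℝ≥0∞)⁻¹ := by
    intro v hv
    obtain ⟨m, hm⟩ := C.P_ne_five v
    have hF : ∀ k, k ≠ m → v ∈ C.F k := fun k hk =>
      (C.mem_P v k).1 (Sing.four_comb m (C.P v) (fun h => hm ((C.mem_P v m).1 h)) hv k hk)
    have hsing : ∀ᵐ θ : ℝ, ∀ k, k ≠ m → ¬ C.S v θ ⊆ {k} := by
      rw [ae_all_iff]
      intro k
      by_cases hk : k = m
      · exact Eventually.of_forall fun θ h => absurd hk h
      · filter_upwards [C.single v k (hF k hk)] with θ hθ _ using hθ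
    have hocc : ∀ᵐ θ : ℝ, ∀ s : Finset (Fin 5), C.S v θ = s → ∃ᵐ θ' : ℝ, C.S v θ' = s := by
      rw [ae_all_iff]
      intro s
      by_cases hs : ∃ᵐ θ' : ℝ, C.S v θ' = s
      · exact Eventually.of_forall fun θ _ => hs
      · filter_upwards [not_frequently.1 hs] with θ hθ h using absurd h hθ
    by_cases hI : Inter {s | m ∉ s ∧ s.card = 2 ∧ ∃ᵐ θ' : ℝ, C.S v θ' = s}
    · refine Or.inl ⟨_, _, Sing.inter_mem m, hI, ?_⟩
      filter_upwards [C.S_nonempty v, C.card_S_le v, hsing, hocc] with θ h1 h2 h3 h4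
      rcases Sing.pair_comb m _ h1 h2 h3 with h | h
      · exact Or.inl h
      · exact Or.inr ⟨h.1, h.2, h4 _ rfl⟩
    · right
      unfold Inter at hI
      push Not at hI
      obtain ⟨s, hs, s', hs', hd⟩ := hI
      obtain ⟨n, hn⟩ := ENNReal.exists_inv_nat_lt (Sing.per_S C v s' hs'.2.2)
      simp only [mem_iUnion]
      exact ⟨m, s, s', n, hF, Sing.cover_comb m s s' hs.1 hs.2.1 hs'.1 hs'.2.1 hd,
        hs.2.2.mono fun θ hθ => hθ.symm.subset, hn.le⟩
  refine (C.rig_countable.union ?_).mono hsub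
  refine countable_iUnion fun m => countable_iUnion fun s => countable_iUnion fun s' =>
    countable_iUnion fun n => Sing.Ex_countable C m s s' _ ?_
  exact ENNReal.inv_ne_zero.2 (ENNReal.natCast_ne_top n)

/-- Proof. If `G v` has a triangle `a b c` then a.e. `S v θ` (nonempty, at most two elements, not
inside an edge by `not_G_of_pair`) contains one of the other two colours: `v ∈ Rig`. If it has a
4-cycle `a b c d`, with fifth colour `m`, then a.e. `m ∈ S v θ` or `S v θ ∈ {{a,c}, {b,d}}`; if one of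
the two pairs occurs on a null set only, `v ∈ Rig`. Otherwise both occur; `{θ ∈ [0,2π] | m ∈ S v θ}`
has measure `≤ π` (`s2`, periodicity), so one pair `s'` has measure `≥ π/2` in `[0, 2π]`. If
infinitely many such `v` lie in the ball, infinitely many share `(m, s, s')` and accumulate at
`v₀ ∈ F k` for all `k ≠ m` (`mem_F_of_G`, `isClosed_F`), so `v₀ ∉ F m` (`P_ne_five`), against
`crossing`. With `rig_finite` this gives the claim. -/
theorem Q_finite (R : ℝ) : (C.Q ∩ closedBall 0 R).Finite := by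
  have hnot : ∀ (v : ℂ) (i j : Fin 5), C.G v i j → ∀ᵐ θ : ℝ, ¬ C.S v θ ⊆ {i, j} := by
    intro v i j h
    by_contra hc
    exact C.not_G_of_pair v i j (not_eventually.1 hc |>.mono fun θ hθ => not_not.1 hθ) h
  have hsub : C.Q ⊆ C.Rig ∪ ⋃ (m : Fin 5) (s : Finset (Fin 5)) (s' : Finset (Fin 5)),
      Sing.Ex C m s s' (4 : ℝ≥0∞)⁻¹ := by
    rintro v (⟨a, b, c, hab, hbc, hca⟩ | ⟨a, b, c, d, hac, hbd, hab, hbc, hcd, hda⟩)
    · obtain ⟨d, e', hde⟩ := Sing.tri_comb a b c hab.1 hbc.1 hca.1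
      refine Or.inl ⟨_, _, Sing.inter_mem d, Sing.inter_mem e', ?_⟩
      filter_upwards [C.card_S_le v, hnot v a b hab, hnot v b c hbc, hnot v c a hca]
        with θ h1 h2 h3 h4
      exact hde _ h1 h2 h3 h4
    · obtain ⟨m, hm1, hm2⟩ := Sing.quad_comb a b c d hab.1 hbc.1 hcd.1 hda.1 hac hbd
      have hae : ∀ᵐ θ : ℝ, m ∈ C.S v θ ∨ C.S v θ = {a, c} ∨ C.S v θ = {b, d} := by
        filter_upwards [C.card_S_le v, hnot v a b hab, hnot v b c hbc, hnot v c d hcd,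
          hnot v d a hda] with θ h1 h2 h3 h4 h5
        exact hm2 _ h1 h2 h3 h4 h5
      by_cases h1 : ∃ᵐ θ : ℝ, C.S v θ = {a, c}
      swap
      · refine Or.inl ⟨_, _, Sing.inter_mem m, Sing.inter_single {b, d} (by simp), ?_⟩
        filter_upwards [hae, not_frequently.1 h1] with θ h h'
        rcases h with h | h | h
        · exact Or.inl h
        · exact absurd h h'
        · exact Or.inr h
      by_cases h2 : ∃ᵐ θ : ℝ, C.S v θ = {b, d}
      swap
      · refine Or.inl ⟨_, _, Sing.inter_mem m, Sing.inter_single {a, c} (by simp), ?_⟩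
        filter_upwards [hae, not_frequently.1 h2] with θ h h'
        rcases h with h | h | h
        · exact Or.inl h
        · exact Or.inr h
        · exact absurd h h'
      right
      have hF : ∀ k, k ≠ m → v ∈ C.F k := by
        intro k hk
        rcases hm1 k hk with rfl | rfl | rfl | rfl
        · exact C.mem_F_of_G hab
        · exact C.mem_F_of_G hbc
        · exact C.mem_F_of_G hcd
        · exact C.mem_F_of_G hda
      have hcov : ∀ k, k ≠ m → k ∈ ({a, c} : Finset (Fin 5)) ∨ k ∈ ({b, d} : Finset (Fin 5)) := by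
        intro k hk
        rcases hm1 k hk with rfl | rfl | rfl | rfl <;> simp
      have hl := Sing.large_of_flip {θ | m ∈ C.S v θ} {φ | ({a, c} : Finset (Fin 5)) ⊆ C.S v φ}
        {φ | ({b, d} : Finset (Fin 5)) ⊆ C.S v φ}
        (by
          filter_upwards [C.s2 v] with θ hθ h h'
          exact Finset.disjoint_left.1 hθ h h')
        (by
          filter_upwards [hae] with θ h
          rcases h with h | h | h
          · exact Or.inl h
          · exact Or.inr (Or.inl h.symm.subset)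
          · exact Or.inr (Or.inr h.symm.subset))
      simp only [mem_iUnion]
      rcases hl with hl | hl
      · exact ⟨m, {b, d}, {a, c}, hF, fun k hk => (hcov k hk).symm,
          h2.mono fun θ hθ => hθ.symm.subset, hl⟩
      · exact ⟨m, {a, c}, {b, d}, hF, hcov, h1.mono fun θ hθ => hθ.symm.subset, hl⟩
  have hfin : ((C.Rig ∩ closedBall 0 R) ∪
      ⋃ (m : Fin 5) (s : Finset (Fin 5)) (s' : Finset (Fin 5)),
        Sing.Ex C m s s' (4 : ℝ≥0∞)⁻¹ ∩ closedBall 0 R).Finite :=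
    (C.rig_finite R).union (finite_iUnion fun m => finite_iUnion fun s => finite_iUnion fun s' =>
      Sing.Ex_finite C m s s' _ (ENNReal.inv_ne_zero.2 (by norm_num)) R)
  refine hfin.subset ?_
  rintro v ⟨hv, hvR⟩
  rcases hsub hv with h | h
  · exact Or.inl ⟨h, hvR⟩
  · right
    simp only [mem_iUnion] at h ⊢
    obtain ⟨m, s, s', h⟩ := h
    exact ⟨m, s, s', h, hvR⟩

end MCol

end Crest.Agent.R40
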