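import Crest.Agent.R40.Label

/-!
# Row 40: from a labelling of the grid to chains in the plane
-/

set_option autoImplicit false

namespace Crest.Agent.R40
open MeasureTheory Set Filter Topology Metric Relation
open scoped ENNReal Real

/-- a chain carrying the colours `L` that starts near `q` and has extent `ρ` -/
def MCol.Arm (C : MCol) (Z : Set ℂ) (L : Finset (Fin 5)) (ε δ R ρ : ℝ) (q : ℂ) : Prop :=
  ∃ a b, ‖a - q‖ ≤ ε ∧ ρ ≤ ‖b - a‖ ∧ ReflTransGen (C.Step Z L ε δ R) a b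

/-- a triangle, a 4-cycle, or all colours -/
def Cyc (P : Fin 5 → Fin 5 → Prop) : Prop :=
  (∃ a b c, a ≠ b ∧ b ≠ c ∧ c ≠ a ∧ P a b ∧ P b c ∧ P c a) ∨
  (∃ a b c d, a ≠ b ∧ b ≠ c ∧ c ≠ d ∧ d ≠ a ∧ a ≠ c ∧ b ≠ d ∧ P a b ∧ P b c ∧ P c d ∧ P d a) ∨
  ∀ i, ∃ j, P i j

lemma Cyc.mono {P P' : Fin 5 → Fin 5 → Prop} (h : ∀ i j, P i j → P' i j) (hP : Cyc P) : Cyc P' := by
  rcases hP with ⟨a, b, c, h1, h2, h3, p1, p2, p3⟩ | ⟨a, b, c, d, h1, h2, h3, h4, h5, h6, p1, p2, p3, p4⟩ | hP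
  · exact Or.inl ⟨a, b, c, h1, h2, h3, h _ _ p1, h _ _ p2, h _ _ p3⟩
  · exact Or.inr (Or.inl ⟨a, b, c, d, h1, h2, h3, h4, h5, h6, h _ _ p1, h _ _ p2, h _ _ p3, h _ _ p4⟩)
  · exact Or.inr (Or.inr fun i => (hP i).imp fun j hj => h _ _ hj)

namespace Stage

lemma lift_chain {α β : Type*} {r : α → α → Prop} {p : β → β → Prop} (f : α → β)
    (h : ∀ a b, r a b → p (f a) (f b)) {a b : α} (hab : ReflTransGen r a b) :
    ReflTransGen p (f a) (f b) := by
  induction hab with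
  | refl => exact ReflTransGen.refl
  | tail _ hbc ih => exact ih.tail (h _ _ hbc)

lemma pos_re (o : ℂ) (N : ℕ) (x : ℤ × ℤ) : (pos o N x).re = o.re + 10 / N * x.1 := by
  simp [pos]

lemma pos_im (o : ℂ) (N : ℕ) (x : ℤ × ℤ) : (pos o N x).im = o.im + 10 / N * x.2 := by
  simp [pos]

lemma norm_pos_sub (o : ℂ) (N : ℕ) (x y : ℤ × ℤ) :
    ‖pos o N x - pos o N y‖ ≤ 10 / N * ((|x.1 - y.1| + |x.2 - y.2| : ℤ) : ℝ) := by
  refine (Complex.norm_le_abs_re_add_abs_im _).trans (le_of_eq ?_)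
  rw [Complex.sub_re, Complex.sub_im, pos_re, pos_re, pos_im, pos_im]
  have h : (0 : ℝ) ≤ 10 / N := by positivity
  have e1 : o.re + 10 / N * x.1 - (o.re + 10 / N * y.1) = 10 / (N : ℝ) * ((x.1 : ℝ) - y.1) := by ring
  have e2 : o.im + 10 / N * x.2 - (o.im + 10 / N * y.2) = 10 / (N : ℝ) * ((x.2 : ℝ) - y.2) := by ring
  rw [e1, e2, abs_mul, abs_mul, abs_of_nonneg h]
  push_cast
  ring

lemma mem_corners {T x : ℤ × ℤ} (h : x ∈ corners T) :
    (x.1 = T.1 ∨ x.1 = T.1 + 1) ∧ (x.2 = T.2 ∨ x.2 = T.2 + 1) := by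
  simp only [corners, Finset.mem_insert, Finset.mem_singleton] at h
  rcases h with rfl | rfl | rfl | rfl <;> simp

lemma self_mem_corners (T : ℤ × ℤ) : T ∈ corners T := by simp [corners]

lemma norm_corners (o : ℂ) (N : ℕ) {T x y : ℤ × ℤ} (hx : x ∈ corners T) (hy : y ∈ corners T) :
    ‖pos o N x - pos o N y‖ ≤ 2 * (10 / N) := by
  refine (norm_pos_sub o N x y).trans ?_
  have h : (0 : ℝ) ≤ 10 / N := by positivity
  have h1 := mem_corners hx
  have h2 := mem_corners hy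
  have h3 : |x.1 - y.1| + |x.2 - y.2| ≤ 2 := by
    have a1 : |x.1 - y.1| ≤ 1 := by rw [abs_le]; omega
    have a2 : |x.2 - y.2| ≤ 1 := by rw [abs_le]; omega
    omega
  have h4 : ((|x.1 - y.1| + |x.2 - y.2| : ℤ) : ℝ) ≤ 2 := by exact_mod_cast h3
  nlinarith

lemma mem_board {N : ℕ} {T : ℤ × ℤ} :
    T ∈ board N ↔ (0 ≤ T.1 ∧ T.1 < N) ∧ (0 ≤ T.2 ∧ T.2 < N) := by
  simp [board, Finset.mem_product]

lemma pos_mem_square (o : ℂ) {N : ℕ} (hN : 0 < N) {T x : ℤ × ℤ} (hT : T ∈ board N)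
    (hx : x ∈ corners T) : pos o N x ∈ square o := by
  have h1 := mem_corners hx
  have h2 := mem_board.1 hT
  have hN' : (0 : ℝ) < N := by exact_mod_cast hN
  have a1 : (0 : ℝ) ≤ x.1 := by exact_mod_cast (by omega : (0 : ℤ) ≤ x.1)
  have a2 : (x.1 : ℝ) ≤ N := by exact_mod_cast (by omega : x.1 ≤ (N : ℤ))
  have a3 : (0 : ℝ) ≤ x.2 := by exact_mod_cast (by omega : (0 : ℤ) ≤ x.2)
  have a4 : (x.2 : ℝ) ≤ N := by exact_mod_cast (by omega : x.2 ≤ (N : ℤ))
  have h : (0 : ℝ) ≤ 10 / N := by positivity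
  have hh : (10 : ℝ) / N * N = 10 := by field_simp
  refine ⟨?_, ?_, ?_, ?_⟩
  · rw [pos_re]; nlinarith
  · rw [pos_re]; nlinarith
  · rw [pos_im]; nlinarith
  · rw [pos_im]; nlinarith

lemma far_of_notMem_board (o : ℂ) {N : ℕ} (hN : 0 < N) {T : ℤ × ℤ} (hT : T ∉ board N) (q : ℂ)
    (ρ : ℝ) (hq : o.re + ρ ≤ q.re ∧ q.re + ρ ≤ o.re + 10 ∧ o.im + ρ ≤ q.im ∧ q.im + ρ ≤ o.im + 10) :
    ρ ≤ ‖pos o N T - q‖ := by
  have hN' : (0 : ℝ) < N := by exact_mod_cast hN
  have h : (0 : ℝ) ≤ 10 / N := by positivity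
  have hh : (10 : ℝ) / N * N = 10 := by field_simp
  have hre := Complex.abs_re_le_norm (pos o N T - q)
  have him := Complex.abs_im_le_norm (pos o N T - q)
  rw [Complex.sub_re, pos_re, abs_le] at hre
  rw [Complex.sub_im, pos_im, abs_le] at him
  rw [mem_board] at hT
  have : T.1 ≤ 0 ∨ (N : ℤ) ≤ T.1 ∨ T.2 ≤ 0 ∨ (N : ℤ) ≤ T.2 := by omega
  rcases this with a | a | a | a
  · have a' : (T.1 : ℝ) ≤ 0 := by exact_mod_cast a
    nlinarith [hre.1]
  · have a' : (N : ℝ) ≤ T.1 := by exact_mod_cast a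
    nlinarith [hre.2]
  · have a' : (T.2 : ℝ) ≤ 0 := by exact_mod_cast a
    nlinarith [him.1]
  · have a' : (N : ℝ) ≤ T.2 := by exact_mod_cast a
    nlinarith [him.2]

end Stage

open Stage in
theorem MCol.stage (C : MCol) (o : ℂ) (Q0 : Finset ℂ) (hQ : ∀ q ∈ C.Q, q ∈ square o → q ∈ Q0)
    (ρ : ℝ)
    (hin : ∀ q ∈ Q0, o.re + 2 * ρ ≤ q.re ∧ q.re + 2 * ρ ≤ o.re + 10 ∧ o.im + 2 * ρ ≤ q.im ∧
      q.im + 2 * ρ ≤ o.im + 10)
    (hsep : ∀ q ∈ Q0, ∀ q' ∈ Q0, q ≠ q' → 4 * ρ ≤ ‖q - q'‖) (ε : ℝ) (hε : 0 < ε) (hερ : ε ≤ ρ) :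
    ∃ δ > 0, δ ≤ 1 ∧ ∀ᶠ R in 𝓝[>] (0 : ℝ),
      (∃ i a b, a ∈ square o ∧ 10 ≤ ‖b - a‖ ∧
        ReflTransGen (C.Step (C.Sig ∪ Q0) {i} ε δ R) a b) ∨
      ∃ q ∈ Q0, Cyc (fun i j => C.Arm (C.Sig ∪ Q0) {i, j} ε δ R (ρ / 2) q) := by
  classical
  obtain ⟨δ₀, hδ₀, hδ₁, hlab⟩ := C.labelling o Q0 hQ (ε / 2) (by linarith)
  refine ⟨δ₀ / 2, by linarith, by linarith, ?_⟩
  have htend : Tendsto (fun R : ℝ => R / 3) (𝓝[>] 0) (𝓝[>] 0) := by
    refine tendsto_nhdsWithin_iff.2 ⟨?_, ?_⟩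
    · have : Tendsto (fun R : ℝ => R / 3) (𝓝 0) (𝓝 (0 / 3)) :=
        (continuous_id.div_const 3).tendsto 0
      simpa using this.mono_left nhdsWithin_le_nhds
    · filter_upwards [self_mem_nhdsWithin] with R hR
      have : (0 : ℝ) < R := hR
      show (0 : ℝ) < R / 3
      linarith
  filter_upwards [htend.eventually hlab, self_mem_nhdsWithin] with R hR hR0
  have hR0 : (0 : ℝ) < R := hR0
  have h3 : 3 * (R / 3) = R := by ring
  rw [h3] at hR
  have hsmall : Tendsto (fun N : ℕ => 2 * (10 / (N : ℝ))) atTop (𝓝 0) := by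
    simpa using (tendsto_const_div_atTop_nhds_zero_nat (10 : ℝ)).const_mul 2
  obtain ⟨N, ⟨l, L1, L2⟩, hh1, hh2, hN⟩ := (hR.and ((hsmall.eventually
    (ge_mem_nhds (show (0 : ℝ) < δ₀ / 2 * R / 4 by positivity))).and ((hsmall.eventually
    (ge_mem_nhds (show (0 : ℝ) < ε / 2 by positivity))).and (eventually_gt_atTop 0)))).exists
  have hN' : (0 : ℝ) < N := by exact_mod_cast hN
  have hpos : (0 : ℝ) ≤ 10 / N := by positivity
  set bad : ℂ → Finset (ℤ × ℤ) := fun q => (board N).filter (fun T => ‖pos o N T - q‖ ≤ ε / 2)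
    with hbad
  have mem_bad : ∀ q T, T ∈ bad q ↔ T ∈ board N ∧ ‖pos o N T - q‖ ≤ ε / 2 := by
    intro q T; simp [hbad]
  have hsub : ∀ q ∈ Q0, bad q ⊆ board N := fun q _ T hT => ((mem_bad q T).1 hT).1
  have hdisj : ∀ q ∈ Q0, ∀ q' ∈ Q0, q ≠ q' → Disjoint (bad q) (bad q') := by
    intro q hq q' hq' hne
    rw [Finset.disjoint_left]
    intro T h1 h2
    have a1 := ((mem_bad q T).1 h1).2
    have a2 := ((mem_bad q' T).1 h2).2
    have a3 := hsep q hq q' hq' hne
    have a4 : ‖q - q'‖ ≤ ‖pos o N T - q‖ + ‖pos o N T - q'‖ := by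
      have := norm_sub_le_norm_sub_add_norm_sub q (pos o N T) q'
      rwa [norm_sub_rev q (pos o N T)] at this
    linarith
  have htwo : ∀ T ∈ board N, (∀ q ∈ Q0, T ∉ bad q) → Two l T := by
    intro T hT h
    refine L2 T hT fun q hq => ?_
    by_contra hc
    exact h q hq ((mem_bad q T).2 ⟨hT, not_lt.1 hc⟩)
  rcases grid_alt l N hN Q0 bad hsub hdisj htwo with ⟨i, x, y, hch, ⟨T, hT, hx⟩, hxy⟩ | ⟨q, hq, hfl⟩
  · left
    refine ⟨i, pos o N x, pos o N y, pos_mem_square o hN hT hx, ?_, ?_⟩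
    · have hh : (10 : ℝ) / N * N = 10 := by field_simp
      rcases hxy with ⟨h0, h1⟩ | ⟨h0, h1⟩
      · refine le_trans ?_ (Complex.abs_re_le_norm _)
        rw [Complex.sub_re, pos_re, pos_re, h0, h1]
        push_cast
        rw [hh]
        norm_num
      · refine le_trans ?_ (Complex.abs_im_le_norm _)
        rw [Complex.sub_im, pos_im, pos_im, h0, h1]
        push_cast
        rw [hh]
        norm_num
    · refine lift_chain (pos o N) ?_ hch
      rintro u w ⟨hu, -, hstep⟩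
      have key : ∀ T ∈ board N, u ∈ corners T →
          ((∃ z ∈ C.Sig ∪ (Q0 : Set ℂ), ‖pos o N u - z‖ ≤ ε) ∨
            ∀ k ∈ ({i} : Finset (Fin 5)), δ₀ / 2 ≤ C.f {k} (pos o N u) R) := by
        intro T hT hu'
        rcases L1 T hT u hu' with ⟨z, hz, hz'⟩ | h
        · exact Or.inl ⟨z, Or.inl hz, by linarith⟩
        · right
          intro k hk
          rw [Finset.mem_singleton] at hk
          rw [hk, ← hu]
          linarith
      rcases hstep with ⟨T, hT, hu', hw'⟩ | ⟨q, hq, T, hT, T', hT', hu', hw'⟩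
      · exact ⟨key T hT hu', Or.inl ((norm_corners o N hu' hw').trans hh1)⟩
      · have a1 : ‖pos o N u - q‖ ≤ ε := by
          have := norm_sub_le_norm_sub_add_norm_sub (pos o N u) (pos o N T) q
          have b1 := norm_corners o N hu' (self_mem_corners T)
          have b2 := ((mem_bad q T).1 hT).2
          linarith
        have a2 : ‖pos o N w - q‖ ≤ ε := by
          have := norm_sub_le_norm_sub_add_norm_sub (pos o N w) (pos o N T') q
          have b1 := norm_corners o N hw' (self_mem_corners T')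
          have b2 := ((mem_bad q T').1 hT').2
          linarith
        refine ⟨key T (hsub q hq hT) hu', Or.inr ⟨?_, q, Or.inr hq, a1⟩⟩
        have := norm_sub_le_norm_sub_add_norm_sub (pos o N u) q (pos o N w)
        rw [norm_sub_rev q] at this
        linarith
  · right
    refine ⟨q, hq, Cyc.mono ?_ (flux_cycle l (bad q) hfl)⟩
    intro i j hij
    set B : Finset (ℤ × ℤ) := (board N).filter (fun T => ‖pos o N T - q‖ ≤ ρ) with hB
    have mem_B : ∀ T, T ∈ B ↔ T ∈ board N ∧ ‖pos o N T - q‖ ≤ ρ := by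
      intro T; simp [hB]
    have hRB : bad q ⊆ B := fun T hT =>
      (mem_B T).2 ⟨((mem_bad q T).1 hT).1, by linarith [((mem_bad q T).1 hT).2]⟩
    have htwo' : ∀ T ∈ B, T ∉ bad q → Two l T := by
      intro T hT hT'
      refine htwo T ((mem_B T).1 hT).1 fun q' hq' hc => ?_
      by_cases hqq : q = q'
      · exact hT' (hqq ▸ hc)
      · have a1 := ((mem_B T).1 hT).2
        have a2 := ((mem_bad q' T).1 hc).2
        have a3 := hsep q hq q' hq' hqq
        have a4 : ‖q - q'‖ ≤ ‖pos o N T - q‖ + ‖pos o N T - q'‖ := by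
          have := norm_sub_le_norm_sub_add_norm_sub q (pos o N T) q'
          rwa [norm_sub_rev q (pos o N T)] at this
        linarith
    obtain ⟨T, hT, T', hT', hch⟩ := interface l i j (bad q) B hRB hij htwo'
    have a1 := ((mem_bad q T).1 hT).2
    refine ⟨pos o N T, pos o N T', by linarith, ?_, ?_⟩
    · have a2 : ρ ≤ ‖pos o N T' - q‖ := by
        by_cases hb : T' ∈ board N
        · by_contra hc
          exact hT' ((mem_B T').2 ⟨hb, (not_le.1 hc).le⟩)
        · have := far_of_notMem_board o hN hb q (2 * ρ) (hin q hq)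
          linarith
      have := norm_sub_le_norm_sub_add_norm_sub (pos o N T') (pos o N T) q
      linarith
    · refine lift_chain (pos o N) ?_ hch
      rintro u w ⟨hu, huw, ⟨x, hx, hxi⟩, ⟨y, hy, hyj⟩⟩
      have hub := ((mem_B u).1 hu).1
      have key : ∀ x ∈ corners u, (∃ z ∈ C.Sig ∪ (Q0 : Set ℂ), ‖pos o N u - z‖ ≤ ε) ∨
          δ₀ / 2 ≤ C.f {l x} (pos o N u) R := by
        intro x hx
        have b1 := norm_corners o N (self_mem_corners u) hx
        rcases L1 u hub x hx with ⟨z, hz, hz'⟩ | h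
        · left
          refine ⟨z, Or.inl hz, ?_⟩
          have := norm_sub_le_norm_sub_add_norm_sub (pos o N u) (pos o N x) z
          linarith
        · right
          have b2 := dens_lip (C.A {l x}) (pos o N u) (pos o N x) R hR0
          have b3 : 2 * ‖pos o N u - pos o N x‖ / R ≤ δ₀ / 2 := by
            rw [div_le_iff₀ hR0]
            nlinarith
          have b4 := (abs_le.1 (b2.trans b3)).1
          unfold MCol.f at h ⊢
          linarith
      refine ⟨?_, Or.inl ?_⟩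
      · rcases key x hx with h1 | h1
        · exact Or.inl h1
        rcases key y hy with h2 | h2
        · exact Or.inl h2
        right
        intro k hk
        simp only [Finset.mem_insert, Finset.mem_singleton] at hk
        rcases hk with rfl | rfl
        · rwa [hxi] at h1
        · rwa [hyj] at h2
      · have := norm_pos_sub o N u w
        rw [huw] at this
        push_cast at this
        linarith

end Crest.Agent.R40
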