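import Crest.Agent.R40.Circ

/-!
# Row 40, task B3a: the essential colour sets `Th v i`, `S v θ`
-/

set_option autoImplicit false

namespace Crest.Agent.R40
open MeasureTheory Set Filter Topology Metric
open scoped ENNReal Real

namespace Th
variable {C : MCol} {i : Fin 5} {v : ℂ}

instance neBot (v : ℂ) : (𝓝 v ⊓ ae (volume : Measure ℂ)).NeBot := by
  refine Filter.inf_neBot_iff.2 fun s hs t ht => ?_
  by_contra h
  rw [Set.not_nonempty_iff_eq_empty] at h
  have h1 : s ⊆ tᶜ := fun x hx hx' => by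
    have : x ∈ s ∩ t := ⟨hx, hx'⟩
    rw [h] at this
    exact this
  exact (Measure.measure_pos_of_mem_nhds volume hs).ne' (measure_mono_null h1 ht)

lemma null_approx {M : Set ℝ}
    (h : ∀ ε > (0 : ℝ≥0∞), ∃ M', C.Null i v M' ∧ volume (M \ M') ≤ ε) : C.Null i v M := by
  refine ENNReal.tendsto_nhds_zero.2 fun ε hε => ?_
  have h2 : 0 < ε / 2 := ENNReal.half_pos hε.ne'
  obtain ⟨M', h1, h3⟩ := h _ h2
  filter_upwards [ENNReal.tendsto_nhds_zero.1 h1 _ h2] with x hx
  calc C.arc i M x ≤ volume ((M' ∩ {θ | C.c (x + e θ) = i}) ∪ (M \ M')) :=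
        measure_mono fun θ hθ => by
          by_cases h4 : θ ∈ M'
          · exact Or.inl ⟨h4, hθ.2⟩
          · exact Or.inr ⟨hθ.1, h4⟩
    _ ≤ ε / 2 + ε / 2 := (measure_union_le _ _).trans (add_le_add hx h3)
    _ = ε := ENNReal.add_halves ε

lemma null_mono {M M' : Set ℝ} (h : M ⊆ M') (h' : C.Null i v M') : C.Null i v M :=
  null_approx fun ε _ => ⟨M', h', by rw [Set.sdiff_eq_empty.2 h]; simp⟩

lemma null_empty : C.Null i v ∅ := by
  have : C.arc i ∅ = fun _ => 0 := by funext x; simp [MCol.arc]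
  unfold MCol.Null
  rw [this]
  exact tendsto_const_nhds

lemma null_union {M M' : Set ℝ} (h : C.Null i v M) (h' : C.Null i v M') :
    C.Null i v (M ∪ M') := by
  have h1 := Filter.Tendsto.add h h'
  rw [add_zero] at h1
  refine tendsto_of_tendsto_of_tendsto_of_le_of_le tendsto_const_nhds h1 (fun _ => zero_le)
    fun x => ?_
  simp only [MCol.arc]
  rw [Set.union_inter_distrib_right]
  exact measure_union_le _ _

lemma null_accumulate {M : ℕ → Set ℝ} (h : ∀ n, C.Null i v (M n)) (n : ℕ) :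
    C.Null i v (Set.accumulate M n) := by
  induction n with
  | zero => simpa using h 0
  | succ n ih => rw [Set.accumulate_succ]; exact null_union ih (h _)

lemma null_cover_nat {M : Set ℝ} (hM : MeasurableSet M) (hfin : volume M ≠ ⊤) {N : ℕ → Set ℝ}
    (hN : ∀ n, MeasurableSet (N n)) (h : ∀ n, C.Null i v (N n)) (hc : M ⊆ ⋃ n, N n) :
    C.Null i v M := by
  refine null_approx fun ε hε => ?_
  have hm : ∀ n, MeasurableSet (Set.accumulate N n) := fun n =>
    MeasurableSet.biUnion (Set.to_countable _) fun k _ => hN k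
  have h1 := tendsto_measure_iInter_atTop (μ := (volume : Measure ℝ))
    (s := fun n => M \ Set.accumulate N n) (fun n => (hM.diff (hm n)).nullMeasurableSet)
    (fun a b hab => Set.sdiff_subset_sdiff_right (Set.monotone_accumulate hab))
    ⟨0, ne_top_of_le_ne_top hfin (measure_mono Set.sdiff_subset)⟩
  have h2 : (⋂ n, M \ Set.accumulate N n) = ∅ := by
    rw [Set.eq_empty_iff_forall_notMem]
    intro θ hθ
    rw [Set.mem_iInter] at hθ
    obtain ⟨n, hn⟩ := Set.mem_iUnion.1 (hc (hθ 0).1)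
    exact (hθ n).2 (Set.subset_accumulate hn)
  rw [h2, measure_empty] at h1
  obtain ⟨n, hn⟩ := (ENNReal.tendsto_nhds_zero.1 h1 ε hε).exists
  exact ⟨_, null_accumulate h n, hn⟩

lemma null_cover {ι : Type} [Countable ι] [Nonempty ι] {M : Set ℝ} (hM : MeasurableSet M)
    (hfin : volume M ≠ ⊤) {N : ι → Set ℝ} (hN : ∀ n, MeasurableSet (N n))
    (h : ∀ n, C.Null i v (N n)) (hc : M ⊆ ⋃ n, N n) : C.Null i v M := by
  obtain ⟨g, hg⟩ := exists_surjective_nat ι
  refine null_cover_nat hM hfin (N := fun n => N (g n)) (fun n => hN _) (fun n => h _) ?_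
  rwa [hg.iUnion_comp]

lemma e_add_int (θ : ℝ) (k : ℤ) : e (θ + k * (2 * π)) = e θ := by
  rw [e_add]
  have : e (k * (2 * π)) = 1 := by
    unfold e
    rw [← Complex.exp_int_mul_two_pi_mul_I k]
    congr 1; push_cast; ring
  rw [this, mul_one]

lemma null_shift {M : Set ℝ} (h : C.Null i v M) (k : ℤ) :
    C.Null i v ((fun θ => θ + k * (2 * π)) ⁻¹' M) := by
  have : C.arc i ((fun θ => θ + k * (2 * π)) ⁻¹' M) = C.arc i M := by
    funext x
    unfold MCol.arc
    rw [← measure_preimage_add_right volume (k * (2 * π)) (M ∩ _)]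
    congr 1
    ext θ
    simp [e_add_int]
  unfold MCol.Null
  rwa [this]

lemma exists_max (C : MCol) (i : Fin 5) (v : ℂ) : ∃ N, C.IsMaxNull i v N := by
  set I : Set ℝ := Ico 0 (2 * π) with hI
  have hIfin : volume I ≠ ⊤ := by rw [hI]; exact measure_Ico_lt_top.ne
  set 𝒮 : Set ℝ≥0∞ := volume '' {N : Set ℝ | MeasurableSet N ∧ N ⊆ I ∧ C.Null i v N}
  obtain ⟨u, -, hu, hu'⟩ := exists_seq_tendsto_sSup (S := 𝒮)
    ⟨_, ∅, ⟨MeasurableSet.empty, Set.empty_subset _, null_empty⟩, rfl⟩ (OrderTop.bddAbove _)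
  choose N hN hNu using hu'
  set N0 := ⋃ n, N n
  have m0 : MeasurableSet N0 := MeasurableSet.iUnion fun n => (hN n).1
  have s0 : N0 ⊆ I := Set.iUnion_subset fun n => (hN n).2.1
  have f0 : volume N0 ≠ ⊤ := ne_top_of_le_ne_top hIfin (measure_mono s0)
  have n0 : C.Null i v N0 :=
    null_cover_nat m0 f0 (fun n => (hN n).1) (fun n => (hN n).2.2) subset_rfl
  have hmax : sSup 𝒮 ≤ volume N0 :=
    le_of_tendsto' hu fun n => hNu n ▸ measure_mono (Set.subset_iUnion N n)
  have key : ∀ M, MeasurableSet M → M ⊆ I → C.Null i v M → volume (M \ N0) = 0 := by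
    intro M hM hMI hMn
    have h1 : volume (M ∪ N0) ≤ volume N0 :=
      le_trans (le_sSup (s := 𝒮)
        ⟨_, ⟨hM.union m0, Set.union_subset hMI s0, null_union hMn n0⟩, rfl⟩) hmax
    rw [← Set.sdiff_union_self, measure_union Set.disjoint_sdiff_left m0] at h1
    by_contra h2
    exact absurd h1 (not_le.2 (by
      rw [add_comm]; exact ENNReal.lt_add_right f0 h2))
  have mp : ∀ (k : ℤ) (M : Set ℝ), MeasurableSet M →
      MeasurableSet ((fun θ => θ + k * (2 * π)) ⁻¹' M) := fun k M hM =>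
    (measurable_add_const _) hM
  refine ⟨⋃ k : ℤ, (fun θ => θ + k * (2 * π)) ⁻¹' N0, MeasurableSet.iUnion fun k => mp k _ m0,
    fun θ => ?_, fun M hM hfin hsub => ?_, fun M hM hMn => ?_⟩
  · simp only [Set.mem_iUnion, Set.mem_preimage]
    constructor
    · rintro ⟨k, hk⟩
      exact ⟨k + 1, by convert hk using 1; push_cast; ring⟩
    · rintro ⟨k, hk⟩
      exact ⟨k - 1, by convert hk using 1; push_cast; ring⟩
  · exact null_cover hM hfin (fun k => mp k _ m0) (fun k => null_shift n0 k) hsub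
  · refine measure_mono_null (t := ⋃ k : ℤ, (fun θ => θ + k * (2 * π)) ⁻¹'
      ((((fun θ => θ + ((-k : ℤ) : ℝ) * (2 * π)) ⁻¹' M) ∩ I) \ N0)) ?_
      (measure_iUnion_null fun k => ?_)
    · rintro θ ⟨h1, h2⟩
      simp only [Set.mem_iUnion, Set.mem_preimage, not_exists] at h2
      obtain ⟨k, hk, -⟩ := existsUnique_add_zsmul_mem_Ico Real.two_pi_pos θ 0
      rw [zsmul_eq_mul, zero_add] at hk
      refine Set.mem_iUnion.2 ⟨k, ⟨?_, hk⟩, h2 k⟩
      simpa using h1
    · rw [measure_preimage_add_right]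
      exact key _ ((mp _ _ hM).inter measurableSet_Ico) Set.inter_subset_right
        (null_mono Set.inter_subset_left (null_shift hMn _))

lemma ae_of_bounded {p : ℝ → Prop} (h : ∀ K : ℕ, volume {θ : ℝ | |θ| ≤ K ∧ p θ} = 0) :
    ∀ᵐ θ, ¬ p θ := by
  rw [ae_iff]
  refine measure_mono_null (fun θ hθ => ?_) (measure_iUnion_null h)
  obtain ⟨K, hK⟩ := exists_nat_ge |θ|
  exact Set.mem_iUnion.2 ⟨K, hK, not_not.1 hθ⟩

lemma continuous_dens (s : Set ℂ) {r : ℝ} (hr : 0 < r) : Continuous fun x => dens s x r := by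
  refine (LipschitzWith.of_dist_le_mul (K := Real.toNNReal (2 / r)) fun x y => ?_).continuous
  rw [Real.dist_eq, dist_eq_norm, Real.coe_toNNReal _ (by positivity)]
  exact (dens_lip s x y r hr).trans (le_of_eq (by ring))

lemma tonelli (A : Set ℂ) (hA : MeasurableSet A) (y : ℂ) (M : Set ℝ) (hM : MeasurableSet M)
    {r : ℝ} (hr : 0 < r) (ε : ℝ≥0∞)
    (h : ∀ᵐ x, x ∈ closedBall y r → volume {φ | φ ∈ M ∧ x + e φ ∈ A} ≤ ε) :
    ∫⁻ φ in M, ENNReal.ofReal (dens A (y + e φ) r) ≤ ε := by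
  set W : Set (ℂ × ℝ) := {p | p.1 ∈ closedBall y r ∧ p.2 ∈ M ∧ p.1 + e p.2 ∈ A}
  have hW : MeasurableSet W :=
    (measurable_fst measurableSet_closedBall).inter ((measurable_snd hM).inter
      ((measurable_fst.add (measurable_e.comp measurable_snd)) hA))
  have h1 : (volume : Measure ℂ).prod (volume : Measure ℝ) W ≤ ε * ENNReal.ofReal (π * r ^ 2) := by
    rw [Measure.prod_apply hW]
    have e1 : ENNReal.ofReal (π * r ^ 2) = volume (closedBall y r) := by
      have := volume_inter_closedBall univ y r hr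
      rw [Set.univ_inter, dens_univ y r hr, one_mul] at this
      exact this.symm
    rw [e1, ← setLIntegral_const, ← lintegral_indicator measurableSet_closedBall]
    refine lintegral_mono_ae ?_
    filter_upwards [h] with x hx
    by_cases hx' : x ∈ closedBall y r
    · rw [Set.indicator_of_mem hx']
      exact le_trans (measure_mono fun φ hφ => hφ.2) (hx hx')
    · rw [Set.indicator_of_notMem hx']
      have : Prod.mk x ⁻¹' W = ∅ := Set.eq_empty_iff_forall_notMem.2 fun φ hφ => hx' hφ.1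
      rw [this, measure_empty]
  have h2 : (∫⁻ φ in M, ENNReal.ofReal (dens A (y + e φ) r)) * ENNReal.ofReal (π * r ^ 2)
      ≤ (volume : Measure ℂ).prod (volume : Measure ℝ) W := by
    rw [Measure.prod_apply_symm hW, ← lintegral_mul_const' _ _ ENNReal.ofReal_ne_top,
      ← lintegral_indicator hM]
    refine lintegral_mono fun φ => ?_
    by_cases hφ : φ ∈ M
    · rw [Set.indicator_of_mem hφ, ← ENNReal.ofReal_mul (dens_nonneg _ _ _),
        ← volume_inter_closedBall A _ r hr, ← measure_preimage_add_right volume (e φ)]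
      refine measure_mono fun x hx => ⟨?_, hφ, hx.1⟩
      simpa using hx.2
    · rw [Set.indicator_of_notMem hφ]; exact zero_le
  exact (ENNReal.mul_le_mul_iff_left (by simpa using by positivity) ENNReal.ofReal_ne_top).1
    (h2.trans h1)

end Th

open Th

namespace MCol
variable (C : MCol)

/-- Proof (existence, then `Classical.epsilon_spec`). `Null i v` is hereditary, closed under finite
unions, under shifts by `2π`, and under countable unions inside a set of finite measure (the tail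
has small measure and `arc i M x ≤ volume M`). Take `N₀ ⊆ [0, 2π)` measurable and `Null` of
maximal measure (union of a maximising sequence) and let `N = {θ | toIcoMod θ ∈ N₀}`. -/
theorem th_spec (v : ℂ) (i : Fin 5) : C.IsMaxNull i v (C.Th v i)ᶜ := by
  unfold Th
  rw [compl_compl]
  exact Classical.epsilon_spec (exists_max C i v)

theorem measurableSet_Th (v : ℂ) (i : Fin 5) : MeasurableSet (C.Th v i) := by
  simpa using (C.th_spec v i).1.compl

theorem measurableSet_S (v : ℂ) (p : Finset (Fin 5) → Prop) :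
    MeasurableSet {θ | p (C.S v θ)} := by
  classical
  have : {θ | p (C.S v θ)} = ⋃ s ∈ {s : Finset (Fin 5) | p s}, ⋂ i, {θ | θ ∈ C.Th v i ↔ i ∈ s} := by
    ext θ
    simp only [Set.mem_ofPred_eq, Set.mem_iUnion, Set.mem_iInter, exists_prop, ← mem_S]
    constructor
    · exact fun h => ⟨_, h, fun _ => Iff.rfl⟩
    · rintro ⟨s, hs, h⟩
      rwa [Finset.ext h]
  rw [this]
  refine MeasurableSet.biUnion (Set.to_countable _) fun s _ => MeasurableSet.iInter fun i => ?_
  by_cases h : i ∈ s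
  · simpa [h] using C.measurableSet_Th v i
  · simp only [h, iff_false]
    exact (C.measurableSet_Th v i).compl

theorem S_add_two_pi (v : ℂ) (θ : ℝ) : C.S v (θ + 2 * π) = C.S v θ := by
  ext i
  rw [mem_S, mem_S]
  exact not_iff_not.1 ((C.th_spec v i).2.1 θ)

/-- to show that colour `i` is a.e. not in `S v θ` on `M` -/
theorem ae_notMem_S (v : ℂ) (i : Fin 5) (M : Set ℝ) (hM : MeasurableSet M) (h : C.Null i v M) :
    ∀ᵐ θ, θ ∈ M → i ∉ C.S v θ := by
  have h1 := (C.th_spec v i).2.2.2 M hM h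
  rw [ae_iff]
  refine measure_mono_null (fun θ hθ => ?_) h1
  simp only [Set.mem_ofPred_eq, Classical.not_imp, not_not, mem_S] at hθ
  exact ⟨hθ.1, fun hh => hh hθ.2⟩

/-- circles about points near `v` mostly have colours in `S v θ`: the set is the union over `i` of
`([-K, K] \ Th v i) ∩ {c (x + e θ) = i}` -/
theorem exc_small (v : ℂ) (K : ℝ) :
    Tendsto (fun x => volume {θ : ℝ | |θ| ≤ K ∧ C.c (x + e θ) ∉ C.S v θ}) (𝓝 v ⊓ ae volume)
      (𝓝 0) := by
  have h1 : Tendsto (fun x => ∑ i, C.arc i (Icc (-K) K ∩ (C.Th v i)ᶜ) x) (𝓝 v ⊓ ae volume)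
      (𝓝 (∑ _i : Fin 5, 0)) :=
    tendsto_finsetSum _ fun i _ => (C.th_spec v i).2.2.1 _
      (measurableSet_Icc.inter (C.measurableSet_Th v i).compl)
      (ne_top_of_le_ne_top (by simp) (measure_mono Set.inter_subset_left)) Set.inter_subset_right
  rw [Finset.sum_const_zero] at h1
  refine tendsto_of_tendsto_of_tendsto_of_le_of_le tendsto_const_nhds h1 (fun _ => zero_le)
    fun x => ?_
  refine le_trans (measure_mono fun θ hθ => ?_) (measure_iUnion_fintype_le _ _)
  exact Set.mem_iUnion.2 ⟨C.c (x + e θ), ⟨abs_le.1 hθ.1, fun h => hθ.2 ((C.mem_S _ _ _).2 h)⟩, rfl⟩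

/-- `exc_small`; the filter `𝓝 v ⊓ ae volume` is `NeBot` -/
theorem S_nonempty (v : ℂ) : ∀ᵐ θ, (C.S v θ).Nonempty := by
  refine ae_of_bounded (p := fun θ => ¬ (C.S v θ).Nonempty) (fun K => ?_) |>.mono
    fun θ h => not_not.1 h
  refine le_antisymm (ge_of_tendsto' (C.exc_small v K) fun x => measure_mono fun θ hθ => ?_)
    zero_le
  exact ⟨hθ.1, fun h => hθ.2 ⟨_, h⟩⟩

/-- Proof. If `M = {|θ| ≤ K, S v θ ⊆ {i}}` has positive measure then by `exc_small` for a.e. `x`
near `v` the colour `i` has positive length on the circle about `x`, so `c x ≠ i` (`ae_proper`). -/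
theorem single (v : ℂ) (i : Fin 5) (h : v ∈ C.F i) : ∀ᵐ θ, ¬ C.S v θ ⊆ {i} := by
  refine ae_of_bounded fun K => ?_
  by_contra h0
  refine (C.notMem_F_iff v i).2 ?_ h
  filter_upwards [(C.exc_small v K).eventually (gt_mem_nhds (pos_iff_ne_zero.2 h0)),
    C.ae_proper.filter_mono inf_le_right] with x h1 h2 h3
  refine absurd h1 (not_lt.2 (measure_mono_ae ?_))
  filter_upwards [h2] with θ h4 h5
  exact ⟨h5.1, fun h6 => h4 (h3.trans (Finset.mem_singleton.1 (h5.2 h6)).symm)⟩

/-- Proof. Let `M = {|φ| ≤ K, f L (y + e φ) (1/(n+1)) → 1, Disjoint L (S y φ)}` (measurable). By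
Tonelli the average over `x ∈ closedBall y r` of `volume {φ ∈ M | c (x + e φ) ∈ L}` is
`∫_M f L (y + e φ) r dφ → volume M` (dominated convergence), and it tends to `0` by `exc_small`. -/
theorem pres (y : ℂ) (L : Finset (Fin 5)) :
    ∀ᵐ φ, Tendsto (C.f L (y + e φ)) (𝓝[>] 0) (𝓝 1) → ∃ i ∈ L, i ∈ C.S y φ := by
  have hr : ∀ n : ℕ, (0 : ℝ) < 1 / (n + 1) := fun n => by positivity
  have hlim : Tendsto (fun n : ℕ => (1 : ℝ) / (n + 1)) atTop (𝓝[>] 0) :=
    tendsto_nhdsWithin_iff.2 ⟨tendsto_one_div_add_atTop_nhds_zero_nat,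
      Eventually.of_forall hr⟩
  have hm : ∀ n : ℕ, Measurable fun φ => C.f L (y + e φ) (1 / (n + 1)) := fun n =>
    ((continuous_dens _ (hr n)).comp (continuous_const.add continuous_e)).measurable
  refine (ae_of_bounded (p := fun φ =>
    Tendsto (fun n : ℕ => C.f L (y + e φ) (1 / (n + 1))) atTop (𝓝 1) ∧
      ¬ ∃ i ∈ L, i ∈ C.S y φ) fun K => ?_).mono fun φ h h1 => ?_
  swap
  · by_contra h2
    exact h ⟨h1.comp hlim, h2⟩
  set M := {φ : ℝ | |φ| ≤ K ∧ Tendsto (fun n : ℕ => C.f L (y + e φ) (1 / (n + 1))) atTop (𝓝 1) ∧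
      ¬ ∃ i ∈ L, i ∈ C.S y φ}
  have hM : MeasurableSet M :=
    (measurableSet_le measurable_abs measurable_const).inter
      ((measurableSet_tendsto _ hm).inter (C.measurableSet_S y fun s => ¬ ∃ i ∈ L, i ∈ s))
  refine le_antisymm (le_of_forall_gt_imp_ge_of_dense fun ε hε => ?_) zero_le
  obtain ⟨s, hs, t, ht, hst⟩ := Filter.eventually_inf.1
    (ENNReal.tendsto_nhds_zero.1 (C.exc_small y K) ε hε)
  obtain ⟨δ, hδ, hδs⟩ := Metric.mem_nhds_iff.1 hs
  have h1 : ∀ᶠ n : ℕ in atTop,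
      ∫⁻ φ in M, ENNReal.ofReal (C.f L (y + e φ) (1 / (n + 1))) ≤ ε := by
    filter_upwards [tendsto_one_div_add_atTop_nhds_zero_nat.eventually (gt_mem_nhds hδ)] with n hn
    refine tonelli _ (C.measurableSet_A L) y M hM (hr n) ε ?_
    filter_upwards [ht] with x hx hx'
    refine le_trans (measure_mono fun φ hφ => ?_)
      (hst x ⟨hδs (closedBall_subset_ball hn hx'), hx⟩)
    exact ⟨hφ.1.1, fun h => hφ.1.2.2 ⟨_, hφ.2, h⟩⟩
  calc volume M = ∫⁻ φ in M, liminf
        (fun n : ℕ => ENNReal.ofReal (C.f L (y + e φ) (1 / (n + 1)))) atTop := by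
        rw [← setLIntegral_one]
        refine setLIntegral_congr_fun hM fun φ hφ => ?_
        have := (ENNReal.tendsto_ofReal hφ.2.1).liminf_eq
        simp only [ENNReal.ofReal_one] at this
        exact this.symm
    _ ≤ _ := lintegral_liminf_le fun n => (hm n).ennreal_ofReal
    _ ≤ ε := liminf_le_of_frequently_le' h1.frequently

/-- Proof. If `v + e θ₀ ∉ F i`, colour `i` is null in a ball about `v + e θ₀`, so for an interval
`I ∋ θ₀` and a.e. `x` near `v`, `arc i I x = 0` (`ae_circ`); `ae_notMem_S`; Lindelöf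
(`measure_null_of_locally_null` or `ae_of_mem_of_ae_of_mem_inter_Ioo`). -/
theorem S_sub_F (v : ℂ) : ∀ᵐ θ, ∀ i ∈ C.S v θ, v + e θ ∈ C.F i := by
  rw [ae_all_iff]
  intro i
  rw [ae_iff]
  refine measure_null_of_locally_null _ fun θ₀ hθ₀ => ?_
  simp only [Set.mem_ofPred_eq, Classical.not_imp, F, not_forall, not_not] at hθ₀
  obtain ⟨-, r, hr, h0⟩ := hθ₀
  obtain ⟨η, hη, hη'⟩ := Metric.continuous_iff.1 continuous_e θ₀ (r / 2) (half_pos hr)
  have hn : C.Null i v (ball θ₀ η) := by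
    refine tendsto_const_nhds.congr' ?_
    filter_upwards [(ae_circ _ h0).filter_mono inf_le_right,
      mem_inf_of_left (ball_mem_nhds v (half_pos hr))] with x h1 h2
    symm
    refine measure_mono_null (fun θ hθ => ?_) (ae_iff.1 h1)
    refine not_not.2 ⟨Finset.mem_singleton.2 hθ.2, ?_⟩
    refine lt_of_le_of_lt (dist_add_add_le _ _ _ _) ?_
    have := hη' θ hθ.1
    rw [mem_ball] at h2
    linarith
  refine ⟨_, inter_mem_nhdsWithin _ (ball_mem_nhds θ₀ hη), ?_⟩
  refine measure_mono_null (fun θ hθ => ?_) (ae_iff.1 (C.ae_notMem_S v i _ measurableSet_ball hn))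
  simp only [Set.mem_ofPred_eq, Set.mem_inter_iff, Classical.not_imp, not_not] at hθ ⊢
  exact ⟨hθ.2, hθ.1.1⟩

end MCol

end Crest.Agent.R40
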