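import Crest.Agent.R40.Dens

/-!
# Row 40, task B1': the topological shadow
-/

set_option autoImplicit false

namespace Crest.Agent.R40
open MeasureTheory Set Filter Topology Metric
open scoped ENNReal Real

namespace TopOf

lemma rot (s : ℝ) (hs : |s| ≤ 1) : ∃ c : ℝ, 0 ≤ c ∧ c ≤ 1 ∧ ‖(c : ℂ) + s * Complex.I‖ = 1 ∧
    ‖(c : ℂ) - s * Complex.I‖ = 1 ∧ ‖(c : ℂ) + s * Complex.I - 1‖ ≤ 2 * |s| := by
  have h1 : s ^ 2 ≤ 1 := by
    have := sq_abs s
    nlinarith [abs_nonneg s]
  have h0 : 0 ≤ 1 - s ^ 2 := by linarith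
  have hc := Real.sq_sqrt h0
  have hc0 := Real.sqrt_nonneg (1 - s ^ 2)
  set c := √(1 - s ^ 2) with hcdef
  have hc1 : c ≤ 1 := by nlinarith [sq_nonneg s]
  refine ⟨c, hc0, hc1, ?_, ?_, ?_⟩
  · rw [← sq_eq_sq₀ (norm_nonneg _) zero_le_one, Complex.sq_norm, Complex.normSq_apply]
    simp
    nlinarith
  · rw [← sq_eq_sq₀ (norm_nonneg _) zero_le_one, Complex.sq_norm, Complex.normSq_apply]
    simp
    nlinarith
  · have e1 : (c : ℂ) + s * Complex.I - 1 = ((c - 1 : ℝ) : ℂ) + s * Complex.I := by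
      push_cast; ring
    rw [e1]
    refine (norm_add_le _ _).trans ?_
    rw [norm_mul, Complex.norm_I, Complex.norm_real, Complex.norm_real, Real.norm_eq_abs,
      Real.norm_eq_abs, abs_of_nonpos (by linarith)]
    have := sq_abs s
    nlinarith [abs_nonneg s]

/-- one move -/
lemma move {g : ℂ → ℝ} {p u : ℂ} {η : ℝ}
    (h : ∀ x w : ℂ, ‖x - p‖ < η → ‖w - (p + u)‖ < η → ‖w - x‖ = 1 → g x + g w = 1)
    (hη : η ≤ 1) (x a : ℂ) (ha : ‖a‖ = 1) (hau : ‖a - u‖ ≤ η / 4) (hx : ‖x - p‖ < η / 2) (s : ℝ)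
    (hs : |s| ≤ η / 8) : g (x + 2 * s * Complex.I * a) = g x := by
  obtain ⟨c, -, -, h1, h2, h3⟩ := rot s (by linarith [abs_nonneg s])
  have hw : ‖x + a * (c + s * Complex.I) - (p + u)‖ < η := by
    have e1 : x + a * (c + s * Complex.I) - (p + u)
        = (x - p) + (a * (c + s * Complex.I - 1) + (a - u)) := by ring
    rw [e1]
    have := norm_add_le (x - p) (a * (c + s * Complex.I - 1) + (a - u))
    have h5 := norm_add_le (a * (c + s * Complex.I - 1)) (a - u)
    rw [norm_mul, ha] at h5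
    linarith
  have A := h x (x + a * (c + s * Complex.I)) (by linarith [norm_nonneg (x - p)]) hw
    (by rw [add_sub_cancel_left, norm_mul, ha, h1, one_mul])
  have B := h (x + 2 * s * Complex.I * a) (x + a * (c + s * Complex.I)) ?_ hw ?_
  · linarith
  · have e1 : x + 2 * s * Complex.I * a - p = (x - p) + 2 * s * Complex.I * a := by ring
    rw [e1]
    have := norm_add_le (x - p) (2 * s * Complex.I * a)
    rw [norm_mul, norm_mul, norm_mul, ha, Complex.norm_I, Complex.norm_real, Real.norm_eq_abs,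
      Complex.norm_two] at this
    linarith [norm_nonneg (x - p)]
  · have e1 : x + a * (c + s * Complex.I) - (x + 2 * s * Complex.I * a)
        = a * (c - s * Complex.I) := by ring
    rw [e1, norm_mul, ha, h2, one_mul]

/-- two moves reach a neighbourhood -/
lemma const {g : ℂ → ℝ} {p u : ℂ} {η : ℝ} (hu : ‖u‖ = 1) (h0 : 0 < η) (hη : η ≤ 1)
    (h : ∀ x w : ℂ, ‖x - p‖ < η → ‖w - (p + u)‖ < η → ‖w - x‖ = 1 → g x + g w = 1)
    (y y' : ℂ) (hy : ‖y - p‖ < η ^ 2 / 256) (hy' : ‖y' - p‖ < η ^ 2 / 256) : g y' = g y := by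
  obtain ⟨c, hc0, hc1, h1, -, h3⟩ := rot (η / 8) (by rw [abs_of_pos (by positivity)]; linarith)
  rw [abs_of_pos (by positivity : 0 < η / 8)] at h3
  have hu0 : u ≠ 0 := by rintro rfl; simp at hu
  set d : ℂ := (y' - y) / (2 * Complex.I * u) with hd
  have hdn : ‖d‖ ≤ η ^ 2 / 256 := by
    rw [hd, norm_div, norm_mul, norm_mul, hu, Complex.norm_I, Complex.norm_two]
    have e1 : y' - y = (y' - p) - (y - p) := by ring
    have := norm_sub_le (y' - p) (y - p)
    rw [e1]
    linarith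
  have hre : |d.re| ≤ η ^ 2 / 256 := (Complex.abs_re_le_norm d).trans hdn
  have him : |d.im| ≤ η ^ 2 / 256 := (Complex.abs_im_le_norm d).trans hdn
  set s2 : ℝ := d.im / (η / 8) with hs2
  set s1 : ℝ := d.re - s2 * c with hs1
  have hs2n : |s2| ≤ η / 32 := by
    rw [hs2, abs_div, abs_of_pos (by positivity : 0 < η / 8), div_le_iff₀ (by positivity)]
    nlinarith
  have hs1n : |s1| ≤ η / 16 := by
    have h4 : |s1| ≤ |d.re| + |s2 * c| := abs_sub _ _
    rw [abs_mul, abs_of_nonneg hc0] at h4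
    have : |s2| * c ≤ |s2| := mul_le_of_le_one_right (abs_nonneg _) hc1
    nlinarith
  have hη2 : η ^ 2 / 256 ≤ η / 256 := by nlinarith
  have A := move h hη y u hu (by simp; positivity) (by linarith) s1 (by linarith)
  have B := move h hη (y + 2 * s1 * Complex.I * u) (u * (c + (η / 8 : ℝ) * Complex.I))
    (by rw [norm_mul, hu, h1, one_mul]) ?_ ?_ s2 (by linarith)
  · rw [← A, ← B]
    congr 1
    have e1 : d = s1 + s2 * (c + (η / 8 : ℝ) * Complex.I) := by
      apply Complex.ext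
      · simp [hs1]
      · simp only [Complex.add_im, Complex.ofReal_im, Complex.mul_im, Complex.ofReal_re,
          Complex.add_re, Complex.mul_re, Complex.I_re, Complex.I_im, hs2]
        field_simp
        ring
    have e2 : y' = y + 2 * Complex.I * u * d := by
      rw [hd]; field_simp; ring
    rw [e2, e1]; ring
  · have e1 : u * (c + (η / 8 : ℝ) * Complex.I) - u = u * (c + (η / 8 : ℝ) * Complex.I - 1) := by
      ring
    rw [e1, norm_mul, hu]
    linarith
  · have e1 : y + 2 * s1 * Complex.I * u - p = (y - p) + 2 * s1 * Complex.I * u := by ring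
    rw [e1]
    have := norm_add_le (y - p) (2 * s1 * Complex.I * u)
    rw [norm_mul, norm_mul, norm_mul, hu, Complex.norm_I, Complex.norm_real, Real.norm_eq_abs,
      Complex.norm_two] at this
    linarith

/-- uniform radius for finitely many absent colours -/
lemma exists_eta (C : MCol) (v : ℂ) : ∃ η > 0, η ≤ 1 ∧ ∀ k, v ∉ C.F k →
    ∀ x r, ‖x - v‖ < η → r < η → C.f {k} x r = 0 := by
  have h : ∀ k, ∃ η > 0, v ∉ C.F k → ∀ x r, ‖x - v‖ < η → r < η → C.f {k} x r = 0 := by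
    intro k
    by_cases hk : v ∈ C.F k
    · exact ⟨1, one_pos, fun h => absurd hk h⟩
    · obtain ⟨η, h0, h⟩ := C.f_eq_zero_of_notMem_F v k hk
      exact ⟨η, h0, fun _ => h⟩
  choose η h0 h using h
  refine ⟨min 1 (Finset.univ.inf' Finset.univ_nonempty η), ?_, min_le_left _ _, ?_⟩
  · exact lt_min one_pos ((Finset.lt_inf'_iff _).2 fun k _ => h0 k)
  · intro k hk x r hx hr
    have : min 1 (Finset.univ.inf' Finset.univ_nonempty η) ≤ η k :=
      (min_le_right _ _).trans (Finset.inf'_le _ (Finset.mem_univ k))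
    exact h k hk x r (hx.trans_le this) (hr.trans_le this)

lemma c2 (C : MCol) (i : Fin 5) (p q : ℂ) (hpq : ‖p - q‖ = 1) (hp : ∀ j, j ≠ i → p ∉ C.F j) :
    q ∉ C.F i := by
  intro hq
  obtain ⟨η, h0, -, h⟩ := exists_eta C p
  obtain ⟨y, hy, ht⟩ := C.exists_dens_point q i hq η h0
  have h1 : ∀ᶠ r in 𝓝[>] (0 : ℝ), 1 / 2 < C.f {i} y r := ht.eventually (lt_mem_nhds (by norm_num))
  obtain ⟨r, hr, hr0, hrη⟩ := (h1.and (Ioo_mem_nhdsGT h0)).exists
  have h2 := C.f_add_f_le i y (p - q) hpq r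
  have h3 := C.sum_f (y + (p - q)) r hr0
  rw [Finset.sum_eq_single i (fun j _ hj => h j (hp j hj) _ r (by
    have e1 : y + (p - q) - p = y - q := by ring
    rwa [e1]) hrη) (by simp)] at h3
  linarith

lemma c3 (C : MCol) (i j : Fin 5) (p q : ℂ) (hij : i ≠ j) (hpq : ‖p - q‖ = 1)
    (hp : ∀ k, k ≠ i → k ≠ j → p ∉ C.F k) (hq : ∀ k, k ≠ i → k ≠ j → q ∉ C.F k) :
    p ∉ C.F i ∨ p ∉ C.F j := by
  by_contra hcon
  push Not at hcon
  obtain ⟨hi, hj⟩ := hcon
  obtain ⟨η1, h01, h11, h1⟩ := exists_eta C p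
  obtain ⟨η2, h02, -, h2⟩ := exists_eta C q
  set η := min η1 η2 with hη
  have h0 : 0 < η := lt_min h01 h02
  have hη1 : η ≤ η1 := min_le_left _ _
  have hη2 : η ≤ η2 := min_le_right _ _
  have two : ∀ (x : ℂ) (r : ℝ), 0 < r → (∀ k, k ≠ i → k ≠ j → C.f {k} x r = 0) →
      C.f {i} x r + C.f {j} x r = 1 := by
    intro x r hr hk
    rw [← C.sum_f x r hr, ← Finset.sum_pair (f := fun k => C.f {k} x r) hij]
    refine Finset.sum_subset (Finset.subset_univ _) fun k _ hk' => ?_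
    simp only [Finset.mem_insert, Finset.mem_singleton, not_or] at hk'
    exact hk k hk'.1 hk'.2
  have twop : ∀ (x : ℂ) (r : ℝ), 0 < r → r < η → ‖x - p‖ < η → C.f {i} x r + C.f {j} x r = 1 :=
    fun x r hr hr' hx => two x r hr fun k hki hkj =>
      h1 k (hp k hki hkj) x r (hx.trans_le hη1) (hr'.trans_le hη1)
  have twoq : ∀ (x : ℂ) (r : ℝ), 0 < r → r < η → ‖x - q‖ < η → C.f {i} x r + C.f {j} x r = 1 :=
    fun x r hr hr' hx => two x r hr fun k hki hkj =>
      h2 k (hq k hki hkj) x r (hx.trans_le hη2) (hr'.trans_le hη2)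
  have hκ : 0 < η ^ 2 / 256 := by positivity
  have hη' : η ≤ 1 := hη1.trans h11
  obtain ⟨y, hy, ht⟩ := C.exists_dens_point p i hi _ hκ
  obtain ⟨y', hy', ht'⟩ := C.exists_dens_point p j hj _ hκ
  have e1 : ∀ᶠ r in 𝓝[>] (0 : ℝ), 1 / 2 < C.f {i} y r := ht.eventually (lt_mem_nhds (by norm_num))
  have e2 : ∀ᶠ r in 𝓝[>] (0 : ℝ), 1 / 2 < C.f {j} y' r :=
    ht'.eventually (lt_mem_nhds (by norm_num))
  obtain ⟨r, ⟨hr, hr'⟩, hr0, hrη⟩ := ((e1.and e2).and (Ioo_mem_nhdsGT h0)).exists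
  have key := const (g := fun x => C.f {i} x r) (p := p) (u := q - p)
    (by rw [norm_sub_rev, hpq]) h0 hη' ?_ y y' hy hy'
  · have := twop y' r hr0 hrη (hy'.trans_le (by nlinarith))
    linarith
  · intro x w hx hw hxw
    rw [add_sub_cancel] at hw
    have a1 := twop x r hr0 hrη hx
    have a2 := twoq w r hr0 hrη hw
    have a3 := C.f_add_f_le i x (w - x) hxw r
    have a4 := C.f_add_f_le j x (w - x) hxw r
    rw [add_sub_cancel] at a3 a4
    linarith

end TopOf

/-- Proof. `closed`, `cover`: `Dens`. `c2`: near `p` a.e. point has colour `i`, so near `q = p + u`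
a.e. point has another colour (`C.proper u`, translation invariance; or `f_add_f_le`).
`c3`: there is `η > 0` such that discs `(x, r)`, `‖x - p‖ < η` or `‖x - q‖ < η`, `r < η`, only carry
`i`, `j`. For `x` near `p` and a unit vector `u'` with `x + u'` near `q`, `f_add_f_le` for `i` and
for `j` and `sum_f` give `f {i} x r = 1 - f {i} (x + u') r`. So `f {i} x r = f {i} x' r` if
`x' - x = e α - e β` with `α, β` near the angle `γ` of `q - p`. Since
`e (γ' + t) - e (γ' - t) = 2 sin t · I e γ'`, two such moves (with `γ' = γ ± η'`) reach a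
neighbourhood of `p`. So `f {i} · r` is constant near `p` for every small `r`; if `p ∈ F i ∩ F j`,
`exists_dens_point` gives nearby `y, y'` with `f {i} y r → 1`, `f {j} y' r → 1`, against
`f {i} y' r + f {j} y' r = 1`. -/
theorem MCol.exists_top (C : MCol) : ∃ X : Top, X.F = C.F :=
  ⟨⟨C.F, C.isClosed_F, C.exists_mem_F, TopOf.c2 C, TopOf.c3 C⟩, rfl⟩

end Crest.Agent.R40
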