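import Crest.Agent.R40.Geo

/-!
# Row 40, task E2: three interfaces cannot meet
-/

set_option autoImplicit false

namespace Crest.Agent.R40
open MeasureTheory Set Filter Topology Metric
open scoped ENNReal Real

/-- Proof. `D' = {θ₀ | ∀ᶠ θ in 𝓝[≠] θ₀, θ ∈ D}`, `E'` likewise: open, disjoint, `D ⊆ D'`,
`E ⊆ E'`. If they cover `ℝ`, one of them is `ℝ` (connectedness), which contradicts `hf` near `0`.
So some `θ₀` is in neither; then neither is `θ₀ + π/3` (if `θ₀ + π/3 ∈ D'` then `θ₀ ∈ E'` by `hf`,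
`hc`, `hT`), and so on; points outside `D' ∪ E'` are in `T` by `hc`. -/
theorem hexagon (T D E : Set ℝ) (hT : ∀ θ₀, ∀ᶠ θ in 𝓝[≠] θ₀, θ ∉ T) (hD : IsOpen D)
    (hE : IsOpen E) (hDE : Disjoint D E) (hc : ∀ θ, θ ∉ T → θ ∈ D ∨ θ ∈ E)
    (hf : ∀ θ, θ ∉ T → θ + π / 3 ∉ T →
      ¬ (θ ∈ D ∧ θ + π / 3 ∈ D) ∧ ¬ (θ ∈ E ∧ θ + π / 3 ∈ E)) :
    ∃ θ₀, ∀ k : ℕ, θ₀ + k * (π / 3) ∈ T := by
  set D' : Set ℝ := {θ₀ | ∀ᶠ θ in 𝓝[≠] θ₀, θ ∈ D} with hD'
  set E' : Set ℝ := {θ₀ | ∀ᶠ θ in 𝓝[≠] θ₀, θ ∈ E} with hE'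
  have hD'o : IsOpen D' := isOpen_setOfPred_eventually_nhdsWithin
  have hE'o : IsOpen E' := isOpen_setOfPred_eventually_nhdsWithin
  have hdisj : Disjoint D' E' := by
    rw [Set.disjoint_left]
    intro θ h1 h2
    have h1' : ∀ᶠ x in 𝓝[≠] θ, x ∈ D := h1
    have h2' : ∀ᶠ x in 𝓝[≠] θ, x ∈ E := h2
    obtain ⟨x, hx1, hx2⟩ := (h1'.and h2').exists
    exact Set.disjoint_left.1 hDE hx1 hx2
  have hDD : D ⊆ D' := fun θ hθ => mem_nhdsWithin_of_mem_nhds (hD.mem_nhds hθ)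
  have hEE : E ⊆ E' := fun θ hθ => mem_nhdsWithin_of_mem_nhds (hE.mem_nhds hθ)
  have htend : ∀ θ₀ : ℝ, Tendsto (fun θ => θ + π / 3) (𝓝[≠] θ₀) (𝓝[≠] (θ₀ + π / 3)) := by
    intro θ₀
    refine tendsto_nhdsWithin_of_tendsto_nhds_of_eventually_within _ ?_ ?_
    · exact ((continuous_add_const _).tendsto θ₀).mono_left nhdsWithin_le_nhds
    · filter_upwards [self_mem_nhdsWithin] with θ hθ
      intro h
      exact hθ (add_right_cancel h)
  have stepD : ∀ θ₀, θ₀ + π / 3 ∈ D' → θ₀ ∈ E' := by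
    intro θ₀ h
    have h1 := (htend θ₀).eventually h
    have h2 := (htend θ₀).eventually (hT (θ₀ + π / 3))
    filter_upwards [h1, h2, hT θ₀] with θ a1 a2 a3
    rcases hc θ a3 with h | h
    · exact absurd ⟨h, a1⟩ (hf θ a3 a2).1
    · exact h
  have stepE : ∀ θ₀, θ₀ + π / 3 ∈ E' → θ₀ ∈ D' := by
    intro θ₀ h
    have h1 := (htend θ₀).eventually h
    have h2 := (htend θ₀).eventually (hT (θ₀ + π / 3))
    filter_upwards [h1, h2, hT θ₀] with θ a1 a2 a3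
    rcases hc θ a3 with h | h
    · exact h
    · exact absurd ⟨h, a1⟩ (hf θ a3 a2).2
  have hex : ∃ θ₀, θ₀ ∉ D' ∪ E' := by
    by_contra hcon
    push Not at hcon
    rcases isPreconnected_univ.subset_or_subset hD'o hE'o hdisj (fun θ _ => hcon θ) with h | h
    · exact Set.disjoint_left.1 hdisj (h (mem_univ 0)) (stepD 0 (h (mem_univ _)))
    · exact Set.disjoint_left.1 hdisj (stepE 0 (h (mem_univ _))) (h (mem_univ 0))
  obtain ⟨θ₀, h0⟩ := hex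
  have hk : ∀ k : ℕ, θ₀ + k * (π / 3) ∉ D' ∪ E' := by
    intro k
    induction k with
    | zero => simpa using h0
    | succ k ih =>
      have e1 : θ₀ + ((k + 1 : ℕ) : ℝ) * (π / 3) = θ₀ + k * (π / 3) + π / 3 := by
        push_cast; ring
      rw [e1]
      rintro (h | h)
      · exact ih (Or.inr (stepD _ h))
      · exact ih (Or.inl (stepE _ h))
  refine ⟨θ₀, fun k => ?_⟩
  by_contra hk'
  rcases hc _ hk' with h | h
  · exact hk k (Or.inl (hDD h))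
  · exact hk k (Or.inr (hEE h))

namespace Tri

theorem two_circ (φ α : ℝ) (q : ℂ) (h1 : ‖e φ - q‖ = 1) (h2 : ‖e (φ + α) - q‖ = 1) (hq : q ≠ 0)
    (hα : Real.cos α ≠ 1) : ‖q‖ ^ 2 = 2 + 2 * Real.cos α := by
  set w : ℂ := q * e (-φ) with hw
  have he : e φ * e (-φ) = 1 := by rw [← e_add, add_neg_cancel, e_zero]
  have hqw : q = e φ * w := by rw [hw, mul_left_comm, he, mul_one]
  have hn : ‖q‖ = ‖w‖ := by rw [hw, norm_mul, norm_e, mul_one]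
  have g1 : ‖1 - w‖ = 1 := by
    have : e φ - q = e φ * (1 - w) := by rw [mul_sub, mul_one, ← hqw]
    rwa [this, norm_mul, norm_e, one_mul] at h1
  have g2 : ‖e α - w‖ = 1 := by
    have : e (φ + α) - q = e φ * (e α - w) := by rw [mul_sub, e_add, ← hqw]
    rwa [this, norm_mul, norm_e, one_mul] at h2
  have hw0 : 0 < ‖w‖ ^ 2 := by
    rw [← hn]; exact pow_pos (norm_pos_iff.2 hq) 2
  have k1 := congrArg (· ^ 2) g1
  have k2 := congrArg (· ^ 2) g2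
  simp only [Complex.sq_norm, Complex.normSq_apply, Complex.sub_re, Complex.sub_im,
    Complex.one_re, Complex.one_im, e_re, e_im] at k1 k2 hw0
  rw [hn, Complex.sq_norm, Complex.normSq_apply]
  have hs := Real.sin_sq_add_cos_sq α
  set x := w.re
  set y := w.im
  set c := Real.cos α
  set s := Real.sin α
  have a1 : x * x + y * y = 2 * x := by linarith
  have a2 : x * (1 - c) = y * s := by nlinarith
  have hc1 : 1 - c ≠ 0 := fun h => hα (by linarith)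
  have hx : x ≠ 0 := by
    intro h; rw [h] at a1 hw0; linarith
  have a3 : (1 - c) * (x * x * (1 - c) - y * y * (1 + c)) = 0 := by
    have : (x * (1 - c)) ^ 2 = (y * s) ^ 2 := by rw [a2]
    have hs' : s ^ 2 = 1 - c ^ 2 := by linarith
    rw [mul_pow y s, hs'] at this
    linear_combination this
  have a4 : x * x * (1 - c) - y * y * (1 + c) = 0 := (mul_eq_zero.1 a3).resolve_left hc1
  have a5 : x * (x - (1 + c)) = 0 := by
    have : y * y = 2 * x - x * x := by linarith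
    rw [this] at a4
    linear_combination (1 / 2 : ℝ) * a4
  have a6 : x = 1 + c := by linarith [(mul_eq_zero.1 a5).resolve_left hx]
  rw [a1, a6]; ring

theorem cos_mul_third (m : ℕ) (h1 : 1 ≤ m) (h3 : m ≤ 3) :
    Real.cos (m * (π / 3)) = 1 / 2 ∨ Real.cos (m * (π / 3)) = -1 / 2 ∨
      Real.cos (m * (π / 3)) = -1 := by
  interval_cases m
  · left; simp [Real.cos_pi_div_three]
  · right; left
    have : ((2 : ℕ) : ℝ) * (π / 3) = π - π / 3 := by push_cast; ring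
    rw [this, Real.cos_pi_sub, Real.cos_pi_div_three]; ring
  · right; right
    have : ((3 : ℕ) : ℝ) * (π / 3) = π := by push_cast; ring
    rw [this, Real.cos_pi]

theorem no_four (θ₀ : ℝ) (q : Fin 3 → ℂ) (hq : ∀ i, 0 < ‖q i‖ ∧ ‖q i‖ < 1)
    (h : ∀ k : ℕ, ∃ i, ‖e (θ₀ + k * (π / 3)) - q i‖ = 1) : False := by
  choose f hf using h
  have key : ∀ j k : ℕ, j < k → k ≤ 3 → f j = f k → False := by
    intro j k hjk hk hfe
    obtain ⟨m, rfl⟩ : ∃ m, k = j + m := ⟨k - j, by omega⟩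
    have h1 := hf j
    have h2 := hf (j + m)
    rw [← hfe] at h2
    have e1 : θ₀ + ((j + m : ℕ) : ℝ) * (π / 3) = θ₀ + j * (π / 3) + m * (π / 3) := by
      push_cast; ring
    rw [e1] at h2
    have hc := cos_mul_third m (by omega) (by omega)
    have h3 := two_circ _ _ _ h1 h2 (norm_pos_iff.1 (hq _).1)
      (by rcases hc with hc | hc | hc <;> rw [hc] <;> norm_num)
    have h4 := (hq (f j)).1
    have h5 := (hq (f j)).2
    rcases hc with hc | hc | hc <;> rw [hc] at h3 <;> nlinarith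
  obtain ⟨j, k, hjk, hfe⟩ := Fintype.exists_ne_map_eq_of_card_lt (fun j : Fin 4 => f j) (by simp)
  rcases lt_or_gt_of_ne hjk with h | h
  · exact key j k h (by omega) hfe
  · exact key k j h (by omega) hfe.symm

theorem discrete (𝒯 : Set ℂ) (h𝒯 : 𝒯.Finite) (θ₀ : ℝ) : ∀ᶠ θ in 𝓝[≠] θ₀, e θ ∉ 𝒯 := by
  have h1 : ∀ᶠ θ in 𝓝 θ₀, e θ ∈ (𝒯 \ {e θ₀})ᶜ :=
    continuous_e.continuousAt.eventually
      ((h𝒯.subset Set.sdiff_subset).isClosed.isOpen_compl.mem_nhds (by simp))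
  have h2 : ∀ᶠ θ in 𝓝 θ₀, θ ∈ Ioo (θ₀ - 2 * π) (θ₀ + 2 * π) :=
    Ioo_mem_nhds (by linarith [Real.pi_pos]) (by linarith [Real.pi_pos])
  filter_upwards [nhdsWithin_le_nhds h1, nhdsWithin_le_nhds h2, self_mem_nhdsWithin]
    with θ a1 a2 a3
  intro hθ
  have a4 : e θ = e θ₀ := by
    by_contra hne
    exact a1 ⟨hθ, hne⟩
  have a5 : e (θ - θ₀) = 1 := by
    rw [sub_eq_add_neg, e_add, a4, ← e_add, add_neg_cancel, e_zero]
  have a6 : Real.cos (θ - θ₀) = 1 := by rw [← e_re, a5, Complex.one_re]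
  have a7 := (Real.cos_eq_one_iff_of_lt_of_lt (by linarith [a2.1]) (by linarith [a2.2])).1 a6
  exact a3 (by linarith : θ = θ₀)

theorem exists_gap (S : Set ℝ) (hS : S.Finite) : ∃ η > 0, ∀ s ∈ S, s ≠ 1 → η ≤ |s - 1| := by
  have h1 : (S \ {1})ᶜ ∈ 𝓝 (1 : ℝ) :=
    (hS.subset Set.sdiff_subset).isClosed.isOpen_compl.mem_nhds (by simp)
  obtain ⟨η, hη, h⟩ := Metric.mem_nhds_iff.1 h1
  refine ⟨η, hη, fun s hs hs1 => ?_⟩
  by_contra hlt
  push Not at hlt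
  exact h (show s ∈ ball (1 : ℝ) η by rwa [mem_ball, Real.dist_eq]) ⟨hs, hs1⟩

theorem other_two : ∀ a b c : Fin 5, a ≠ b → b ≠ c → c ≠ a →
    ∃ d e' : Fin 5, d ≠ e' ∧ ∀ k, k ≠ d → k ≠ e' → k = a ∨ k = b ∨ k = c := by
  decide

/-- majority side -/
def Maj (r₁ r₂ r₃ : ℝ → ℝ) (θ σ : ℝ) : Prop :=
  (σ = 1 ∧ ((r₁ θ < 1 ∧ r₂ θ < 1) ∨ (r₂ θ < 1 ∧ r₃ θ < 1) ∨ (r₃ θ < 1 ∧ r₁ θ < 1))) ∨
    (σ = -1 ∧ ((1 < r₁ θ ∧ 1 < r₂ θ) ∨ (1 < r₂ θ ∧ 1 < r₃ θ) ∨ (1 < r₃ θ ∧ 1 < r₁ θ)))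

section
variable {r₁ r₂ r₃ : ℝ → ℝ}

theorem Maj.sign {θ σ : ℝ} (h : Maj r₁ r₂ r₃ θ σ) : σ = 1 ∨ σ = -1 := h.imp And.left And.left

theorem Maj.unique {θ σ σ' : ℝ} (h : Maj r₁ r₂ r₃ θ σ) (h' : Maj r₁ r₂ r₃ θ σ') : σ = σ' := by
  rcases h with ⟨rfl, h⟩ | ⟨rfl, h⟩ <;> rcases h' with ⟨rfl, h'⟩ | ⟨rfl, h'⟩
  · rfl
  · exfalso
    rcases h with h | h | h <;> rcases h' with h' | h' | h' <;> linarith [h.1, h.2, h'.1, h'.2]
  · exfalso
    rcases h with h | h | h <;> rcases h' with h' | h' | h' <;> linarith [h.1, h.2, h'.1, h'.2]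
  · rfl

theorem exists_maj {θ : ℝ} (h1 : r₁ θ ≠ 1) (h2 : r₂ θ ≠ 1) (h3 : r₃ θ ≠ 1) :
    ∃ σ, Maj r₁ r₂ r₃ θ σ := by
  rcases lt_or_gt_of_ne h1 with a | a <;> rcases lt_or_gt_of_ne h2 with b | b <;>
    rcases lt_or_gt_of_ne h3 with c | c
  · exact ⟨1, Or.inl ⟨rfl, Or.inl ⟨a, b⟩⟩⟩
  · exact ⟨1, Or.inl ⟨rfl, Or.inl ⟨a, b⟩⟩⟩
  · exact ⟨1, Or.inl ⟨rfl, Or.inr (Or.inr ⟨c, a⟩)⟩⟩
  · exact ⟨-1, Or.inr ⟨rfl, Or.inr (Or.inl ⟨b, c⟩)⟩⟩
  · exact ⟨1, Or.inl ⟨rfl, Or.inr (Or.inl ⟨b, c⟩)⟩⟩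
  · exact ⟨-1, Or.inr ⟨rfl, Or.inr (Or.inr ⟨c, a⟩)⟩⟩
  · exact ⟨-1, Or.inr ⟨rfl, Or.inl ⟨a, b⟩⟩⟩
  · exact ⟨-1, Or.inr ⟨rfl, Or.inl ⟨a, b⟩⟩⟩

theorem isOpen_maj (c₁ : Continuous r₁) (c₂ : Continuous r₂) (c₃ : Continuous r₃) (σ : ℝ) :
    IsOpen {θ | Maj r₁ r₂ r₃ θ σ} := by
  have l₁ := isOpen_lt c₁ (continuous_const (y := (1 : ℝ)))
  have l₂ := isOpen_lt c₂ (continuous_const (y := (1 : ℝ)))
  have l₃ := isOpen_lt c₃ (continuous_const (y := (1 : ℝ)))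
  have g₁ := isOpen_lt (continuous_const (y := (1 : ℝ))) c₁
  have g₂ := isOpen_lt (continuous_const (y := (1 : ℝ))) c₂
  have g₃ := isOpen_lt (continuous_const (y := (1 : ℝ))) c₃
  exact (isOpen_const.inter ((l₁.inter l₂).union ((l₂.inter l₃).union (l₃.inter l₁)))).union
    (isOpen_const.inter ((g₁.inter g₂).union ((g₂.inter g₃).union (g₃.inter g₁))))

end

end Tri

/-- Proof. Let `d ≠ e'` be the two other colours. `T = {θ | ∃ k, ‖v + e θ - p_k‖ = 1}`; the set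
`𝐓 = e '' T` is finite (`finite_circ`), so `T` is discrete. `Maj θ 1`: at least two of the three
numbers `‖v + e θ - p_k‖` are `< 1`; `Maj θ (-1)`: at least two are `> 1`. These are open
conditions, incompatible, one holds if `θ ∉ T`, and `Maj θ σ` gives `Av v θ σ` for `a, b, c`
(`av_of_block`). `D = {θ | ∃ σ = ±1, Maj θ σ ∧ Solid v θ σ d}`, `E` the same with `e'`; they are open,
disjoint (`not_all_av`), and `hf` holds by `av_of_solid`. For `hc`: let `θ ∉ T`, `Maj θ σ`, and let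
`η` be so small that no point of the finite set `𝐓 + 𝐓` has `0 < |‖z‖ - 1| < η`. A point
`z = v + (1 + σ t) e θ'` of the half neighbourhood is `v + e (θ' + β) + e (θ' - β)`
(`polar_split`, `sin 2β ≠ 0`) and one of `θ' ± β` is not in `T`, so `notF_pair` at its majority
side gives `z ∉ F d ∨ z ∉ F e'`; `solid_of_half` finishes. `hexagon` gives six points
`y_k = e (θ₀ + k π/3)` in `𝐓`; two different ones are at distance 1 from the same `p = p_k - v ≠ 0`,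
so `y_j + y_k = p` (two unit circles), but `‖y_j + y_k‖² = 2 + 2 cos ((j - k) π/3) ∈ {0, 1, 3}`. -/
theorem Top.tri (X : Top) (v : ℂ) (a b c : Fin 5) (hab : a ≠ b) (hbc : b ≠ c) (hca : c ≠ a)
    (p₁ p₂ p₃ : ℂ) (h₁ : 0 < ‖p₁ - v‖ ∧ ‖p₁ - v‖ < 1) (h₂ : 0 < ‖p₂ - v‖ ∧ ‖p₂ - v‖ < 1)
    (h₃ : 0 < ‖p₃ - v‖ ∧ ‖p₃ - v‖ < 1) (B₁ : Block X.F {a, b} v p₁) (B₂ : Block X.F {b, c} v p₂)
    (B₃ : Block X.F {c, a} v p₃) : False := by
  obtain ⟨d, e', hde, hoth⟩ := Tri.other_two a b c hab hbc hca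
  set r₁ : ℝ → ℝ := fun θ => ‖v + e θ - p₁‖ with hr₁
  set r₂ : ℝ → ℝ := fun θ => ‖v + e θ - p₂‖ with hr₂
  set r₃ : ℝ → ℝ := fun θ => ‖v + e θ - p₃‖ with hr₃
  have hce := continuous_e
  have c₁ : Continuous r₁ := by rw [hr₁]; fun_prop
  have c₂ : Continuous r₂ := by rw [hr₂]; fun_prop
  have c₃ : Continuous r₃ := by rw [hr₃]; fun_prop
  set q : Fin 3 → ℂ := ![p₁ - v, p₂ - v, p₃ - v] with hq
  have hq' : ∀ i, 0 < ‖q i‖ ∧ ‖q i‖ < 1 := by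
    intro i; fin_cases i
    · exact h₁
    · exact h₂
    · exact h₃
  set 𝒯 : Set ℂ := ⋃ i, {z : ℂ | ‖z‖ = 1 ∧ ‖z - q i‖ = 1} with h𝒯
  have h𝒯f : 𝒯.Finite := Set.finite_iUnion fun i => finite_circ _ (norm_pos_iff.1 (hq' i).1)
  set T : Set ℝ := {θ | e θ ∈ 𝒯} with hT
  have hsub : ∀ (p : ℂ) (θ : ℝ), v + e θ - p = e θ - (p - v) := fun p θ => by ring
  have hmaj : ∀ θ, θ ∉ T → ∃ σ, Tri.Maj r₁ r₂ r₃ θ σ := by
    intro θ hθ
    refine Tri.exists_maj (fun h => hθ ?_) (fun h => hθ ?_) (fun h => hθ ?_)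
    · exact mem_iUnion.2 ⟨0, norm_e θ, by rw [← h, hr₁]; simp only [hsub]; rfl⟩
    · exact mem_iUnion.2 ⟨1, norm_e θ, by rw [← h, hr₂]; simp only [hsub]; rfl⟩
    · exact mem_iUnion.2 ⟨2, norm_e θ, by rw [← h, hr₃]; simp only [hsub]; rfl⟩
  have hav : ∀ θ σ, Tri.Maj r₁ r₂ r₃ θ σ → ∀ k, k ≠ d → k ≠ e' → X.Av v θ σ k := by
    intro θ σ hm k hk hk'
    have b₁ := X.av_of_block v _ _ B₁ θ
    have b₂ := X.av_of_block v _ _ B₂ θ
    have b₃ := X.av_of_block v _ _ B₃ θ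
    rcases hm with ⟨rfl, hm⟩ | ⟨rfl, hm⟩
    · rcases hm with hm | hm | hm <;> rcases hoth k hk hk' with rfl | rfl | rfl
      · exact b₁.1 hm.1 _ (by simp)
      · exact b₁.1 hm.1 _ (by simp)
      · exact b₂.1 hm.2 _ (by simp)
      · exact b₃.1 hm.2 _ (by simp)
      · exact b₂.1 hm.1 _ (by simp)
      · exact b₂.1 hm.1 _ (by simp)
      · exact b₃.1 hm.1 _ (by simp)
      · exact b₁.1 hm.2 _ (by simp)
      · exact b₃.1 hm.1 _ (by simp)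
    · rcases hm with hm | hm | hm <;> rcases hoth k hk hk' with rfl | rfl | rfl
      · exact b₁.2 hm.1 _ (by simp)
      · exact b₁.2 hm.1 _ (by simp)
      · exact b₂.2 hm.2 _ (by simp)
      · exact b₃.2 hm.2 _ (by simp)
      · exact b₂.2 hm.1 _ (by simp)
      · exact b₂.2 hm.1 _ (by simp)
      · exact b₃.2 hm.1 _ (by simp)
      · exact b₁.2 hm.2 _ (by simp)
      · exact b₃.2 hm.1 _ (by simp)
  -- the sets where a colour is solid on the majority side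
  set G : Fin 5 → Set ℝ := fun i => ⋃ σ : ℝ, {θ | Tri.Maj r₁ r₂ r₃ θ σ} ∩ {θ | X.Solid v θ σ i}
    with hG
  have hGo : ∀ i, IsOpen (G i) := fun i =>
    isOpen_iUnion fun σ => (Tri.isOpen_maj c₁ c₂ c₃ σ).inter (X.isOpen_solid v σ i)
  have hall : ∀ θ σ i, X.Solid v θ σ i → X.Av v θ σ i → False := by
    intro θ σ i hs ha
    refine X.not_all_av v θ σ fun j => ?_
    by_cases hj : j = i
    · rw [hj]; exact ha
    · exact hs j hj
  have hGf : ∀ i θ, ¬ (θ ∈ G i ∧ θ + π / 3 ∈ G i) := by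
    rintro i θ ⟨h1, h2⟩
    obtain ⟨σ, hm, hs⟩ := mem_iUnion.1 h1
    obtain ⟨σ', hm', hs'⟩ := mem_iUnion.1 h2
    refine hall θ σ i hs (X.av_of_solid v θ σ σ' 1 (Tri.Maj.sign hm) (Tri.Maj.sign hm')
      (Or.inl rfl) i ?_)
    rw [one_mul]; exact hs'
  have hdisj : Disjoint (G d) (G e') := by
    rw [Set.disjoint_left]
    intro θ h1 h2
    obtain ⟨σ, hm, hs⟩ := mem_iUnion.1 h1
    obtain ⟨σ', hm', hs'⟩ := mem_iUnion.1 h2
    have := Tri.Maj.unique hm hm'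
    subst this
    exact hall θ σ d hs (hs' d hde)
  obtain ⟨η₁, hη₁, hgap⟩ := Tri.exists_gap ((fun z : ℂ × ℂ => ‖z.1 + z.2‖) '' (𝒯 ×ˢ 𝒯))
    ((h𝒯f.prod h𝒯f).image _)
  have hc : ∀ θ, θ ∉ T → θ ∈ G d ∨ θ ∈ G e' := by
    intro θ hθ
    obtain ⟨σ, hm⟩ := hmaj θ hθ
    have hσ := Tri.Maj.sign hm
    have hA : ∀ k : Fin 5, ∃ η > 0, k ≠ d → k ≠ e' → ∀ θ' : ℝ, |θ' - θ| < η → ∀ t : ℝ, 0 < t →
        t < η → v + ((1 + σ * t : ℝ) : ℂ) * e θ' ∉ X.F k := by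
      intro k
      by_cases hk : k ≠ d ∧ k ≠ e'
      · obtain ⟨η, hη, h⟩ := hav θ σ hm k hk.1 hk.2
        exact ⟨η, hη, fun _ _ => h⟩
      · exact ⟨1, one_pos, fun h h' => absurd ⟨h, h'⟩ hk⟩
    choose ηk hηk hA using hA
    obtain ⟨k₀, hk₀⟩ := Finite.exists_min ηk
    have key := X.solid_of_half v θ σ d e' hde (hav θ σ hm)
      ⟨min (min η₁ (ηk k₀)) (1 / 2), lt_min (lt_min hη₁ (hηk k₀)) (by norm_num), ?_⟩
    · rcases key with h | h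
      · exact Or.inl (mem_iUnion.2 ⟨σ, hm, h⟩)
      · exact Or.inr (mem_iUnion.2 ⟨σ, hm, h⟩)
    intro θ' hθ' t ht0 ht
    have ht1 : t < η₁ := ht.trans_le ((min_le_left _ _).trans (min_le_left _ _))
    have ht2 : t < ηk k₀ := ht.trans_le ((min_le_left _ _).trans (min_le_right _ _))
    have ht3 : t < 1 / 2 := ht.trans_le (min_le_right _ _)
    have hθ2 : |θ' - θ| < ηk k₀ := hθ'.trans_le ((min_le_left _ _).trans (min_le_right _ _))
    have hz : ∀ k, k ≠ d → k ≠ e' → v + ((1 + σ * t : ℝ) : ℂ) * e θ' ∉ X.F k := fun k hk hk' =>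
      hA k hk hk' θ' (hθ2.trans_le (hk₀ k)) t ht0 (ht2.trans_le (hk₀ k))
    set ρ : ℝ := 1 + σ * t with hρ
    have hρ1 : 1 / 2 < ρ ∧ ρ < 3 / 2 := by
      rcases hσ with h | h <;> rw [hρ, h] <;> constructor <;> linarith
    have hρ2 : |ρ - 1| = t := by
      rcases hσ with h | h <;> rw [hρ, h]
      · rw [show 1 + 1 * t - 1 = t by ring, abs_of_pos ht0]
      · rw [show 1 + -1 * t - 1 = -t by ring, abs_neg, abs_of_pos ht0]
    set β : ℝ := Real.arccos (ρ / 2) with hβ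
    have hsplit : (ρ : ℂ) * e θ' = e (θ' + β) + e (θ' - β) :=
      polar_split ρ θ' (by linarith [hρ1.1]) (by linarith [hρ1.2])
    have hsin : Real.sin (2 * β) ≠ 0 := by
      rw [Real.sin_two_mul, hβ, Real.cos_arccos (by linarith [hρ1.1]) (by linarith [hρ1.2]),
        Real.sin_arccos]
      have : 0 < √(1 - (ρ / 2) ^ 2) := Real.sqrt_pos.2 (by nlinarith [hρ1.1, hρ1.2])
      have := hρ1.1
      positivity
    have hone : θ' + β ∉ T ∨ θ' - β ∉ T := by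
      by_contra hcon
      push Not at hcon
      have h1 : ρ ∈ (fun z : ℂ × ℂ => ‖z.1 + z.2‖) '' (𝒯 ×ˢ 𝒯) := by
        refine ⟨(e (θ' + β), e (θ' - β)), ⟨hcon.1, hcon.2⟩, ?_⟩
        show ‖e (θ' + β) + e (θ' - β)‖ = ρ
        rw [← hsplit, norm_mul, norm_e, mul_one, Complex.norm_real,
          Real.norm_of_nonneg (by linarith [hρ1.1])]
      have h2 := hgap ρ h1 (fun h => by rw [h] at hρ2; simp at hρ2; linarith)
      linarith
    rw [hsplit] at hz ⊢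
    rcases hone with h | h
    · obtain ⟨σ₁, hm₁⟩ := hmaj _ h
      have := X.notF_pair v (θ' + β) (θ' - β) σ₁
        (by rw [show θ' + β - (θ' - β) = 2 * β by ring]; exact hsin) (Tri.Maj.sign hm₁) d e' hde
        (hav _ _ hm₁) (by simpa only [add_assoc] using hz)
      simpa only [add_assoc] using this
    · obtain ⟨σ₁, hm₁⟩ := hmaj _ h
      have := X.notF_pair v (θ' - β) (θ' + β) σ₁
        (by rw [show θ' - β - (θ' + β) = -(2 * β) by ring, Real.sin_neg]; exact neg_ne_zero.2 hsin)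
        (Tri.Maj.sign hm₁) d e' hde
        (hav _ _ hm₁) (by rw [add_comm (e (θ' + β))] at hz; simpa only [add_assoc] using hz)
      rw [add_comm (e (θ' + β))]
      simpa only [add_assoc] using this
  obtain ⟨θ₀, h⟩ := hexagon T (G d) (G e') (Tri.discrete 𝒯 h𝒯f) (hGo d) (hGo e') hdisj hc
    (fun θ _ _ => ⟨hGf d θ, hGf e' θ⟩)
  refine Tri.no_four θ₀ q hq' fun k => ?_
  obtain ⟨i, hi⟩ := mem_iUnion.1 (h k)
  exact ⟨i, hi.2⟩

end Crest.Agent.R40
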