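import Crest.Agent.R40.Arms
import Crest.Agent.R40.Sing
import Crest.Agent.R40.TopOf
import Crest.Agent.R40.Tri

/-!
# Row 40, task F2': chains of three-coloured discs are short
-/

set_option autoImplicit false

namespace Crest.Agent.R40
open MeasureTheory Set Filter Topology Metric Relation
open scoped ENNReal Real

namespace Tiny

theorem block_mono {F : Fin 5 → Set ℂ} {L L' : Finset (Fin 5)} {v p : ℂ} (h : Block F L v p)
    (hL : L' ⊆ L) : Block F L' v p := fun y hy i hi => h y hy i (hL hi)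

theorem exists_lim (𝒰 : Ultrafilter ℕ) (x : ℕ → ℂ) (B : ℝ) (h : ∀ᶠ k in (𝒰 : Filter ℕ), ‖x k‖ ≤ B) :
    ∃ x₀, Tendsto x 𝒰 (𝓝 x₀) := by
  obtain ⟨x₀, -, hx⟩ := (isCompact_closedBall (0 : ℂ) B).ultrafilter_le_nhds (𝒰.map x) (by
    rw [le_principal_iff, Ultrafilter.coe_map, mem_map]
    filter_upwards [h] with k hk
    exact mem_closedBall_zero_iff.2 hk)
  exact ⟨x₀, hx⟩

/-- the three colours of `Tri` are the whole palette -/
theorem tri_palette (C : MCol) {δ R : ℝ} (hδ : 0 < δ) {x : ℂ} {L : Finset (Fin 5)}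
    (hL : L.card ≤ 3) (h0 : ∀ i, i ∉ L → C.f {i} x R = 0) (h : C.Tri δ R x) :
    (∃ a b c : Fin 5, a ≠ b ∧ b ≠ c ∧ a ≠ c ∧ L = {a, b, c}) ∧ ∀ i ∈ L, δ ≤ C.f {i} x R := by
  obtain ⟨a, b, c, hab, hbc, hac, ha, hb, hc⟩ := h
  have key : ∀ i, δ ≤ C.f {i} x R → i ∈ L := fun i hi => by
    by_contra hn
    rw [h0 i hn] at hi
    linarith
  have hsub : ({a, b, c} : Finset (Fin 5)) ⊆ L := by
    intro i hi
    simp only [Finset.mem_insert, Finset.mem_singleton] at hi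
    rcases hi with rfl | rfl | rfl
    exacts [key _ ha, key _ hb, key _ hc]
  have hcard : ({a, b, c} : Finset (Fin 5)).card = 3 :=
    Finset.card_eq_three.2 ⟨a, b, c, hab, hac, hbc, rfl⟩
  have heq : ({a, b, c} : Finset (Fin 5)) = L :=
    Finset.eq_of_subset_of_card_le hsub (by rw [hcard]; exact hL)
  refine ⟨⟨a, b, c, hab, hbc, hac, heq.symm⟩, fun i hi => ?_⟩
  rw [← heq] at hi
  simp only [Finset.mem_insert, Finset.mem_singleton] at hi
  rcases hi with rfl | rfl | rfl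
  exacts [ha, hb, hc]

end Tiny

open Tiny in
/-- Proof. Otherwise there are `R k → 0⁺` and chains `x k ⇝ y k`, `‖x k‖ ≤ B`, `‖y k - x k‖ ≥ η`
(`Frequently` along a countably generated filter gives a sequence). Take an ultrafilter
`𝒰 ≤ atTop`, `x k → x₀`. Choose `s ∈ (0, η/2)` that is not the distance from `x₀` to a point of the
countable set `Sig`. Split the chain at the first point `p k` with `‖p k - x k‖ ≥ s` (steps are
`≤ R k/4 → 0`); `p k → p`, `‖p - x₀‖ = s`, so `p ∉ Sig`: `L = P p` has at most three colours and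
the other colours have density `0` in discs near `p` (`f_eq_zero_of_notMem_F`, radius `η'`).
The rest of the chain has extent `≥ η/3`; truncate it at the first exit from `ball (p k) ρ`,
`ρ = min (η/3) (η'/2)`, `ρ ≤ 1` (`first_exit`). At each of its points the three colours of `Tri` lie in
`L`, so they are all of `L = {a, b, c}` (there is a first step) and it is a chain of
`Step ∅ L 0 δ (R k)`. `limit_arms` (with `good_small`) gives `p'` with `‖p' - p‖ = ρ/2` and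
`Block F L p p'`; `exists_top` and `Top.tri` with `p₁ = p₂ = p₃ = p'`. -/
theorem MCol.tiny (C : MCol) (δ : ℝ) (hδ : 0 < δ) (hδ1 : δ ≤ 1) (η : ℝ) (hη : 0 < η) (B : ℝ) :
    ∀ᶠ R in 𝓝[>] (0 : ℝ), ∀ x y : ℂ, ‖x‖ ≤ B →
      ReflTransGen (fun p q => C.Tri δ R p ∧ ‖p - q‖ ≤ δ * R / 4) x y → ‖y - x‖ < η := by
  by_contra hcon
  have hfr : ∃ᶠ R in 𝓝[>] (0 : ℝ), 0 < R ∧ ∃ x y : ℂ, ‖x‖ ≤ B ∧
      ReflTransGen (fun p q => C.Tri δ R p ∧ ‖p - q‖ ≤ δ * R / 4) x y ∧ η ≤ ‖y - x‖ := by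
    refine ((not_eventually.1 hcon).and_eventually self_mem_nhdsWithin).mono ?_
    rintro R ⟨h1, h2⟩
    push Not at h1
    exact ⟨h2, h1⟩
  obtain ⟨R, hRt, hR⟩ := exists_seq_forall_of_frequently hfr
  have hR0 : ∀ k, 0 < R k := fun k => (hR k).1
  choose x y hxB hch hxy using fun k => (hR k).2
  let 𝒰 : Ultrafilter ℕ := Ultrafilter.of atTop
  have hRt' : Tendsto R 𝒰 (𝓝[>] 0) := hRt.mono_left (Ultrafilter.of_le _)
  have hRt0 : Tendsto R 𝒰 (𝓝 0) := hRt'.mono_right nhdsWithin_le_nhds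
  have hRlt : ∀ t, 0 < t → ∀ᶠ k in (𝒰 : Filter ℕ), R k < t := fun t ht =>
    hRt0.eventually (gt_mem_nhds ht)
  obtain ⟨x₀, hx₀⟩ := exists_lim 𝒰 x B (Eventually.of_forall hxB)
  obtain ⟨s, ⟨hs0, hs1⟩, hsS⟩ :=
    ((C.sig_countable.image fun v => ‖v - x₀‖).dense_compl ℝ).inter_open_nonempty
      (Ioo 0 (η / 2)) isOpen_Ioo ⟨η / 4, by constructor <;> linarith⟩
  have hsplit : ∀ k, ∃ p : ℂ, s ≤ ‖p - x k‖ ∧ ‖p - x k‖ ≤ s + R k / 4 ∧
      ReflTransGen (fun p q => C.Tri δ (R k) p ∧ ‖p - q‖ ≤ δ * R k / 4) p (y k) := by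
    intro k
    obtain ⟨u, p, -, hup, hu, hp, hpy⟩ := last_step (ball (x k) s) (hch k) (mem_ball_self hs0)
      (by rw [mem_ball_iff_norm, not_lt]; linarith [hxy k])
    rw [mem_ball_iff_norm] at hu hp
    refine ⟨p, not_lt.1 hp, ?_, hpy⟩
    have h1 : ‖p - x k‖ ≤ ‖u - p‖ + ‖u - x k‖ := by
      rw [norm_sub_rev u p]
      exact norm_sub_le_norm_sub_add_norm_sub p u (x k)
    have h2 : δ * R k ≤ R k := mul_le_of_le_one_left (hR0 k).le hδ1
    linarith [hup.2]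
  choose p hp1 hp2 hpy using hsplit
  obtain ⟨p₀, hp₀⟩ := exists_lim 𝒰 p (B + s + 1) (by
    filter_upwards [hRlt 1 one_pos] with k hk
    have h1 : ‖p k‖ ≤ ‖p k - x k‖ + ‖x k‖ := by simpa using norm_add_le (p k - x k) (x k)
    linarith [hp2 k, hxB k])
  have hps : ‖p₀ - x₀‖ = s := by
    have h1 : Tendsto (fun k => ‖p k - x k‖) 𝒰 (𝓝 ‖p₀ - x₀‖) := (hp₀.sub hx₀).norm
    have h2 : Tendsto (fun k => s + R k / 4) 𝒰 (𝓝 s) := by
      simpa using (hRt0.div_const 4).const_add s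
    exact le_antisymm (le_of_tendsto_of_tendsto' h1 h2 hp2) (ge_of_tendsto' h1 hp1)
  have hL : (C.P p₀).card ≤ 3 := by
    by_contra hc
    exact hsS ⟨p₀, show 4 ≤ (C.P p₀).card by omega, hps⟩
  have hη' : ∃ η' > 0, ∀ i, i ∉ C.P p₀ → ∀ z r, ‖z - p₀‖ < η' → r < η' → C.f {i} z r = 0 := by
    have h1 : ∀ i, ∀ᶠ t in 𝓝[>] (0 : ℝ), i ∉ C.P p₀ → ∀ z r, ‖z - p₀‖ < t → r < t →
        C.f {i} z r = 0 := by
      intro i
      by_cases hi : i ∈ C.P p₀
      · exact Eventually.of_forall fun t h => absurd hi h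
      · obtain ⟨t₀, ht₀, h⟩ := C.f_eq_zero_of_notMem_F p₀ i (fun h => hi ((C.mem_P _ _).2 h))
        filter_upwards [nhdsWithin_le_nhds (gt_mem_nhds ht₀)] with t ht _ z r hz hr
        exact h z r (hz.trans ht) (hr.trans ht)
    obtain ⟨t, ht, ht0⟩ := ((eventually_all.2 h1).and self_mem_nhdsWithin).exists
    exact ⟨t, ht0, ht⟩
  obtain ⟨η', hη'0, hη'⟩ := hη'
  set ρ : ℝ := min (η / 3) (min (η' / 2) 1) with hρ
  have hρ0 : 0 < ρ := lt_min (by linarith) (lt_min (by linarith) one_pos)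
  have hρ1 : ρ ≤ η / 3 := min_le_left _ _
  have hρ2 : ρ ≤ η' / 2 := (min_le_right _ _).trans (min_le_left _ _)
  have hρ3 : ρ ≤ 1 := (min_le_right _ _).trans (min_le_right _ _)
  have hev : ∀ᶠ k in (𝒰 : Filter ℕ), ‖p k - p₀‖ < η' / 2 ∧ R k < η' ∧ R k < η / 3 := by
    have h1 : ∀ᶠ k in (𝒰 : Filter ℕ), ‖p k - p₀‖ < η' / 2 := by
      have := hp₀.eventually (ball_mem_nhds p₀ (show 0 < η' / 2 by linarith))
      filter_upwards [this] with k hk
      rwa [dist_eq_norm] at hk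
    exact h1.and ((hRlt η' hη'0).and (hRlt (η / 3) (by linarith)))
  have htr : ∀ k, ∃ b : ℂ, ‖p k - p₀‖ < η' / 2 ∧ R k < η' ∧ R k < η / 3 →
      (ReflTransGen (C.Step ∅ (C.P p₀) 0 δ (R k)) (p k) b ∧ ρ ≤ ‖b - p k‖) ∧
        ∃ a b c : Fin 5, a ≠ b ∧ b ≠ c ∧ a ≠ c ∧ C.P p₀ = {a, b, c} := by
    intro k
    by_cases hk : ‖p k - p₀‖ < η' / 2 ∧ R k < η' ∧ R k < η / 3
    swap
    · exact ⟨0, fun h => absurd h hk⟩
    obtain ⟨hk1, hk2, hk3⟩ := hk
    have hy : y k ∉ ball (p k) ρ := by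
      rw [mem_ball_iff_norm, not_lt]
      have h1 := norm_sub_le_norm_sub_add_norm_sub (y k) (p k) (x k)
      linarith [hxy k, hp2 k]
    obtain ⟨b, hb, hpb⟩ := first_exit (ball (p k) ρ) (hpy k) hy
    have hz : ∀ z ∈ ball (p k) ρ, ∀ i, i ∉ C.P p₀ → C.f {i} z (R k) = 0 := by
      intro z hz i hi
      rw [mem_ball_iff_norm] at hz
      have h1 := norm_sub_le_norm_sub_add_norm_sub z (p k) p₀
      exact hη' i hi z (R k) (by linarith) hk2
    refine ⟨b, fun _ => ⟨⟨ReflTransGen.mono ?_ _ _ hpb, ?_⟩, ?_⟩⟩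
    · rintro z w ⟨⟨h1, h2⟩, h3⟩
      exact ⟨Or.inr (tri_palette C hδ hL (hz z h3) h1).2, Or.inl h2⟩
    · rwa [mem_ball_iff_norm, not_lt] at hb
    · rcases hpb.cases_head with h | ⟨w, ⟨⟨h1, -⟩, h3⟩, -⟩
      · exact absurd (h ▸ mem_ball_self hρ0) hb
      · exact (tri_palette C hδ hL (hz _ h3) h1).1
  choose b hb using htr
  obtain ⟨k₀, hk₀⟩ := hev.exists
  obtain ⟨a₁, a₂, a₃, h12, h23, h13, hP⟩ := (hb k₀ hk₀).2
  obtain ⟨p', hp', hB, -⟩ := C.limit_arms ∅ isClosed_empty countable_empty (C.P p₀) 𝒰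
    (fun _ => 0) (fun _ => δ) R tendsto_const_nhds (fun _ => ⟨hδ, hδ1⟩) hR0 hRt0
    (fun B' => (C.good_small (δ / 2) (by linarith) B').comp hRt') p b p₀ hp₀ ρ
    (hev.mono fun k hk => (hb k hk).1) (ρ / 2) (by linarith) (by linarith)
  obtain ⟨X, hX⟩ := C.exists_top
  rw [← hX, hP] at hB
  have hd : 0 < ‖p' - p₀‖ ∧ ‖p' - p₀‖ < 1 := by rw [hp']; constructor <;> linarith
  refine X.tri p₀ a₁ a₂ a₃ h12 h23 h13.symm p' p' p' hd hd hd (block_mono hB ?_)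
    (block_mono hB ?_) (block_mono hB ?_) <;>
  · intro i hi
    simp only [Finset.mem_insert, Finset.mem_singleton] at hi ⊢
    tauto

end Crest.Agent.R40
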